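import Vale.Agent.P088.Bdl.B7

/-!
# P088: Parseval's identity on rotated and shifted lattices
-/

open MeasureTheory Set Filter Topology
open scoped ContDiff Real

noncomputable section

namespace Vale.Agent.P088.H207

open Vale.Agent.P088.EYM Vale.Agent.P088.EYM.ES

set_option linter.all false

variable {n : ℕ} [NeZero n]

section

attribute [local instance] instMeasureSpaceUnitAddCircle
  instIsAddHaarMeasureUnitAddCircleVolume instIsProbabilityMeasureUnitAddCircleVolume

/-- Parseval in the cube -/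
theorem pars_cub {φ : E n → ℂ} (hφ : Continuous φ) (hs : tsupport φ ⊆ Cub n) :
    HasSum (fun k : La n => ‖fco φ k‖ ^ 2) (∫ y, ‖φ y‖ ^ 2) := by
  set f : C(UnitAddTorus (Fin n), ℂ) :=
    ⟨fun t => φ (SFourRep t), SFour_continuous hφ hs⟩ with hf
  have h1 := UnitAddTorus.hasSum_sq_mFourierCoeff (ContinuousMap.toLp 2 volume ℂ f)
  simp only [UnitAddTorus.mFourierCoeff_toLp] at h1
  have hc : ∀ k, UnitAddTorus.mFourierCoeff f k = fco φ k := fun k => SFour_coeff hs k
  simp only [hc] at h1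
  have h2 : ∫ t, ‖(ContinuousMap.toLp 2 volume ℂ f) t‖ ^ 2 = ∫ y, ‖φ y‖ ^ 2 := by
    have e1 : ∫ t, ‖(ContinuousMap.toLp 2 volume ℂ f) t‖ ^ 2 = ∫ t, ‖f t‖ ^ 2 := by
      refine integral_congr_ae ?_
      filter_upwards [ContinuousMap.coeFn_toLp (p := 2) (μ := volume) (𝕜 := ℂ) f] with t ht
      rw [ht]
    rw [e1, UnitAddTorus.integral_preimage _ (fun _ => (-1 / 2 : ℝ)),
      ← (PiLp.volume_preserving_toLp (Fin n)).integral_comp
        (MeasurableEquiv.toLp 2 _).measurableEmbedding]
    have h1 : ∀ x : Fin n → ℝ, x ∈ {x : Fin n → ℝ | ∀ i, x i ∈ Ioc (-1 / 2 : ℝ) (-1 / 2 + 1)} →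
        ‖f (fun i => (x i : UnitAddCircle))‖ ^ 2 = ‖φ (WithLp.toLp 2 x)‖ ^ 2 := by
      intro x hx
      have e1 : (fun i => (x i : UnitAddCircle)) = SFourMk (WithLp.toLp 2 x : E n) := rfl
      show ‖φ (SFourRep _)‖ ^ 2 = _
      rw [e1, SFour_rep_mk hx]
    have hms : MeasurableSet {x : Fin n → ℝ | ∀ i, x i ∈ Ioc (-1 / 2 : ℝ) (-1 / 2 + 1)} :=
      MeasurableSet.univ_pi' fun i => measurableSet_Ioc
    rw [setIntegral_congr_fun hms h1]
    refine setIntegral_eq_integral_of_forall_compl_eq_zero fun x hx => ?_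
    have : φ (WithLp.toLp 2 x) = 0 := by
      by_contra hne
      exact hx (SFour_mem (hs (subset_tsupport _ hne)))
    rw [this, norm_zero, zero_pow two_ne_zero]
  rwa [h2] at h1

end

/-- The Fourier integral. -/
def FT (f : E n → ℂ) (κ : E n) : ℂ :=
  ∫ x, Complex.exp (-(Complex.I * ((inner ℝ κ x : ℝ) : ℂ))) * f x

/-- The lattice. -/
def lat (k : La n) : E n := WithLp.toLp 2 fun j => 2 * π * (k j : ℝ)

omit [NeZero n] in
theorem lat_apply (k : La n) (j : Fin n) : lat k j = 2 * π * (k j : ℝ) := rfl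

omit [NeZero n] in
theorem FT_lat (φ : E n → ℂ) (k : La n) : FT φ (lat k) = fco φ k := by
  unfold FT fco
  refine integral_congr_ae (ae_of_all _ fun y => ?_)
  simp only [smul_eq_mul]
  congr 3
  rw [PiLp.inner_apply]
  simp only [lat_apply, RCLike.inner_apply, conj_trivial]
  push_cast
  rw [Finset.mul_sum, Finset.mul_sum]
  refine Finset.sum_congr rfl fun j _ => ?_
  ring

omit [NeZero n] in
theorem ball_sub_cub : Metric.ball (0 : E n) (1 / 2) ⊆ Cub n := by
  intro y hy j
  rw [mem_ball_zero_iff] at hy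
  have h := PiLp.norm_apply_le y j
  rw [Real.norm_eq_abs] at h
  linarith

omit [NeZero n] in
theorem tsupport_comp_iso (R : E n ≃ₗᵢ[ℝ] E n) {f : E n → ℂ} {r : ℝ}
    (hs : tsupport f ⊆ Metric.ball 0 r) : tsupport (fun y => f (R y)) ⊆ Metric.ball 0 r := by
  have h1 : tsupport (fun y => f (R y)) = R ⁻¹' tsupport f :=
    tsupport_comp_eq_preimage f R.toHomeomorph
  rw [h1]
  intro y hy
  have h2 := hs hy
  rw [mem_ball_zero_iff, R.norm_map] at h2
  rwa [mem_ball_zero_iff]

/-- Parseval on rotated and shifted lattices -/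
theorem pars_ball (R : E n ≃ₗᵢ[ℝ] E n) (θ : E n) {f : E n → ℂ} (hf : Continuous f)
    (hs : tsupport f ⊆ Metric.ball 0 (1 / 2)) :
    HasSum (fun k : La n => ‖FT f (R (lat k + θ))‖ ^ 2) (∫ y, ‖f y‖ ^ 2) := by
  set g : E n → ℂ := fun y => Complex.exp (-(Complex.I * ((inner ℝ θ y : ℝ) : ℂ))) * f (R y)
    with hg
  have hgc : Continuous g := by
    have := R.continuous
    fun_prop
  have hgs : tsupport g ⊆ Cub n := by
    refine (tsupport_mul_subset_right (f := fun y => Complex.exp _)
      (g := fun y => f (R y))).trans ?_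
    exact (tsupport_comp_iso R hs).trans ball_sub_cub
  have h1 := pars_cub hgc hgs
  have h2 : ∫ y, ‖g y‖ ^ 2 = ∫ y, ‖f y‖ ^ 2 := by
    have e1 : ∀ y, ‖g y‖ ^ 2 = ‖f (R y)‖ ^ 2 := by
      intro y
      rw [hg]
      simp only [norm_mul]
      have e2 : ‖Complex.exp (-(Complex.I * ((inner ℝ θ y : ℝ) : ℂ)))‖ = 1 := by
        rw [← mul_neg, ← Complex.ofReal_neg, mul_comm, Complex.norm_exp_ofReal_mul_I]
      rw [e2, one_mul]
    simp only [e1]
    exact R.measurePreserving.integral_comp R.toHomeomorph.measurableEmbedding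
      (fun x => ‖f x‖ ^ 2)
  have h3 : ∀ k, fco g k = FT f (R (lat k + θ)) := by
    intro k
    rw [← FT_lat]
    have e3 : FT f (R (lat k + θ)) = ∫ y, Complex.exp (-(Complex.I *
        ((inner ℝ (R (lat k + θ)) (R y) : ℝ) : ℂ))) * f (R y) :=
      (R.measurePreserving.integral_comp R.toHomeomorph.measurableEmbedding
        (fun x => Complex.exp (-(Complex.I * ((inner ℝ (R (lat k + θ)) x : ℝ) : ℂ))) * f x)).symm
    rw [e3]
    unfold FT
    refine integral_congr_ae (ae_of_all _ fun y => ?_)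
    simp only [hg]
    rw [R.inner_map_map, ← mul_assoc, ← Complex.exp_add, inner_add_left]
    congr 2
    push_cast
    ring
  rw [h2] at h1
  simpa only [h3] using h1

omit [NeZero n] in
theorem FT_integrable {f : E n → ℂ} (hf : Continuous f) (hc : HasCompactSupport f) (κ : E n) :
    Integrable fun x => Complex.exp (-(Complex.I * ((inner ℝ κ x : ℝ) : ℂ))) * f x := by
  refine Continuous.integrable_of_hasCompactSupport (by fun_prop) hc.mul_left

omit [NeZero n] in
theorem exp_fderiv (κ x : E n) :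
    HasFDerivAt (fun x : E n => Complex.exp (-(Complex.I * ((inner ℝ κ x : ℝ) : ℂ))))
      (Complex.exp (-(Complex.I * ((inner ℝ κ x : ℝ) : ℂ))) •
        (-(Complex.I • (Complex.ofRealCLM ∘L (innerSL ℝ κ))))) x := by
  have h1 : HasFDerivAt (fun x : E n => ((inner ℝ κ x : ℝ) : ℂ))
      (Complex.ofRealCLM ∘L (innerSL ℝ κ)) x :=
    (Complex.ofRealCLM ∘L (innerSL ℝ κ)).hasFDerivAt
  have h2 := (h1.const_mul Complex.I).neg
  exact h2.cexp

/-- the Fourier integral of a derivative -/
theorem FT_pd {f : E n → ℂ} (hf : ContDiff ℝ 1 f) (hc : HasCompactSupport f) (v κ : E n) :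
    FT (fun x => fderiv ℝ f x v) κ = Complex.I * ((inner ℝ κ v : ℝ) : ℂ) * FT f κ := by
  unfold FT
  have hd : Continuous fun x => fderiv ℝ f x v :=
    (hf.continuous_fderiv one_ne_zero).clm_apply continuous_const
  have hdc : HasCompactSupport fun x => fderiv ℝ f x v := hc.fderiv_apply (𝕜 := ℝ) v
  have e1 : ∀ x, fderiv ℝ (fun x : E n => Complex.exp (-(Complex.I * ((inner ℝ κ x : ℝ) : ℂ))))
      x v = Complex.exp (-(Complex.I * ((inner ℝ κ x : ℝ) : ℂ))) *
        -(Complex.I * ((inner ℝ κ v : ℝ) : ℂ)) := by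
    intro x
    rw [(exp_fderiv κ x).fderiv]
    rfl
  rw [integral_mul_fderiv_eq_neg_fderiv_mul_of_integrable]
  · simp only [e1]
    rw [← integral_neg, ← integral_const_mul]
    refine integral_congr_ae (ae_of_all _ fun y => ?_)
    simp only
    ring
  · simp only [e1]
    refine Continuous.integrable_of_hasCompactSupport ?_ hc.mul_left
    have := hf.continuous
    fun_prop
  · exact FT_integrable hd hdc κ
  · exact FT_integrable hf.continuous hc κ
  · intro x _
    exact (exp_fderiv κ x).differentiableAt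
  · intro x _
    exact hf.differentiable one_ne_zero x

theorem FT_add {f g : E n → ℂ} (hf : Continuous f) (hfc : HasCompactSupport f)
    (hg : Continuous g) (hgc : HasCompactSupport g) (κ : E n) :
    FT (fun x => f x + g x) κ = FT f κ + FT g κ := by
  unfold FT
  rw [← integral_add (FT_integrable hf hfc κ) (FT_integrable hg hgc κ)]
  simp only [mul_add]

omit [NeZero n] in
theorem FT_const_mul (c : ℂ) (f : E n → ℂ) (κ : E n) :
    FT (fun x => c * f x) κ = c * FT f κ := by
  unfold FT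
  rw [← integral_const_mul]
  refine integral_congr_ae (ae_of_all _ fun y => ?_)
  simp only
  ring

theorem FT_sum {ι : Type*} (s : Finset ι) {f : ι → E n → ℂ} (hf : ∀ i, Continuous (f i))
    (hfc : ∀ i, HasCompactSupport (f i)) (κ : E n) :
    FT (fun x => ∑ i ∈ s, f i x) κ = ∑ i ∈ s, FT (f i) κ := by
  unfold FT
  rw [← integral_finsetSum _ (fun i _ => FT_integrable (hf i) (hfc i) κ)]
  simp only [Finset.mul_sum]

end Vale.Agent.P088.H207

end
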