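import Vale.Agent.P088.H207.F1

/-!
# P088: the a priori inequality for conjugated Laplacians
-/

open MeasureTheory Set Filter Topology
open scoped ContDiff Real

noncomputable section

namespace Vale.Agent.P088.H207

open Vale.Agent.P088.EYM Vale.Agent.P088.EYM.ES

set_option linter.all false

variable {n : ℕ} [NeZero n]

omit [NeZero n] in
theorem exists_iso (i0 : Fin n) (v : E n) (hv : ‖v‖ = 1) :
    ∃ R : E n ≃ₗᵢ[ℝ] E n, R (ev i0) = v := by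
  have h1 : ‖(ev i0 : E n)‖ = ‖v‖ := by
    rw [hv]
    simp
  exact ⟨(ℝ ∙ ((ev i0 : E n) - v))ᗮ.reflection, Submodule.reflection_sub h1⟩

/-- the symbol inequality -/
theorem symb {A b t : ℝ} (hA : 0 ≤ A) (hb : 0 ≤ b) (ht : π * b ≤ |t|) :
    (A + b ^ 2) ^ 2 ≤ (3 * (1 + 2 * b)) ^ 2 * ((b ^ 2 - A) ^ 2 + 4 * t ^ 2) := by
  have hpi := Real.pi_gt_three
  have h1 : 9 * b ^ 2 ≤ t ^ 2 := by
    have h2 : 3 * b ≤ |t| := (mul_le_mul_of_nonneg_right hpi.le hb).trans ht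
    rw [← sq_abs t]
    nlinarith
  rcases le_total (2 * b ^ 2) A with h | h
  · have h2 : (A + b ^ 2) ^ 2 ≤ 9 * (b ^ 2 - A) ^ 2 := by nlinarith [sq_nonneg b]
    have h3 : 9 ≤ (3 * (1 + 2 * b)) ^ 2 := by nlinarith
    have h4 : 0 ≤ (b ^ 2 - A) ^ 2 := sq_nonneg _
    have h5 : 0 ≤ t ^ 2 := sq_nonneg _
    nlinarith
  · have h2 : (A + b ^ 2) ^ 2 ≤ (3 * b ^ 2) ^ 2 := by
      apply pow_le_pow_left₀ (by positivity)
      linarith
    have h3 : (3 * (2 * b)) ^ 2 ≤ (3 * (1 + 2 * b)) ^ 2 := by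
      apply pow_le_pow_left₀ (by positivity)
      linarith
    have h4 : 36 * b ^ 2 ≤ (b ^ 2 - A) ^ 2 + 4 * t ^ 2 := by nlinarith [sq_nonneg (b ^ 2 - A)]
    have h5 : (3 * (2 * b)) ^ 2 * (36 * b ^ 2) ≤
        (3 * (1 + 2 * b)) ^ 2 * ((b ^ 2 - A) ^ 2 + 4 * t ^ 2) :=
      mul_le_mul h3 h4 (by positivity) (by positivity)
    nlinarith [sq_nonneg (b ^ 2)]

/-- `η + i ξ / 2` -/
def cz (ξ η : E n) (j : Fin n) : ℂ := (η j : ℂ) + Complex.I * ((ξ j : ℝ) : ℂ) / 2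

/-- `(∂_j + c) f` -/
def Dc (c : ℂ) (j : Fin n) (f : E n → ℂ) (x : E n) : ℂ := fderiv ℝ f x (ev j) + c * f x

theorem Dc_cont {c : ℂ} {j : Fin n} {f : E n → ℂ} (hf : ContDiff ℝ 1 f) :
    Continuous (Dc c j f) := by
  have h1 : Continuous fun x => fderiv ℝ f x (ev j) :=
    (hf.continuous_fderiv one_ne_zero).clm_apply continuous_const
  have := hf.continuous
  unfold Dc
  fun_prop

theorem Dc_contDiff {c : ℂ} {j : Fin n} {f : E n → ℂ} (hf : ContDiff ℝ 2 f) :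
    ContDiff ℝ 1 (Dc c j f) := by
  have h1 : ContDiff ℝ 1 fun x => fderiv ℝ f x (ev j) :=
    (hf.fderiv_right (m := 1) (by norm_num)).clm_apply contDiff_const
  exact h1.add (contDiff_const.mul (hf.of_le (by norm_num)))

theorem Dc_supp {c : ℂ} {j : Fin n} {f : E n → ℂ} {S : Set (E n)} (hS : tsupport f ⊆ S) :
    tsupport (Dc c j f) ⊆ S := by
  refine Set.Subset.trans ?_ hS
  refine (tsupport_add (f := fun x => fderiv ℝ f x (ev j)) (g := fun x => c * f x)).trans ?_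
  refine union_subset (tsupport_fderiv_apply_subset ℝ _) ?_
  exact tsupport_mul_subset_right

theorem FT_Dc {c : ℂ} {j : Fin n} {f : E n → ℂ} (hf : ContDiff ℝ 1 f) (hc : HasCompactSupport f)
    (κ : E n) : FT (Dc c j f) κ = (Complex.I * ((κ j : ℝ) : ℂ) + c) * FT f κ := by
  have hd : Continuous fun x => fderiv ℝ f x (ev j) :=
    (hf.continuous_fderiv one_ne_zero).clm_apply continuous_const
  have hdc : HasCompactSupport fun x => fderiv ℝ f x (ev j) := hc.fderiv_apply (𝕜 := ℝ) _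
  have h1 := FT_add hd hdc (g := fun x => c * f x) (continuous_const.mul hf.continuous)
    hc.mul_left κ
  show FT (fun x => fderiv ℝ f x (ev j) + c * f x) κ = _
  rw [h1, FT_pd hf hc, FT_const_mul]
  have h2 : (inner ℝ κ (ev j) : ℝ) = κ j := by
    rw [EuclideanSpace.inner_single_right]
    simp
  rw [h2]
  ring

omit [NeZero n] in
theorem compact_of_ball {f : E n → ℂ} {r : ℝ} (hs : tsupport f ⊆ Metric.ball 0 r) :
    HasCompactSupport f :=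
  (isCompact_closedBall (0 : E n) r).of_isClosed_subset (isClosed_tsupport f)
    (hs.trans Metric.ball_subset_closedBall)

/-- The pointwise inequality on the Fourier side. -/
theorem key_pt {ξ η κ : E n} (h0 : (inner ℝ ξ η : ℝ) = 0) (h2 : ‖ξ‖ = 2 * ‖η‖)
    (hκ : π * ‖η‖ ≤ |(inner ℝ κ η : ℝ)|) {F : ℂ} {g : Fin n → ℂ}
    (h : ∑ j, (Complex.I * ((κ j : ℝ) : ℂ) + cz ξ η j) *
      ((Complex.I * ((κ j : ℝ) : ℂ) + cz ξ η j) * F + g j) = 0) :
    ∑ j, ‖(Complex.I * ((κ j : ℝ) : ℂ) + cz ξ η j) * F‖ ^ 2 ≤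
      (3 * (1 + ‖ξ‖)) ^ 2 * ∑ j, ‖g j‖ ^ 2 := by
  set a : Fin n → ℂ := fun j => Complex.I * ((κ j : ℝ) : ℂ) + cz ξ η j with ha
  set u : Fin n → ℝ := fun j => κ j + ξ j / 2 with hu
  have hae : ∀ j, a j = (η j : ℂ) + Complex.I * ((u j : ℝ) : ℂ) := by
    intro j
    simp only [ha, cz, hu]
    push_cast
    ring
  set A : ℝ := ∑ j, u j ^ 2 with hA
  have hA0 : 0 ≤ A := Finset.sum_nonneg fun j _ => sq_nonneg _
  have hη2 : ‖η‖ ^ 2 = ∑ j, η j ^ 2 := EuclideanSpace.real_norm_sq_eq η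
  have hs2 : ∑ j, ‖a j‖ ^ 2 = A + ‖η‖ ^ 2 := by
    rw [hη2, hA, ← Finset.sum_add_distrib]
    refine Finset.sum_congr rfl fun j _ => ?_
    rw [hae, ← Complex.normSq_eq_norm_sq, Complex.normSq_apply]
    simp
    ring
  have hq : ∑ j, a j ^ 2 = (((‖η‖ ^ 2 - A : ℝ)) : ℂ) +
      Complex.I * ((2 * (inner ℝ κ η : ℝ) : ℝ) : ℂ) := by
    have h3 : (inner ℝ κ η : ℝ) = ∑ j, u j * η j := by
      have h4 : (inner ℝ κ η : ℝ) = ∑ j, κ j * η j := by
        rw [PiLp.inner_apply]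
        refine Finset.sum_congr rfl fun j _ => ?_
        simp [mul_comm]
      have h5 : ∑ j, ξ j * η j = 0 := by
        rw [← h0, PiLp.inner_apply]
        refine Finset.sum_congr rfl fun j _ => ?_
        simp [mul_comm]
      rw [h4]
      have h6 : ∑ j, u j * η j = ∑ j, κ j * η j + (∑ j, ξ j * η j) / 2 := by
        rw [Finset.sum_div, ← Finset.sum_add_distrib]
        refine Finset.sum_congr rfl fun j _ => ?_
        simp only [hu]
        ring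
      rw [h6, h5]
      ring
    rw [h3, hη2, hA]
    push_cast
    rw [← Finset.sum_sub_distrib, Finset.mul_sum, Finset.mul_sum, ← Finset.sum_add_distrib]
    refine Finset.sum_congr rfl fun j _ => ?_
    rw [hae]
    linear_combination ((u j : ℂ)) ^ 2 * Complex.I_sq
  have hqn : ‖∑ j, a j ^ 2‖ ^ 2 = (‖η‖ ^ 2 - A) ^ 2 + 4 * (inner ℝ κ η : ℝ) ^ 2 := by
    rw [hq, ← Complex.normSq_eq_norm_sq, Complex.normSq_apply]
    simp only [Complex.add_re, Complex.ofReal_re, Complex.mul_re, Complex.I_re, zero_mul,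
      Complex.I_im, Complex.ofReal_im, mul_zero, sub_zero, add_zero, Complex.add_im,
      Complex.mul_im, one_mul, zero_add]
    ring
  have hsy := symb hA0 (norm_nonneg η) hκ
  rw [← h2, ← hs2, ← hqn] at hsy
  -- the equation
  have heq : (∑ j, a j ^ 2) * F = -∑ j, a j * g j := by
    have h3 : ∑ j, a j * (a j * F + g j) = (∑ j, a j ^ 2) * F + ∑ j, a j * g j := by
      rw [Finset.sum_mul, ← Finset.sum_add_distrib]
      refine Finset.sum_congr rfl fun j _ => by ring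
    rw [h3] at h
    linear_combination h
  have hcs : ‖∑ j, a j * g j‖ ^ 2 ≤ (∑ j, ‖a j‖ ^ 2) * ∑ j, ‖g j‖ ^ 2 := by
    have h3 : ‖∑ j, a j * g j‖ ≤ ∑ j, ‖a j‖ * ‖g j‖ := by
      refine (norm_sum_le _ _).trans (le_of_eq ?_)
      simp only [norm_mul]
    refine (pow_le_pow_left₀ (norm_nonneg _) h3 2).trans ?_
    exact Finset.sum_mul_sq_le_sq_mul_sq _ _ _
  have h4 : ‖∑ j, a j ^ 2‖ ^ 2 * ‖F‖ ^ 2 ≤ (∑ j, ‖a j‖ ^ 2) * ∑ j, ‖g j‖ ^ 2 := by
    rw [← mul_pow, ← norm_mul, heq, norm_neg]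
    exact hcs
  have h5 : ∑ j, ‖a j * F‖ ^ 2 = (∑ j, ‖a j‖ ^ 2) * ‖F‖ ^ 2 := by
    rw [Finset.sum_mul]
    refine Finset.sum_congr rfl fun j _ => ?_
    rw [norm_mul, mul_pow]
  show ∑ j, ‖a j * F‖ ^ 2 ≤ _
  rw [h5]
  set S := ∑ j, ‖a j‖ ^ 2 with hS
  set T := ∑ j, ‖g j‖ ^ 2 with hT
  have hS0 : 0 ≤ S := Finset.sum_nonneg fun j _ => sq_nonneg _
  have hT0 : 0 ≤ T := Finset.sum_nonneg fun j _ => sq_nonneg _
  rcases hS0.eq_or_lt with h6 | h6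
  · rw [← h6, zero_mul]
    positivity
  · have h7 : S * (S * ‖F‖ ^ 2) ≤ S * ((3 * (1 + ‖ξ‖)) ^ 2 * T) := by
      calc S * (S * ‖F‖ ^ 2) = S ^ 2 * ‖F‖ ^ 2 := by ring
        _ ≤ ((3 * (1 + ‖ξ‖)) ^ 2 * ‖∑ j, a j ^ 2‖ ^ 2) * ‖F‖ ^ 2 :=
            mul_le_mul_of_nonneg_right hsy (sq_nonneg _)
        _ = (3 * (1 + ‖ξ‖)) ^ 2 * (‖∑ j, a j ^ 2‖ ^ 2 * ‖F‖ ^ 2) := by ring
        _ ≤ (3 * (1 + ‖ξ‖)) ^ 2 * (S * T) := mul_le_mul_of_nonneg_left h4 (by positivity)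
        _ = S * ((3 * (1 + ‖ξ‖)) ^ 2 * T) := by ring
    exact le_of_mul_le_mul_left h7 h6

/-- The a priori inequality. -/
theorem key {ξ η : E n} (h0 : (inner ℝ ξ η : ℝ) = 0) (h2 : ‖ξ‖ = 2 * ‖η‖) (hη : η ≠ 0)
    {φ : E n → ℂ} (hφ : ContDiff ℝ 2 φ) (hs : tsupport φ ⊆ Metric.ball 0 (1 / 2))
    {G : Fin n → E n → ℂ} (hG : ∀ j, ContDiff ℝ 1 (G j))
    (hGs : ∀ j, tsupport (G j) ⊆ Metric.ball 0 (1 / 2))
    (h : ∀ x, ∑ j, Dc (cz ξ η j) j (fun y => Dc (cz ξ η j) j φ y + G j y) x = 0) :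
    ∑ j, ∫ x, ‖Dc (cz ξ η j) j φ x‖ ^ 2 ≤
      (3 * (1 + ‖ξ‖)) ^ 2 * ∑ j, ∫ x, ‖G j x‖ ^ 2 := by
  have hn0 : 0 < ‖η‖ := norm_pos_iff.2 hη
  obtain ⟨R, hR⟩ := exists_iso (0 : Fin n) ((‖η‖)⁻¹ • η) (by
    rw [norm_smul, norm_inv, norm_norm, inv_mul_cancel₀ hn0.ne'])
  set θ : E n := π • ev 0 with hθ
  have hκ : ∀ k : La n, π * ‖η‖ ≤ |(inner ℝ (R (lat k + θ)) η : ℝ)| := by
    intro k
    have e1 : η = ‖η‖ • R (ev 0) := by
      rw [hR, smul_smul, mul_inv_cancel₀ hn0.ne', one_smul]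
    have e2 : (inner ℝ (R (lat k + θ)) η : ℝ) = ‖η‖ * (2 * π * (k 0 : ℝ) + π) := by
      conv_lhs => rw [e1]
      rw [inner_smul_right, R.inner_map_map, EuclideanSpace.inner_single_right]
      simp [hθ, lat_apply]
    rw [e2, abs_mul, abs_of_pos hn0, mul_comm]
    refine mul_le_mul_of_nonneg_left ?_ hn0.le
    have e3 : 2 * π * (k 0 : ℝ) + π = π * (2 * (k 0 : ℝ) + 1) := by ring
    rw [e3, abs_mul, abs_of_pos Real.pi_pos]
    refine le_mul_of_one_le_right Real.pi_pos.le ?_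
    have e4 : (1 : ℤ) ≤ |2 * k 0 + 1| := Int.one_le_abs (by omega)
    have e5 : ((1 : ℤ) : ℝ) ≤ ((|2 * k 0 + 1| : ℤ) : ℝ) := by exact_mod_cast e4
    push_cast at e5
    exact e5
  have hφ1 : ContDiff ℝ 1 φ := hφ.of_le (by norm_num)
  have hφc : HasCompactSupport φ := compact_of_ball hs
  have hGc : ∀ j, HasCompactSupport (G j) := fun j => compact_of_ball (hGs j)
  have hDs : ∀ j, tsupport (Dc (cz ξ η j) j φ) ⊆ Metric.ball 0 (1 / 2) := fun j => Dc_supp hs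
  have hDc : ∀ j, HasCompactSupport (Dc (cz ξ η j) j φ) := fun j => compact_of_ball (hDs j)
  have hD1 : ∀ j, ContDiff ℝ 1 (Dc (cz ξ η j) j φ) := fun j => Dc_contDiff hφ
  have hsum : ∀ j, ContDiff ℝ 1 (fun y => Dc (cz ξ η j) j φ y + G j y) :=
    fun j => (hD1 j).add (hG j)
  have hsumc : ∀ j, HasCompactSupport (fun y => Dc (cz ξ η j) j φ y + G j y) :=
    fun j => (hDc j).add (hGc j)
  -- the equation on the Fourier side
  have heq : ∀ κ : E n, ∑ j, (Complex.I * ((κ j : ℝ) : ℂ) + cz ξ η j) *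
      ((Complex.I * ((κ j : ℝ) : ℂ) + cz ξ η j) * FT φ κ + FT (G j) κ) = 0 := by
    intro κ
    have e1 : FT (fun x => ∑ j, Dc (cz ξ η j) j
        (fun y => Dc (cz ξ η j) j φ y + G j y) x) κ = 0 := by
      simp only [h]
      unfold FT
      simp
    rw [FT_sum Finset.univ (fun j => Dc_cont (hsum j)) (fun j => ?_) κ] at e1
    · rw [← e1]
      refine Finset.sum_congr rfl fun j _ => ?_
      rw [FT_Dc (hsum j) (hsumc j), FT_add (hD1 j).continuous (hDc j) (hG j).continuous (hGc j),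
        FT_Dc hφ1 hφc]
    · exact (hsumc j).of_isClosed_subset (isClosed_tsupport _) (Dc_supp (Set.Subset.refl _))
  -- Parseval
  have hL : HasSum (fun k : La n => ∑ j, ‖FT (Dc (cz ξ η j) j φ) (R (lat k + θ))‖ ^ 2)
      (∑ j, ∫ x, ‖Dc (cz ξ η j) j φ x‖ ^ 2) :=
    hasSum_sum fun j _ => pars_ball R θ (hD1 j).continuous (hDs j)
  have hRr : HasSum (fun k : La n => ∑ j, ‖FT (G j) (R (lat k + θ))‖ ^ 2)
      (∑ j, ∫ x, ‖G j x‖ ^ 2) :=
    hasSum_sum fun j _ => pars_ball R θ (hG j).continuous (hGs j)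
  refine hasSum_le (fun k => ?_) hL (hRr.mul_left _)
  have e1 := key_pt h0 h2 (hκ k) (heq (R (lat k + θ)))
  refine le_trans (le_of_eq ?_) e1
  refine Finset.sum_congr rfl fun j _ => ?_
  rw [FT_Dc hφ1 hφc]

end Vale.Agent.P088.H207

end
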