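import Vale.Agent.P088.H207.F2

/-!
# P088: the bound of the Fourier transform of the perturbation
-/

open MeasureTheory Set Filter Topology
open scoped ContDiff Real

noncomputable section

namespace Vale.Agent.P088.H207

open Vale.Agent.P088.EYM Vale.Agent.P088.EYM.ES

set_option linter.all false

variable {n : ℕ} [NeZero n]

/-- AM-GM in the form used for Cauchy-Schwarz. -/
theorem amgm {B P Q : ℝ} (hB : 0 ≤ B) (hP : 0 ≤ P) (hQ : 0 ≤ Q)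
    (h : ∀ t : ℝ, 0 < t → 2 * B ≤ t * P + Q / t) : B ^ 2 ≤ P * Q := by
  rcases hB.eq_or_lt with h0 | h0
  · rw [← h0]
    nlinarith [mul_nonneg hP hQ]
  rcases hP.eq_or_lt with h1 | h1
  · exfalso
    have h2 := h ((Q + 1) / B) (by positivity)
    rw [← h1] at h2
    have h3 : Q / ((Q + 1) / B) = Q * B / (Q + 1) := by
      field_simp
    rw [h3] at h2
    have h4 : Q * B / (Q + 1) ≤ B := by
      rw [div_le_iff₀ (by positivity)]
      nlinarith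
    linarith
  · have h2 := h (B / P) (by positivity)
    have h3 : B / P * P = B := by field_simp
    have h4 : Q / (B / P) = Q * P / B := by field_simp
    rw [h3, h4] at h2
    have h5 : B ≤ Q * P / B := by linarith
    rw [le_div_iff₀ h0] at h5
    nlinarith

/-- `e^{c·x}` -/
def ez (c : Fin n → ℂ) (x : E n) : ℂ := Complex.exp (∑ l, c l * ((x l : ℝ) : ℂ))

omit [NeZero n] in
theorem ez_contDiff (c : Fin n → ℂ) : ContDiff ℝ ∞ (ez c : E n → ℂ) := by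
  unfold ez
  refine ContDiff.cexp (ContDiff.sum fun l _ => contDiff_const.mul ?_)
  exact Complex.ofRealCLM.contDiff.comp (EuclideanSpace.proj (𝕜 := ℝ) l).contDiff

omit [NeZero n] in
theorem ez_fderiv (c : Fin n → ℂ) (x : E n) (j : Fin n) :
    fderiv ℝ (ez c) x (ev j) = c j * ez c x := by
  have h1 : ∀ l, HasFDerivAt (fun x : E n => c l * ((x l : ℝ) : ℂ))
      (c l • (Complex.ofRealCLM ∘L (EuclideanSpace.proj (𝕜 := ℝ) l : E n →L[ℝ] ℝ))) x := by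
    intro l
    exact ((Complex.ofRealCLM ∘L
      (EuclideanSpace.proj (𝕜 := ℝ) l : E n →L[ℝ] ℝ)).hasFDerivAt).const_mul (c l)
  have h2 : HasFDerivAt (fun x : E n => ∑ l, c l * ((x l : ℝ) : ℂ))
      (∑ l, c l • (Complex.ofRealCLM ∘L (EuclideanSpace.proj (𝕜 := ℝ) l : E n →L[ℝ] ℝ))) x :=
    HasFDerivAt.fun_sum fun l _ => h1 l
  have h3 := h2.cexp
  have h4 : fderiv ℝ (ez c) x = Complex.exp (∑ l, c l * ((x l : ℝ) : ℂ)) •
      (∑ l, c l • (Complex.ofRealCLM ∘L (EuclideanSpace.proj (𝕜 := ℝ) l : E n →L[ℝ] ℝ))) :=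
    h3.fderiv
  rw [h4]
  simp only [_root_.smul_apply, smul_eq_mul]
  rw [ContinuousLinearMap.sum_apply]
  have h5 : ∑ l, (c l • (Complex.ofRealCLM ∘L
      (EuclideanSpace.proj (𝕜 := ℝ) l : E n →L[ℝ] ℝ))) (ev j : E n) = c j := by
    rw [Finset.sum_eq_single j]
    · simp
    · intro l _ hl
      simp [hl]
    · intro h
      exact absurd (Finset.mem_univ j) h
  rw [h5]
  unfold ez
  ring

omit [NeZero n] in
theorem ez_norm (c : Fin n → ℂ) (x : E n) : ‖ez c x‖ = Real.exp (∑ l, (c l).re * x l) := by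
  unfold ez
  rw [Complex.norm_exp]
  congr 1
  simp

/-- `(∂_j + c_j)(e^{-c·x} f) = e^{-c·x} ∂_j f` -/
theorem Dc_ez {c : Fin n → ℂ} {j : Fin n} {f : E n → ℂ} {x : E n} (hf : DifferentiableAt ℝ f x) :
    Dc (c j) j (fun y => ez (-c) y * f y) x = ez (-c) x * fderiv ℝ f x (ev j) := by
  unfold Dc
  have h1 : DifferentiableAt ℝ (ez (-c) : E n → ℂ) x :=
    (ez_contDiff (-c)).differentiable (by simp) x
  have h2 := fderiv_fun_mul h1 hf
  rw [h2]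
  simp only [_root_.add_apply, _root_.smul_apply, smul_eq_mul, ez_fderiv, Pi.neg_apply]
  ring

/-- `η - i ξ / 2` -/
def zz (ξ η : E n) (j : Fin n) : ℂ := (η j : ℂ) - Complex.I * ((ξ j : ℝ) : ℂ) / 2

omit [NeZero n] in
theorem cz_sq {ξ η : E n} (h0 : (inner ℝ ξ η : ℝ) = 0) (h2 : ‖ξ‖ = 2 * ‖η‖) :
    ∑ j, cz ξ η j ^ 2 = 0 := by
  have h3 : ∑ j, η j ^ 2 = ‖η‖ ^ 2 := (EuclideanSpace.real_norm_sq_eq η).symm
  have h4 : ∑ j, ξ j ^ 2 = ‖ξ‖ ^ 2 := (EuclideanSpace.real_norm_sq_eq ξ).symm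
  have h5 : ∑ j, ξ j * η j = 0 := by
    rw [← h0, PiLp.inner_apply]
    refine Finset.sum_congr rfl fun j _ => ?_
    simp [mul_comm]
  have h6 : ∑ j, cz ξ η j ^ 2 = ((∑ j, η j ^ 2 - (∑ j, ξ j ^ 2) / 4 : ℝ) : ℂ) +
      Complex.I * ((∑ j, ξ j * η j : ℝ) : ℂ) := by
    push_cast
    rw [Finset.sum_div, ← Finset.sum_sub_distrib, Finset.mul_sum, ← Finset.sum_add_distrib]
    refine Finset.sum_congr rfl fun j _ => ?_
    unfold cz
    linear_combination ((ξ j : ℂ)) ^ 2 / 4 * Complex.I_sq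
  rw [h6, h3, h4, h5, h2]
  push_cast
  ring

omit [NeZero n] in
theorem cz_norm {ξ η : E n} (h2 : ‖ξ‖ = 2 * ‖η‖) : ∑ j, ‖cz ξ η j‖ ^ 2 = 2 * ‖η‖ ^ 2 := by
  have h3 : ∑ j, η j ^ 2 = ‖η‖ ^ 2 := (EuclideanSpace.real_norm_sq_eq η).symm
  have h4 : ∑ j, ξ j ^ 2 = ‖ξ‖ ^ 2 := (EuclideanSpace.real_norm_sq_eq ξ).symm
  have h6 : ∑ j, ‖cz ξ η j‖ ^ 2 = ∑ j, η j ^ 2 + (∑ j, ξ j ^ 2) / 4 := by
    rw [Finset.sum_div, ← Finset.sum_add_distrib]
    refine Finset.sum_congr rfl fun j _ => ?_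
    rw [← Complex.normSq_eq_norm_sq, Complex.normSq_apply]
    unfold cz
    simp
    ring
  rw [h6, h3, h4, h2]
  ring

omit [NeZero n] in
theorem zz_norm {ξ η : E n} (h2 : ‖ξ‖ = 2 * ‖η‖) : ∑ j, ‖zz ξ η j‖ ^ 2 = 2 * ‖η‖ ^ 2 := by
  have h3 : ∑ j, η j ^ 2 = ‖η‖ ^ 2 := (EuclideanSpace.real_norm_sq_eq η).symm
  have h4 : ∑ j, ξ j ^ 2 = ‖ξ‖ ^ 2 := (EuclideanSpace.real_norm_sq_eq ξ).symm
  have h6 : ∑ j, ‖zz ξ η j‖ ^ 2 = ∑ j, η j ^ 2 + (∑ j, ξ j ^ 2) / 4 := by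
    rw [Finset.sum_div, ← Finset.sum_add_distrib]
    refine Finset.sum_congr rfl fun j _ => ?_
    rw [← Complex.normSq_eq_norm_sq, Complex.normSq_apply]
    unfold zz
    simp
    ring
  rw [h6, h3, h4, h2]
  ring

omit [NeZero n] in
/-- `e^{-c·x} e^{z·x} = e^{-iξ·x}` -/
theorem ez_mul (ξ η x : E n) : ez (-cz ξ η) x * ez (zz ξ η) x =
    Complex.exp (-(Complex.I * ((inner ℝ ξ x : ℝ) : ℂ))) := by
  unfold ez
  rw [← Complex.exp_add, ← Finset.sum_add_distrib]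
  congr 1
  have h1 : (inner ℝ ξ x : ℝ) = ∑ j, ξ j * x j := by
    rw [PiLp.inner_apply]
    refine Finset.sum_congr rfl fun j _ => ?_
    simp [mul_comm]
  rw [h1]
  push_cast
  rw [Finset.mul_sum, ← Finset.sum_neg_distrib]
  refine Finset.sum_congr rfl fun j _ => ?_
  simp only [Pi.neg_apply, cz, zz]
  ring

/-- The perturbation. -/
structure Pert (h : Fin n → Fin n → E n → ℝ) : Prop where
  sm : ∀ i j, ContDiff ℝ ∞ (h i j)
  symm : ∀ i j x, h i j x = h j i x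
  supp : ∀ i j, tsupport (h i j) ⊆ Metric.ball 0 (1 / 2)
  div : ∀ i x, ∑ j, fderiv ℝ (h i j) x (ev j) = 0

/-- The exponentials are approximately extended. -/
def Ex (h : Fin n → Fin n → E n → ℝ) : Prop :=
  ∀ ξ η : E n, (inner ℝ ξ η : ℝ) = 0 → ‖ξ‖ = 2 * ‖η‖ → η ≠ 0 → ∀ δ : ℝ, 0 < δ →
    ∃ (w : E n → ℂ) (T : Fin n → E n → ℂ), ContDiff ℝ ∞ w ∧ tsupport w ⊆ Metric.ball 0 (1 / 2) ∧
      (∀ j, ContDiff ℝ ∞ (T j)) ∧ (∀ j, tsupport (T j) ⊆ Metric.ball 0 (1 / 2)) ∧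
      (∀ x, ∑ j, fderiv ℝ (fun y => fderiv ℝ w y (ev j) +
        (∑ k, (h j k y : ℂ) * fderiv ℝ w y (ev k) + T j y)) x (ev j) = 0) ∧
      ∑ j, ∫ x, ‖T j x - ∑ k, (h j k x : ℂ) * (zz ξ η k * ez (zz ξ η) x)‖ ^ 2 ≤ δ

end Vale.Agent.P088.H207

end
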