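import Vale.Agent.P088.H207.F3

/-!
# P088: the estimate for one null vector
-/

open MeasureTheory Set Filter Topology
open scoped ContDiff Real

noncomputable section

namespace Vale.Agent.P088.H207

open Vale.Agent.P088.EYM Vale.Agent.P088.EYM.ES

set_option linter.all false

variable {n : ℕ} [NeZero n]

theorem two_le_inf : (2 : WithTop ℕ∞) ≤ ∞ := by
  have h : ((2 : ℕ∞) : WithTop ℕ∞) ≤ ((⊤ : ℕ∞) : WithTop ℕ∞) := WithTop.coe_le_coe.2 le_top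
  exact h

theorem one_le_inf : (1 : WithTop ℕ∞) ≤ ∞ := by
  have h : ((1 : ℕ∞) : WithTop ℕ∞) ≤ ((⊤ : ℕ∞) : WithTop ℕ∞) := WithTop.coe_le_coe.2 le_top
  exact h

theorem int_sq {f : E n → ℂ} (hf : Continuous f) (hc : HasCompactSupport f) :
    Integrable (fun x => ‖f x‖ ^ 2) := by
  refine Continuous.integrable_of_hasCompactSupport (by fun_prop) ?_
  exact hc.norm.comp_left (g := fun t : ℝ => t ^ 2) (by simp)

theorem int_c {f : E n → ℂ} (hf : Continuous f) (hc : HasCompactSupport f) : Integrable f :=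
  hf.integrable_of_hasCompactSupport hc

/-- Cauchy-Schwarz for the matrix `h` -/
theorem mat_cs {a : ℝ} {H : Fin n → Fin n → ℝ} (ha : ∑ j, ∑ k, H j k ^ 2 ≤ a ^ 2)
    (e : Fin n → ℂ) : ∑ j, ‖∑ k, (H j k : ℂ) * e k‖ ^ 2 ≤ a ^ 2 * ∑ k, ‖e k‖ ^ 2 := by
  have h1 : ∀ j, ‖∑ k, (H j k : ℂ) * e k‖ ^ 2 ≤ (∑ k, H j k ^ 2) * ∑ k, ‖e k‖ ^ 2 := by
    intro j
    have h2 : ‖∑ k, (H j k : ℂ) * e k‖ ≤ ∑ k, |H j k| * ‖e k‖ := by
      refine (norm_sum_le _ _).trans (le_of_eq ?_)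
      refine Finset.sum_congr rfl fun k _ => ?_
      rw [norm_mul, Complex.norm_real, Real.norm_eq_abs]
    refine (pow_le_pow_left₀ (norm_nonneg _) h2 2).trans ?_
    refine (Finset.sum_mul_sq_le_sq_mul_sq _ _ _).trans (le_of_eq ?_)
    simp only [sq_abs]
  calc ∑ j, ‖∑ k, (H j k : ℂ) * e k‖ ^ 2 ≤ ∑ j, (∑ k, H j k ^ 2) * ∑ k, ‖e k‖ ^ 2 :=
        Finset.sum_le_sum fun j _ => h1 j
    _ = (∑ j, ∑ k, H j k ^ 2) * ∑ k, ‖e k‖ ^ 2 := by rw [Finset.sum_mul]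
    _ ≤ a ^ 2 * ∑ k, ‖e k‖ ^ 2 :=
        mul_le_mul_of_nonneg_right ha (Finset.sum_nonneg fun k _ => sq_nonneg _)

theorem norm_add_sq_le_two (x y : ℂ) : ‖x + y‖ ^ 2 ≤ 2 * ‖x‖ ^ 2 + 2 * ‖y‖ ^ 2 := by
  have h1 := norm_add_le x y
  have h2 := norm_nonneg (x + y)
  nlinarith [sq_nonneg (‖x‖ - ‖y‖), norm_nonneg x, norm_nonneg y]

section step

variable {h : Fin n → Fin n → E n → ℝ} (P : Pert h) {a : ℝ}
  (ha : ∀ x, ∑ j, ∑ k, h j k x ^ 2 ≤ a ^ 2) {ξ η : E n} (h0 : (inner ℝ ξ η : ℝ) = 0)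
  (h2 : ‖ξ‖ = 2 * ‖η‖) (hη : η ≠ 0)
  (hC : (3 * (1 + ‖ξ‖)) ^ 2 * (2 * a ^ 2) ≤ 1 / 2)
  {w : E n → ℂ} {T : Fin n → E n → ℂ} (hw : ContDiff ℝ ∞ w)
  (hws : tsupport w ⊆ Metric.ball 0 (1 / 2)) (hT : ∀ j, ContDiff ℝ ∞ (T j))
  (hTs : ∀ j, tsupport (T j) ⊆ Metric.ball 0 (1 / 2))
  (hpde : ∀ x, ∑ j, fderiv ℝ (fun y => fderiv ℝ w y (ev j) +
        (∑ k, (h j k y : ℂ) * fderiv ℝ w y (ev k) + T j y)) x (ev j) = 0)

/-- the function `φ` -/
def phi (ξ η : E n) (w : E n → ℂ) : E n → ℂ := fun y => ez (-cz ξ η) y * w y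

/-- the vector field `e` -/
def ee (ξ η : E n) (w : E n → ℂ) (j : Fin n) : E n → ℂ := Dc (cz ξ η j) j (phi ξ η w)

include hw in
theorem ee_eq (j : Fin n) (x : E n) :
    ee ξ η w j x = ez (-cz ξ η) x * fderiv ℝ w x (ev j) :=
  Dc_ez (hw.differentiable (by simp) x)

include hw in
theorem phi_cd : ContDiff ℝ ∞ (phi ξ η w) := (ez_contDiff _).mul hw

include hws in
theorem phi_supp : tsupport (phi ξ η w) ⊆ Metric.ball 0 (1 / 2) :=
  tsupport_mul_subset_right.trans hws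

include hw in
theorem ee_cd (j : Fin n) : ContDiff ℝ ∞ (ee ξ η w j) := by
  have h1 : ee ξ η w j = fun x => ez (-cz ξ η) x * fderiv ℝ w x (ev j) :=
    funext fun x => ee_eq hw j x
  rw [h1]
  exact (ez_contDiff _).mul ((hw.fderiv_right (m := ∞) (by simp)).clm_apply contDiff_const)

include hws in
theorem ee_supp (j : Fin n) : tsupport (ee ξ η w j) ⊆ Metric.ball 0 (1 / 2) :=
  Dc_supp (phi_supp hws)

/-- the vector field `g` -/
def gv (ξ η : E n) (T : Fin n → E n → ℂ) (j : Fin n) : E n → ℂ :=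
  fun x => ez (-cz ξ η) x * T j x

include hT in
theorem gv_cd (j : Fin n) : ContDiff ℝ ∞ (gv ξ η T j) := (ez_contDiff _).mul (hT j)

include hTs in
theorem gv_supp (j : Fin n) : tsupport (gv ξ η T j) ⊆ Metric.ball 0 (1 / 2) :=
  tsupport_mul_subset_right.trans (hTs j)

/-- the vector field `h e` -/
def he (h : Fin n → Fin n → E n → ℝ) (ξ η : E n) (w : E n → ℂ) (j : Fin n) : E n → ℂ :=
  fun x => ∑ k, (h j k x : ℂ) * ee ξ η w k x

include P hw in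
theorem he_cd (j : Fin n) : ContDiff ℝ ∞ (he h ξ η w j) :=
  ContDiff.sum fun k _ => (Complex.ofRealCLM.contDiff.comp (P.sm j k)).mul (ee_cd hw k)

include hws in
theorem he_supp (j : Fin n) : tsupport (he h ξ η w j) ⊆ Metric.ball 0 (1 / 2) := by
  have h1 : Function.support (he h ξ η w j) ⊆ ⋃ k, tsupport (ee ξ η w k) := by
    intro x hx
    by_contra hne
    apply hx
    show ∑ k, (h j k x : ℂ) * ee ξ η w k x = 0
    refine Finset.sum_eq_zero fun k _ => ?_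
    have h2 : x ∉ tsupport (ee ξ η w k) := fun h3 => hne (mem_iUnion.2 ⟨k, h3⟩)
    rw [image_eq_zero_of_notMem_tsupport h2, mul_zero]
  have h2 : IsClosed (⋃ k, tsupport (ee ξ η w k)) :=
    isClosed_iUnion_of_finite fun k => isClosed_tsupport _
  exact (closure_minimal h1 h2).trans (iUnion_subset fun k => ee_supp hws k)

/-- the vector field `G = h e + g` -/
def Gv (h : Fin n → Fin n → E n → ℝ) (ξ η : E n) (w : E n → ℂ) (T : Fin n → E n → ℂ)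
    (j : Fin n) : E n → ℂ := fun x => he h ξ η w j x + gv ξ η T j x

include P hw hT in
theorem Gv_cd (j : Fin n) : ContDiff ℝ ∞ (Gv h ξ η w T j) := (he_cd P hw j).add (gv_cd hT j)

include hws hTs in
theorem Gv_supp (j : Fin n) : tsupport (Gv h ξ η w T j) ⊆ Metric.ball 0 (1 / 2) :=
  (tsupport_add _ _).trans (union_subset (he_supp hws j) (gv_supp hTs j))

include P hw hT hpde in
/-- the conjugated equation -/
theorem conj_eq (x : E n) :
    ∑ j, Dc (cz ξ η j) j (fun y => Dc (cz ξ η j) j (phi ξ η w) y + Gv h ξ η w T j y) x = 0 := by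
  have h1 : ∀ j, (fun y => Dc (cz ξ η j) j (phi ξ η w) y + Gv h ξ η w T j y) =
      fun y => ez (-cz ξ η) y * (fderiv ℝ w y (ev j) +
        (∑ k, (h j k y : ℂ) * fderiv ℝ w y (ev k) + T j y)) := by
    intro j
    funext y
    have e1 := ee_eq (ξ := ξ) (η := η) hw j y
    have e2 : he h ξ η w j y = ez (-cz ξ η) y * ∑ k, (h j k y : ℂ) * fderiv ℝ w y (ev k) := by
      show ∑ k, (h j k y : ℂ) * ee ξ η w k y = _
      rw [Finset.mul_sum]
      refine Finset.sum_congr rfl fun k _ => ?_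
      rw [ee_eq hw k y]
      ring
    show ee ξ η w j y + (he h ξ η w j y + gv ξ η T j y) = _
    rw [e1, e2]
    show _ + (_ + ez (-cz ξ η) y * T j y) = _
    ring
  have h3 : ∀ j, DifferentiableAt ℝ (fun y => fderiv ℝ w y (ev j) +
      (∑ k, (h j k y : ℂ) * fderiv ℝ w y (ev k) + T j y)) x := by
    intro j
    have e1 : ∀ k, ContDiff ℝ ∞ fun y => fderiv ℝ w y (ev k) := fun k =>
      (hw.fderiv_right (m := ∞) (by simp)).clm_apply contDiff_const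
    have e2 : ContDiff ℝ ∞ (fun y => fderiv ℝ w y (ev j) +
      (∑ k, (h j k y : ℂ) * fderiv ℝ w y (ev k) + T j y)) :=
      (e1 j).add ((ContDiff.sum fun k _ =>
        (Complex.ofRealCLM.contDiff.comp (P.sm j k)).mul (e1 k)).add (hT j))
    exact e2.differentiable (by simp) x
  simp only [h1]
  have h4 : ∀ j, Dc (cz ξ η j) j (fun y => ez (-cz ξ η) y * (fderiv ℝ w y (ev j) +
        (∑ k, (h j k y : ℂ) * fderiv ℝ w y (ev k) + T j y))) x =
      ez (-cz ξ η) x * fderiv ℝ (fun y => fderiv ℝ w y (ev j) +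
        (∑ k, (h j k y : ℂ) * fderiv ℝ w y (ev k) + T j y)) x (ev j) := fun j => Dc_ez (h3 j)
  simp only [h4]
  rw [← Finset.mul_sum, hpde x, mul_zero]

include P ha h0 h2 hη hC hw hws hT hTs hpde in
theorem stepA : ∑ j, ∫ x, ‖ee ξ η w j x‖ ^ 2 ≤
    4 * (3 * (1 + ‖ξ‖)) ^ 2 * ∑ j, ∫ x, ‖gv ξ η T j x‖ ^ 2 := by
  have hk := key h0 h2 hη (φ := phi ξ η w) ((phi_cd hw).of_le two_le_inf)
    (phi_supp hws) (G := Gv h ξ η w T) (fun j => (Gv_cd P hw hT j).of_le one_le_inf)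
    (fun j => Gv_supp hws hTs j) (conj_eq P hw hT hpde)
  set C := (3 * (1 + ‖ξ‖)) ^ 2 with hCd
  have hC0 : 0 ≤ C := sq_nonneg _
  have i1 : ∀ j, Integrable fun x => ‖ee ξ η w j x‖ ^ 2 := fun j =>
    int_sq (ee_cd hw j).continuous (compact_of_ball (ee_supp hws j))
  have i2 : ∀ j, Integrable fun x => ‖gv ξ η T j x‖ ^ 2 := fun j =>
    int_sq (gv_cd hT j).continuous (compact_of_ball (gv_supp hTs j))
  have i3 : ∀ j, Integrable fun x => ‖Gv h ξ η w T j x‖ ^ 2 := fun j =>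
    int_sq (Gv_cd P hw hT j).continuous (compact_of_ball (Gv_supp hws hTs j))
  have h5 : (∑ j, ∫ x, ‖Gv h ξ η w T j x‖ ^ 2) ≤
      2 * a ^ 2 * (∑ j, ∫ x, ‖ee ξ η w j x‖ ^ 2) +
        2 * (∑ j, ∫ x, ‖gv ξ η T j x‖ ^ 2) := by
    have s1 : (∑ j, ∫ x, ‖ee ξ η w j x‖ ^ 2) = ∫ x, ∑ j, ‖ee ξ η w j x‖ ^ 2 :=
      (integral_finsetSum _ fun j _ => i1 j).symm
    have s2 : (∑ j, ∫ x, ‖gv ξ η T j x‖ ^ 2) = ∫ x, ∑ j, ‖gv ξ η T j x‖ ^ 2 :=
      (integral_finsetSum _ fun j _ => i2 j).symm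
    have s3 : (∑ j, ∫ x, ‖Gv h ξ η w T j x‖ ^ 2) = ∫ x, ∑ j, ‖Gv h ξ η w T j x‖ ^ 2 :=
      (integral_finsetSum _ fun j _ => i3 j).symm
    rw [s1, s2, s3, ← integral_const_mul, ← integral_const_mul, ← integral_add]
    · refine integral_mono (integrable_finsetSum _ fun j _ => i3 j) ?_ fun x => ?_
      · exact ((integrable_finsetSum _ fun j _ => i1 j).const_mul _).add
          ((integrable_finsetSum _ fun j _ => i2 j).const_mul _)
      · show ∑ j, ‖he h ξ η w j x + gv ξ η T j x‖ ^ 2 ≤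
          2 * a ^ 2 * ∑ j, ‖ee ξ η w j x‖ ^ 2 + 2 * ∑ j, ‖gv ξ η T j x‖ ^ 2
        have e1 : ∑ j, ‖he h ξ η w j x + gv ξ η T j x‖ ^ 2 ≤
            2 * ∑ j, ‖he h ξ η w j x‖ ^ 2 + 2 * ∑ j, ‖gv ξ η T j x‖ ^ 2 := by
          rw [Finset.mul_sum, Finset.mul_sum, ← Finset.sum_add_distrib]
          exact Finset.sum_le_sum fun j _ => norm_add_sq_le_two _ _
        have e2 := mat_cs (ha x) (fun k => ee ξ η w k x)
        have e3 : ∑ j, ‖he h ξ η w j x‖ ^ 2 ≤ a ^ 2 * ∑ k, ‖ee ξ η w k x‖ ^ 2 := e2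
        linarith
    · exact (integrable_finsetSum _ fun j _ => i1 j).const_mul _
    · exact (integrable_finsetSum _ fun j _ => i2 j).const_mul _
  have hE0 : 0 ≤ ∑ j, ∫ x, ‖ee ξ η w j x‖ ^ 2 :=
    Finset.sum_nonneg fun j _ => integral_nonneg fun x => sq_nonneg _
  have h6 : ∑ j, ∫ x, ‖ee ξ η w j x‖ ^ 2 ≤ C * ∑ j, ∫ x, ‖Gv h ξ η w T j x‖ ^ 2 := hk
  have h7 := mul_le_mul_of_nonneg_left h5 hC0
  have h8 := mul_le_mul_of_nonneg_right hC hE0
  have h9 : C * (2 * a ^ 2 * (∑ j, ∫ x, ‖ee ξ η w j x‖ ^ 2) +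
      2 * (∑ j, ∫ x, ‖gv ξ η T j x‖ ^ 2)) =
      C * (2 * a ^ 2) * (∑ j, ∫ x, ‖ee ξ η w j x‖ ^ 2) +
        2 * (C * ∑ j, ∫ x, ‖gv ξ η T j x‖ ^ 2) := by ring
  rw [h9] at h7
  have h10 : 4 * C * (∑ j, ∫ x, ‖gv ξ η T j x‖ ^ 2) =
      4 * (C * (∑ j, ∫ x, ‖gv ξ η T j x‖ ^ 2)) := by
    ring
  rw [h10]
  linarith

include P h0 h2 hw hws hT hTs hpde in
theorem stepB : (∑ j, cz ξ η j * ∫ x, gv ξ η T j x) =
    -(∑ j, cz ξ η j * ∫ x, he h ξ η w j x) := by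
  have hFT : ∀ f : E n → ℂ, FT f 0 = ∫ x, f x := by
    intro f
    unfold FT
    simp
  have hc1 : ∀ j, HasCompactSupport (ee ξ η w j) := fun j => compact_of_ball (ee_supp hws j)
  have hc2 : ∀ j, HasCompactSupport (gv ξ η T j) := fun j => compact_of_ball (gv_supp hTs j)
  have hc3 : ∀ j, HasCompactSupport (he h ξ η w j) := fun j => compact_of_ball (he_supp hws j)
  have hc4 : ∀ j, HasCompactSupport (Gv h ξ η w T j) := fun j =>
    compact_of_ball (Gv_supp hws hTs j)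
  have hphi : HasCompactSupport (phi ξ η w) := compact_of_ball (phi_supp hws)
  have hs1 : ∀ j, ContDiff ℝ 1 (fun y => Dc (cz ξ η j) j (phi ξ η w) y + Gv h ξ η w T j y) :=
    fun j => ((ee_cd hw j).add (Gv_cd P hw hT j)).of_le one_le_inf
  have hs2 : ∀ j, HasCompactSupport
      (fun y => Dc (cz ξ η j) j (phi ξ η w) y + Gv h ξ η w T j y) :=
    fun j => (hc1 j).add (hc4 j)
  have e1 : ∑ j, FT (Dc (cz ξ η j) j
      (fun y => Dc (cz ξ η j) j (phi ξ η w) y + Gv h ξ η w T j y)) 0 = 0 := by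
    rw [← FT_sum Finset.univ (fun j => Dc_cont (hs1 j)) (fun j =>
      (hs2 j).of_isClosed_subset (isClosed_tsupport _) (Dc_supp (Set.Subset.refl _))) 0]
    simp only [conj_eq P hw hT hpde]
    unfold FT
    simp
  have e2 : ∀ j, FT (Dc (cz ξ η j) j
      (fun y => Dc (cz ξ η j) j (phi ξ η w) y + Gv h ξ η w T j y)) 0 =
      cz ξ η j * (cz ξ η j * FT (phi ξ η w) 0 + ((∫ x, he h ξ η w j x) + (∫ x, gv ξ η T j x))) := by
    intro j
    rw [FT_Dc (hs1 j) (hs2 j), FT_add (Dc_cont ((phi_cd hw).of_le one_le_inf))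
      (hc1 j) (Gv_cd P hw hT j).continuous (hc4 j),
      FT_Dc ((phi_cd hw).of_le one_le_inf) hphi, hFT (Gv h ξ η w T j)]
    have e3 : (∫ x, Gv h ξ η w T j x) = (∫ x, he h ξ η w j x) + (∫ x, gv ξ η T j x) :=
      integral_add (int_c (he_cd P hw j).continuous (hc3 j))
        (int_c (gv_cd hT j).continuous (hc2 j))
    rw [e3]
    simp
  simp only [e2] at e1
  have e4 : ∑ j, cz ξ η j * (cz ξ η j * FT (phi ξ η w) 0 +
      ((∫ x, he h ξ η w j x) + (∫ x, gv ξ η T j x))) =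
      (∑ j, cz ξ η j ^ 2) * FT (phi ξ η w) 0 + (∑ j, cz ξ η j * ∫ x, he h ξ η w j x) +
        (∑ j, cz ξ η j * ∫ x, gv ξ η T j x) := by
    rw [Finset.sum_mul, ← Finset.sum_add_distrib, ← Finset.sum_add_distrib]
    refine Finset.sum_congr rfl fun j _ => by ring
  rw [e4, cz_sq h0 h2, zero_mul, zero_add] at e1
  linear_combination e1

end step

end Vale.Agent.P088.H207

end
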