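import Vale.Agent.P088.H207.F4

/-!
# P088: the bound of the Fourier transform of the perturbation
-/

open MeasureTheory Set Filter Topology
open scoped ContDiff Real

noncomputable section

namespace Vale.Agent.P088.H207

open Vale.Agent.P088.EYM Vale.Agent.P088.EYM.ES

set_option linter.all false

variable {n : ℕ} [NeZero n]

theorem amgm_inv {X P Q t : ℝ} (hP : 0 ≤ P) (hQ : 0 ≤ Q) (h : X ^ 2 ≤ P * Q) (ht : 0 < t) :
    2 * X ≤ t * P + Q / t := by
  have h1 : 0 ≤ t * P + Q / t := by positivity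
  have h2 : (2 * X) ^ 2 ≤ (t * P + Q / t) ^ 2 := by
    have h3 : (t * P + Q / t) ^ 2 = (t * P - Q / t) ^ 2 + 4 * (P * Q) := by
      field_simp
      ring
    rw [h3]
    nlinarith [sq_nonneg (t * P - Q / t)]
  exact (le_abs_self _).trans ((sq_le_sq.1 h2).trans (abs_of_nonneg h1).le)

/-- Cauchy-Schwarz for integrals. -/
theorem int_cs {F : E n → ℂ} {p q : E n → ℝ} (hF : Integrable F) (hp : Integrable p)
    (hq : Integrable q) (hp0 : ∀ x, 0 ≤ p x) (hq0 : ∀ x, 0 ≤ q x)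
    (h : ∀ x, ‖F x‖ ^ 2 ≤ p x * q x) : ‖∫ x, F x‖ ^ 2 ≤ (∫ x, p x) * (∫ x, q x) := by
  refine amgm (norm_nonneg _) (integral_nonneg hp0) (integral_nonneg hq0) fun t ht => ?_
  have h1 : ∀ x, 2 * ‖F x‖ ≤ t * p x + q x / t := fun x => amgm_inv (hp0 x) (hq0 x) (h x) ht
  have h2 : (∫ x, 2 * ‖F x‖) ≤ ∫ x, (t * p x + q x / t) :=
    integral_mono (hF.norm.const_mul 2) ((hp.const_mul t).add (hq.div_const t)) h1
  rw [integral_add (hp.const_mul t) (hq.div_const t), integral_const_mul, integral_const_mul,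
    integral_div] at h2
  have h3 := norm_integral_le_integral_norm (μ := (volume : Measure (E n))) F
  linarith

/-- Cauchy-Schwarz for the matrix `h` -/
theorem mat_cs' (H : Fin n → Fin n → ℝ)
    (e : Fin n → ℂ) : ∑ j, ‖∑ k, (H j k : ℂ) * e k‖ ^ 2 ≤
      (∑ j, ∑ k, H j k ^ 2) * ∑ k, ‖e k‖ ^ 2 := by
  have h0 : 0 ≤ ∑ j, ∑ k, H j k ^ 2 :=
    Finset.sum_nonneg fun j _ => Finset.sum_nonneg fun k _ => sq_nonneg _
  have h1 := mat_cs (H := H) (a := Real.sqrt (∑ j, ∑ k, H j k ^ 2))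
    (by rw [Real.sq_sqrt h0]) e
  rwa [Real.sq_sqrt h0] at h1

theorem vec_cs (c v : Fin n → ℂ) : ‖∑ j, c j * v j‖ ^ 2 ≤ (∑ j, ‖c j‖ ^ 2) * ∑ j, ‖v j‖ ^ 2 := by
  have h2 : ‖∑ j, c j * v j‖ ≤ ∑ j, ‖c j‖ * ‖v j‖ := by
    refine (norm_sum_le _ _).trans (le_of_eq ?_)
    refine Finset.sum_congr rfl fun k _ => ?_
    rw [norm_mul]
  refine (pow_le_pow_left₀ (norm_nonneg _) h2 2).trans ?_
  exact Finset.sum_mul_sq_le_sq_mul_sq _ _ _

/-- the square of the `L²` norm -/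
def HH (h : Fin n → Fin n → E n → ℝ) : ℝ := ∑ j, ∑ k, ∫ x, h j k x ^ 2

/-- the Fourier transform of the perturbation -/
def hF (h : Fin n → Fin n → E n → ℝ) (j k : Fin n) (ξ : E n) : ℂ := FT (fun x => (h j k x : ℂ)) ξ

section

variable {h : Fin n → Fin n → E n → ℝ} (P : Pert h)

include P

theorem Pert.cd (j k : Fin n) : ContDiff ℝ ∞ fun x => (h j k x : ℂ) :=
  Complex.ofRealCLM.contDiff.comp (P.sm j k)

theorem Pert.supp' (j k : Fin n) : tsupport (fun x => (h j k x : ℂ)) ⊆ Metric.ball 0 (1 / 2) := by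
  refine Subset.trans (closure_mono fun x hx => ?_) (P.supp j k)
  intro h0
  apply hx
  show ((h j k x : ℝ) : ℂ) = 0
  rw [h0, Complex.ofReal_zero]

theorem Pert.cs (j k : Fin n) : HasCompactSupport fun x => (h j k x : ℂ) :=
  compact_of_ball (P.supp' j k)

theorem Pert.sq_int (j k : Fin n) : Integrable fun x => h j k x ^ 2 := by
  have h1 := int_sq (P.cd j k).continuous (P.cs j k)
  refine h1.congr (ae_of_all _ fun x => ?_)
  show ‖((h j k x : ℝ) : ℂ)‖ ^ 2 = _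
  rw [Complex.norm_real, Real.norm_eq_abs, sq_abs]

theorem Pert.HH_eq : HH h = ∫ x, ∑ j, ∑ k, h j k x ^ 2 := by
  unfold HH
  rw [integral_finsetSum _ fun j _ => integrable_finsetSum _ fun k _ => P.sq_int j k]
  refine Finset.sum_congr rfl fun j _ => ?_
  rw [integral_finsetSum _ fun k _ => P.sq_int j k]

theorem Pert.tot_int : Integrable fun x => ∑ j, ∑ k, h j k x ^ 2 :=
  integrable_finsetSum _ fun j _ => integrable_finsetSum _ fun k _ => P.sq_int j k

theorem Pert.HH_nonneg : 0 ≤ HH h :=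
  Finset.sum_nonneg fun j _ => Finset.sum_nonneg fun k _ => integral_nonneg fun x => sq_nonneg _

theorem Pert.zero_of_notMem (j k : Fin n) {x : E n} (hx : x ∉ Metric.ball (0 : E n) (1 / 2)) :
    h j k x = 0 :=
  image_eq_zero_of_notMem_tsupport fun h1 => hx (P.supp j k h1)

end

section step

variable {h : Fin n → Fin n → E n → ℝ} (P : Pert h) {a : ℝ}
  (ha : ∀ x, ∑ j, ∑ k, h j k x ^ 2 ≤ a ^ 2) {ξ η : E n} (h0 : (inner ℝ ξ η : ℝ) = 0)
  (h2 : ‖ξ‖ = 2 * ‖η‖) (hη : η ≠ 0)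
  (hC : (3 * (1 + ‖ξ‖)) ^ 2 * (2 * a ^ 2) ≤ 1 / 2)
  {w : E n → ℂ} {T : Fin n → E n → ℂ} (hw : ContDiff ℝ ∞ w)
  (hws : tsupport w ⊆ Metric.ball 0 (1 / 2)) (hT : ∀ j, ContDiff ℝ ∞ (T j))
  (hTs : ∀ j, tsupport (T j) ⊆ Metric.ball 0 (1 / 2))
  (hpde : ∀ x, ∑ j, fderiv ℝ (fun y => fderiv ℝ w y (ev j) +
        (∑ k, (h j k y : ℂ) * fderiv ℝ w y (ev k) + T j y)) x (ev j) = 0)
  {δ : ℝ} (hδ : ∑ j, ∫ x, ‖T j x - ∑ k, (h j k x : ℂ) * (zz ξ η k * ez (zz ξ η) x)‖ ^ 2 ≤ δ)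

/-- the main part of the source -/
def pp (h : Fin n → Fin n → E n → ℝ) (ξ η : E n) (j : Fin n) (x : E n) : ℂ :=
  Complex.exp (-(Complex.I * ((inner ℝ ξ x : ℝ) : ℂ))) * ∑ k, (h j k x : ℂ) * zz ξ η k

/-- the error part of the source -/
def uu (h : Fin n → Fin n → E n → ℝ) (ξ η : E n) (T : Fin n → E n → ℂ) (j : Fin n) (x : E n) : ℂ :=
  T j x - ∑ k, (h j k x : ℂ) * (zz ξ η k * ez (zz ξ η) x)

/-- the error part of the source -/
def rr (h : Fin n → Fin n → E n → ℝ) (ξ η : E n) (T : Fin n → E n → ℂ) (j : Fin n) (x : E n) : ℂ :=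
  ez (-cz ξ η) x * uu h ξ η T j x

theorem gv_split (j : Fin n) (x : E n) : gv ξ η T j x = pp h ξ η j x + rr h ξ η T j x := by
  show ez (-cz ξ η) x * T j x = _
  unfold pp rr uu
  rw [← ez_mul]
  have h1 : ∑ k, (h j k x : ℂ) * (zz ξ η k * ez (zz ξ η) x) =
      (∑ k, (h j k x : ℂ) * zz ξ η k) * ez (zz ξ η) x := by
    rw [Finset.sum_mul]
    exact Finset.sum_congr rfl fun k _ => by ring
  rw [h1]
  ring

include P in
theorem pp_cont (j : Fin n) : Continuous (pp h ξ η j) := by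
  unfold pp
  have h1 : ∀ k, Continuous fun x => (h j k x : ℂ) := fun k => (P.cd j k).continuous
  have h2 : Continuous fun x => ∑ k, (h j k x : ℂ) * zz ξ η k :=
    continuous_finset_sum _ fun k _ => (h1 k).mul continuous_const
  have h3 : Continuous fun x : E n => Complex.exp (-(Complex.I * ((inner ℝ ξ x : ℝ) : ℂ))) := by
    fun_prop
  exact h3.mul h2

include P in
theorem pp_zero (j : Fin n) {x : E n} (hx : x ∉ Metric.ball (0 : E n) (1 / 2)) :
    pp h ξ η j x = 0 := by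
  unfold pp
  have h1 : ∑ k, (h j k x : ℂ) * zz ξ η k = 0 := by
    refine Finset.sum_eq_zero fun k _ => ?_
    rw [P.zero_of_notMem j k hx, Complex.ofReal_zero, zero_mul]
  rw [h1, mul_zero]

include P hT in
theorem uu_cont (j : Fin n) : Continuous (uu h ξ η T j) := by
  unfold uu
  have h1 : ∀ k, Continuous fun x => (h j k x : ℂ) := fun k => (P.cd j k).continuous
  exact (hT j).continuous.sub (continuous_finset_sum _ fun k _ =>
    (h1 k).mul (continuous_const.mul (ez_contDiff _).continuous))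

include P hTs in
theorem uu_zero (j : Fin n) {x : E n} (hx : x ∉ Metric.ball (0 : E n) (1 / 2)) :
    uu h ξ η T j x = 0 := by
  unfold uu
  have h1 : ∑ k, (h j k x : ℂ) * (zz ξ η k * ez (zz ξ η) x) = 0 := by
    refine Finset.sum_eq_zero fun k _ => ?_
    rw [P.zero_of_notMem j k hx, Complex.ofReal_zero, zero_mul]
  rw [h1, image_eq_zero_of_notMem_tsupport fun h1 => hx (hTs j h1), sub_zero]

omit [NeZero n] in
theorem cs_of_zero {f : E n → ℂ} (hf : ∀ x, x ∉ Metric.ball (0 : E n) (1 / 2) → f x = 0) :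
    HasCompactSupport f :=
  HasCompactSupport.intro (isCompact_closedBall (0 : E n) (1 / 2)) fun x hx =>
    hf x fun h1 => hx (Metric.ball_subset_closedBall h1)

theorem ez_bound {x : E n} (hx : x ∈ Metric.ball (0 : E n) (1 / 2)) :
    ‖ez (-cz ξ η) x‖ ^ 2 ≤ Real.exp ‖η‖ := by
  have h1 : ∑ l, ((-cz ξ η) l).re * x l = -(inner ℝ η x : ℝ) := by
    rw [PiLp.inner_apply, ← Finset.sum_neg_distrib]
    refine Finset.sum_congr rfl fun l _ => ?_
    simp [cz, mul_comm]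
  rw [ez_norm, h1, ← Real.exp_nat_mul]
  refine Real.exp_le_exp.2 ?_
  have h3 := abs_real_inner_le_norm η x
  have h4 := neg_abs_le (inner ℝ η x : ℝ)
  rw [mem_ball_zero_iff] at hx
  push_cast
  nlinarith [norm_nonneg η, norm_nonneg x]

include P hT hTs hδ in
theorem rr_int : ∑ j, ∫ x, ‖rr h ξ η T j x‖ ^ 2 ≤ Real.exp ‖η‖ * δ := by
  have hc : ∀ j, HasCompactSupport (uu h ξ η T j) := fun j =>
    cs_of_zero fun x hx => uu_zero P hTs j hx
  have h1 : ∀ j, (∫ x, ‖rr h ξ η T j x‖ ^ 2) ≤ Real.exp ‖η‖ * ∫ x, ‖uu h ξ η T j x‖ ^ 2 := by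
    intro j
    rw [← integral_const_mul]
    refine integral_mono ?_ ((int_sq (uu_cont P hT j) (hc j)).const_mul _) fun x => ?_
    · exact int_sq ((ez_contDiff _).continuous.mul (uu_cont P hT j)) ((hc j).mul_left)
    · show ‖ez (-cz ξ η) x * uu h ξ η T j x‖ ^ 2 ≤ Real.exp ‖η‖ * ‖uu h ξ η T j x‖ ^ 2
      rw [norm_mul, mul_pow]
      by_cases hx : x ∈ Metric.ball (0 : E n) (1 / 2)
      · exact mul_le_mul_of_nonneg_right (ez_bound hx) (sq_nonneg _)
      · rw [uu_zero P hTs j hx]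
        simp
  calc ∑ j, ∫ x, ‖rr h ξ η T j x‖ ^ 2 ≤ ∑ j, Real.exp ‖η‖ * ∫ x, ‖uu h ξ η T j x‖ ^ 2 :=
        Finset.sum_le_sum fun j _ => h1 j
    _ = Real.exp ‖η‖ * ∑ j, ∫ x, ‖uu h ξ η T j x‖ ^ 2 := by rw [Finset.mul_sum]
    _ ≤ Real.exp ‖η‖ * δ := mul_le_mul_of_nonneg_left hδ (Real.exp_pos _).le

include P h2 in
theorem pp_int : ∑ j, ∫ x, ‖pp h ξ η j x‖ ^ 2 ≤ 2 * ‖η‖ ^ 2 * HH h := by
  have hc : ∀ j, HasCompactSupport (pp h ξ η j) := fun j =>
    cs_of_zero fun x hx => pp_zero P j hx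
  rw [← integral_finsetSum _ fun j _ => int_sq (pp_cont P j) (hc j), P.HH_eq,
    ← integral_const_mul]
  refine integral_mono (integrable_finsetSum _ fun j _ => int_sq (pp_cont P j) (hc j))
    (P.tot_int.const_mul _) fun x => ?_
  show ∑ j, ‖pp h ξ η j x‖ ^ 2 ≤ 2 * ‖η‖ ^ 2 * ∑ j, ∑ k, h j k x ^ 2
  have h3 : ∀ j, ‖pp h ξ η j x‖ = ‖∑ k, (h j k x : ℂ) * zz ξ η k‖ := by
    intro j
    unfold pp
    rw [norm_mul]
    have e2 : ‖Complex.exp (-(Complex.I * ((inner ℝ ξ x : ℝ) : ℂ)))‖ = 1 := by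
      rw [← mul_neg, ← Complex.ofReal_neg, mul_comm, Complex.norm_exp_ofReal_mul_I]
    rw [e2, one_mul]
  simp only [h3]
  have h4 := mat_cs' (fun j k => h j k x) (zz ξ η)
  rw [zz_norm h2] at h4
  linarith

include P h2 hT hTs hδ in
theorem gv_int : ∑ j, ∫ x, ‖gv ξ η T j x‖ ^ 2 ≤
    4 * ‖η‖ ^ 2 * HH h + 2 * (Real.exp ‖η‖ * δ) := by
  have hcp : ∀ j, HasCompactSupport (pp h ξ η j) := fun j =>
    cs_of_zero fun x hx => pp_zero P j hx
  have hcu : ∀ j, HasCompactSupport (uu h ξ η T j) := fun j =>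
    cs_of_zero fun x hx => uu_zero P hTs j hx
  have hcr : ∀ j, HasCompactSupport (rr h ξ η T j) := fun j => (hcu j).mul_left
  have hrc : ∀ j, Continuous (rr h ξ η T j) := fun j =>
    (ez_contDiff _).continuous.mul (uu_cont P hT j)
  have h1 : ∀ j, (∫ x, ‖gv ξ η T j x‖ ^ 2) ≤
      2 * (∫ x, ‖pp h ξ η j x‖ ^ 2) + 2 * (∫ x, ‖rr h ξ η T j x‖ ^ 2) := by
    intro j
    have i1 := int_sq (pp_cont P (ξ := ξ) (η := η) j) (hcp j)
    have i2 := int_sq (hrc j) (hcr j)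
    rw [← integral_const_mul, ← integral_const_mul, ← integral_add (i1.const_mul 2)
      (i2.const_mul 2)]
    refine integral_mono ?_ ((i1.const_mul 2).add (i2.const_mul 2)) fun x => ?_
    · exact int_sq (gv_cd hT j).continuous (compact_of_ball (gv_supp hTs j))
    · show ‖gv ξ η T j x‖ ^ 2 ≤ 2 * ‖pp h ξ η j x‖ ^ 2 + 2 * ‖rr h ξ η T j x‖ ^ 2
      rw [gv_split (h := h) j x]
      exact norm_add_sq_le_two _ _
  have h3 := Finset.sum_le_sum fun j (_ : j ∈ Finset.univ) => h1 j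
  rw [Finset.sum_add_distrib, ← Finset.mul_sum, ← Finset.mul_sum] at h3
  have h4 := pp_int P h2
  have h5 := rr_int P hT hTs hδ
  linarith

include P in
theorem pp_FT (j : Fin n) : (∫ x, pp h ξ η j x) = ∑ k, zz ξ η k * hF h j k ξ := by
  unfold pp hF FT
  simp only [← integral_const_mul]
  rw [← integral_finsetSum]
  · refine integral_congr_ae (ae_of_all _ fun x => ?_)
    simp only
    rw [Finset.mul_sum]
    exact Finset.sum_congr rfl fun k _ => by ring
  · intro k _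
    exact (FT_integrable (P.cd j k).continuous (P.cs j k) ξ).const_mul _

include P ha h0 h2 hη hC hw hws hT hTs hpde hδ in
theorem Q_pre : ‖∑ j, ∑ k, cz ξ η j * zz ξ η k * hF h j k ξ‖ ^ 2 ≤
    64 * (3 * (1 + ‖ξ‖)) ^ 2 * ‖η‖ ^ 4 * HH h ^ 2 +
      (32 * (3 * (1 + ‖ξ‖)) ^ 2 * ‖η‖ ^ 2 * HH h * Real.exp ‖η‖ +
        4 * ‖η‖ ^ 2 * (volume (Metric.ball (0 : E n) (1 / 2))).toReal * Real.exp ‖η‖) * δ := by
  have hcp : ∀ j, HasCompactSupport (pp h ξ η j) := fun j =>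
    cs_of_zero fun x hx => pp_zero P j hx
  have hcu : ∀ j, HasCompactSupport (uu h ξ η T j) := fun j =>
    cs_of_zero fun x hx => uu_zero P hTs j hx
  have hcr : ∀ j, HasCompactSupport (rr h ξ η T j) := fun j => (hcu j).mul_left
  have hrc : ∀ j, Continuous (rr h ξ η T j) := fun j =>
    (ez_contDiff _).continuous.mul (uu_cont P hT j)
  have hce : ∀ j, HasCompactSupport (ee ξ η w j) := fun j => compact_of_ball (ee_supp hws j)
  have hch : ∀ j, HasCompactSupport (he h ξ η w j) := fun j => compact_of_ball (he_supp hws j)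
  -- the two parts
  have hB := stepB P h0 h2 hw hws hT hTs hpde
  have hA := stepA P ha h0 h2 hη hC hw hws hT hTs hpde
  have hg := gv_int P h2 hT hTs hδ
  set C := (3 * (1 + ‖ξ‖)) ^ 2 with hCd
  have hC0 : 0 ≤ C := sq_nonneg _
  have e1 : ∀ j, (∫ x, gv ξ η T j x) = (∫ x, pp h ξ η j x) + (∫ x, rr h ξ η T j x) := by
    intro j
    rw [← integral_add (int_c (pp_cont P j) (hcp j)) (int_c (hrc j) (hcr j))]
    exact integral_congr_ae (ae_of_all _ fun x => gv_split (h := h) j x)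
  have e2 : ∑ j, ∑ k, cz ξ η j * zz ξ η k * hF h j k ξ =
      ∑ j, cz ξ η j * ∫ x, pp h ξ η j x := by
    refine Finset.sum_congr rfl fun j _ => ?_
    rw [pp_FT P j, Finset.mul_sum]
    exact Finset.sum_congr rfl fun k _ => by ring
  have e3 : (∑ j, cz ξ η j * ∫ x, pp h ξ η j x) =
      -((∫ x, ∑ j, cz ξ η j * he h ξ η w j x) + (∫ x, ∑ j, cz ξ η j * rr h ξ η T j x)) := by
    rw [integral_finsetSum _ fun j _ => (int_c (he_cd P hw j).continuous (hch j)).const_mul _,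
      integral_finsetSum _ fun j _ => (int_c (hrc j) (hcr j)).const_mul _]
    simp only [integral_const_mul]
    simp only [e1, mul_add, Finset.sum_add_distrib] at hB
    linear_combination hB
  rw [e2, e3, norm_neg]
  have ie : ∀ j, Integrable fun x => ‖ee ξ η w j x‖ ^ 2 := fun j =>
    int_sq (ee_cd hw j).continuous (hce j)
  have ir : ∀ j, Integrable fun x => ‖rr h ξ η T j x‖ ^ 2 := fun j => int_sq (hrc j) (hcr j)
  have b1 : ‖∫ x, ∑ j, cz ξ η j * he h ξ η w j x‖ ^ 2 ≤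
      (2 * ‖η‖ ^ 2 * HH h) * (∑ j, ∫ x, ‖ee ξ η w j x‖ ^ 2) := by
    have h5 := int_cs (F := fun x => ∑ j, cz ξ η j * he h ξ η w j x)
      (p := fun x => 2 * ‖η‖ ^ 2 * ∑ j, ∑ k, h j k x ^ 2)
      (q := fun x => ∑ j, ‖ee ξ η w j x‖ ^ 2)
      (integrable_finsetSum _ fun j _ =>
        (int_c (he_cd P hw j).continuous (hch j)).const_mul _)
      (P.tot_int.const_mul _) (integrable_finsetSum _ fun j _ => ie j)
      (fun x => mul_nonneg (by positivity)
        (Finset.sum_nonneg fun j _ => Finset.sum_nonneg fun k _ => sq_nonneg _))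
      (fun x => Finset.sum_nonneg fun j _ => sq_nonneg _) (fun x => by
        have h6 := vec_cs (cz ξ η) (fun j => he h ξ η w j x)
        rw [cz_norm h2] at h6
        have h7 := mat_cs' (fun j k => h j k x) (fun k => ee ξ η w k x)
        have h8 : ∑ j, ‖he h ξ η w j x‖ ^ 2 ≤
          (∑ j, ∑ k, h j k x ^ 2) * ∑ k, ‖ee ξ η w k x‖ ^ 2 := h7
        have h9 := mul_le_mul_of_nonneg_left h8 (show (0 : ℝ) ≤ 2 * ‖η‖ ^ 2 by positivity)
        show ‖∑ j, cz ξ η j * he h ξ η w j x‖ ^ 2 ≤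
          (2 * ‖η‖ ^ 2 * ∑ j, ∑ k, h j k x ^ 2) * ∑ j, ‖ee ξ η w j x‖ ^ 2
        linarith)
    rw [integral_const_mul, ← P.HH_eq, integral_finsetSum _ fun j _ => ie j] at h5
    exact h5
  have b2 : ‖∫ x, ∑ j, cz ξ η j * rr h ξ η T j x‖ ^ 2 ≤
      (2 * ‖η‖ ^ 2 * (volume (Metric.ball (0 : E n) (1 / 2))).toReal) *
        (∑ j, ∫ x, ‖rr h ξ η T j x‖ ^ 2) := by
    have h5 := int_cs (F := fun x => ∑ j, cz ξ η j * rr h ξ η T j x)
      (p := fun x => (Metric.ball (0 : E n) (1 / 2)).indicator (fun _ => 2 * ‖η‖ ^ 2) x)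
      (q := fun x => ∑ j, ‖rr h ξ η T j x‖ ^ 2)
      (integrable_finsetSum _ fun j _ => (int_c (hrc j) (hcr j)).const_mul _)
      ((integrable_indicator_iff Metric.isOpen_ball.measurableSet).2
        (integrableOn_const (by exact measure_ball_lt_top.ne)))
      (integrable_finsetSum _ fun j _ => ir j)
      (fun x => indicator_nonneg (fun _ _ => by positivity) x)
      (fun x => Finset.sum_nonneg fun j _ => sq_nonneg _) (fun x => by
        have h6 := vec_cs (cz ξ η) (fun j => rr h ξ η T j x)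
        rw [cz_norm h2] at h6
        by_cases hx : x ∈ Metric.ball (0 : E n) (1 / 2)
        · simp only [indicator_of_mem hx]
          exact h6
        · have h7 : ∀ j, rr h ξ η T j x = 0 := fun j => by
            unfold rr
            rw [uu_zero P hTs j hx, mul_zero]
          simp [h7])
    rw [integral_indicator Metric.isOpen_ball.measurableSet, setIntegral_const, smul_eq_mul,
      integral_finsetSum _ fun j _ => ir j] at h5
    rw [mul_comm (2 * ‖η‖ ^ 2)]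
    exact h5
  have b3 := rr_int P hT hTs hδ
  have b4 := norm_add_sq_le_two (∫ x, ∑ j, cz ξ η j * he h ξ η w j x)
    (∫ x, ∑ j, cz ξ η j * rr h ξ η T j x)
  have hV : 0 ≤ (volume (Metric.ball (0 : E n) (1 / 2))).toReal := ENNReal.toReal_nonneg
  have hH := P.HH_nonneg
  have b5 : (2 * ‖η‖ ^ 2 * HH h) * (∑ j, ∫ x, ‖ee ξ η w j x‖ ^ 2) ≤
      (2 * ‖η‖ ^ 2 * HH h) * (4 * C * (4 * ‖η‖ ^ 2 * HH h + 2 * (Real.exp ‖η‖ * δ))) := by
    refine mul_le_mul_of_nonneg_left (hA.trans ?_) (by positivity)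
    exact mul_le_mul_of_nonneg_left hg (by positivity)
  have b6 : (2 * ‖η‖ ^ 2 * (volume (Metric.ball (0 : E n) (1 / 2))).toReal) *
        (∑ j, ∫ x, ‖rr h ξ η T j x‖ ^ 2) ≤
      (2 * ‖η‖ ^ 2 * (volume (Metric.ball (0 : E n) (1 / 2))).toReal) * (Real.exp ‖η‖ * δ) :=
    mul_le_mul_of_nonneg_left b3 (by positivity)
  have b7 := b1.trans b5
  have b8 := b2.trans b6
  refine b4.trans ?_
  nlinarith

end step

end Vale.Agent.P088.H207

end
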