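import Vale.Agent.P088.H207.F5

/-!
# P088: the bound of the entries
-/

open MeasureTheory Set Filter Topology
open scoped ContDiff Real

noncomputable section

namespace Vale.Agent.P088.H207

open Vale.Agent.P088.EYM Vale.Agent.P088.EYM.ES

set_option linter.all false

variable {n : ℕ} [NeZero n]

section step

variable {h : Fin n → Fin n → E n → ℝ} (P : Pert h) (hE : Ex h) {a : ℝ}
  (ha : ∀ x, ∑ j, ∑ k, h j k x ^ 2 ≤ a ^ 2)

include P hE ha in
theorem Q_bound {ξ η : E n} (h0 : (inner ℝ ξ η : ℝ) = 0)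
    (h2 : ‖ξ‖ = 2 * ‖η‖) (hη : η ≠ 0)
    (hC : (3 * (1 + ‖ξ‖)) ^ 2 * (2 * a ^ 2) ≤ 1 / 2) :
    ‖∑ j, ∑ k, cz ξ η j * zz ξ η k * hF h j k ξ‖ ≤ 24 * (1 + ‖ξ‖) * ‖η‖ ^ 2 * HH h := by
  have hH := P.HH_nonneg
  have hV : 0 ≤ (volume (Metric.ball (0 : E n) (1 / 2))).toReal := ENNReal.toReal_nonneg
  set K := (32 * (3 * (1 + ‖ξ‖)) ^ 2 * ‖η‖ ^ 2 * HH h * Real.exp ‖η‖ +
        4 * ‖η‖ ^ 2 * (volume (Metric.ball (0 : E n) (1 / 2))).toReal * Real.exp ‖η‖) with hK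
  have hK0 : 0 ≤ K := by positivity
  have h1 : ‖∑ j, ∑ k, cz ξ η j * zz ξ η k * hF h j k ξ‖ ^ 2 ≤
      64 * (3 * (1 + ‖ξ‖)) ^ 2 * ‖η‖ ^ 4 * HH h ^ 2 := by
    refine le_of_forall_pos_le_add fun ε hε => ?_
    obtain ⟨w, T, hw, hws, hT, hTs, hpde, hδ⟩ := hE ξ η h0 h2 hη (ε / (K + 1)) (by positivity)
    have h3 := Q_pre P ha h0 h2 hη hC hw hws hT hTs hpde hδ
    rw [← hK] at h3
    refine h3.trans ?_
    have h4 : K * (ε / (K + 1)) ≤ ε := by
      rw [← mul_div_assoc, div_le_iff₀ (by positivity)]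
      nlinarith
    linarith
  have h3 : 64 * (3 * (1 + ‖ξ‖)) ^ 2 * ‖η‖ ^ 4 * HH h ^ 2 =
      (24 * (1 + ‖ξ‖) * ‖η‖ ^ 2 * HH h) ^ 2 := by ring
  rw [h3] at h1
  have h4 : 0 ≤ 24 * (1 + ‖ξ‖) * ‖η‖ ^ 2 * HH h := by positivity
  exact (sq_le_sq₀ (norm_nonneg _) h4).1 h1

include P in
theorem hF_symm (j k : Fin n) (ξ : E n) : hF h j k ξ = hF h k j ξ := by
  unfold hF
  congr 1
  funext x
  rw [P.symm j k x]

include P in
theorem hF_div (j : Fin n) (ξ : E n) : ∑ k, (ξ k : ℂ) * hF h j k ξ = 0 := by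
  have h1 : ∀ k x, fderiv ℝ (fun x => (h j k x : ℂ)) x (ev k) =
      ((fderiv ℝ (h j k) x (ev k) : ℝ) : ℂ) := by
    intro k x
    have h2 : HasFDerivAt (fun x => (h j k x : ℂ))
        (Complex.ofRealCLM ∘L fderiv ℝ (h j k) x) x :=
      Complex.ofRealCLM.hasFDerivAt.comp x
        ((P.sm j k).differentiable (by simp) x).hasFDerivAt
    rw [h2.fderiv]
    rfl
  have h3 : ∑ k, FT (fun x => fderiv ℝ (fun x => (h j k x : ℂ)) x (ev k)) ξ = 0 := by
    rw [← FT_sum Finset.univ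
      (f := fun k x => fderiv ℝ (fun x => (h j k x : ℂ)) x (ev k))
      (fun k => (((P.cd j k).of_le one_le_inf).continuous_fderiv one_ne_zero).clm_apply
        continuous_const) (fun k => (P.cs j k).fderiv_apply (𝕜 := ℝ) _) ξ]
    have h4 : (fun x => ∑ k, fderiv ℝ (fun x => (h j k x : ℂ)) x (ev k)) = fun x => 0 := by
      funext x
      simp only [h1]
      rw [← Complex.ofReal_sum, P.div j x, Complex.ofReal_zero]
    rw [h4]
    unfold FT
    simp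
  have h5 : ∀ k, FT (fun x => fderiv ℝ (fun x => (h j k x : ℂ)) x (ev k)) ξ =
      Complex.I * (ξ k : ℂ) * hF h j k ξ := by
    intro k
    rw [FT_pd ((P.cd j k).of_le one_le_inf) (P.cs j k)]
    have h6 : (inner ℝ ξ (ev k : E n) : ℝ) = ξ k := by
      simp [ev, EuclideanSpace.inner_single_right]
    rw [h6]
    rfl
  simp only [h5] at h3
  have h7 : ∑ k, Complex.I * (ξ k : ℂ) * hF h j k ξ =
      Complex.I * ∑ k, (ξ k : ℂ) * hF h j k ξ := by
    rw [Finset.mul_sum]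
    exact Finset.sum_congr rfl fun k _ => by ring
  rw [h7] at h3
  exact (mul_eq_zero.1 h3).resolve_left Complex.I_ne_zero

/-- the bilinear form of the Fourier transform -/
def BB (h : Fin n → Fin n → E n → ℝ) (ξ u v : E n) : ℂ :=
  ∑ j, ∑ k, (u j : ℂ) * (v k : ℂ) * hF h j k ξ

include P in
theorem BB_symm (ξ u v : E n) : BB h ξ u v = BB h ξ v u := by
  unfold BB
  rw [Finset.sum_comm]
  refine Finset.sum_congr rfl fun j _ => Finset.sum_congr rfl fun k _ => ?_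
  rw [hF_symm P k j]
  ring

theorem BB_add_left (ξ u u' v : E n) : BB h ξ (u + u') v = BB h ξ u v + BB h ξ u' v := by
  unfold BB
  simp only [PiLp.add_apply, Complex.ofReal_add, add_mul, Finset.sum_add_distrib]

theorem BB_smul_left (ξ : E n) (c : ℝ) (u v : E n) : BB h ξ (c • u) v = c * BB h ξ u v := by
  unfold BB
  simp only [PiLp.smul_apply, smul_eq_mul, Complex.ofReal_mul, Finset.mul_sum]
  refine Finset.sum_congr rfl fun j _ => Finset.sum_congr rfl fun k _ => by ring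

include P in
theorem BB_add_right (ξ u v v' : E n) : BB h ξ u (v + v') = BB h ξ u v + BB h ξ u v' := by
  rw [BB_symm P, BB_add_left, BB_symm P, BB_symm P ξ v']

include P in
theorem BB_smul_right (ξ : E n) (c : ℝ) (u v : E n) : BB h ξ u (c • v) = c * BB h ξ u v := by
  rw [BB_symm P, BB_smul_left, BB_symm P]

include P in
theorem BB_xi_right (ξ u : E n) : BB h ξ u ξ = 0 := by
  unfold BB
  have h1 : ∀ j, ∑ k, (u j : ℂ) * (ξ k : ℂ) * hF h j k ξ =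
      (u j : ℂ) * ∑ k, (ξ k : ℂ) * hF h j k ξ := by
    intro j
    rw [Finset.mul_sum]
    exact Finset.sum_congr rfl fun k _ => by ring
  simp only [h1, hF_div P, mul_zero, Finset.sum_const_zero]

include P in
theorem BB_xi_left (ξ u : E n) : BB h ξ ξ u = 0 := by rw [BB_symm P, BB_xi_right P]

include P in
theorem Q_eq (ξ η : E n) : ∑ j, ∑ k, cz ξ η j * zz ξ η k * hF h j k ξ = BB h ξ η η := by
  have h1 : ∑ j, ∑ k, cz ξ η j * zz ξ η k * hF h j k ξ =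
      BB h ξ η η + (Complex.I / 2) * BB h ξ ξ η - (Complex.I / 2) * BB h ξ η ξ +
        (1 / 4) * BB h ξ ξ ξ := by
    unfold BB
    simp only [Finset.mul_sum]
    rw [← Finset.sum_add_distrib, ← Finset.sum_sub_distrib, ← Finset.sum_add_distrib]
    refine Finset.sum_congr rfl fun j _ => ?_
    rw [← Finset.sum_add_distrib, ← Finset.sum_sub_distrib, ← Finset.sum_add_distrib]
    refine Finset.sum_congr rfl fun k _ => ?_
    unfold cz zz
    linear_combination (-(ξ j : ℂ) * (ξ k : ℂ) * hF h j k ξ / 4) * Complex.I_sq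
  rw [h1, BB_xi_left P, BB_xi_right P, BB_xi_left P]
  ring

include P hE ha in
theorem BB_quad {ξ v : E n} (hξ : ξ ≠ 0) (h0 : (inner ℝ ξ v : ℝ) = 0)
    (hC : (3 * (1 + ‖ξ‖)) ^ 2 * (2 * a ^ 2) ≤ 1 / 2) :
    ‖BB h ξ v v‖ ≤ 24 * (1 + ‖ξ‖) * HH h * ‖v‖ ^ 2 := by
  by_cases hv : v = 0
  · subst hv
    have h1 : BB h ξ (0 : E n) 0 = 0 := by
      have := BB_smul_left (h := h) ξ 0 (0 : E n) 0
      rw [zero_smul] at this
      rw [this]
      simp
    rw [h1]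
    simp
  have hv0 : 0 < ‖v‖ := norm_pos_iff.2 hv
  have hx0 : 0 < ‖ξ‖ := norm_pos_iff.2 hξ
  set t := ‖ξ‖ / (2 * ‖v‖) with ht
  have ht0 : 0 < t := by positivity
  have h1 : (inner ℝ ξ (t • v) : ℝ) = 0 := by rw [inner_smul_right, h0, mul_zero]
  have h3 : ‖t • v‖ = t * ‖v‖ := by rw [norm_smul, Real.norm_eq_abs, abs_of_pos ht0]
  have h2 : ‖ξ‖ = 2 * ‖t • v‖ := by
    rw [h3, ht]
    field_simp
  have h4 : t • v ≠ 0 := smul_ne_zero ht0.ne' hv
  have h5 := Q_bound P hE ha h1 h2 h4 hC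
  rw [Q_eq P, BB_smul_left, BB_smul_right P, norm_mul, norm_mul, Complex.norm_real,
    Real.norm_eq_abs, abs_of_pos ht0, h3] at h5
  have h6 : t * (t * ‖BB h ξ v v‖) = t ^ 2 * ‖BB h ξ v v‖ := by ring
  have h7 : 24 * (1 + ‖ξ‖) * (t * ‖v‖) ^ 2 * HH h =
    t ^ 2 * (24 * (1 + ‖ξ‖) * HH h * ‖v‖ ^ 2) := by ring
  rw [h6, h7] at h5
  exact le_of_mul_le_mul_left h5 (by positivity)

include P hE ha in
theorem BB_bil {ξ u v : E n} (hξ : ξ ≠ 0) (h0 : (inner ℝ ξ u : ℝ) = 0)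
    (h1 : (inner ℝ ξ v : ℝ) = 0) (hu : ‖u‖ ≤ 1) (hv : ‖v‖ ≤ 1)
    (hC : (3 * (1 + ‖ξ‖)) ^ 2 * (2 * a ^ 2) ≤ 1 / 2) :
    ‖BB h ξ u v‖ ≤ 24 * (1 + ‖ξ‖) * HH h := by
  have h3 := BB_quad P hE ha (v := u + v) hξ (by rw [inner_add_right, h0, h1, add_zero]) hC
  have h4 := BB_quad P hE ha (v := u + (-1 : ℝ) • v) hξ
    (by rw [inner_add_right, inner_smul_right, h0, h1, mul_zero, add_zero]) hC
  have h5 : 4 * BB h ξ u v = BB h ξ (u + v) (u + v) -
      BB h ξ (u + (-1 : ℝ) • v) (u + (-1 : ℝ) • v) := by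
    simp only [BB_add_left, BB_add_right P, BB_smul_left, BB_smul_right P]
    rw [BB_symm P ξ v u]
    push_cast
    ring
  have h6 : ‖(4 : ℂ) * BB h ξ u v‖ ≤ 24 * (1 + ‖ξ‖) * HH h * ‖u + v‖ ^ 2 +
      24 * (1 + ‖ξ‖) * HH h * ‖u + (-1 : ℝ) • v‖ ^ 2 := by
    rw [h5]
    exact (norm_sub_le _ _).trans (add_le_add h3 h4)
  rw [norm_mul, Complex.norm_ofNat] at h6
  have h7 : ‖u + v‖ ^ 2 + ‖u + (-1 : ℝ) • v‖ ^ 2 = 2 * (‖u‖ ^ 2 + ‖v‖ ^ 2) := by
    have := parallelogram_law_with_norm ℝ u v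
    rw [neg_one_smul, ← sub_eq_add_neg]
    nlinarith
  have hH := P.HH_nonneg
  have h8 : 0 ≤ 24 * (1 + ‖ξ‖) * HH h := by positivity
  have h9 : ‖u‖ ^ 2 ≤ 1 := pow_le_one₀ (norm_nonneg _) hu
  have h10 : ‖v‖ ^ 2 ≤ 1 := pow_le_one₀ (norm_nonneg _) hv
  nlinarith [mul_le_mul_of_nonneg_left h9 h8, mul_le_mul_of_nonneg_left h10 h8]

include P hE ha in
theorem hF_bound {ξ : E n} (hξ : ξ ≠ 0) (hC : (3 * (1 + ‖ξ‖)) ^ 2 * (2 * a ^ 2) ≤ 1 / 2)
    (j k : Fin n) : ‖hF h j k ξ‖ ≤ 24 * (1 + ‖ξ‖) * HH h := by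
  have hx0 : 0 < ‖ξ‖ := norm_pos_iff.2 hξ
  have hp : ∀ i : Fin n, ∃ u : E n, (inner ℝ ξ u : ℝ) = 0 ∧ ‖u‖ ≤ 1 ∧ ∃ c : ℝ,
      (ev i : E n) = u + c • ξ := by
    intro i
    have e1 : (inner ℝ ξ (ev i : E n) : ℝ) = ξ i := by
      simp [ev, EuclideanSpace.inner_single_right]
    have e2 : ‖(ev i : E n)‖ = 1 := by simp [ev]
    refine ⟨ev i - (ξ i / ‖ξ‖ ^ 2) • ξ, ?_, ?_, ξ i / ‖ξ‖ ^ 2, by abel⟩
    · rw [inner_sub_right, inner_smul_right, e1, real_inner_self_eq_norm_sq]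
      field_simp
      ring
    · have e3 : ‖(ev i : E n) - (ξ i / ‖ξ‖ ^ 2) • ξ‖ ^ 2 = 1 - ξ i ^ 2 / ‖ξ‖ ^ 2 := by
        rw [norm_sub_sq_real, inner_smul_right, real_inner_comm, e1, e2, norm_smul,
          Real.norm_eq_abs, mul_pow, sq_abs]
        field_simp
        ring
      have e4 : ‖(ev i : E n) - (ξ i / ‖ξ‖ ^ 2) • ξ‖ ^ 2 ≤ 1 := by
        rw [e3]
        have : 0 ≤ ξ i ^ 2 / ‖ξ‖ ^ 2 := by positivity
        linarith
      exact (pow_le_one_iff_of_nonneg (norm_nonneg _) two_ne_zero).1 e4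
  obtain ⟨u, hu1, hu2, c, hu3⟩ := hp j
  obtain ⟨v, hv1, hv2, d, hv3⟩ := hp k
  have h1 : BB h ξ (ev j) (ev k) = hF h j k ξ := by
    unfold BB
    rw [Finset.sum_eq_single j, Finset.sum_eq_single k]
    · simp [ev]
    · intro l _ hl
      simp [ev, hl]
    · intro hl
      exact absurd (Finset.mem_univ _) hl
    · intro l _ hl
      refine Finset.sum_eq_zero fun m _ => ?_
      simp [ev, hl]
    · intro hl
      exact absurd (Finset.mem_univ _) hl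
  have h2 : BB h ξ (ev j) (ev k) = BB h ξ u v := by
    rw [hu3, hv3]
    simp only [BB_add_left, BB_add_right P, BB_smul_left, BB_smul_right P, BB_xi_left P,
      BB_xi_right P]
    ring
  rw [← h1, h2]
  exact BB_bil P hE ha hξ hu1 hv1 hu2 hv2 hC

include P in
theorem hF_zero (j k : Fin n) : hF h j k (0 : E n) = 0 := by
  -- `∫ ∑_l ∂_l (x_k h_jl) = 0`
  have hxk : ∀ k : Fin n, ContDiff ℝ ∞ fun x : E n => ((x k : ℝ) : ℂ) := fun k =>
    Complex.ofRealCLM.contDiff.comp (EuclideanSpace.proj (𝕜 := ℝ) k).contDiff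
  have hcd : ∀ l, ContDiff ℝ ∞ fun x : E n => ((x k : ℝ) : ℂ) * (h j l x : ℂ) := fun l =>
    (hxk k).mul (P.cd j l)
  have hcs : ∀ l, HasCompactSupport fun x : E n => ((x k : ℝ) : ℂ) * (h j l x : ℂ) := fun l =>
    (P.cs j l).mul_left
  have h1 : ∑ l, FT (fun x => fderiv ℝ (fun x : E n => ((x k : ℝ) : ℂ) * (h j l x : ℂ)) x
      (ev l)) 0 = 0 := by
    refine Finset.sum_eq_zero fun l _ => ?_
    rw [FT_pd ((hcd l).of_le one_le_inf) (hcs l)]
    simp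
  rw [← FT_sum Finset.univ
      (f := fun l x => fderiv ℝ (fun x : E n => ((x k : ℝ) : ℂ) * (h j l x : ℂ)) x (ev l))
      (fun l => (((hcd l).of_le one_le_inf).continuous_fderiv one_ne_zero).clm_apply
        continuous_const) (fun l => (hcs l).fderiv_apply (𝕜 := ℝ) _) 0] at h1
  have h2 : (fun x => ∑ l, fderiv ℝ (fun x : E n => ((x k : ℝ) : ℂ) * (h j l x : ℂ)) x (ev l)) =
      fun x => (h j k x : ℂ) := by
    funext x
    have e1 : ∀ l, fderiv ℝ (fun x : E n => ((x k : ℝ) : ℂ) * (h j l x : ℂ)) x (ev l) =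
        ((x k : ℝ) : ℂ) * ((fderiv ℝ (h j l) x (ev l) : ℝ) : ℂ) +
          (if l = k then (h j l x : ℂ) else 0) := by
      intro l
      have d1 : HasFDerivAt (fun x : E n => ((x k : ℝ) : ℂ))
          (Complex.ofRealCLM ∘L (EuclideanSpace.proj (𝕜 := ℝ) k : E n →L[ℝ] ℝ)) x :=
        (Complex.ofRealCLM ∘L (EuclideanSpace.proj (𝕜 := ℝ) k : E n →L[ℝ] ℝ)).hasFDerivAt
      have d2 : HasFDerivAt (fun x => (h j l x : ℂ))
          (Complex.ofRealCLM ∘L fderiv ℝ (h j l) x) x :=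
        Complex.ofRealCLM.hasFDerivAt.comp x
          ((P.sm j l).differentiable (by simp) x).hasFDerivAt
      have d3 : HasFDerivAt (fun x : E n => ((x k : ℝ) : ℂ) * (h j l x : ℂ)) _ x := d1.mul d2
      rw [d3.fderiv]
      simp only [_root_.add_apply, _root_.smul_apply, smul_eq_mul,
        ContinuousLinearMap.comp_apply, Complex.ofRealCLM_apply]
      by_cases hlk : l = k
      · subst hlk
        simp [ev]
      · simp [ev, hlk, Ne.symm hlk]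
    simp only [e1]
    rw [Finset.sum_add_distrib, ← Finset.mul_sum, ← Complex.ofReal_sum, P.div j x]
    simp
  rw [h2] at h1
  exact h1

include P hE ha in
theorem hF_bound' {ξ : E n} (hC : (3 * (1 + ‖ξ‖)) ^ 2 * (2 * a ^ 2) ≤ 1 / 2)
    (j k : Fin n) : ‖hF h j k ξ‖ ≤ 24 * (1 + ‖ξ‖) * HH h := by
  by_cases hξ : ξ = 0
  · subst hξ
    rw [hF_zero P]
    have hH := P.HH_nonneg
    rw [norm_zero]
    positivity
  · exact hF_bound P hE ha hξ hC j k

end step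

end Vale.Agent.P088.H207

end
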