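import Vale.Agent.P088.H207.F6

/-!
# P088: a small perturbation vanishes
-/

open MeasureTheory Set Filter Topology
open scoped ContDiff Real

noncomputable section

namespace Vale.Agent.P088.H207

open Vale.Agent.P088.EYM Vale.Agent.P088.EYM.ES

set_option linter.all false

variable {n : ℕ} [NeZero n]

/-- the volume of the unit ball -/
def om (n : ℕ) : ℝ := (volume (Metric.ball (0 : E n) 1)).toReal

theorem om_pos : 0 < om n := by
  unfold om
  exact ENNReal.toReal_pos (Metric.measure_ball_pos _ _ one_pos).ne' measure_ball_lt_top.ne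

theorem vol_ball (x : E n) {r : ℝ} (hr : 0 < r) :
    (volume (Metric.ball x r)).toReal = r ^ n * om n := by
  unfold om
  rw [Measure.addHaar_ball_of_pos volume x hr, ENNReal.toReal_mul,
    ENNReal.toReal_ofReal (by positivity), finrank_euclideanSpace_fin]

/-- interpolation between the Lipschitz norm and the `L²` norm -/
theorem interp {f : E n → ℝ} (hf : Differentiable ℝ f) {ε : ℝ} (hε : 0 < ε)
    (hd : ∀ x, ‖fderiv ℝ f x‖ ≤ ε) (hi : Integrable fun x => f x ^ 2) (x : E n) :
    |f x| ^ (n + 2) * om n ≤ 2 ^ (n + 2) * ε ^ n * ∫ x, f x ^ 2 := by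
  rcases (abs_nonneg (f x)).eq_or_lt with h0 | h0
  · rw [← h0, zero_pow (by omega), zero_mul]
    exact mul_nonneg (by positivity) (integral_nonneg fun x => sq_nonneg _)
  set r := |f x| / (2 * ε) with hr
  have hr0 : 0 < r := by positivity
  have h1 : ∀ y ∈ Metric.ball x r, (|f x| / 2) ^ 2 ≤ f y ^ 2 := by
    intro y hy
    have h2 : ‖f y - f x‖ ≤ ε * ‖y - x‖ :=
      Convex.norm_image_sub_le_of_norm_fderiv_le (fun z _ => hf z) (fun z _ => hd z)
        convex_univ (mem_univ x) (mem_univ y)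
    rw [mem_ball_iff_norm] at hy
    have h3 : ε * ‖y - x‖ ≤ |f x| / 2 := by
      have h4 := mul_le_mul_of_nonneg_left hy.le hε.le
      have h5 : ε * r = |f x| / 2 := by
        rw [hr]
        field_simp
      rw [h5] at h4
      exact h4
    have h4 : |f x| / 2 ≤ |f y| := by
      have h5 := abs_sub_abs_le_abs_sub (f x) (f y)
      rw [Real.norm_eq_abs, abs_sub_comm] at h2
      linarith
    rw [← sq_abs (f y)]
    exact pow_le_pow_left₀ (by positivity) h4 2
  have h2 : (|f x| / 2) ^ 2 * (r ^ n * om n) ≤ ∫ x, f x ^ 2 := by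
    rw [← vol_ball x hr0, mul_comm]
    have h3 : (volume (Metric.ball x r)).toReal * (|f x| / 2) ^ 2 =
        ∫ y in Metric.ball x r, (|f x| / 2) ^ 2 := by
      rw [setIntegral_const, smul_eq_mul]
      rfl
    rw [h3]
    refine (setIntegral_mono_on (integrableOn_const measure_ball_lt_top.ne) hi.integrableOn
      measurableSet_ball h1).trans ?_
    exact setIntegral_le_integral hi (ae_of_all _ fun x => sq_nonneg _)
  have h3 : 2 ^ (n + 2) * ε ^ n * ((|f x| / 2) ^ 2 * (r ^ n * om n)) =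
      |f x| ^ (n + 2) * om n := by
    rw [hr, div_pow, div_pow, mul_pow, pow_add, pow_add]
    field_simp
  rw [← h3]
  exact mul_le_mul_of_nonneg_left h2 (by positivity)

/-- the box of the low frequencies -/
def box (n m : ℕ) : Finset (La n) := Fintype.piFinset fun _ => Finset.Icc (-(m : ℤ)) m

theorem box_card (m : ℕ) : (box n m).card = (2 * m + 1) ^ n := by
  unfold box
  rw [Fintype.card_piFinset_const, Int.card_Icc]
  congr 1
  omega

theorem lat_norm {m : ℕ} {κ : La n} (hκ : κ ∈ box n m) :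
    1 + ‖(lat κ : E n)‖ ≤ 2 * π * n * (m + 1) := by
  have h1 : ∀ j, |(lat κ : E n) j| ≤ 2 * π * m := by
    intro j
    unfold box at hκ
    rw [Fintype.mem_piFinset] at hκ
    have h2 := Finset.mem_Icc.1 (hκ j)
    have h3 : |κ j| ≤ (m : ℤ) := abs_le.2 h2
    have h4 : |(κ j : ℝ)| ≤ (m : ℝ) := by exact_mod_cast h3
    rw [lat_apply, abs_mul, abs_of_pos (by positivity)]
    exact mul_le_mul_of_nonneg_left h4 (by positivity)
  have h2 : ‖(lat κ : E n)‖ ≤ n * (2 * π * m) := by
    have h3 : ‖(lat κ : E n)‖ ^ 2 ≤ (n * (2 * π * m)) ^ 2 := by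
      rw [EuclideanSpace.real_norm_sq_eq]
      have h4 : ∑ j, (lat κ : E n) j ^ 2 ≤ ∑ _j : Fin n, (2 * π * m) ^ 2 := by
        refine Finset.sum_le_sum fun j _ => ?_
        rw [← sq_abs]
        exact pow_le_pow_left₀ (abs_nonneg _) (h1 j) 2
      rw [Finset.sum_const, Finset.card_univ, Fintype.card_fin, nsmul_eq_mul] at h4
      have hn : (1 : ℝ) ≤ n := by
        exact_mod_cast Nat.one_le_iff_ne_zero.2 (NeZero.ne n)
      have h5 : (n : ℝ) * (2 * π * m) ^ 2 ≤ (n * (2 * π * m)) ^ 2 := by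
        rw [mul_pow (n : ℝ) (2 * π * m) 2]
        have h6 : (n : ℝ) ≤ (n : ℝ) ^ 2 := by nlinarith
        exact mul_le_mul_of_nonneg_right h6 (sq_nonneg (2 * π * (m : ℝ)))
      exact h4.trans h5
    exact (sq_le_sq₀ (norm_nonneg _) (by positivity)).1 h3
  have h3 : (1 : ℝ) ≤ 2 * π * n := by
    have hn : (1 : ℝ) ≤ n := by
      exact_mod_cast Nat.one_le_iff_ne_zero.2 (NeZero.ne n)
    have := Real.pi_gt_three
    nlinarith
  nlinarith

/-- iterated directional derivatives -/
def itd (v : E n) : ℕ → (E n → ℂ) → E n → ℂ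
  | 0, f => f
  | p + 1, f => fun x => fderiv ℝ (itd v p f) x v

theorem itd_cd (v : E n) (p : ℕ) {f : E n → ℂ} (hf : ContDiff ℝ ∞ f) :
    ContDiff ℝ ∞ (itd v p f) := by
  induction p with
  | zero => exact hf
  | succ p ih => exact (ih.fderiv_right (m := ∞) (by simp)).clm_apply contDiff_const

theorem itd_supp (v : E n) (p : ℕ) (f : E n → ℂ) : tsupport (itd v p f) ⊆ tsupport f := by
  induction p with
  | zero => exact Subset.refl _
  | succ p ih =>
    refine Subset.trans ?_ ih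
    exact (tsupport_fderiv_apply_subset ℝ v)

theorem itd_FT (v : E n) (p : ℕ) {f : E n → ℂ} (hf : ContDiff ℝ ∞ f) (hc : HasCompactSupport f)
    (κ : E n) : FT (itd v p f) κ = (Complex.I * ((inner ℝ κ v : ℝ) : ℂ)) ^ p * FT f κ := by
  induction p with
  | zero => simp [itd]
  | succ p ih =>
    show FT (fun x => fderiv ℝ (itd v p f) x v) κ = _
    rw [FT_pd ((itd_cd v p hf).of_le one_le_inf)
      (hc.of_isClosed_subset (isClosed_tsupport _) (itd_supp v p f)), ih, pow_succ]
    ring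

theorem itd_eq (v : E n) (p : ℕ) {f : E n → ℂ} (hf : ContDiff ℝ ∞ f) (x : E n) :
    itd v p f x = iteratedFDeriv ℝ p f x (fun _ => v) := by
  induction p generalizing x with
  | zero => simp [itd]
  | succ p ih =>
    show fderiv ℝ (itd v p f) x v = _
    have h1 : itd v p f = fun y => iteratedFDeriv ℝ p f y (fun _ => v) := funext ih
    rw [h1, iteratedFDeriv_succ_apply_left]
    have h2 : DifferentiableAt ℝ (iteratedFDeriv ℝ p f) x :=
      (hf.differentiable_iteratedFDeriv (m := p) (by exact_mod_cast ENat.coe_lt_top p)) x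
    have h3 := (h2.hasFDerivAt.continuousMultilinear_apply_const (fun _ : Fin p => v)).fderiv
    rw [h3]
    rfl

/-- the estimate for one entry -/
theorem entry {f : E n → ℂ} (hf : ContDiff ℝ ∞ f) (hs : tsupport f ⊆ Metric.ball 0 (1 / 2))
    {K R : ℝ} {m p : ℕ} (hR : 0 ≤ R)
    (hK : ∀ κ ∈ box n m, ‖FT f (lat κ)‖ ≤ K)
    (hp : ∀ l x, ‖itd (ev l) p f x‖ ≤ R) :
    (∫ x, ‖f x‖ ^ 2) * ((m : ℝ) + 1) ^ (2 * p) ≤
      (2 * (m + 1)) ^ n * K ^ 2 * ((m : ℝ) + 1) ^ (2 * p) +
      n * (R ^ 2 * (volume (Metric.ball (0 : E n) (1 / 2))).toReal) := by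
  have hc := compact_of_ball hs
  have h1 : HasSum (fun k : La n => ‖FT f (lat k)‖ ^ 2) (∫ y, ‖f y‖ ^ 2) := by
    have := pars_ball (LinearIsometryEquiv.refl ℝ (E n)) 0 hf.continuous hs
    simpa using this
  have h2 : ∀ l, HasSum (fun k : La n => |(lat k : E n) l| ^ (2 * p) * ‖FT f (lat k)‖ ^ 2)
      (∫ y, ‖itd (ev l) p f y‖ ^ 2) := by
    intro l
    have h3 := pars_ball (LinearIsometryEquiv.refl ℝ (E n)) 0 (itd_cd (ev l) p hf).continuous
      ((itd_supp (ev l) p f).trans hs)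
    have h4 : ∀ k : La n, ‖FT (itd (ev l) p f) ((LinearIsometryEquiv.refl ℝ (E n)) (lat k + 0))‖ ^ 2 =
        |(lat k : E n) l| ^ (2 * p) * ‖FT f (lat k)‖ ^ 2 := by
      intro k
      simp only [add_zero, LinearIsometryEquiv.coe_refl, id_eq]
      rw [itd_FT _ _ hf hc, norm_mul, norm_pow, norm_mul, Complex.norm_I, one_mul,
        Complex.norm_real, Real.norm_eq_abs, mul_pow, ← pow_mul, mul_comm p 2]
      have h6 : (inner ℝ (lat k : E n) (ev l : E n) : ℝ) = (lat k : E n) l := by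
        simp [ev, EuclideanSpace.inner_single_right]
      rw [h6]
    simpa only [h4] using h3
  have h3 : HasSum (fun k : La n => ∑ l, |(lat k : E n) l| ^ (2 * p) * ‖FT f (lat k)‖ ^ 2)
      (∑ l, ∫ y, ‖itd (ev l) p f y‖ ^ 2) := hasSum_sum fun l _ => h2 l
  have h4 : HasSum (fun k : La n => if k ∈ box n m then K ^ 2 * ((m : ℝ) + 1) ^ (2 * p) else 0)
      (∑ k ∈ box n m, K ^ 2 * ((m : ℝ) + 1) ^ (2 * p)) := by
    have this : HasSum (fun k : La n =>
        if k ∈ box n m then K ^ 2 * ((m : ℝ) + 1) ^ (2 * p) else 0)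
        (∑ k ∈ box n m, (if k ∈ box n m then K ^ 2 * ((m : ℝ) + 1) ^ (2 * p) else 0)) :=
      hasSum_sum_of_ne_finset_zero (fun k hk => by simp [hk])
    have h5 : ∑ k ∈ box n m, (if k ∈ box n m then K ^ 2 * ((m : ℝ) + 1) ^ (2 * p) else 0) =
        ∑ k ∈ box n m, K ^ 2 * ((m : ℝ) + 1) ^ (2 * p) :=
      Finset.sum_congr rfl fun k hk => by simp [hk]
    rwa [h5] at this
  have h5 := hasSum_le (fun k : La n => by
    show ‖FT f (lat k)‖ ^ 2 * ((m : ℝ) + 1) ^ (2 * p) ≤
      (if k ∈ box n m then K ^ 2 * ((m : ℝ) + 1) ^ (2 * p) else 0) +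
        ∑ l, |(lat k : E n) l| ^ (2 * p) * ‖FT f (lat k)‖ ^ 2
    have h8 : 0 ≤ ∑ l, |(lat k : E n) l| ^ (2 * p) * ‖FT f (lat k)‖ ^ 2 :=
      Finset.sum_nonneg fun l _ => by positivity
    by_cases hk : k ∈ box n m
    · rw [if_pos hk]
      have h6 := hK k hk
      have h7 : ‖FT f (lat k)‖ ^ 2 ≤ K ^ 2 := pow_le_pow_left₀ (norm_nonneg _) h6 2
      have h9 := mul_le_mul_of_nonneg_right h7 (show (0 : ℝ) ≤ ((m : ℝ) + 1) ^ (2 * p) by
        positivity)
      linarith
    · rw [if_neg hk, zero_add]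
      have h6 : ∃ l, (m : ℤ) + 1 ≤ |k l| := by
        by_contra hne
        push Not at hne
        apply hk
        unfold box
        rw [Fintype.mem_piFinset]
        intro l
        have h7 := hne l
        rw [Finset.mem_Icc]
        rw [abs_lt] at h7
        omega
      obtain ⟨l, hl⟩ := h6
      have h7 : ((m : ℝ) + 1) ≤ |(lat k : E n) l| := by
        have h9 : ((m : ℝ) + 1) ≤ |(k l : ℝ)| := by exact_mod_cast hl
        rw [lat_apply, abs_mul, abs_of_pos (by positivity)]
        have := Real.pi_gt_three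
        nlinarith [abs_nonneg (k l : ℝ)]
      have h9 : ((m : ℝ) + 1) ^ (2 * p) ≤ |(lat k : E n) l| ^ (2 * p) :=
        pow_le_pow_left₀ (by positivity) h7 _
      have h10 := mul_le_mul_of_nonneg_right h9 (sq_nonneg ‖FT f (lat k)‖)
      have h11 : |(lat k : E n) l| ^ (2 * p) * ‖FT f (lat k)‖ ^ 2 ≤
          ∑ l, |(lat k : E n) l| ^ (2 * p) * ‖FT f (lat k)‖ ^ 2 :=
        Finset.single_le_sum (f := fun l => |(lat k : E n) l| ^ (2 * p) * ‖FT f (lat k)‖ ^ 2)
          (fun l _ => by positivity) (Finset.mem_univ l)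
      linarith) (h1.mul_right _) (h4.add h3)
  refine h5.trans ?_
  have h6 : ∑ k ∈ box n m, K ^ 2 * ((m : ℝ) + 1) ^ (2 * p) ≤
      (2 * (m + 1)) ^ n * K ^ 2 * ((m : ℝ) + 1) ^ (2 * p) := by
    rw [Finset.sum_const, box_card, nsmul_eq_mul, mul_assoc]
    refine mul_le_mul_of_nonneg_right ?_ (by positivity)
    push_cast
    exact pow_le_pow_left₀ (by positivity) (by linarith) n
  have h7 : ∑ l : Fin n, ∫ y, ‖itd (ev l) p f y‖ ^ 2 ≤
      n * (R ^ 2 * (volume (Metric.ball (0 : E n) (1 / 2))).toReal) := by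
    have h8 : ∀ l : Fin n, (∫ y, ‖itd (ev l) p f y‖ ^ 2) ≤
        R ^ 2 * (volume (Metric.ball (0 : E n) (1 / 2))).toReal := by
      intro l
      have h9 : (∫ y, ‖itd (ev l) p f y‖ ^ 2) =
          ∫ y in Metric.ball (0 : E n) (1 / 2), ‖itd (ev l) p f y‖ ^ 2 := by
        refine (setIntegral_eq_integral_of_forall_compl_eq_zero fun x hx => ?_).symm
        rw [image_eq_zero_of_notMem_tsupport fun h1 => hx (hs (itd_supp (ev l) p f h1)),
          norm_zero, zero_pow two_ne_zero]
      rw [h9]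
      have h10 : R ^ 2 * (volume (Metric.ball (0 : E n) (1 / 2))).toReal =
          ∫ y in Metric.ball (0 : E n) (1 / 2), R ^ 2 := by
        rw [setIntegral_const, smul_eq_mul, mul_comm]
        rfl
      rw [h10]
      refine setIntegral_mono_on ?_ (integrableOn_const measure_ball_lt_top.ne)
        measurableSet_ball fun x _ => ?_
      · exact (int_sq (itd_cd (ev l) p hf).continuous
          (hc.of_isClosed_subset (isClosed_tsupport _) (itd_supp (ev l) p f))).integrableOn
      · exact pow_le_pow_left₀ (norm_nonneg _) (hp l x) 2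
    calc ∑ l : Fin n, ∫ y, ‖itd (ev l) p f y‖ ^ 2 ≤
        ∑ _l : Fin n, R ^ 2 * (volume (Metric.ball (0 : E n) (1 / 2))).toReal :=
          Finset.sum_le_sum fun l _ => h8 l
      _ = _ := by rw [Finset.sum_const, Finset.card_univ, Fintype.card_fin, nsmul_eq_mul]
  linarith

end Vale.Agent.P088.H207

end
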