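import Vale.Agent.P088.H207.F7

/-!
# P088: a small perturbation vanishes
-/

open MeasureTheory Set Filter Topology
open scoped ContDiff Real

noncomputable section

namespace Vale.Agent.P088.H207

open Vale.Agent.P088.EYM Vale.Agent.P088.EYM.ES

set_option linter.all false

variable {n : ℕ} [NeZero n]

/-- The last number below a bound. -/
theorem last_nat {A G : ℝ} (hA : 0 < A) (hG : 0 < G) {q M₁ : ℕ} (hq : q ≠ 0)
    (h : A * (M₁ : ℝ) ^ q * G ≤ 1 / 2) :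
    ∃ M : ℕ, M₁ ≤ M ∧ A * (M : ℝ) ^ q * G ≤ 1 / 2 ∧ 1 / 2 < A * ((M : ℝ) + 1) ^ q * G := by
  by_contra hne
  push Not at hne
  have h1 : ∀ M : ℕ, M₁ ≤ M → A * (M : ℝ) ^ q * G ≤ 1 / 2 := by
    intro M hM
    induction M, hM using Nat.le_induction with
    | base => exact h
    | succ M hM ih =>
      have := hne M hM ih
      push_cast
      exact this
  obtain ⟨N, hN⟩ := exists_nat_gt (1 / (A * G))
  have hAG : 0 < A * G := mul_pos hA hG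
  have h2 := h1 (max N M₁ + 1) (by omega)
  have h3 : (1 : ℝ) ≤ ((max N M₁ + 1 : ℕ) : ℝ) := by
    push_cast
    linarith [show (0 : ℝ) ≤ max (N : ℝ) (M₁ : ℝ) from le_max_of_le_left (Nat.cast_nonneg N)]
  have h4 : ((max N M₁ + 1 : ℕ) : ℝ) ≤ ((max N M₁ + 1 : ℕ) : ℝ) ^ q := le_self_pow₀ h3 hq
  have h5 : (N : ℝ) ≤ ((max N M₁ + 1 : ℕ) : ℝ) := by
    push_cast
    linarith [le_max_left (N : ℝ) (M₁ : ℝ)]
  rw [div_lt_iff₀ hAG] at hN
  have h6 : (N : ℝ) * (A * G) ≤ ((max N M₁ + 1 : ℕ) : ℝ) ^ q * (A * G) :=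
    mul_le_mul_of_nonneg_right (h5.trans h4) hAG.le
  nlinarith

section pieces

variable {h : Fin n → Fin n → E n → ℝ} (P : Pert h)

include P

theorem zero_case (h0 : HH h = 0) (j k : Fin n) (x : E n) : h j k x = 0 := by
  have h1 := P.HH_eq
  rw [h0] at h1
  have h3 : Continuous fun x => ∑ j, ∑ k, h j k x ^ 2 :=
    continuous_finset_sum _ fun j _ => continuous_finset_sum _ fun k _ =>
      ((P.sm j k).continuous.pow 2)
  have h2 : (fun x => ∑ j, ∑ k, h j k x ^ 2) =ᵐ[volume] fun _ => (0 : ℝ) :=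
    (integral_eq_zero_iff_of_nonneg (fun x => Finset.sum_nonneg fun j _ =>
      Finset.sum_nonneg fun k _ => sq_nonneg _) P.tot_int).1 h1.symm
  have h4 := (Continuous.ae_eq_iff_eq volume h3 continuous_const).1 h2
  have h5 : ∑ j, ∑ k, h j k x ^ 2 = 0 := congrFun h4 x
  have h6 : h j k x ^ 2 ≤ ∑ j, ∑ k, h j k x ^ 2 :=
    (Finset.single_le_sum (f := fun k => h j k x ^ 2) (fun k _ => sq_nonneg _)
      (Finset.mem_univ k)).trans
      (Finset.single_le_sum (f := fun j => ∑ k, h j k x ^ 2)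
        (fun j _ => Finset.sum_nonneg fun k _ => sq_nonneg _) (Finset.mem_univ j))
  rw [h5] at h6
  exact (pow_eq_zero_iff two_ne_zero).1 (le_antisymm h6 (sq_nonneg _))

theorem small_sup {ε : ℝ} (hε0 : 0 < ε) (hL : ∀ j k x, ‖fderiv ℝ (h j k) x‖ ≤ ε)
    (j k : Fin n) (x : E n) : |h j k x| ≤ ε := by
  by_cases hx : x ∈ Metric.ball (0 : E n) (1 / 2)
  · set y : E n := (1 / 2 : ℝ) • ev ⟨0, Nat.pos_of_ne_zero (NeZero.ne n)⟩ with hy
    have h1 : ‖y‖ = 1 / 2 := by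
      rw [hy, norm_smul]
      simp [ev]
    have h2 : h j k y = 0 := P.zero_of_notMem j k (by rw [mem_ball_zero_iff, h1]; exact lt_irrefl _)
    have h3 : ‖h j k x - h j k y‖ ≤ ε * ‖x - y‖ :=
      Convex.norm_image_sub_le_of_norm_fderiv_le
        (fun z _ => (P.sm j k).differentiable (by simp) z) (fun z _ => hL j k z)
        convex_univ (mem_univ y) (mem_univ x)
    rw [h2, sub_zero, Real.norm_eq_abs] at h3
    have h4 : ‖x - y‖ ≤ 1 := by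
      refine (norm_sub_le _ _).trans ?_
      rw [mem_ball_zero_iff] at hx
      linarith
    exact h3.trans (by nlinarith)
  · rw [P.zero_of_notMem j k hx, abs_zero]
    exact hε0.le

theorem small_HH {ε : ℝ} (hε0 : 0 < ε) (hε1 : ε ≤ 1)
    (hL : ∀ j k x, ‖fderiv ℝ (h j k) x‖ ≤ ε) :
    HH h ≤ n ^ 2 * (volume (Metric.ball (0 : E n) (1 / 2))).toReal * ε := by
  set V := (volume (Metric.ball (0 : E n) (1 / 2))).toReal with hV
  have h1 : ∀ j k, (∫ x, h j k x ^ 2) ≤ V * ε := by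
    intro j k
    have h2 : (∫ x, h j k x ^ 2) = ∫ x in Metric.ball (0 : E n) (1 / 2), h j k x ^ 2 := by
      refine (setIntegral_eq_integral_of_forall_compl_eq_zero fun x hx => ?_).symm
      rw [P.zero_of_notMem j k hx, zero_pow two_ne_zero]
    have h3 : V * ε = ∫ x in Metric.ball (0 : E n) (1 / 2), ε := by
      rw [setIntegral_const, smul_eq_mul]
      rfl
    rw [h2, h3]
    refine setIntegral_mono_on (P.sq_int j k).integrableOn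
      (integrableOn_const measure_ball_lt_top.ne) measurableSet_ball fun x _ => ?_
    have h4 := small_sup P hε0 hL j k x
    rw [← sq_abs]
    nlinarith [abs_nonneg (h j k x)]
  have h2 : HH h ≤ ∑ _j : Fin n, ∑ _k : Fin n, V * ε :=
    Finset.sum_le_sum fun j _ => Finset.sum_le_sum fun k _ => h1 j k
  rw [Finset.sum_const, Finset.sum_const, Finset.card_univ, Fintype.card_fin, nsmul_eq_mul,
    nsmul_eq_mul] at h2
  linarith

theorem sup_b {ε b : ℝ} (hε0 : 0 < ε) (hb0 : 0 ≤ b)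
    (hb : b ^ (n + 2) = 2 ^ (n + 2) * ε ^ n * HH h / om n)
    (hL : ∀ j k x, ‖fderiv ℝ (h j k) x‖ ≤ ε) (j k : Fin n) (x : E n) : |h j k x| ≤ b := by
  have h1 := interp ((P.sm j k).differentiable (by simp)) hε0 (hL j k) (P.sq_int j k) x
  have h2 : (∫ x, h j k x ^ 2) ≤ HH h :=
    (Finset.single_le_sum (f := fun k => ∫ x, h j k x ^ 2)
      (fun k _ => integral_nonneg fun x => sq_nonneg _) (Finset.mem_univ k)).trans
      (Finset.single_le_sum (f := fun j => ∑ k, ∫ x, h j k x ^ 2)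
        (fun j _ => Finset.sum_nonneg fun k _ => integral_nonneg fun x => sq_nonneg _)
        (Finset.mem_univ j))
  have h3 : |h j k x| ^ (n + 2) ≤ b ^ (n + 2) := by
    rw [hb, le_div_iff₀ om_pos]
    exact h1.trans (mul_le_mul_of_nonneg_left h2 (by positivity))
  exact (pow_le_pow_iff_left₀ (abs_nonneg _) hb0 (by omega)).1 h3

omit [NeZero n] P in
theorem sum_b {b : ℝ} (hb0 : 0 ≤ b) (hb : ∀ j k x, |h j k x| ≤ b) (x : E n) :
    ∑ j, ∑ k, h j k x ^ 2 ≤ (n * b) ^ 2 := by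
  have h1 : ∑ j, ∑ k, h j k x ^ 2 ≤ ∑ _j : Fin n, ∑ _k : Fin n, b ^ 2 := by
    refine Finset.sum_le_sum fun j _ => Finset.sum_le_sum fun k _ => ?_
    rw [← sq_abs]
    exact pow_le_pow_left₀ (abs_nonneg _) (hb j k x) 2
  rw [Finset.sum_const, Finset.sum_const, Finset.card_univ, Fintype.card_fin, nsmul_eq_mul,
    nsmul_eq_mul] at h1
  refine h1.trans (le_of_eq ?_)
  ring

theorem freq_b (hE : Ex h) {b : ℝ} (hb0 : 0 ≤ b) (hb : ∀ j k x, |h j k x| ≤ b) {m : ℕ}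
    (hMb : ((m : ℝ) + 1) * b ≤ 1 / (12 * π * n ^ 2)) {κ : La n} (hκ : κ ∈ box n m)
    (j k : Fin n) : ‖hF h j k (lat κ)‖ ≤ 48 * π * n * ((m : ℝ) + 1) * HH h := by
  have hn1 : (1 : ℝ) ≤ n := by exact_mod_cast Nat.one_le_iff_ne_zero.2 (NeZero.ne n)
  have hn0 : (0 : ℝ) < n := by linarith
  have hpi := Real.pi_pos
  have hG := P.HH_nonneg
  have h1 := lat_norm hκ
  have h2 : (3 * (1 + ‖(lat κ : E n)‖)) ^ 2 * (2 * ((n : ℝ) * b) ^ 2) ≤ 1 / 2 := by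
    have h3 : 3 * (1 + ‖(lat κ : E n)‖) * (n * b) ≤ 1 / 2 := by
      have h4 : 3 * (1 + ‖(lat κ : E n)‖) * (n * b) ≤ 3 * (2 * π * n * (m + 1)) * (n * b) :=
        mul_le_mul_of_nonneg_right (mul_le_mul_of_nonneg_left h1 (by norm_num))
          (by positivity)
      have h5 : 3 * (2 * π * n * ((m : ℝ) + 1)) * (n * b) =
          6 * π * n ^ 2 * (((m : ℝ) + 1) * b) := by ring
      have h6 := mul_le_mul_of_nonneg_left hMb (show 0 ≤ 6 * π * (n : ℝ) ^ 2 by positivity)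
      have h7 : 6 * π * (n : ℝ) ^ 2 * (1 / (12 * π * n ^ 2)) = 1 / 2 := by
        field_simp
        norm_num
      rw [h5] at h4
      linarith
    have h4 : (3 * (1 + ‖(lat κ : E n)‖)) ^ 2 * (2 * ((n : ℝ) * b) ^ 2) =
        2 * (3 * (1 + ‖(lat κ : E n)‖) * (n * b)) ^ 2 := by ring
    rw [h4]
    have h5 : 0 ≤ 3 * (1 + ‖(lat κ : E n)‖) * (n * b) := by positivity
    nlinarith
  have h3 := hF_bound' P hE (sum_b hb0 hb) h2 j k
  refine h3.trans ?_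
  have h4 := mul_le_mul_of_nonneg_right h1 (show 0 ≤ 24 * HH h by positivity)
  linarith

theorem ent_b {m p : ℕ} {R K : ℝ} (hR : ∀ j k l x, ‖itd (ev l) p (fun x => (h j k x : ℂ)) x‖ ≤ R)
    (j k : Fin n) (hK : ∀ κ ∈ box n m, ‖hF h j k (lat κ)‖ ≤ K) :
    (∫ x, h j k x ^ 2) * ((m : ℝ) + 1) ^ (2 * p) ≤
      (2 * (m + 1)) ^ n * K ^ 2 * ((m : ℝ) + 1) ^ (2 * p) +
      n * (R ^ 2 * (volume (Metric.ball (0 : E n) (1 / 2))).toReal) := by
  have hR0 : 0 ≤ R := (norm_nonneg _).trans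
    (hR j k ⟨0, Nat.pos_of_ne_zero (NeZero.ne n)⟩ 0)
  have h1 := entry (P.cd j k) (P.supp' j k) (K := K) (R := R)
    (m := m) (p := p) hR0 hK (fun l x => hR j k l x)
  have h2 : (∫ x, h j k x ^ 2) = ∫ x, ‖(h j k x : ℂ)‖ ^ 2 := by
    refine integral_congr_ae (ae_of_all _ fun x => ?_)
    show _ = ‖((h j k x : ℝ) : ℂ)‖ ^ 2
    rw [Complex.norm_real, Real.norm_eq_abs, sq_abs]
  rw [h2]
  exact h1

theorem tot_b {m p : ℕ} {R K : ℝ} (hR : ∀ j k l x, ‖itd (ev l) p (fun x => (h j k x : ℂ)) x‖ ≤ R)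
    (hK : ∀ κ ∈ box n m, ∀ j k, ‖hF h j k (lat κ)‖ ≤ K) :
    HH h * ((m : ℝ) + 1) ^ (2 * p) ≤ n ^ 2 * (
      (2 * (m + 1)) ^ n * K ^ 2 * ((m : ℝ) + 1) ^ (2 * p) +
      n * (R ^ 2 * (volume (Metric.ball (0 : E n) (1 / 2))).toReal)) := by
  have h1 : HH h * ((m : ℝ) + 1) ^ (2 * p) ≤ ∑ _j : Fin n, ∑ _k : Fin n,
      ((2 * (m + 1)) ^ n * K ^ 2 * ((m : ℝ) + 1) ^ (2 * p) +
    n * (R ^ 2 * (volume (Metric.ball (0 : E n) (1 / 2))).toReal)) := by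
    unfold HH
    rw [Finset.sum_mul]
    refine Finset.sum_le_sum fun j _ => ?_
    rw [Finset.sum_mul]
    exact Finset.sum_le_sum fun k _ => ent_b P hR j k fun κ hκ => hK κ hκ j k
  rw [Finset.sum_const, Finset.sum_const, Finset.card_univ, Fintype.card_fin, nsmul_eq_mul,
    nsmul_eq_mul] at h1
  refine h1.trans (le_of_eq ?_)
  ring

end pieces

/-- the final arithmetic -/
theorem fin_arith {A B G : ℝ} {m M₁ p : ℕ} (hA0 : 0 < A) (hB0 : 0 ≤ B) (hG : 0 < G)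
    (hp : n + 3 ≤ 2 * p) (hM₁ : 4 * A * B * 2 ^ (n + 2) < M₁) (hM1 : M₁ + 1 ≤ m + 1)
    (hM2 : A * ((m : ℝ) + 1) ^ (n + 2) * G ≤ 1 / 2)
    (hM3 : 1 / 2 < A * ((m : ℝ) + 1 + 1) ^ (n + 2) * G)
    (htot : G * ((m : ℝ) + 1) ^ (2 * p) ≤
      A * ((m : ℝ) + 1) ^ (n + 2) * G ^ 2 * ((m : ℝ) + 1) ^ (2 * p) + B) : False := by
  have hMp : (0 : ℝ) < ((m : ℝ) + 1) ^ (2 * p) := by positivity
  have h1 : G * ((m : ℝ) + 1) ^ (2 * p) ≤ 2 * B := by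
    have h2 : A * ((m : ℝ) + 1) ^ (n + 2) * G ^ 2 * ((m : ℝ) + 1) ^ (2 * p) ≤
        1 / 2 * (G * ((m : ℝ) + 1) ^ (2 * p)) := by
      have h3 := mul_le_mul_of_nonneg_right hM2
        (show 0 ≤ G * ((m : ℝ) + 1) ^ (2 * p) by positivity)
      refine le_trans (le_of_eq ?_) h3
      ring
    linarith
  have h2 : ((m : ℝ) + 1 + 1) ^ (n + 2) ≤ 2 ^ (n + 2) * ((m : ℝ) + 1) ^ (n + 2) := by
    rw [← mul_pow]
    exact pow_le_pow_left₀ (by positivity) (by linarith [Nat.cast_nonneg (α := ℝ) m]) _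
  have h3 : ((m : ℝ) + 1) ^ (n + 3) ≤ ((m : ℝ) + 1) ^ (2 * p) :=
    pow_le_pow_right₀ (by linarith [Nat.cast_nonneg (α := ℝ) m]) hp
  rcases hB0.eq_or_lt with hB' | hBp
  · rw [← hB', mul_zero] at h1
    have h5 : 0 < G * ((m : ℝ) + 1) ^ (2 * p) := by positivity
    linarith
  have e1 : 1 / 2 * ((m : ℝ) + 1) ^ (2 * p) <
      A * ((m : ℝ) + 1 + 1) ^ (n + 2) * G * ((m : ℝ) + 1) ^ (2 * p) :=
    mul_lt_mul_of_pos_right hM3 hMp
  have e2 : A * ((m : ℝ) + 1 + 1) ^ (n + 2) * G * ((m : ℝ) + 1) ^ (2 * p) =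
      A * ((m : ℝ) + 1 + 1) ^ (n + 2) * (G * ((m : ℝ) + 1) ^ (2 * p)) := by ring
  have e3 : A * ((m : ℝ) + 1 + 1) ^ (n + 2) * (G * ((m : ℝ) + 1) ^ (2 * p)) ≤
      A * ((m : ℝ) + 1 + 1) ^ (n + 2) * (2 * B) :=
    mul_le_mul_of_nonneg_left h1 (by positivity)
  have e4 : A * ((m : ℝ) + 1 + 1) ^ (n + 2) * (2 * B) ≤
      A * (2 ^ (n + 2) * ((m : ℝ) + 1) ^ (n + 2)) * (2 * B) :=
    mul_le_mul_of_nonneg_right (mul_le_mul_of_nonneg_left h2 hA0.le) (by positivity)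
  have h4 : 1 / 2 * ((m : ℝ) + 1) ^ (n + 3) <
      A * (2 ^ (n + 2) * ((m : ℝ) + 1) ^ (n + 2)) * (2 * B) := by linarith
  have h5 : ((m : ℝ) + 1) ^ (n + 3) = ((m : ℝ) + 1) * ((m : ℝ) + 1) ^ (n + 2) := by ring
  rw [h5] at h4
  have h6 : (m : ℝ) + 1 < 4 * A * B * 2 ^ (n + 2) := by
    have h7 : (0 : ℝ) < ((m : ℝ) + 1) ^ (n + 2) := by positivity
    refine lt_of_mul_lt_mul_right ?_ h7.le
    linarith
  have h7 : ((M₁ : ℝ) + 1) ≤ (m : ℝ) + 1 := by exact_mod_cast hM1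
  linarith

/-- the arithmetic of `b` -/
theorem Mb_arith {A G ε b : ℝ} {m : ℕ} (hA0 : 0 < A) (hG : 0 < G) (hε0 : 0 < ε) (hε1 : ε ≤ 1)
    (hb0 : 0 ≤ b) (hb : b ^ (n + 2) = 2 ^ (n + 2) * ε ^ n * G / om n)
    (hM2 : A * ((m : ℝ) + 1) ^ (n + 2) * G ≤ 1 / 2)
    (hεc₂ : 2 ^ (n + 1) / (A * om n) * ε ≤ (1 / (12 * π * n ^ 2)) ^ (n + 2)) :
    ((m : ℝ) + 1) * b ≤ 1 / (12 * π * n ^ 2) := by
  have hpi := Real.pi_pos
  have hom := om_pos (n := n)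
  have h1 : (((m : ℝ) + 1) * b) ^ (n + 2) ≤ (1 / (12 * π * n ^ 2)) ^ (n + 2) := by
    rw [mul_pow, hb]
    refine le_trans ?_ hεc₂
    have h2 : ((m : ℝ) + 1) ^ (n + 2) * G ≤ 1 / 2 / A := by
      rw [le_div_iff₀ hA0]
      linarith
    have h3 : ε ^ n ≤ ε := by
      have := pow_le_pow_of_le_one hε0.le hε1 (Nat.one_le_iff_ne_zero.2 (NeZero.ne n))
      rwa [pow_one] at this
    have h4 : ((m : ℝ) + 1) ^ (n + 2) * (2 ^ (n + 2) * ε ^ n * G / om n) =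
        2 ^ (n + 2) / om n * (((m : ℝ) + 1) ^ (n + 2) * G) * ε ^ n := by ring
    rw [h4]
    have h5 : 2 ^ (n + 1) / (A * om n) * ε = 2 ^ (n + 2) / om n * (1 / 2 / A) * ε := by
      rw [pow_succ (2 : ℝ) (n + 1)]
      field_simp
    rw [h5]
    exact mul_le_mul (mul_le_mul_of_nonneg_left h2 (by positivity)) h3 (by positivity)
      (by positivity)
  exact (pow_le_pow_iff_left₀ (by positivity) (by positivity) (by omega)).1 h1

/-- the choice of `ε` -/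
theorem choose_eps {c₁ c₂ d : ℝ} (hc₁0 : 0 ≤ c₁) (hc₂0 : 0 < c₂) (hd0 : 0 < d) :
    ∃ ε : ℝ, 0 < ε ∧ ε ≤ 1 ∧ c₁ * ε ≤ 1 / 2 ∧ c₂ * ε ≤ d := by
  refine ⟨min 1 (min (1 / 2 / (c₁ + 1)) (d / c₂)), by positivity, min_le_left _ _, ?_, ?_⟩
  · have h1 : min 1 (min (1 / 2 / (c₁ + 1)) (d / c₂)) ≤ 1 / 2 / (c₁ + 1) :=
      (min_le_right _ _).trans (min_le_left _ _)
    have h2 := mul_le_mul_of_nonneg_left h1 hc₁0
    refine h2.trans ?_
    rw [← mul_div_assoc, div_le_iff₀ (by positivity)]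
    linarith
  · have h1 : min 1 (min (1 / 2 / (c₁ + 1)) (d / c₂)) ≤ d / c₂ :=
      (min_le_right _ _).trans (min_le_right _ _)
    have h2 := mul_le_mul_of_nonneg_left h1 hc₂0.le
    refine h2.trans (le_of_eq ?_)
    field_simp

/-- A small perturbation in harmonic gauge vanishes. -/
theorem pert_zero (n : ℕ) [NeZero n] (p : ℕ) (hp : n + 3 ≤ 2 * p) (R : ℝ) :
    ∃ ε : ℝ, 0 < ε ∧ ∀ h : Fin n → Fin n → E n → ℝ, Pert h → Ex h →
      (∀ j k x, ‖fderiv ℝ (h j k) x‖ ≤ ε) →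
      (∀ j k l x, ‖itd (ev l) p (fun x => (h j k x : ℂ)) x‖ ≤ R) → ∀ j k x, h j k x = 0 := by
  have hn1 : (1 : ℝ) ≤ n := by exact_mod_cast Nat.one_le_iff_ne_zero.2 (NeZero.ne n)
  have hn0 : (0 : ℝ) < n := by linarith
  have hpi := Real.pi_pos
  have hV0 : 0 ≤ (volume (Metric.ball (0 : E n) (1 / 2))).toReal := ENNReal.toReal_nonneg
  have hom := om_pos (n := n)
  obtain ⟨A, hA⟩ : ∃ A : ℝ, A = n ^ 2 * (2 ^ n * (48 * π * n) ^ 2) := ⟨_, rfl⟩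
  have hA0 : 0 < A := by rw [hA]; positivity
  obtain ⟨B, hB⟩ : ∃ B : ℝ, B = n ^ 2 * (n * (R ^ 2 *
    (volume (Metric.ball (0 : E n) (1 / 2))).toReal)) := ⟨_, rfl⟩
  have hB0 : 0 ≤ B := by rw [hB]; positivity
  obtain ⟨M₁, hM₁⟩ := exists_nat_gt (4 * A * B * 2 ^ (n + 2))
  obtain ⟨ε, hε0, hε1, hεc₁, hεc₂⟩ := choose_eps
    (c₁ := A * ((M₁ : ℝ) + 1) ^ (n + 2) *
      (n ^ 2 * (volume (Metric.ball (0 : E n) (1 / 2))).toReal))
    (c₂ := 2 ^ (n + 1) / (A * om n)) (d := (1 / (12 * π * n ^ 2)) ^ (n + 2))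
    (by positivity) (by positivity) (by positivity)
  refine ⟨ε, hε0, fun h P hE hL hR => ?_⟩
  rcases P.HH_nonneg.eq_or_lt with h0 | hG
  · exact zero_case P h0.symm
  exfalso
  have hM : A * ((M₁ + 1 : ℕ) : ℝ) ^ (n + 2) * HH h ≤ 1 / 2 := by
    push_cast
    have h1 := mul_le_mul_of_nonneg_left (small_HH P hε0 hε1 hL)
      (show 0 ≤ A * ((M₁ : ℝ) + 1) ^ (n + 2) by positivity)
    refine h1.trans (le_trans (le_of_eq ?_) hεc₁)
    ring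
  obtain ⟨M, hM1, hM2, hM3⟩ := last_nat hA0 hG (q := n + 2) (by omega) hM
  obtain ⟨m, rfl⟩ : ∃ m, M = m + 1 := ⟨M - 1, by omega⟩
  push_cast at hM2 hM3
  obtain ⟨b, hb0, hb⟩ : ∃ b : ℝ, 0 ≤ b ∧ b ^ (n + 2) = 2 ^ (n + 2) * ε ^ n * HH h / om n := by
    refine ⟨(2 ^ (n + 2) * ε ^ n * HH h / om n) ^ (((n + 2 : ℕ) : ℝ)⁻¹), by positivity, ?_⟩
    exact Real.rpow_inv_natCast_pow (by positivity) (by omega)
  have hsup := sup_b P hε0 hb0 hb hL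
  have hMb := Mb_arith hA0 hG hε0 hε1 hb0 hb hM2 hεc₂
  have htot0 := tot_b (m := m) P hR fun κ hκ j k => freq_b P hE hb0 hsup hMb hκ j k
  have htot : HH h * ((m : ℝ) + 1) ^ (2 * p) ≤
      A * ((m : ℝ) + 1) ^ (n + 2) * HH h ^ 2 * ((m : ℝ) + 1) ^ (2 * p) + B := by
    refine htot0.trans (le_of_eq ?_)
    rw [hA, hB, mul_pow (2 : ℝ) ((m : ℝ) + 1) n, pow_add ((m : ℝ) + 1) n 2]
    ring
  exact fin_arith hA0 hB0 hG hp hM₁ hM1 hM2 hM3 htot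

end Vale.Agent.P088.H207

end
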