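import Vale.Agent.P088.H5.Fin3_820

/-!
# P088: local approximation of solutions in one coordinate ball by global ones
-/

set_option linter.all false

open Bundle Manifold MeasureTheory Set Filter Topology
open scoped ContDiff

noncomputable section

namespace Vale.Agent.P088.H207

open Vale.Agent.P088 Vale.Agent.P088.EYM

universe u

section top

variable {n N : ℕ} [NeZero n] {M : Type u} [TopologicalSpace M]
  [ChartedSpace (EuclideanHalfSpace n) M] [IsManifold (𝓡∂ n) ∞ M] [T2Space M] [CompactSpace M]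
  [ConnectedSpace M] [MeasurableSpace M] [BorelSpace M]

/-- The complement of a closed coordinate ball. -/
theorem compl_cb (hn : 2 ≤ n) {p : M} {R ρ : ℝ} (hR : IsCB n p R) (hρ : 0 < ρ) (hρR : ρ < R) :
    IsOpen (cb n p ρ)ᶜ ∧ IsPreconnected (cb n p ρ)ᶜ ∧
      ∀ x ∈ (𝓡∂ n).boundary M, x ∉ cb n p ρ := by
  have hcl := cRungeB_cb_closed hR hρR
  refine ⟨hcl.isOpen_compl, ?_, ?_⟩
  · have h1 := Vale.Agent.P088.EYM.O.D779.top_diff (S := (univ : Set M)) (K := cb n p ρ)
      (B := (xc n p).symm '' Metric.ball (xc n p p) R) isPreconnected_univ hcl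
      (cRungeB_B_open TM.fLoc hR) (subset_univ _)
      (image_mono (Metric.closedBall_subset_ball hρR))
      ⟨_, mem_image_of_mem _ (Metric.mem_closedBall_self hρ.le)⟩
      (cRungeB_A_conn hn hR hρ hρR)
    rwa [← compl_eq_univ_diff] at h1
  · intro x hx h
    have h1 : x ∈ Mi n M := cRungeB_cb_mi TM.fLoc hR
      (image_mono (Metric.closedBall_subset_closedBall hρR.le) h)
    rw [← ModelWithCorners.compl_interior] at hx
    exact hx h1

end top

/-- Local solutions are limits of global ones in one coordinate ball. -/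
theorem runge_seq (n N : ℕ) [NeZero n] (M : Type u) [TopologicalSpace M]
    [ChartedSpace (EuclideanHalfSpace n) M]
    [IsManifold (𝓡∂ n) ∞ M] [T2Space M] [CompactSpace M] [ConnectedSpace M] [MeasurableSpace M]
    [BorelSpace M] (P : One n N M) (Γ : Set M) (x : M) (R ρ : ℝ)
    (hn : 2 ≤ n) (hΓ : RelBd n Γ) (hne : Γ.Nonempty) (hsol : P.HasSol Γ) (hR : IsCB n x R)
    (hρ : 0 < ρ) (hρR : ρ < R) (v : E n → Fib N)
    (hv : ContDiffOn ℝ 2 v (Metric.ball (xc n x x) R))
    (hvL : ∀ y ∈ Metric.ball (xc n x x) R, Lop (P.loc x) v y = 0) :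
    ∃ u : ℕ → M → Fib N, (∀ k, u k ∈ P.U Γ) ∧
      Tendsto (fun k => ∫ y in Metric.ball (xc n x x) ρ, ‖lu (𝓡∂ n) x (u k) y - v y‖ ^ 2)
        atTop (𝓝 0) := by
  obtain ⟨hrel, hok, hbdy, hsm⟩ := TM.fLoc n N M
  obtain ⟨hfinm, -, hint⟩ := TM.fInt n N M P
  obtain ⟨hIo, -, hcl⟩ := TM.fConn n M
  have hbd : ((𝓡∂ n).boundary M).Nonempty := by
    obtain ⟨O, -, hO⟩ := hΓ
    obtain ⟨m, hm⟩ := hne
    rw [hO] at hm
    exact ⟨m, hm.2⟩
  -- the second ball
  have hccR : IsCompact (cb n x R) := cRunge_cbcompact x hR le_rfl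
  obtain ⟨x', hxO', hx'⟩ : ∃ x', x' ∈ (cb n x R)ᶜ ∧ x' ∈ Mi n M := by
    obtain ⟨m, hm⟩ := hbd
    have hmc : m ∉ cb n x R := fun h => by
      have h1 : m ∈ Mi n M := cRungeB_cb_mi TM.fLoc hR h
      rw [← ModelWithCorners.compl_interior] at hm
      exact hm h1
    obtain ⟨q, hq1, hq2⟩ := mem_closure_iff.1 (hcl m) (cb n x R)ᶜ hccR.isClosed.isOpen_compl hmc
    exact ⟨q, hq1, hq2⟩
  obtain ⟨R', hR', hRO', -, -, -, -, -⟩ :=
    cRunge_solve hrel hok hbdy ES.aSolve P x' hx' 0 (fun _ => 0) (cb n x R)ᶜ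
      hccR.isClosed.isOpen_compl hxO'
  have hRp : 0 < R := hR.1
  have hRp' : 0 < R' := hR'.1
  have hdisR : Disjoint (cb n x R) (cb n x' R') :=
    Set.disjoint_left.2 fun m h1 h2 => hRO' h2 h1
  have hcbR : cb n x ρ ⊆ cb n x R :=
    image_mono (Metric.closedBall_subset_closedBall (by linarith))
  have hcbR' : cb n x' (R' / 2) ⊆ cb n x' R' :=
    image_mono (Metric.closedBall_subset_closedBall (by linarith))
  have hdisr : Disjoint (cb n x ρ) (cb n x' (R' / 2)) := hdisR.mono hcbR hcbR'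
  have hcc : IsCompact (cb n x ρ) := cRunge_cbcompact x hR (by linarith)
  have hcc' : IsCompact (cb n x' (R' / 2)) := cRunge_cbcompact x' hR' (by linarith)
  have hvc : ContinuousOn (fun m => v (xc n x m)) (cb n x ρ) :=
    cRunge_vcont x hR (by linarith) hv.continuousOn
  -- the target function
  set w : M → Fib N := (cb n x ρ).indicator (fun m => v (xc n x m)) with hw
  have hw1 : ∀ m ∈ cb n x ρ, w m = v (xc n x m) := by
    intro m hm
    simp [hw, indicator_of_mem hm]
  have hwL : MemLp w 2 (P.μ.restrict (cb n x ρ)) :=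
    cRunge_memLp hcc hvc Measure.restrict_le_self
  -- the space of solutions
  have hUsm : ∀ u ∈ P.U Γ, SmS n u := by
    rintro u ⟨f, -, hf⟩
    exact hf.smooth
  have hUcomb : ∀ u ∈ P.U Γ, ∀ u' ∈ P.U Γ, ∀ c c' : ℂ, c • u + c' • u' ∈ P.U Γ := by
    rintro u ⟨f, hf1, hf2⟩ u' ⟨f', hf1', hf2'⟩ c c'
    exact ⟨c • f + c' • f', cRunge_comb c c' hf1 hf1',
      (TM.fUniq n N M P hbd).2.1 f f' u u' c c' hf2 hf2'⟩
  have hU0 : (0 : M → Fib N) ∈ P.U Γ := by
    have h1 : IsBdryData (𝓡∂ n) Γ (0 : M → Fib N) :=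
      { smooth := contMDiff_const
        supp := by simp }
    obtain ⟨u, hu⟩ := hsol _ h1
    have h2 := hUcomb u ⟨_, h1, hu⟩ u ⟨_, h1, hu⟩ 0 0
    simpa using h2
  let 𝒰 : Submodule ℂ (M → Fib N) :=
    { carrier := P.U Γ
      zero_mem' := hU0
      add_mem' := fun {u u'} hu hu' => by
        have := hUcomb u hu u' hu' 1 1
        simpa using this
      smul_mem' := fun c u hu => by
        have := hUcomb u hu u hu c 0
        simpa using this }
  have hUL : ∀ u ∈ 𝒰, MemLp u 2 (P.μ.restrict (cb n x ρ)) := by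
    intro u hu
    have h1 : Continuous u := (hUsm u hu).continuous
    have h2 := cRunge_memLp (μ := P.μ) (ν := P.μ.restrict (cb n x ρ)) isCompact_univ
      h1.continuousOn Measure.restrict_le_self
    simpa using h2
  obtain ⟨u, hu, hlim⟩ := cRunge_approx (P.μ.restrict (cb n x ρ)) 𝒰 hUL w hwL (by
    intro h hh horth
    -- extension by zero to the second ball
    set h' : M → Fib N := (cb n x ρ).indicator h with hh'
    have hh'L : MemLp h' 2 (P.μ.restrict (cb n x ρ ∪ cb n x' (R' / 2))) := by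
      have e1 : MemLp h' 2 P.μ := (memLp_indicator_iff_restrict hcc.measurableSet).2 hh
      exact e1.mono_measure Measure.restrict_le_self
    have e2 : ∀ F : M → ℂ, (∀ m, m ∉ cb n x ρ → F m = 0) →
        ∫ m in cb n x ρ ∪ cb n x' (R' / 2), F m ∂P.μ = ∫ m in cb n x ρ, F m ∂P.μ := by
      intro F hF
      rw [← integral_indicator (hcc.measurableSet.union hcc'.measurableSet),
        ← integral_indicator hcc.measurableSet]
      refine integral_congr_ae (Eventually.of_forall fun m => ?_)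
      by_cases hm : m ∈ cb n x ρ
      · rw [indicator_of_mem hm, indicator_of_mem (mem_union_left _ hm)]
      · rw [indicator_of_notMem hm]
        by_cases hm' : m ∈ cb n x ρ ∪ cb n x' (R' / 2)
        · rw [indicator_of_mem hm', hF m hm]
        · rw [indicator_of_notMem hm']
    have h1 := TM.fRungeC n N M P Γ x x' R R' ρ (R' / 2) h' hn hΓ hne hsol hR hR' hρ
      hρR (by linarith) (by linarith) hdisR hh'L (fun u hu => by
        rw [e2 _ (fun m hm => by simp [hh', indicator_of_notMem hm])]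
        rw [← horth u hu]
        exact setIntegral_congr_fun hcc.measurableSet fun m hm => by
          simp only [hh', indicator_of_mem hm]) v (fun _ => 0) hv contDiffOn_const
      hvL (fun y hy => by
        show Lop (P.loc x') (fun _ => (0 : Fib N)) y = 0
        have e3 : ∀ (L : LD n N) (k : Fin n), nab L k (fun _ => (0 : Fib N)) = fun _ => 0 := by
          intro L k
          funext y
          simp [nab, pd_const]
        have e4 : ∀ (L : LD n N) (j : Fin n), flux L j (fun _ => (0 : Fib N)) = fun _ => 0 := by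
          intro L j
          funext y
          simp [flux, e3]
        simp [Lop, e4, pd_const])
    simp only [inner_zero_right, integral_zero, add_zero] at h1
    rw [← h1]
    exact setIntegral_congr_fun hcc.measurableSet fun m hm => by
        simp only [hw1 m hm, hh', indicator_of_mem hm])
  have hl1 : Tendsto (fun k => ∫ m in cb n x ρ, ‖u k m - v (xc n x m)‖ ^ 2 ∂P.μ) atTop
      (𝓝 0) := by
    have h1 : ∀ k, ∫ m in cb n x ρ, ‖u k m - v (xc n x m)‖ ^ 2 ∂P.μ =
        ∫ m in cb n x ρ, ‖u k m - w m‖ ^ 2 ∂P.μ := fun k =>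
      setIntegral_congr_fun hcc.measurableSet fun m hm => by
        simp only [hw1 m hm]
    simp only [h1]
    exact hlim
  refine ⟨u, hu, ?_⟩
  -- the chart
  set z : E n := xc n x x with hz
  have hcbt : Metric.closedBall z ρ ⊆ tg n x :=
    (Metric.closedBall_subset_closedBall hρR.le).trans (hR.2.trans inter_subset_left)
  have husm : ∀ k, SmS n (u k) := fun k => hUsm _ (hu k)
  have hlu : ∀ k, ContDiffOn ℝ ∞ (lu (𝓡∂ n) x (u k)) (tg n x) := fun k => hsm (u k) (husm k) x
  -- the density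
  have hdet : ContinuousOn (fun y => Real.sqrt ((P.loc x).g y).det) (Metric.closedBall z ρ) := by
    refine Real.continuous_sqrt.comp_continuousOn ?_
    have h1 : ContinuousOn (fun y => (P.loc x).g y) (Metric.closedBall z ρ) := by
      refine continuousOn_pi.2 fun i => continuousOn_pi.2 fun j => ?_
      exact ((hok P x).g_smooth i j).continuousOn.mono hcbt
    exact (continuous_id.matrix_det).comp_continuousOn h1
  obtain ⟨y₀, hy₀, hmin⟩ := (isCompact_closedBall z ρ).exists_isMinOn
    ⟨z, Metric.mem_closedBall_self hρ.le⟩ hdet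
  set c : ℝ := Real.sqrt ((P.loc x).g y₀).det with hc
  have hcpos : 0 < c := Real.sqrt_pos.2 ((hok P x).g_pos y₀ (hcbt hy₀)).det_pos
  have hcb : MeasurableSet (cb n x ρ) := (hint x _ Metric.isClosed_closedBall.measurableSet hcbt).1
  have hkey : ∀ k, c * ∫ y in Metric.ball z ρ, ‖lu (𝓡∂ n) x (u k) y - v y‖ ^ 2 ≤
      ∫ m in cb n x ρ, ‖u k m - v (xc n x m)‖ ^ 2 ∂P.μ := by
    intro k
    have hcont : ContinuousOn (fun m => ‖u k m - v (xc n x m)‖ ^ 2) (cb n x ρ) :=
      (((husm k).continuous.continuousOn).sub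
        (cRunge_vcont x hR hρR hv.continuousOn)).norm.pow 2
    have h1 := (hint x _ Metric.isClosed_closedBall.measurableSet hcbt).2
      (fun m => ((‖u k m - v (xc n x m)‖ ^ 2 : ℝ) : ℂ))
      ((Complex.continuous_ofReal.comp_continuousOn hcont).aestronglyMeasurable hcb)
    have h2 : ∫ m in cb n x ρ, ‖u k m - v (xc n x m)‖ ^ 2 ∂P.μ =
        ∫ y in Metric.closedBall z ρ, Real.sqrt ((P.loc x).g y).det *
          ‖lu (𝓡∂ n) x (u k) y - v y‖ ^ 2 := by
      have h3 : ((∫ m in cb n x ρ, ‖u k m - v (xc n x m)‖ ^ 2 ∂P.μ : ℝ) : ℂ) =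
          ((∫ y in Metric.closedBall z ρ, Real.sqrt ((P.loc x).g y).det *
            ‖lu (𝓡∂ n) x (u k) y - v y‖ ^ 2 : ℝ) : ℂ) := by
        rw [← integral_complex_ofReal, ← integral_complex_ofReal]
        refine h1.trans (setIntegral_congr_fun Metric.isClosed_closedBall.measurableSet
          fun y hy => ?_)
        have h4 : xc n x ((xc n x).symm y) = y := (xc n x).right_inv (hcbt hy)
        simp only [h4, lu]
        push_cast
        rfl
      exact_mod_cast h3
    have hi1 : IntegrableOn (fun y => ‖lu (𝓡∂ n) x (u k) y - v y‖ ^ 2)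
        (Metric.closedBall z ρ) :=
      ((((hlu k).continuousOn.mono hcbt).sub
        (hv.continuousOn.mono (Metric.closedBall_subset_ball hρR))).norm.pow 2).integrableOn_compact
        (isCompact_closedBall z ρ)
    have hi2 : IntegrableOn (fun y => Real.sqrt ((P.loc x).g y).det *
        ‖lu (𝓡∂ n) x (u k) y - v y‖ ^ 2) (Metric.closedBall z ρ) :=
      (hdet.mul ((((hlu k).continuousOn.mono hcbt).sub
        (hv.continuousOn.mono
          (Metric.closedBall_subset_ball hρR))).norm.pow 2)).integrableOn_compact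
        (isCompact_closedBall z ρ)
    rw [h2]
    calc c * ∫ y in Metric.ball z ρ, ‖lu (𝓡∂ n) x (u k) y - v y‖ ^ 2
        ≤ c * ∫ y in Metric.closedBall z ρ, ‖lu (𝓡∂ n) x (u k) y - v y‖ ^ 2 :=
          mul_le_mul_of_nonneg_left (setIntegral_mono_set hi1
            (Eventually.of_forall fun _ => by positivity)
            Metric.ball_subset_closedBall.eventuallyLE) hcpos.le
      _ = ∫ y in Metric.closedBall z ρ, c * ‖lu (𝓡∂ n) x (u k) y - v y‖ ^ 2 :=
          (integral_const_mul _ _).symm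
      _ ≤ _ := setIntegral_mono_on (hi1.const_mul c) hi2
          Metric.isClosed_closedBall.measurableSet fun y hy =>
            mul_le_mul_of_nonneg_right (hmin hy) (by positivity)
  have h1 := hl1.const_mul c⁻¹
  rw [mul_zero] at h1
  refine squeeze_zero (fun k => integral_nonneg fun _ => by positivity) (fun k => ?_) h1
  rw [← div_eq_inv_mul, le_div_iff₀ hcpos, mul_comm]
  exact hkey k

/-- The uniform gradient estimate. -/
theorem grad_est (n N : ℕ) [NeZero n] (L : LD n N) (z : E n) (R ρ₀ ρ₁ : ℝ)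
    (hok : L.Ok (Metric.ball z R)) (hsub : Metric.ball z R ⊆ Hs n) (h01 : ρ₀ < ρ₁)
    (h1R : ρ₁ < R) :
    ∃ C : ℝ, ∀ c : E n → Fib N, Sol L (Metric.ball z R) c → ∀ y ∈ Metric.closedBall z ρ₀,
      (‖c y‖ + ∑ j, ‖pd j c y‖) ^ 2 ≤ C * ∫ x in Metric.ball z ρ₁, ‖c x‖ ^ 2 := by
  have key : ∃ C : ℝ, ∀ c : E n → Fib N, Sol L (Metric.ball z R) c →
      ∀ y ∈ Metric.closedBall z ρ₀,
      (‖c y‖ + ∑ j, ‖pd j c y‖) ^ 2 ≤ C * ∫ x in Metric.ball z ρ₁, ‖c x‖ ^ 2 := by
    refine (isCompact_closedBall z ρ₀).induction_on (p := fun s => ∃ C : ℝ,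
      ∀ c : E n → Fib N, Sol L (Metric.ball z R) c → ∀ y ∈ s,
      (‖c y‖ + ∑ j, ‖pd j c y‖) ^ 2 ≤ C * ∫ x in Metric.ball z ρ₁, ‖c x‖ ^ 2)
      ⟨0, fun c _ y hy => hy.elim⟩ ?_ ?_ ?_
    · rintro s t hst ⟨C, hC⟩
      exact ⟨C, fun c hc y hy => hC c hc y (hst hy)⟩
    · rintro s t ⟨C, hC⟩ ⟨C', hC'⟩
      refine ⟨max C C', fun c hc y hy => ?_⟩
      have hI : 0 ≤ ∫ x in Metric.ball z ρ₁, ‖c x‖ ^ 2 :=
        integral_nonneg fun _ => by positivity
      rcases hy with hy | hy
      · exact (hC c hc y hy).trans (mul_le_mul_of_nonneg_right (le_max_left _ _) hI)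
      · exact (hC' c hc y hy).trans (mul_le_mul_of_nonneg_right (le_max_right _ _) hI)
    · intro z' hz'
      have hr : 0 < ρ₁ - ρ₀ := by linarith
      have hb : Metric.ball z' (ρ₁ - ρ₀) ⊆ Metric.ball z ρ₁ := by
        intro y hy
        rw [Metric.mem_ball] at hy ⊢
        rw [Metric.mem_closedBall] at hz'
        have := dist_triangle y z' z
        linarith
      have hcb : Metric.closedBall z' (ρ₁ - ρ₀) ⊆ Metric.ball z R := by
        intro y hy
        rw [Metric.mem_closedBall] at hy hz'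
        rw [Metric.mem_ball]
        have := dist_triangle y z' z
        linarith
      obtain ⟨C, hC⟩ := TM.fAInt n N L (Metric.ball z R) Metric.isOpen_ball hsub hok z'
        (ρ₁ - ρ₀) hr hcb
      refine ⟨Metric.ball z' ((ρ₁ - ρ₀) / 2),
        mem_nhdsWithin_of_mem_nhds (Metric.ball_mem_nhds _ (by linarith)), max C 0,
        fun c hc y hy => ?_⟩
      refine (hC c hc y hy).trans ?_
      have hI : IntegrableOn (fun x => ‖c x‖ ^ 2) (Metric.ball z ρ₁) := by
        refine IntegrableOn.mono_set (t := Metric.closedBall z ρ₁) ?_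
          Metric.ball_subset_closedBall
        exact ((hc.1.continuousOn.mono
          (Metric.closedBall_subset_ball h1R)).norm.pow 2).integrableOn_compact
          (isCompact_closedBall z ρ₁)
      have h2 : ∫ x in Metric.ball z' (ρ₁ - ρ₀), ‖c x‖ ^ 2 ≤ ∫ x in Metric.ball z ρ₁, ‖c x‖ ^ 2 :=
        setIntegral_mono_set hI (Eventually.of_forall fun _ => by positivity) hb.eventuallyLE
      have h3 : 0 ≤ ∫ x in Metric.ball z' (ρ₁ - ρ₀), ‖c x‖ ^ 2 :=
        integral_nonneg fun _ => by positivity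
      exact (mul_le_mul_of_nonneg_right (le_max_left C 0) h3).trans
        (mul_le_mul_of_nonneg_left h2 (le_max_right C 0))
  exact key

end Vale.Agent.P088.H207

end
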