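import Vale.Agent.P088.H207.F8

/-!
# P088: from local solutions to `Ex`
-/

set_option linter.all false

open MeasureTheory Set Filter Topology
open scoped ContDiff Real

noncomputable section

namespace Vale.Agent.P088.H207

open Vale.Agent.P088.EYM Vale.Agent.P088.EYM.ES

variable {n : ℕ} [NeZero n]

omit [NeZero n] in
theorem glue_cd {F : Type*} [NormedAddCommGroup F] [NormedSpace ℝ F] {f : E n → F} {ρ : ℝ}
    (hρ : ρ < 1 / 2) (h1 : ContDiffOn ℝ ∞ f (Metric.ball 0 (1 / 2)))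
    (h0 : ∀ y, y ∉ Metric.closedBall (0 : E n) ρ → f y = 0) :
    ContDiff ℝ ∞ f ∧ tsupport f ⊆ Metric.ball 0 (1 / 2) := by
  constructor
  · rw [contDiff_iff_contDiffAt]
    intro y
    by_cases hy : y ∈ Metric.ball (0 : E n) (1 / 2)
    · exact h1.contDiffAt (Metric.isOpen_ball.mem_nhds hy)
    · have hy' : y ∈ (Metric.closedBall (0 : E n) ρ)ᶜ := fun h =>
        hy (Metric.closedBall_subset_ball hρ h)
      have h2 : f =ᶠ[𝓝 y] fun _ => 0 := by
        filter_upwards [Metric.isClosed_closedBall.isOpen_compl.mem_nhds hy'] with z hz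
        exact h0 z hz
      exact contDiffAt_const.congr_of_eventuallyEq h2
  · refine (closure_minimal (fun y hy => ?_) Metric.isClosed_closedBall).trans
      (Metric.closedBall_subset_ball hρ)
    by_contra hne
    exact hy (h0 y hne)

theorem ex_of_loc {h : Fin n → Fin n → E n → ℝ} (P : Pert h) {ρ : ℝ} (hρ : ρ < 1 / 2)
    (hs : ∀ j k y, y ∉ Metric.closedBall (0 : E n) ρ → h j k y = 0)
    (H : ∀ ξ η : E n, (inner ℝ ξ η : ℝ) = 0 → ‖ξ‖ = 2 * ‖η‖ → η ≠ 0 → ∀ δ : ℝ, 0 < δ →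
      ∃ U U' : E n → ℂ, ContDiffOn ℝ ∞ U (Metric.ball 0 (1 / 2)) ∧
        ContDiffOn ℝ ∞ U' (Metric.ball 0 (1 / 2)) ∧
        (∀ y ∈ Metric.ball (0 : E n) (1 / 2), y ∉ Metric.closedBall (0 : E n) ρ → U' y = U y) ∧
        (∀ y ∈ Metric.ball (0 : E n) (1 / 2),
          ∑ j, fderiv ℝ (fun y => fderiv ℝ U y (ev j)) y (ev j) = 0) ∧
        (∀ y ∈ Metric.ball (0 : E n) (1 / 2),
          ∑ j, fderiv ℝ (fun y => fderiv ℝ U' y (ev j) +
            ∑ k, (h j k y : ℂ) * fderiv ℝ U' y (ev k)) y (ev j) = 0) ∧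
        ∀ y ∈ Metric.closedBall (0 : E n) ρ,
          ∑ k, ‖fderiv ℝ U y (ev k) - zz ξ η k * ez (zz ξ η) y‖ ^ 2 ≤ δ) : Ex h := by
  classical
  intro ξ η h0 h2 hη δ hδ
  have hHH := P.HH_nonneg
  obtain ⟨U, U', hU, hU', hUU', hL, hL', hest⟩ := H ξ η h0 h2 hη (δ / (HH h + 1)) (by positivity)
  have hbo : IsOpen (Metric.ball (0 : E n) (1 / 2)) := Metric.isOpen_ball
  set w : E n → ℂ := fun y => if y ∈ Metric.ball (0 : E n) (1 / 2) then U' y - U y else 0 with hw
  set T : Fin n → E n → ℂ := fun j y => ∑ k, (h j k y : ℂ) * fderiv ℝ U y (ev k) with hT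
  have hwb : ∀ y ∈ Metric.ball (0 : E n) (1 / 2), w y = U' y - U y := fun y hy => if_pos hy
  have hw0 : ∀ y, y ∉ Metric.closedBall (0 : E n) ρ → w y = 0 := by
    intro y hy
    by_cases hyb : y ∈ Metric.ball (0 : E n) (1 / 2)
    · rw [hwb y hyb, hUU' y hyb hy, sub_self]
    · exact if_neg hyb
  have hwc := glue_cd hρ (f := w) ((hU'.sub hU).congr hwb) hw0
  have hfU : ∀ k, ContDiffOn ℝ ∞ (fun y => fderiv ℝ U y (ev k)) (Metric.ball 0 (1 / 2)) :=
    fun k => (hU.fderiv_of_isOpen hbo (m := ∞) (by simp)).clm_apply contDiffOn_const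
  have hfU' : ∀ k, ContDiffOn ℝ ∞ (fun y => fderiv ℝ U' y (ev k)) (Metric.ball 0 (1 / 2)) :=
    fun k => (hU'.fderiv_of_isOpen hbo (m := ∞) (by simp)).clm_apply contDiffOn_const
  have hT0 : ∀ j y, y ∉ Metric.closedBall (0 : E n) ρ → T j y = 0 := by
    intro j y hy
    refine Finset.sum_eq_zero fun k _ => ?_
    rw [hs j k y hy, Complex.ofReal_zero, zero_mul]
  have hTc : ∀ j, ContDiff ℝ ∞ (T j) ∧ tsupport (T j) ⊆ Metric.ball 0 (1 / 2) := fun j =>
    glue_cd hρ (ContDiffOn.sum fun k _ => ((P.cd j k).contDiffOn).mul (hfU k)) (hT0 j)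
  refine ⟨w, T, hwc.1, hwc.2, fun j => (hTc j).1, fun j => (hTc j).2, ?_, ?_⟩
  · intro x
    by_cases hx : x ∈ Metric.ball (0 : E n) (1 / 2)
    · have e1 : ∀ y ∈ Metric.ball (0 : E n) (1 / 2), fderiv ℝ w y = fderiv ℝ U' y - fderiv ℝ U y := by
        intro y hy
        have e2 : w =ᶠ[𝓝 y] fun y => U' y - U y := by
          filter_upwards [hbo.mem_nhds hy] with z hz
          exact hwb z hz
        rw [e2.fderiv_eq]
        exact fderiv_fun_sub
          ((hU'.contDiffAt (hbo.mem_nhds hy)).differentiableAt (by simp))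
          ((hU.contDiffAt (hbo.mem_nhds hy)).differentiableAt (by simp))
      have e3 : ∀ j, (fun y => fderiv ℝ w y (ev j) +
          (∑ k, (h j k y : ℂ) * fderiv ℝ w y (ev k) + T j y)) =ᶠ[𝓝 x]
          fun y => (fderiv ℝ U' y (ev j) + ∑ k, (h j k y : ℂ) * fderiv ℝ U' y (ev k)) -
            fderiv ℝ U y (ev j) := by
        intro j
        filter_upwards [hbo.mem_nhds hx] with y hy
        rw [e1 y hy]
        show (fderiv ℝ U' y (ev j) - fderiv ℝ U y (ev j)) +
          (∑ k, (h j k y : ℂ) * (fderiv ℝ U' y (ev k) - fderiv ℝ U y (ev k)) +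
            ∑ k, (h j k y : ℂ) * fderiv ℝ U y (ev k)) = _
        rw [← Finset.sum_add_distrib]
        have e4 : ∀ k, (h j k y : ℂ) * (fderiv ℝ U' y (ev k) - fderiv ℝ U y (ev k)) +
            (h j k y : ℂ) * fderiv ℝ U y (ev k) = (h j k y : ℂ) * fderiv ℝ U' y (ev k) :=
          fun k => by ring
        simp only [e4]
        ring
      have hd1 : ∀ j, DifferentiableAt ℝ (fun y => fderiv ℝ U' y (ev j) +
          ∑ k, (h j k y : ℂ) * fderiv ℝ U' y (ev k)) x := fun j =>
        (((hfU' j).add (ContDiffOn.sum fun k _ =>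
          ((P.cd j k).contDiffOn).mul (hfU' k))).contDiffAt (hbo.mem_nhds hx)).differentiableAt
            (by simp)
      have hd2 : ∀ j, DifferentiableAt ℝ (fun y => fderiv ℝ U y (ev j)) x := fun j =>
        ((hfU j).contDiffAt (hbo.mem_nhds hx)).differentiableAt (by simp)
      have e5 : ∀ j, fderiv ℝ (fun y => fderiv ℝ w y (ev j) +
          (∑ k, (h j k y : ℂ) * fderiv ℝ w y (ev k) + T j y)) x (ev j) =
          fderiv ℝ (fun y => fderiv ℝ U' y (ev j) +
            ∑ k, (h j k y : ℂ) * fderiv ℝ U' y (ev k)) x (ev j) -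
          fderiv ℝ (fun y => fderiv ℝ U y (ev j)) x (ev j) := by
        intro j
        rw [(e3 j).fderiv_eq, fderiv_fun_sub (hd1 j) (hd2 j)]
        rfl
      simp only [e5]
      rw [Finset.sum_sub_distrib, hL x hx, hL' x hx, sub_zero]
    · have hx' : x ∈ (Metric.closedBall (0 : E n) ρ)ᶜ := fun h =>
        hx (Metric.closedBall_subset_ball hρ h)
      have hno := Metric.isClosed_closedBall.isOpen_compl.mem_nhds hx'
      have e1 : ∀ y ∈ (Metric.closedBall (0 : E n) ρ)ᶜ, fderiv ℝ w y = 0 := by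
        intro y hy
        have e2 : w =ᶠ[𝓝 y] fun _ => 0 := by
          filter_upwards [Metric.isClosed_closedBall.isOpen_compl.mem_nhds hy] with z hz
          exact hw0 z hz
        rw [e2.fderiv_eq]
        simp
      refine Finset.sum_eq_zero fun j _ => ?_
      have e3 : (fun y => fderiv ℝ w y (ev j) +
          (∑ k, (h j k y : ℂ) * fderiv ℝ w y (ev k) + T j y)) =ᶠ[𝓝 x] fun _ => 0 := by
        filter_upwards [hno] with y hy
        rw [e1 y hy, hT0 j y hy]
        simp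
      rw [e3.fderiv_eq]
      simp
  · have e1 : ∀ j x, T j x - ∑ k, (h j k x : ℂ) * (zz ξ η k * ez (zz ξ η) x) =
        ∑ k, (h j k x : ℂ) * (fderiv ℝ U x (ev k) - zz ξ η k * ez (zz ξ η) x) := by
      intro j x
      rw [hT, ← Finset.sum_sub_distrib]
      exact Finset.sum_congr rfl fun k _ => by ring
    have e0 : ∀ j, Continuous fun x => T j x - ∑ k, (h j k x : ℂ) * (zz ξ η k * ez (zz ξ η) x) :=
      fun j => (hTc j).1.continuous.sub (continuous_finset_sum _ fun k _ =>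
        (P.cd j k).continuous.mul (continuous_const.mul (ez_contDiff _).continuous))
    have e0' : ∀ j, HasCompactSupport fun x =>
        T j x - ∑ k, (h j k x : ℂ) * (zz ξ η k * ez (zz ξ η) x) := by
      intro j
      refine HasCompactSupport.intro (isCompact_closedBall (0 : E n) ρ) fun x hx => ?_
      rw [e1]
      refine Finset.sum_eq_zero fun k _ => ?_
      rw [hs j k x hx, Complex.ofReal_zero, zero_mul]
    have i1 := fun j => int_sq (e0 j) (e0' j)
    rw [← integral_finsetSum _ fun j _ => i1 j]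
    have e2 : (∫ x, ∑ j, ‖T j x - ∑ k, (h j k x : ℂ) * (zz ξ η k * ez (zz ξ η) x)‖ ^ 2) ≤
        ∫ x, (δ / (HH h + 1)) * ∑ j, ∑ k, h j k x ^ 2 := by
      refine integral_mono (integrable_finsetSum _ fun j _ => i1 j) (P.tot_int.const_mul _)
        fun x => ?_
      show ∑ j, ‖T j x - ∑ k, (h j k x : ℂ) * (zz ξ η k * ez (zz ξ η) x)‖ ^ 2 ≤
        (δ / (HH h + 1)) * ∑ j, ∑ k, h j k x ^ 2
      have e3 := mat_cs' (fun j k => h j k x)
        (fun k => fderiv ℝ U x (ev k) - zz ξ η k * ez (zz ξ η) x)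
      have e4 : ∑ j, ‖T j x - ∑ k, (h j k x : ℂ) * (zz ξ η k * ez (zz ξ η) x)‖ ^ 2 ≤
          (∑ j, ∑ k, h j k x ^ 2) *
            ∑ k, ‖fderiv ℝ U x (ev k) - zz ξ η k * ez (zz ξ η) x‖ ^ 2 := by
        simp only [e1]
        exact e3
      refine e4.trans ?_
      rw [mul_comm]
      by_cases hx : x ∈ Metric.closedBall (0 : E n) ρ
      · exact mul_le_mul_of_nonneg_right (hest x hx)
          (Finset.sum_nonneg fun j _ => Finset.sum_nonneg fun k _ => sq_nonneg _)
      · have e5 : ∑ j, ∑ k, h j k x ^ 2 = 0 :=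
          Finset.sum_eq_zero fun j _ => Finset.sum_eq_zero fun k _ => by
            rw [hs j k x hx, zero_pow two_ne_zero]
        rw [e5, mul_zero, mul_zero]
    refine e2.trans ?_
    rw [integral_const_mul, ← P.HH_eq, div_mul_eq_mul_div, div_le_iff₀ (by positivity)]
    nlinarith

end Vale.Agent.P088.H207

end
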