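import Vale.Agent.P088.H207.G1
import Vale.Agent.P088.H207.G2

/-!
# P088: from solutions on the manifold to local solutions
-/

set_option linter.all false

open Bundle Manifold MeasureTheory Set Filter Topology
open scoped ContDiff

noncomputable section

namespace Vale.Agent.P088.H207

open Vale.Agent.P088 Vale.Agent.P088.EYM

universe u

section loc

variable {n N : ℕ} [NeZero n]

/-- The operator without connection. -/
theorem lop_nc {L : LD n N} {D : Set (E n)} (hD : IsOpen D) (hpos : D ⊆ {y | 0 < y 0})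
    (hB : ∀ x ∈ D, ∀ i, L.B i x = 0) (c : E n → Fib N) {x : E n} (hx : x ∈ D) :
    Lop L c x = ∑ j, fderiv ℝ (fun y => ∑ k, gg L.g j k y • fderiv ℝ c y (ev k)) x (ev j) := by
  have h1 : ∀ j, ∀ y ∈ D, flux L j c y = ∑ k, gg L.g j k y • fderiv ℝ c y (ev k) := by
    intro j y hy
    unfold flux nab
    refine Finset.sum_congr rfl fun k _ => ?_
    rw [hB y hy k, cRunge_pd (hpos hy)]
    simp
  unfold Lop
  refine Finset.sum_congr rfl fun j _ => ?_
  rw [hB x hx j, cRunge_pd (hpos hx)]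
  have h2 : flux L j c =ᶠ[𝓝 x] fun y => ∑ k, gg L.g j k y • fderiv ℝ c y (ev k) := by
    filter_upwards [hD.mem_nhds hx] with y hy
    exact h1 j y hy
  rw [h2.fderiv_eq]
  simp

theorem gg_one {g : E n → Matrix (Fin n) (Fin n) ℝ} {x : E n} (h : g x = 1) (j k : Fin n) :
    gg g j k x = if j = k then 1 else 0 := by
  unfold gg
  rw [h]
  simp [Matrix.one_apply]

theorem lop_flat {L : LD n N} {D : Set (E n)} (hD : IsOpen D) (hpos : D ⊆ {y | 0 < y 0})
    (hg : ∀ x ∈ D, L.g x = 1) (hB : ∀ x ∈ D, ∀ i, L.B i x = 0) (c : E n → Fib N) {x : E n}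
    (hx : x ∈ D) : Lop L c x = ∑ j, fderiv ℝ (fun y => fderiv ℝ c y (ev j)) x (ev j) := by
  rw [lop_nc hD hpos hB c hx]
  refine Finset.sum_congr rfl fun j _ => ?_
  have h2 : (fun y => ∑ k, gg L.g j k y • fderiv ℝ c y (ev k)) =ᶠ[𝓝 x]
      fun y => fderiv ℝ c y (ev j) := by
    filter_upwards [hD.mem_nhds hx] with y hy
    simp only [gg_one (hg y hy)]
    simp
  rw [h2.fderiv_eq]

/-- the scaled component -/
def Sc (z : E n) (c : ℝ) (a : Fin N) (F : E n → Fib N) (y : E n) : ℂ := F (z + c • y) a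

theorem Sc_hasFD {z : E n} {c : ℝ} {a : Fin N} {F : E n → Fib N} {y : E n}
    (hF : DifferentiableAt ℝ F (z + c • y)) (v : E n) :
    fderiv ℝ (Sc z c a F) y v = (c : ℂ) * Sc z c a (fun x => fderiv ℝ F x v) y := by
  have h1 : HasFDerivAt (fun y : E n => z + c • y) (c • ContinuousLinearMap.id ℝ (E n)) y :=
    ((hasFDerivAt_id y).const_smul c).const_add z
  have h2 : HasFDerivAt (fun y => F (z + c • y))
      ((fderiv ℝ F (z + c • y)) ∘L (c • ContinuousLinearMap.id ℝ (E n))) y :=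
    hF.hasFDerivAt.comp y h1
  have h3 : HasFDerivAt (Sc z c a F)
      (((EuclideanSpace.proj (𝕜 := ℂ) a : Fib N →L[ℂ] ℂ).restrictScalars ℝ) ∘L
        ((fderiv ℝ F (z + c • y)) ∘L (c • ContinuousLinearMap.id ℝ (E n)))) y :=
    ((EuclideanSpace.proj (𝕜 := ℂ) a : Fib N →L[ℂ] ℂ).restrictScalars ℝ).hasFDerivAt.comp y h2
  rw [h3.fderiv]
  simp [Sc]

theorem Sc_cd {z : E n} {c R : ℝ} (hR : 0 < R) (hc : c = 2 * R) {a : Fin N} {F : E n → Fib N}
    (hF : ContDiffOn ℝ ∞ F (Metric.ball z R)) :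
    ContDiffOn ℝ ∞ (Sc z c a F) (Metric.ball 0 (1 / 2)) := by
  have h1 : ContDiff ℝ ∞ (fun y : E n => z + c • y) :=
    contDiff_const.add (contDiff_id.const_smul c)
  have h2 : MapsTo (fun y : E n => z + c • y) (Metric.ball 0 (1 / 2)) (Metric.ball z R) := by
    intro y hy
    rw [mem_ball_zero_iff] at hy
    rw [mem_ball_iff_norm, add_sub_cancel_left, norm_smul, Real.norm_eq_abs, hc,
      abs_of_pos (by positivity)]
    nlinarith
  exact ((EuclideanSpace.proj (𝕜 := ℂ) a : Fib N →L[ℂ] ℂ).restrictScalars ℝ).contDiff.comp_contDiffOn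
    (hF.comp h1.contDiffOn h2)

omit [NeZero n] in
theorem sig_ball {z : E n} {c R : ℝ} (hR : 0 < R) (hc : c = 2 * R) {y : E n} :
    z + c • y ∈ Metric.ball z R ↔ y ∈ Metric.ball (0 : E n) (1 / 2) := by
  rw [mem_ball_iff_norm, add_sub_cancel_left, norm_smul, Real.norm_eq_abs, hc,
      abs_of_pos (by positivity), mem_ball_zero_iff]
  constructor
  · intro h
    rw [lt_div_iff₀ two_pos]
    have : 2 * R * ‖y‖ < R := h
    nlinarith
  · intro h
    nlinarith

omit [NeZero n] in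
theorem sig_cball {z : E n} {c R ρ : ℝ} (hR : 0 < R) (hc : c = 2 * R) {y : E n} :
    z + c • y ∈ Metric.closedBall z ρ ↔ y ∈ Metric.closedBall (0 : E n) (ρ / (2 * R)) := by
  rw [mem_closedBall_iff_norm, add_sub_cancel_left, norm_smul, Real.norm_eq_abs, hc,
      abs_of_pos (by positivity), mem_closedBall_zero_iff, le_div_iff₀ (by positivity)]
  rw [mul_comm]

/-- the perturbation in scaled coordinates -/
def hh (g : E n → Matrix (Fin n) (Fin n) ℝ) (z : E n) (R : ℝ) (j k : Fin n) (y : E n) : ℝ :=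
  haveI := Classical.dec (y ∈ Metric.ball (0 : E n) (1 / 2))
  if y ∈ Metric.ball (0 : E n) (1 / 2) then
    gg g j k (z + (2 * R) • y) - (if j = k then 1 else 0) else 0

/-- the scaled equation -/
theorem Sc_eq {g : E n → Matrix (Fin n) (Fin n) ℝ} {z : E n} {c R : ℝ} (hR : 0 < R)
    (hc : c = 2 * R) {a : Fin N} {F : E n → Fib N} (hF : ContDiffOn ℝ ∞ F (Metric.ball z R))
    (hg : ∀ j k, ContDiffOn ℝ ∞ (gg g j k) (Metric.ball z R))
    (heq : ∀ x ∈ Metric.ball z R,
      ∑ j, fderiv ℝ (fun y => ∑ k, gg g j k y • fderiv ℝ F y (ev k)) x (ev j) = 0)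
    {y : E n} (hy : y ∈ Metric.ball (0 : E n) (1 / 2)) :
    ∑ j, fderiv ℝ (fun y => fderiv ℝ (Sc z c a F) y (ev j) +
      ∑ k, (hh g z R j k y : ℂ) * fderiv ℝ (Sc z c a F) y (ev k)) y (ev j) = 0 := by
  have hbo : IsOpen (Metric.ball (0 : E n) (1 / 2)) := Metric.isOpen_ball
  have hfF : ∀ k, ContDiffOn ℝ ∞ (fun x => fderiv ℝ F x (ev k)) (Metric.ball z R) := fun k =>
    (hF.fderiv_of_isOpen Metric.isOpen_ball (m := ∞) (by simp)).clm_apply contDiffOn_const
  have h1 : ∀ j, ∀ y ∈ Metric.ball (0 : E n) (1 / 2), fderiv ℝ (Sc z c a F) y (ev j) +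
      ∑ k, (hh g z R j k y : ℂ) * fderiv ℝ (Sc z c a F) y (ev k) =
      (c : ℂ) * Sc z c a (fun x => ∑ k, gg g j k x • fderiv ℝ F x (ev k)) y := by
    intro j y hy
    have e1 : ∀ v, fderiv ℝ (Sc z c a F) y v = (c : ℂ) * Sc z c a (fun x => fderiv ℝ F x v) y :=
      fun v => Sc_hasFD ((hF.contDiffAt (Metric.isOpen_ball.mem_nhds
        ((sig_ball hR hc).2 hy))).differentiableAt (by simp)) v
    simp only [e1]
    have e2 : Sc z c a (fun x => ∑ k, gg g j k x • fderiv ℝ F x (ev k)) y =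
        ∑ k, (gg g j k (z + c • y) : ℂ) * Sc z c a (fun x => fderiv ℝ F x (ev k)) y := by
      unfold Sc
      rw [WithLp.ofLp_sum, Finset.sum_apply]
      refine Finset.sum_congr rfl fun k _ => ?_
      rw [PiLp.smul_apply, Complex.real_smul]
    have e3 : ∀ k, (hh g z R j k y : ℂ) =
        (gg g j k (z + c • y) : ℂ) - (if j = k then 1 else 0) := by
      intro k
      have : hh g z R j k y = gg g j k (z + (2 * R) • y) - (if j = k then 1 else 0) := by
        unfold hh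
        exact if_pos hy
      rw [this, hc]
      split_ifs <;> simp
    simp only [e3]
    rw [e2, Finset.mul_sum]
    have e4 : ∀ k, ((gg g j k (z + c • y) : ℂ) - (if j = k then 1 else 0)) *
        ((c : ℂ) * Sc z c a (fun x => fderiv ℝ F x (ev k)) y) =
        (c : ℂ) * ((gg g j k (z + c • y) : ℂ) * Sc z c a (fun x => fderiv ℝ F x (ev k)) y) -
        (if j = k then (c : ℂ) * Sc z c a (fun x => fderiv ℝ F x (ev k)) y else 0) := by
      intro k
      split_ifs <;> ring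
    simp only [e4, Finset.sum_sub_distrib]
    simp
  have h2 : ∀ j, fderiv ℝ (fun y => fderiv ℝ (Sc z c a F) y (ev j) +
      ∑ k, (hh g z R j k y : ℂ) * fderiv ℝ (Sc z c a F) y (ev k)) y (ev j) =
      (c : ℂ) * ((c : ℂ) * Sc z c a (fun x => fderiv ℝ (fun y =>
        ∑ k, gg g j k y • fderiv ℝ F y (ev k)) x (ev j)) y) := by
    intro j
    have e1 : (fun y => fderiv ℝ (Sc z c a F) y (ev j) +
        ∑ k, (hh g z R j k y : ℂ) * fderiv ℝ (Sc z c a F) y (ev k)) =ᶠ[𝓝 y]
        fun y => (c : ℂ) * Sc z c a (fun x => ∑ k, gg g j k x • fderiv ℝ F x (ev k)) y := by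
      filter_upwards [hbo.mem_nhds hy] with y hy
      exact h1 j y hy
    rw [e1.fderiv_eq]
    have hW : ContDiffOn ℝ ∞ (fun x => ∑ k, gg g j k x • fderiv ℝ F x (ev k))
        (Metric.ball z R) := ContDiffOn.sum fun k _ => (hg j k).smul (hfF k)
    have hS : DifferentiableAt ℝ (Sc z c a (fun x => ∑ k, gg g j k x • fderiv ℝ F x (ev k))) y :=
      ((Sc_cd hR hc hW).contDiffAt (hbo.mem_nhds hy)).differentiableAt (by simp)
    rw [fderiv_const_mul hS]
    show (c : ℂ) * fderiv ℝ (Sc z c a (fun x => ∑ k, gg g j k x • fderiv ℝ F x (ev k))) y (ev j) = _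
    rw [Sc_hasFD ((hW.contDiffAt (Metric.isOpen_ball.mem_nhds
        ((sig_ball hR hc).2 hy))).differentiableAt (by simp))]
  simp only [h2]
  rw [← Finset.mul_sum, ← Finset.mul_sum]
  have h3 : ∑ j, Sc z c a (fun x => fderiv ℝ (fun y =>
        ∑ k, gg g j k y • fderiv ℝ F y (ev k)) x (ev j)) y =
      (∑ j, fderiv ℝ (fun y => ∑ k, gg g j k y • fderiv ℝ F y (ev k)) (z + c • y) (ev j)) a := by
    unfold Sc
    rw [WithLp.ofLp_sum, Finset.sum_apply]
  rw [h3, heq _ ((sig_ball hR hc).2 hy)]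
  simp

end loc

end Vale.Agent.P088.H207

end
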