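import Vale.Agent.P088.H207.G3

/-!
# P088: from solutions on the manifold to local solutions, part 2
-/

set_option linter.all false

open Bundle Manifold MeasureTheory Set Filter Topology
open scoped ContDiff

noncomputable section

namespace Vale.Agent.P088.H207

open Vale.Agent.P088 Vale.Agent.P088.EYM

universe u

section loc

variable {n N : ℕ} [NeZero n]

omit [NeZero n] in
theorem zz_sq {ξ η : E n} (h0 : (inner ℝ ξ η : ℝ) = 0) (h2 : ‖ξ‖ = 2 * ‖η‖) :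
    ∑ j, zz ξ η j ^ 2 = 0 := by
  have h3 : ∑ j, η j ^ 2 = ‖η‖ ^ 2 := (EuclideanSpace.real_norm_sq_eq η).symm
  have h4 : ∑ j, ξ j ^ 2 = ‖ξ‖ ^ 2 := (EuclideanSpace.real_norm_sq_eq ξ).symm
  have h5 : ∑ j, ξ j * η j = 0 := by
    rw [← h0, PiLp.inner_apply]
    refine Finset.sum_congr rfl fun j _ => ?_
    simp [mul_comm]
  have h6 : ∑ j, zz ξ η j ^ 2 = ((∑ j, η j ^ 2 - (∑ j, ξ j ^ 2) / 4 : ℝ) : ℂ) -
      Complex.I * ((∑ j, ξ j * η j : ℝ) : ℂ) := by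
    push_cast
    rw [Finset.sum_div, ← Finset.sum_sub_distrib, Finset.mul_sum, ← Finset.sum_sub_distrib]
    refine Finset.sum_congr rfl fun j _ => ?_
    unfold zz
    linear_combination ((ξ j : ℂ)) ^ 2 / 4 * Complex.I_sq
  rw [h6, h3, h4, h5, h2]
  push_cast
  ring

/-- the exponential -/
def vex (N : ℕ) (ζ : Fin n → ℂ) (z : E n) (R : ℝ) (a : Fin N) (x : E n) : Fib N :=
  ez ζ ((2 * R)⁻¹ • (x - z)) • EuclideanSpace.single a (1 : ℂ)

omit [NeZero n] in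
theorem vex_cd (ζ : Fin n → ℂ) (z : E n) (R : ℝ) (a : Fin N) :
    ContDiff ℝ ∞ (vex N ζ z R a) := by
  have h1 : ContDiff ℝ ∞ (fun x : E n => (2 * R)⁻¹ • (x - z)) :=
    (contDiff_id.sub contDiff_const).const_smul _
  exact ((ez_contDiff ζ).comp h1).smul contDiff_const

theorem vex_fd (ζ : Fin n → ℂ) (z : E n) (R : ℝ) (a : Fin N) (x : E n) (j : Fin n) :
    fderiv ℝ (vex N ζ z R a) x (ev j) =
      ((((2 * R)⁻¹ : ℝ) : ℂ) * ζ j) • vex N ζ z R a x := by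
  have h1 : HasFDerivAt (fun x : E n => (2 * R)⁻¹ • (x - z))
      ((2 * R)⁻¹ • ContinuousLinearMap.id ℝ (E n)) x :=
    HasFDerivAt.fun_const_smul ((hasFDerivAt_id x).sub_const z) _
  have h2 : HasFDerivAt (fun x : E n => ez ζ ((2 * R)⁻¹ • (x - z)))
      ((fderiv ℝ (ez ζ) ((2 * R)⁻¹ • (x - z))) ∘L
        ((2 * R)⁻¹ • ContinuousLinearMap.id ℝ (E n))) x :=
    (((ez_contDiff ζ).differentiable (by simp) _).hasFDerivAt).comp x h1
  have h3 : HasFDerivAt (vex N ζ z R a) _ x :=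
    h2.smul_const (EuclideanSpace.single a (1 : ℂ) : Fib N)
  rw [h3.fderiv]
  simp only [ContinuousLinearMap.smulRight_apply, ContinuousLinearMap.comp_apply,
    _root_.smul_apply, ContinuousLinearMap.id_apply, map_smul, ez_fderiv]
  unfold vex
  rw [smul_smul, Complex.real_smul]
  congr 1
  ring

theorem vex_lap {ξ η z : E n} {R : ℝ} (h0 : (inner ℝ ξ η : ℝ) = 0) (h2 : ‖ξ‖ = 2 * ‖η‖)
    (a : Fin N) (x : E n) :
    ∑ j, fderiv ℝ (fun y => fderiv ℝ (vex N (zz ξ η) z R a) y (ev j)) x (ev j) = 0 := by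
  have h1 : ∀ j, fderiv ℝ (fun y => fderiv ℝ (vex N (zz ξ η) z R a) y (ev j)) x (ev j) =
      (((((2 * R)⁻¹ : ℝ) : ℂ) ^ 2) * zz ξ η j ^ 2) • vex N (zz ξ η) z R a x := by
    intro j
    have e1 : (fun y => fderiv ℝ (vex N (zz ξ η) z R a) y (ev j)) =
        fun y => ((((2 * R)⁻¹ : ℝ) : ℂ) * zz ξ η j) • vex N (zz ξ η) z R a y :=
      funext fun y => vex_fd _ _ _ _ _ _
    rw [e1, fderiv_fun_const_smul ((vex_cd _ _ _ _).differentiable (by simp) x)]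
    show ((((2 * R)⁻¹ : ℝ) : ℂ) * zz ξ η j) • (fderiv ℝ (vex N (zz ξ η) z R a) x (ev j)) = _
    rw [vex_fd, smul_smul]
    congr 1
    ring
  simp only [h1]
  rw [← Finset.sum_smul, ← Finset.mul_sum, zz_sq h0 h2, mul_zero, zero_smul]

omit [NeZero n] in
theorem Sc_vex {ζ : Fin n → ℂ} {z : E n} {R c : ℝ} (hR : 0 < R) (hc : c = 2 * R) (a : Fin N)
    (y : E n) : Sc z c a (vex N ζ z R a) y = ez ζ y := by
  unfold Sc vex
  have h1 : (2 * R)⁻¹ • (z + c • y - z) = y := by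
    rw [add_sub_cancel_left, smul_smul, hc, inv_mul_cancel₀ (by positivity), one_smul]
  rw [h1]
  simp

theorem hh_flat {g : E n → Matrix (Fin n) (Fin n) ℝ} {z : E n} {c R : ℝ} (hR : 0 < R)
    (hc : c = 2 * R) (hg : ∀ x ∈ Metric.ball z R, g x = 1) (j k : Fin n) (y : E n) :
    hh g z R j k y = 0 := by
  unfold hh
  by_cases h : y ∈ Metric.ball (0 : E n) (1 / 2)
  · rw [if_pos h, gg_one (hg _ ((sig_ball hR rfl).2 h)), sub_self]
  · rw [if_neg h]

omit [NeZero n] in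
theorem sum_sq_le (b : Fin n → ℝ) (hb : ∀ j, 0 ≤ b j) (t : ℝ) (ht : 0 ≤ t) :
    ∑ j, b j ^ 2 ≤ (t + ∑ j, b j) ^ 2 := by
  have h0 : 0 ≤ ∑ j, b j := Finset.sum_nonneg fun j _ => hb j
  have h1 : ∑ j, b j ^ 2 ≤ ∑ j, b j * (∑ l, b l) := by
    refine Finset.sum_le_sum fun j _ => ?_
    rw [sq]
    exact mul_le_mul_of_nonneg_left
      (Finset.single_le_sum (f := b) (fun l _ => hb l) (Finset.mem_univ j)) (hb j)
  rw [← Finset.sum_mul] at h1
  nlinarith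

end loc

section glob

variable {n N : ℕ} [NeZero n] {M : Type u} [TopologicalSpace M]
  [ChartedSpace (EuclideanHalfSpace n) M] [IsManifold (𝓡∂ n) ∞ M] [T2Space M] [CompactSpace M]
  [ConnectedSpace M] [MeasurableSpace M] [BorelSpace M]

/-- The local solutions which are approximately exponentials. -/
theorem glob_to_loc (hn : 2 ≤ n) (a : Fin N) {P Q : One n N M} {Γ : Set M} (hΓ : RelBd n Γ)
    (hne : Γ.Nonempty) (hS : SameD P Q Γ) {p : M} {R ρ : ℝ} (hR : IsCB n p R) (hρ : 0 < ρ)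
    (hρR : ρ < R)
    (hP : ∀ x ∈ Metric.ball (xc n p p) R, (P.loc p).g x = 1 ∧ ∀ i, (P.loc p).B i x = 0)
    (hQB : ∀ x ∈ Metric.ball (xc n p p) R, ∀ i, (Q.loc p).B i x = 0)
    (hA : ∀ m, m ∉ cb n p ρ → ∀ X : TangentSpace (𝓡∂ n) m, P.A.form m X = Q.A.form m X)
    (hg : ∀ m, m ∉ cb n p ρ → ∀ v w : TangentSpace (𝓡∂ n) m,
      Q.g.inner m v w = P.g.inner m v w)
    {ξ η : E n} (h0 : (inner ℝ ξ η : ℝ) = 0) (h2 : ‖ξ‖ = 2 * ‖η‖) {δ : ℝ} (hδ : 0 < δ) :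
    ∃ U U' : E n → ℂ, ContDiffOn ℝ ∞ U (Metric.ball 0 (1 / 2)) ∧
        ContDiffOn ℝ ∞ U' (Metric.ball 0 (1 / 2)) ∧
        (∀ y ∈ Metric.ball (0 : E n) (1 / 2), y ∉ Metric.closedBall (0 : E n) (ρ / (2 * R)) →
          U' y = U y) ∧
        (∀ y ∈ Metric.ball (0 : E n) (1 / 2),
          ∑ j, fderiv ℝ (fun y => fderiv ℝ U y (ev j)) y (ev j) = 0) ∧
        (∀ y ∈ Metric.ball (0 : E n) (1 / 2),
          ∑ j, fderiv ℝ (fun y => fderiv ℝ U' y (ev j) +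
            ∑ k, (hh (Q.loc p).g (xc n p p) R j k y : ℂ) * fderiv ℝ U' y (ev k)) y (ev j) = 0) ∧
        ∀ y ∈ Metric.closedBall (0 : E n) (ρ / (2 * R)),
          ∑ k, ‖fderiv ℝ U y (ev k) - zz ξ η k * ez (zz ξ η) y‖ ^ 2 ≤ δ := by
  obtain ⟨hrel, hok, hbdy, hsm⟩ := TM.fLoc n N M
  have hbd : ((𝓡∂ n).boundary M).Nonempty := by
    obtain ⟨O, -, hO⟩ := hΓ
    obtain ⟨m, hm⟩ := hne
    rw [hO] at hm
    exact ⟨m, hm.2⟩
  have hR0 : 0 < R := hR.1
  set z : E n := xc n p p with hz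
  obtain ⟨c, hc⟩ : ∃ c : ℝ, c = 2 * R := ⟨_, rfl⟩
  have hc0 : 0 < c := by rw [hc]; positivity
  have hbt : Metric.ball z R ⊆ tg n p :=
    Metric.ball_subset_closedBall.trans (hR.2.trans inter_subset_left)
  have hpos : Metric.ball z R ⊆ {y | 0 < y 0} :=
    Metric.ball_subset_closedBall.trans (hR.2.trans inter_subset_right)
  have hbH : Metric.ball z R ⊆ Hs n := fun y hy => le_of_lt (show 0 < y 0 from hpos hy)
  have hbr : RelOpen (Metric.ball z R) := CHarm_relOpen_of_open Metric.isOpen_ball hbH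
  have hokP : (P.loc p).Ok (Metric.ball z R) := CHarm_ok_mono (hok P p) hbt
  have hokQ : (Q.loc p).Ok (Metric.ball z R) := CHarm_ok_mono (hok Q p) hbt
  obtain ⟨⟨hsP, hsQ, -⟩, -⟩ := Vale.Agent.P088.EYM.cData TM.fUniq TM.fForm n N M P Q Γ hΓ hne hS
  -- the local exponential solution
  set v : E n → Fib N := vex N (zz ξ η) z R a with hv
  have hvc : ContDiff ℝ ∞ v := vex_cd _ _ _ _
  have hvL : ∀ x ∈ Metric.ball z R, Lop (P.loc p) v x = 0 := by
    intro x hx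
    rw [lop_flat Metric.isOpen_ball hpos (fun x hx => (hP x hx).1) (fun x hx => (hP x hx).2) v hx]
    exact vex_lap h0 h2 a x
  have hvS : Sol (P.loc p) (Metric.ball z R) v := ⟨hvc.contDiffOn, hvL⟩
  obtain ⟨ρ₁, hρ₁, hρ₁R⟩ := exists_between hρR
  obtain ⟨uk, huk, hlim⟩ := runge_seq n N M P Γ p R ρ₁ hn hΓ hne hsP hR (hρ.trans hρ₁) hρ₁R v
    (hvc.contDiffOn.of_le two_le_inf) hvL
  obtain ⟨C, hC⟩ := grad_est n N (P.loc p) z R ρ ρ₁ hokP hbH hρ₁ hρ₁R
  obtain ⟨k, hk⟩ : ∃ k, C * ∫ y in Metric.ball z ρ₁, ‖lu (𝓡∂ n) p (uk k) y - v y‖ ^ 2 ≤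
      δ / c ^ 2 := by
    have h3 := hlim.const_mul C
    rw [mul_zero] at h3
    have h4 := (tendsto_order.1 h3).2 (δ / c ^ 2) (by positivity)
    obtain ⟨k, hk⟩ := h4.exists
    exact ⟨k, hk.le⟩
  -- the pair of solutions
  obtain ⟨f, hf, hu⟩ := huk k
  obtain ⟨u', hu'⟩ := hsQ f hf
  have hpair : (uk k, u') ∈ PP P Q Γ := ⟨f, hf, hu, hu'⟩
  obtain ⟨hOo, hOp, hObd⟩ := compl_cb (M := M) (n := n) hn hR hρ hρR
  have hOΓ : ((cb n p ρ)ᶜ ∩ Γ).Nonempty := by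
    obtain ⟨m, hm⟩ := hne
    obtain ⟨O, -, hO⟩ := hΓ
    refine ⟨m, hObd m ?_, hm⟩
    rw [hO] at hm
    exact hm.2
  have heq := Vale.Agent.P088.EYM.O.lS n N M P Q Γ (cb n p ρ)ᶜ hΓ hOo hOp hOΓ hS
    (fun m hm => hA m hm) (fun m hm => hg m hm) (uk k, u') hpair
  set F : E n → Fib N := lu (𝓡∂ n) p (uk k) with hF
  set F' : E n → Fib N := lu (𝓡∂ n) p u' with hF'
  have hFs : Sol (P.loc p) (tg n p) F := TM.fHarm n N M P f (uk k) hu p
  have hF's : Sol (Q.loc p) (tg n p) F' := TM.fHarm n N M Q f u' hu' p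
  have hFc : ContDiffOn ℝ ∞ F (Metric.ball z R) := hFs.1.mono hbt
  have hF'c : ContDiffOn ℝ ∞ F' (Metric.ball z R) := hF's.1.mono hbt
  have hgP : ∀ j k, ContDiffOn ℝ ∞ (gg (P.loc p).g j k) (Metric.ball z R) := fun j k =>
    hbr.gg_smooth hokP.g_smooth hokP.g_pos j k
  have hgQ : ∀ j k, ContDiffOn ℝ ∞ (gg (Q.loc p).g j k) (Metric.ball z R) := fun j k =>
    hbr.gg_smooth hokQ.g_smooth hokQ.g_pos j k
  refine ⟨Sc z c a F, Sc z c a F', Sc_cd hR0 hc hFc, Sc_cd hR0 hc hF'c, ?_, ?_, ?_, ?_⟩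
  · intro y hy hy'
    have h3 : z + c • y ∈ Metric.ball z R := (sig_ball hR0 hc).2 hy
    have h4 : z + c • y ∉ Metric.closedBall z ρ := fun h => hy' ((sig_cball hR0 hc).1 h)
    have h5 : (xc n p).symm (z + c • y) ∉ cb n p ρ := by
      rintro ⟨x', hx', he⟩
      have h6 : x' = z + c • y := (xc n p).symm.injOn
        ((hR.2 (Metric.closedBall_subset_closedBall hρR.le hx')).1) (hbt h3) he
      exact h4 (h6 ▸ hx')
    have h6 := heq ((xc n p).symm (z + c • y)) h5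
    show F' (z + c • y) a = F (z + c • y) a
    show u' ((xc n p).symm (z + c • y)) a = uk k ((xc n p).symm (z + c • y)) a
    have h7 : uk k ((xc n p).symm (z + c • y)) = u' ((xc n p).symm (z + c • y)) := h6
    rw [h7]
  · intro y hy
    have h3 := Sc_eq (g := (P.loc p).g) hR0 hc (a := a) hFc hgP (fun x hx => by
      rw [← lop_nc (L := P.loc p) Metric.isOpen_ball hpos (fun x hx => (hP x hx).2) F hx]
      exact hFs.2 x (hbt hx)) hy
    have h4 : ∀ j, (fun y => fderiv ℝ (Sc z c a F) y (ev j) +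
        ∑ k, (hh (P.loc p).g z R j k y : ℂ) * fderiv ℝ (Sc z c a F) y (ev k)) =
        fun y => fderiv ℝ (Sc z c a F) y (ev j) := by
      intro j
      funext y
      have h5 : ∀ k, hh (P.loc p).g z R j k y = 0 := fun k =>
        hh_flat hR0 hc (fun x hx => (hP x hx).1) j k y
      simp [h5]
    simp only [h4] at h3
    exact h3
  · intro y hy
    exact Sc_eq (g := (Q.loc p).g) hR0 hc (a := a) hF'c hgQ (fun x hx => by
      rw [← lop_nc (L := Q.loc p) Metric.isOpen_ball hpos hQB F' hx]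
      exact hF's.2 x (hbt hx)) hy
  · intro y hy
    have hx : z + c • y ∈ Metric.closedBall z ρ := (sig_cball hR0 hc).2 hy
    have hxR : z + c • y ∈ Metric.ball z R := Metric.closedBall_subset_ball hρR hx
    have hcS : Sol (P.loc p) (Metric.ball z R) (fun y => F y - v y) :=
      cClosed_sol_sub hbr hokP ⟨hFc, fun x hx => hFs.2 x (hbt hx)⟩ hvS
    have h3 := hC _ hcS (z + c • y) hx
    have hdF : DifferentiableAt ℝ F (z + c • y) :=
      (hFc.contDiffAt (Metric.isOpen_ball.mem_nhds hxR)).differentiableAt (by simp)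
    have hdv : DifferentiableAt ℝ v (z + c • y) := hvc.differentiable (by simp) _
    have h4 : ∀ j, fderiv ℝ (Sc z c a F) y (ev j) - zz ξ η j * ez (zz ξ η) y =
        (c : ℂ) * (pd j (fun y => F y - v y) (z + c • y)) a := by
      intro j
      have e1 := Sc_hasFD (a := a) (z := z) (c := c) hdF (ev j)
      have e2 := Sc_hasFD (a := a) (z := z) (c := c) hdv (ev j)
      have e3 : Sc z c a v = ez (zz ξ η) := funext fun y => Sc_vex hR0 hc a y
      rw [e3, ez_fderiv] at e2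
      rw [e1, e2, cRunge_pd (hpos hxR), fderiv_fun_sub hdF hdv]
      show _ = (c : ℂ) * ((fderiv ℝ F (z + c • y) (ev j) - fderiv ℝ v (z + c • y) (ev j)) a)
      unfold Sc
      rw [PiLp.sub_apply]
      ring
    have h5 : ∀ j, ‖fderiv ℝ (Sc z c a F) y (ev j) - zz ξ η j * ez (zz ξ η) y‖ ^ 2 ≤
        c ^ 2 * ‖pd j (fun y => F y - v y) (z + c • y)‖ ^ 2 := by
      intro j
      rw [h4 j, norm_mul, mul_pow, Complex.norm_real, Real.norm_eq_abs, sq_abs]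
      exact mul_le_mul_of_nonneg_left
        (pow_le_pow_left₀ (norm_nonneg _) (PiLp.norm_apply_le _ a) 2) (sq_nonneg _)
    calc ∑ j, ‖fderiv ℝ (Sc z c a F) y (ev j) - zz ξ η j * ez (zz ξ η) y‖ ^ 2
        ≤ ∑ j, c ^ 2 * ‖pd j (fun y => F y - v y) (z + c • y)‖ ^ 2 :=
          Finset.sum_le_sum fun j _ => h5 j
      _ = c ^ 2 * ∑ j, ‖pd j (fun y => F y - v y) (z + c • y)‖ ^ 2 := by rw [Finset.mul_sum]
      _ ≤ c ^ 2 * (‖F (z + c • y) - v (z + c • y)‖ +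
            ∑ j, ‖pd j (fun y => F y - v y) (z + c • y)‖) ^ 2 :=
          mul_le_mul_of_nonneg_left (sum_sq_le _ (fun j => norm_nonneg _) _ (norm_nonneg _))
            (sq_nonneg _)
      _ ≤ c ^ 2 * (δ / c ^ 2) := mul_le_mul_of_nonneg_left (h3.trans hk) (sq_nonneg _)
      _ = δ := by field_simp

end glob

end Vale.Agent.P088.H207

end
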