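import Vale.Agent.P088.H207.G4

/-!
# P088: near the flat metric, the abstract theorem
-/

set_option linter.all false

open Bundle Manifold MeasureTheory Set Filter Topology
open scoped ContDiff

noncomputable section

namespace Vale.Agent.P088.H207

open Vale.Agent.P088 Vale.Agent.P088.EYM

universe u

section loc

variable {n : ℕ} [NeZero n]

/-- iterated partial derivatives -/
def itp (l : Fin n) (m : ℕ) (f : E n → ℝ) : E n → ℝ := (fun g : E n → ℝ => pd l g)^[m] f

theorem itp_succ (l : Fin n) (m : ℕ) (f : E n → ℝ) : itp l (m + 1) f = pd l (itp l m f) :=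
  Function.iterate_succ_apply' _ _ _

theorem gg_symm {g : E n → Matrix (Fin n) (Fin n) ℝ} {x : E n} (h : (g x).PosDef)
    (j k : Fin n) : gg g j k x = gg g k j x := by
  unfold gg
  have h1 := (h.inv).1.apply j k
  simp only [star_trivial] at h1
  rw [h1]

/-- the derivative of a scaled real function -/
theorem scal_fd {f : E n → ℝ} {z : E n} {c : ℝ} {y : E n} (hf : DifferentiableAt ℝ f (z + c • y))
    (v : E n) : fderiv ℝ (fun y => f (z + c • y)) y v = c * fderiv ℝ f (z + c • y) v := by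
  have h1 : HasFDerivAt (fun y : E n => z + c • y) (c • ContinuousLinearMap.id ℝ (E n)) y :=
    ((hasFDerivAt_id y).const_smul c).const_add z
  have h2 : HasFDerivAt (fun y => f (z + c • y))
      ((fderiv ℝ f (z + c • y)) ∘L (c • ContinuousLinearMap.id ℝ (E n))) y :=
    hf.hasFDerivAt.comp y h1
  rw [h2.fderiv]
  simp

variable {g : E n → Matrix (Fin n) (Fin n) ℝ} {z : E n} {R ρ : ℝ}
  (hR : 0 < R) (hρR : ρ < R) (hpos : Metric.ball z R ⊆ {y : E n | 0 < y 0})
  (hgc : ∀ j k, ContDiffOn ℝ ∞ (gg g j k) (Metric.ball z R))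
  (hgp : ∀ x ∈ Metric.ball z R, (g x).PosDef)
  (hg1 : ∀ x ∈ Metric.ball z R, x ∉ Metric.closedBall z ρ → g x = 1)

theorem hh_ball {j k : Fin n} {y : E n} (hy : y ∈ Metric.ball (0 : E n) (1 / 2)) :
    hh g z R j k y = gg g j k (z + (2 * R) • y) - (if j = k then 1 else 0) := by
  unfold hh
  exact if_pos hy

include hR hg1 in
theorem hh_zero {j k : Fin n} {y : E n} (hy : y ∉ Metric.closedBall (0 : E n) (ρ / (2 * R))) :
    hh g z R j k y = 0 := by
  by_cases hyb : y ∈ Metric.ball (0 : E n) (1 / 2)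
  · rw [hh_ball hyb, gg_one (hg1 _ ((sig_ball hR rfl).2 hyb)
      (fun h => hy ((sig_cball hR rfl).1 h))), sub_self]
  · unfold hh
    exact if_neg hyb

include hR hgc in
theorem hh_cdOn (j k : Fin n) : ContDiffOn ℝ ∞ (hh g z R j k) (Metric.ball 0 (1 / 2)) := by
  have h1 : ContDiff ℝ ∞ (fun y : E n => z + (2 * R) • y) :=
    contDiff_const.add (contDiff_id.const_smul _)
  have h2 : MapsTo (fun y : E n => z + (2 * R) • y) (Metric.ball 0 (1 / 2)) (Metric.ball z R) :=
    fun y hy => (sig_ball hR rfl).2 hy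
  exact (((hgc j k).comp h1.contDiffOn h2).sub contDiffOn_const).congr fun y hy => hh_ball hy

include hR hgc in
theorem hh_fd {j k : Fin n} {y : E n} (hy : y ∈ Metric.ball (0 : E n) (1 / 2)) (v : E n) :
    fderiv ℝ (hh g z R j k) y v = 2 * R * fderiv ℝ (gg g j k) (z + (2 * R) • y) v := by
  have h1 : hh g z R j k =ᶠ[𝓝 y] fun y => gg g j k (z + (2 * R) • y) -
      (if j = k then 1 else 0) := by
    filter_upwards [Metric.isOpen_ball.mem_nhds hy] with y hy
    exact hh_ball hy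
  rw [h1.fderiv_eq, fderiv_sub_const]
  exact scal_fd (((hgc j k).contDiffAt (Metric.isOpen_ball.mem_nhds
    ((sig_ball hR rfl).2 hy))).differentiableAt (by simp)) v

include hR hρR hpos hgc hgp hg1 in
theorem hh_pert (hdiv : ∀ x ∈ Metric.ball z R, ∀ i, ∑ j, pd j (gg g i j) x = 0) :
    Pert (hh g z R) := by
  have hρ' : ρ / (2 * R) < 1 / 2 := by
    rw [div_lt_div_iff₀ (by positivity) two_pos]
    linarith
  have h0 : ∀ j k y, y ∉ Metric.closedBall (0 : E n) (ρ / (2 * R)) → hh g z R j k y = 0 :=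
    fun j k y hy => hh_zero hR hg1 hy
  have h1 := fun j k => glue_cd hρ' (hh_cdOn hR hgc j k) (h0 j k)
  refine ⟨fun i j => (h1 i j).1, ?_, fun i j => (h1 i j).2, ?_⟩
  · intro i j x
    by_cases hx : x ∈ Metric.ball (0 : E n) (1 / 2)
    · rw [hh_ball hx, hh_ball hx, gg_symm (hgp _ ((sig_ball hR rfl).2 hx))]
      by_cases hij : i = j
      · rw [if_pos hij, if_pos hij.symm]
      · rw [if_neg hij, if_neg (Ne.symm hij)]
    · unfold hh
      rw [if_neg hx, if_neg hx]
  · intro i x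
    by_cases hx : x ∈ Metric.ball (0 : E n) (1 / 2)
    · have hx' := (sig_ball hR rfl (z := z)).2 hx
      simp only [hh_fd hR hgc hx]
      rw [← Finset.mul_sum]
      have h2 := hdiv _ hx' i
      simp only [cRunge_pd (hpos hx')] at h2
      rw [h2, mul_zero]
    · have hx' : x ∈ (Metric.closedBall (0 : E n) (ρ / (2 * R)))ᶜ := fun h =>
        hx (Metric.closedBall_subset_ball hρ' h)
      refine Finset.sum_eq_zero fun j _ => ?_
      have h2 : hh g z R i j =ᶠ[𝓝 x] fun _ => 0 := by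
        filter_upwards [Metric.isClosed_closedBall.isOpen_compl.mem_nhds hx'] with y hy
        exact h0 i j y hy
      rw [h2.fderiv_eq]
      simp

include hR hρR hpos hgc hg1 in
theorem hh_small {ε : ℝ} (hε : 0 ≤ ε)
    (hs : ∀ x ∈ Metric.ball z R, ∀ i j l, |pd l (gg g i j) x| ≤ ε) (j k : Fin n) (y : E n) :
    ‖fderiv ℝ (hh g z R j k) y‖ ≤ n * (2 * R * ε) := by
  have hρ' : ρ / (2 * R) < 1 / 2 := by
    rw [div_lt_div_iff₀ (by positivity) two_pos]
    linarith
  by_cases hy : y ∈ Metric.ball (0 : E n) (1 / 2)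
  · have hy' := (sig_ball hR rfl (z := z)).2 hy
    refine (cRunge_opNorm _).trans ?_
    have h1 : ∀ l, ‖fderiv ℝ (hh g z R j k) y (ev l)‖ ≤ 2 * R * ε := by
      intro l
      rw [hh_fd hR hgc hy, ← cRunge_pd (hpos hy'), Real.norm_eq_abs, abs_mul,
        abs_of_pos (by positivity)]
      exact mul_le_mul_of_nonneg_left (hs _ hy' j k l) (by positivity)
    calc ∑ l, ‖fderiv ℝ (hh g z R j k) y (ev l)‖ ≤ ∑ _l : Fin n, 2 * R * ε :=
          Finset.sum_le_sum fun l _ => h1 l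
      _ = n * (2 * R * ε) := by simp
  · have hy' : y ∈ (Metric.closedBall (0 : E n) (ρ / (2 * R)))ᶜ := fun h =>
      hy (Metric.closedBall_subset_ball hρ' h)
    have h2 : hh g z R j k =ᶠ[𝓝 y] fun _ => 0 := by
      filter_upwards [Metric.isClosed_closedBall.isOpen_compl.mem_nhds hy'] with y hy
      exact hh_zero hR hg1 hy
    rw [h2.fderiv_eq]
    simp only [fderiv_fun_const, Pi.zero_apply, norm_zero]
    positivity

include hR hpos hgc in
theorem hh_itd (l : Fin n) (m : ℕ) (j k : Fin n) {y : E n}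
    (hy : y ∈ Metric.ball (0 : E n) (1 / 2)) :
    itd (ev l) (m + 1) (fun y => (hh g z R j k y : ℂ)) y =
      (((2 * R) ^ (m + 1) * itp l (m + 1) (gg g j k) (z + (2 * R) • y) : ℝ) : ℂ) := by
  have hbr : RelOpen (Metric.ball z R) := CHarm_relOpen_of_open Metric.isOpen_ball
    fun y hy => le_of_lt (show 0 < y 0 from hpos hy)
  have hitc : ∀ m, ContDiffOn ℝ ∞ (itp l m (gg g j k)) (Metric.ball z R) := by
    intro m
    induction m with
    | zero => exact hgc j k
    | succ m ih =>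
      rw [itp_succ]
      exact hbr.pd_smooth ih l
  have hofr : ∀ (f : E n → ℝ) (y : E n), DifferentiableAt ℝ f y → ∀ v,
      fderiv ℝ (fun y => (f y : ℂ)) y v = ((fderiv ℝ f y v : ℝ) : ℂ) := by
    intro f y hf v
    have h2 : HasFDerivAt (fun x => (f x : ℂ)) (Complex.ofRealCLM ∘L fderiv ℝ f y) y :=
      Complex.ofRealCLM.hasFDerivAt.comp y hf.hasFDerivAt
    rw [h2.fderiv]
    rfl
  induction m generalizing y with
  | zero =>
    have hy' := (sig_ball hR rfl (z := z)).2 hy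
    show fderiv ℝ (fun y => (hh g z R j k y : ℂ)) y (ev l) = _
    rw [hofr _ _ (((hh_cdOn hR hgc j k).contDiffAt
      (Metric.isOpen_ball.mem_nhds hy)).differentiableAt (by simp)), hh_fd hR hgc hy,
      itp_succ, cRunge_pd (hpos hy')]
    simp [itp]
  | succ m ih =>
    have hy' := (sig_ball hR rfl (z := z)).2 hy
    show fderiv ℝ (itd (ev l) (m + 1) (fun y => (hh g z R j k y : ℂ))) y (ev l) = _
    have h1 : itd (ev l) (m + 1) (fun y => (hh g z R j k y : ℂ)) =ᶠ[𝓝 y] fun y =>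
        (((2 * R) ^ (m + 1) * itp l (m + 1) (gg g j k) (z + (2 * R) • y) : ℝ) : ℂ) := by
      filter_upwards [Metric.isOpen_ball.mem_nhds hy] with y hy
      exact ih hy
    have hd : DifferentiableAt ℝ (itp l (m + 1) (gg g j k)) (z + (2 * R) • y) :=
      ((hitc (m + 1)).contDiffAt (Metric.isOpen_ball.mem_nhds hy')).differentiableAt (by simp)
    have hd1 : DifferentiableAt ℝ (fun y : E n => z + (2 * R) • y) y := by fun_prop
    have hd2 : DifferentiableAt ℝ (fun y => itp l (m + 1) (gg g j k) (z + (2 * R) • y)) y :=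
      DifferentiableAt.comp y hd hd1
    rw [h1.fderiv_eq, hofr _ _ (hd2.const_mul _), fderiv_const_mul hd2]
    show ((((2 * R) ^ (m + 1) * fderiv ℝ (fun y => itp l (m + 1) (gg g j k)
      (z + (2 * R) • y)) y (ev l) : ℝ)) : ℂ) = _
    rw [scal_fd hd, itp_succ l (m + 1), cRunge_pd (hpos hy')]
    congr 1
    ring

include hR hρR hpos hgc hg1 in
theorem hh_bdd {B : ℝ} (hB : 0 ≤ B) {m : ℕ} (hm : m ≠ 0)
    (hs : ∀ x ∈ Metric.ball z R, ∀ i j l, |itp l m (gg g i j) x| ≤ B) (j k l : Fin n) (y : E n) :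
    ‖itd (ev l) m (fun y => (hh g z R j k y : ℂ)) y‖ ≤ (2 * R) ^ m * B := by
  have hρ' : ρ / (2 * R) < 1 / 2 := by
    rw [div_lt_div_iff₀ (by positivity) two_pos]
    linarith
  obtain ⟨m, rfl⟩ : ∃ k, m = k + 1 := ⟨m - 1, by omega⟩
  by_cases hy : y ∈ Metric.ball (0 : E n) (1 / 2)
  · rw [hh_itd hR hpos hgc l m j k hy, Complex.norm_real, Real.norm_eq_abs, abs_mul,
      abs_of_pos (by positivity)]
    exact mul_le_mul_of_nonneg_left (hs _ ((sig_ball hR rfl).2 hy) j k l) (by positivity)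
  · have hy' : y ∉ Metric.closedBall (0 : E n) (ρ / (2 * R)) := fun h =>
      hy (Metric.closedBall_subset_ball hρ' h)
    have h1 : y ∉ tsupport (itd (ev l) (m + 1) (fun y => (hh g z R j k y : ℂ))) := by
      intro h
      refine hy' ?_
      refine closure_minimal (fun y hy => ?_) Metric.isClosed_closedBall
        (itd_supp (ev l) (m + 1) _ h)
      by_contra hne
      apply hy
      show ((hh g z R j k y : ℝ) : ℂ) = 0
      rw [hh_zero hR hg1 hne, Complex.ofReal_zero]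
    rw [image_eq_zero_of_notMem_tsupport h1, norm_zero]
    positivity

end loc

/-- Near the flat metric, in harmonic gauge. -/
theorem nearFlat_one (n : ℕ) [NeZero n] (hn : 3 ≤ n) (m : ℕ) (hm : n + 3 ≤ 2 * m) (R B : ℝ)
    (hR0 : 0 < R) : ∃ ε : ℝ, 0 < ε ∧ ∀ (N : ℕ) (_ : 1 ≤ N) (M : Type u) [TopologicalSpace M]
    [ChartedSpace (EuclideanHalfSpace n) M] [IsManifold (𝓡∂ n) ∞ M] [T2Space M] [CompactSpace M]
    [ConnectedSpace M] [MeasurableSpace M] [BorelSpace M] (P Q : One n N M) (Γ : Set M) (p : M)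
    (ρ : ℝ), RelBd n Γ → Γ.Nonempty → SameD P Q Γ → IsCB n p R → 0 < ρ → ρ < R →
    (∀ x ∈ Metric.ball (xc n p p) R, (P.loc p).g x = 1 ∧ ∀ i, (P.loc p).B i x = 0) →
    (∀ x ∈ Metric.ball (xc n p p) R, ∀ i, (Q.loc p).B i x = 0) →
    (∀ x, x ∉ cb n p ρ → ∀ X : TangentSpace (𝓡∂ n) x, P.A.form x X = Q.A.form x X) →
    (∀ x, x ∉ cb n p ρ → ∀ v w : TangentSpace (𝓡∂ n) x, Q.g.inner x v w = P.g.inner x v w) →
    (∀ x ∈ Metric.ball (xc n p p) R, ∀ i, ∑ j, pd j (gg (Q.loc p).g i j) x = 0) →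
    (∀ x ∈ Metric.ball (xc n p p) R, ∀ i j l, |pd l (gg (Q.loc p).g i j) x| ≤ ε) →
    (∀ x ∈ Metric.ball (xc n p p) R, ∀ i j l, |itp l m (gg (Q.loc p).g i j) x| ≤ B) →
    ∀ x ∈ Metric.ball (xc n p p) R, (Q.loc p).g x = 1 := by
  have hn0 : (0 : ℝ) < n := by exact_mod_cast (by omega : 0 < n)
  obtain ⟨ε₀, hε₀, hmain⟩ := pert_zero n m hm ((2 * R) ^ m * |B|)
  refine ⟨ε₀ / (n * (2 * R)), by positivity, ?_⟩
  intro N hN M _ _ _ _ _ _ _ _ P Q Γ p ρ hΓ hne hS hR hρ hρR hP hQB hA hg hdiv hsm hbd x hx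
  obtain ⟨hrel, hok, -, -⟩ := TM.fLoc n N M
  set z : E n := xc n p p with hz
  have hbt : Metric.ball z R ⊆ tg n p :=
    Metric.ball_subset_closedBall.trans (hR.2.trans inter_subset_left)
  have hpos : Metric.ball z R ⊆ {y | 0 < y 0} :=
    Metric.ball_subset_closedBall.trans (hR.2.trans inter_subset_right)
  have hbH : Metric.ball z R ⊆ Hs n := fun y hy => le_of_lt (show 0 < y 0 from hpos hy)
  have hbr : RelOpen (Metric.ball z R) := CHarm_relOpen_of_open Metric.isOpen_ball hbH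
  have hokQ : (Q.loc p).Ok (Metric.ball z R) := CHarm_ok_mono (hok Q p) hbt
  have hgQ : ∀ j k, ContDiffOn ℝ ∞ (gg (Q.loc p).g j k) (Metric.ball z R) := fun j k =>
    hbr.gg_smooth hokQ.g_smooth hokQ.g_pos j k
  -- the metric of `Q` outside the small ball
  have hg1 : ∀ x ∈ Metric.ball z R, x ∉ Metric.closedBall z ρ → (Q.loc p).g x = 1 := by
    intro x hx hxρ
    have h5 : (xc n p).symm x ∉ cb n p ρ := by
      rintro ⟨x', hx', he⟩
      have h6 : x' = x := (xc n p).symm.injOn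
        ((hR.2 (Metric.closedBall_subset_closedBall hρR.le hx')).1) (hbt hx) he
      exact hxρ (h6 ▸ hx')
    rw [← (hP x hx).1]
    ext i j
    exact hg _ h5 _ _
  have hpert : Pert (hh (Q.loc p).g z R) := hh_pert hR0 hρR hpos hgQ hokQ.g_pos hg1 hdiv
  have hρ' : ρ / (2 * R) < 1 / 2 := by
    rw [div_lt_div_iff₀ (by positivity) two_pos]
    linarith
  have hEx : Ex (hh (Q.loc p).g z R) :=
    ex_of_loc hpert hρ' (fun j k y hy => hh_zero hR0 hg1 hy)
      (fun ξ η h0 h2 _ δ hδ => glob_to_loc (by omega) (⟨0, by omega⟩ : Fin N) hΓ hne hS hR hρ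
        hρR hP hQB hA hg h0 h2 hδ)
  have h0 := hmain _ hpert hEx
    (fun j k y => (hh_small hR0 hρR hpos hgQ hg1 (by positivity) hsm j k y).trans (by
      rw [show (n : ℝ) * (2 * R * (ε₀ / (n * (2 * R)))) = ε₀ by field_simp]))
    (fun j k l y => hh_bdd hR0 hρR hpos hgQ hg1 (abs_nonneg B) (by omega)
      (fun x hx i j l => (hbd x hx i j l).trans (le_abs_self B)) j k l y)
  -- the conclusion
  refine (Vale.Agent.P088.EYM.O.m8 n _ _ hn Matrix.PosDef.one (hokQ.g_pos x hx) ?_).symm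
  ext i j
  have h1 := h0 i j ((2 * R)⁻¹ • (x - z))
  have h2 : z + (2 * R) • ((2 * R)⁻¹ • (x - z)) = x := by
    rw [smul_smul, mul_inv_cancel₀ (by positivity), one_smul, add_sub_cancel]
  have h3 : (2 * R)⁻¹ • (x - z) ∈ Metric.ball (0 : E n) (1 / 2) := by
    rw [← sig_ball (z := z) hR0 rfl, h2]
    exact hx
  rw [hh_ball h3, h2] at h1
  have h4 : gg (Q.loc p).g i j x = (if i = j then 1 else 0) := by linarith
  rw [Matrix.smul_apply, Matrix.smul_apply]
  show √(1 : Matrix (Fin n) (Fin n) ℝ).det * (1 : Matrix (Fin n) (Fin n) ℝ)⁻¹ i j =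
    gg (Q.loc p).g i j x
  rw [h4]
  simp [Matrix.one_apply]

end Vale.Agent.P088.H207

end
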