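import Vale.Agent.P088.H5.St6

/-!
# P088: near the flat metric, definitions
-/

open Set
open scoped Matrix

noncomputable section

namespace Vale.Agent.P088.H207

open Vale.Agent.P088.B

universe u

variable {n N : ℕ} [NeZero n] {M : Type u} (Z : At n M)

/-- `|y - y(p)|²`, where `y(p)` are the coordinates of `p` in the chart at `p`. -/
def rad (p : M) (y : V n) : ℝ := ∑ i, (y i - Z.ch p p i) ^ 2

/-- In the chart at `p`, the closed ball of radius `R` about `p` consists of interior points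
of `M`. -/
def IsBall (p : M) (R : ℝ) : Prop :=
  0 < R ∧ ∀ y : V n, rad Z p y ≤ R ^ 2 → 0 < y 0 ∧ ∃ x ∈ Z.src p, Z.ch p x = y

/-- The open ball of radius `R` about `p`, in the chart at `p`. -/
def oball (p : M) (R : ℝ) : Set M := {x ∈ Z.src p | rad Z p (Z.ch p x) < R ^ 2}

/-- The closed ball of radius `ρ` about `p`, in the chart at `p`. -/
def kball (p : M) (ρ : ℝ) : Set M := {x ∈ Z.src p | rad Z p (Z.ch p x) ≤ ρ ^ 2}

variable {Z}

/-- The function `s^{ij}` of the coordinates in the chart at `p`, where `s = √(det g) g⁻¹`. -/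
def sg (Q : Pair Z N) (p : M) (i j : Fin n) (y : V n) : ℝ :=
  √(gch Z Q.g p y).det * (gch Z Q.g p y)⁻¹ i j

/-- In the chart at `p`, on the ball of radius `R`: `g_{ij} = δ_{ij}` and `A = 0`. -/
def Flat (P : Pair Z N) (p : M) (R : ℝ) : Prop :=
  ∀ x ∈ oball Z p R, gch Z P.g p (Z.ch p x) = 1 ∧ P.A x = 0

/-- The coordinates of the chart at `p` are `g`-harmonic on the ball of radius `R`:
`∑_j ∂_j s^{ij} = 0`. -/
def HarmCo (Q : Pair Z N) (p : M) (R : ℝ) : Prop :=
  ∀ x ∈ oball Z p R, ∀ i, ∑ j, dj (sg Q p i j) (Z.ch p x) j = 0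

/-- `|∂_l s^{ij}| ≤ ε` and `|∂_l^m s^{ij}| ≤ B` on the ball of radius `R`. -/
def Small (m : ℕ) (ε B : ℝ) (Q : Pair Z N) (p : M) (R : ℝ) : Prop :=
  ∀ x ∈ oball Z p R, ∀ i j l, |dj (sg Q p i j) (Z.ch p x) l| ≤ ε ∧
    |(fun (f : V n → ℝ) (y : V n) => dj f y l)^[m] (sg Q p i j) (Z.ch p x)| ≤ B

end Vale.Agent.P088.H207

end
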