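import Vale.Agent.P088.H207.G5
import Vale.Agent.P088.H207.St

/-!
# P088: near the flat metric, the elementary statement
-/

set_option linter.all false

open Bundle Manifold MeasureTheory Set Filter Topology
open scoped ContDiff Matrix ENNReal

noncomputable section

namespace Vale.Agent.P088.H207

open Vale.Agent.P088 Vale.Agent.P088.B Vale.Agent.P088.EYM

universe u

section

variable {n N : ℕ} [NeZero n] {M : Type u} [TopologicalSpace M]
  [ChartedSpace (EuclideanHalfSpace n) M] [IsManifold (𝓡∂ n) ∞ M]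

theorem ch_at (p x : M) : (at_ n M).ch p x = WithLp.ofLp (xc n p x) := S.ch_eq p x

theorem src_at (p : M) : (at_ n M).src p = (xc n p).source := S.src_eq p

theorem rad_at (p : M) (y : E n) : rad (at_ n M) p (WithLp.ofLp y) = ‖y - xc n p p‖ ^ 2 := by
  unfold rad
  rw [EuclideanSpace.real_norm_sq_eq, ch_at]
  rfl

theorem isCB_of {p : M} {R : ℝ} (h : IsBall (at_ n M) p R) : IsCB n p R := by
  refine ⟨h.1, fun y hy => ?_⟩
  rw [mem_closedBall_iff_norm] at hy
  obtain ⟨h1, x, hx, hxy⟩ := h.2 (WithLp.ofLp y) (by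
    rw [rad_at]
    exact pow_le_pow_left₀ (norm_nonneg _) hy 2)
  rw [ch_at] at hxy
  rw [src_at] at hx
  have h2 : xc n p x = y := (WithLp.ofLp_injective 2) hxy
  exact ⟨h2 ▸ (xc n p).map_source hx, h1⟩

theorem kball_at {p : M} {R ρ : ℝ} (h : IsCB n p R) (hρ : 0 ≤ ρ) (hρR : ρ ≤ R) :
    kball (at_ n M) p ρ = cb n p ρ := by
  ext x
  constructor
  · rintro ⟨hx, hr⟩
    rw [ch_at, rad_at] at hr
    rw [src_at] at hx
    refine ⟨xc n p x, ?_, (xc n p).left_inv hx⟩
    rw [mem_closedBall_iff_norm]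
    exact (pow_le_pow_iff_left₀ (norm_nonneg _) hρ two_ne_zero).1 hr
  · rintro ⟨y, hy, rfl⟩
    have hyt : y ∈ tg n p := (h.2 (Metric.closedBall_subset_closedBall hρR hy)).1
    refine ⟨?_, ?_⟩
    · rw [src_at]
      exact (xc n p).map_target hyt
    · rw [ch_at, (xc n p).right_inv hyt, rad_at]
      rw [mem_closedBall_iff_norm] at hy
      exact pow_le_pow_left₀ (norm_nonneg _) hy 2

theorem oball_at {p : M} {R : ℝ} (h : IsCB n p R) :
    oball (at_ n M) p R = (xc n p).symm '' Metric.ball (xc n p p) R := by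
  have hR : 0 ≤ R := h.1.le
  ext x
  constructor
  · rintro ⟨hx, hr⟩
    rw [ch_at, rad_at] at hr
    rw [src_at] at hx
    refine ⟨xc n p x, ?_, (xc n p).left_inv hx⟩
    rw [mem_ball_iff_norm]
    exact (pow_lt_pow_iff_left₀ (norm_nonneg _) hR two_ne_zero).1 hr
  · rintro ⟨y, hy, rfl⟩
    have hyt : y ∈ tg n p := (h.2 (Metric.ball_subset_closedBall hy)).1
    refine ⟨?_, ?_⟩
    · rw [src_at]
      exact (xc n p).map_target hyt
    · rw [ch_at, (xc n p).right_inv hyt, rad_at]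
      rw [mem_ball_iff_norm] at hy
      exact (pow_lt_pow_iff_left₀ (norm_nonneg _) hR two_ne_zero).2 hy

theorem gch_at (Q : Pair (at_ n M) N) (p : M) {y : E n} (hy : y ∈ tg n p) :
    gch (at_ n M) Q.g p (WithLp.ofLp y) = gram (S.gOf (conv Q)) p ((xc n p).symm y) := by
  rw [at_gch, S.pt_eq hy]
  have h1 : (xc n p).symm y ∈ S.src n p := by
    rw [S.src_eq]
    exact (xc n p).map_target hy
  exact (S.gram_gOf (conv Q) h1).symm

/-- the metric in the chart -/
def gl (Q : Pair (at_ n M) N) (p : M) (y : E n) : Matrix (Fin n) (Fin n) ℝ :=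
  gram (S.gOf (conv Q)) p ((xc n p).symm y)

theorem sg_at (Q : Pair (at_ n M) N) (p : M) {y : E n} (hy : y ∈ tg n p) (i j : Fin n) :
    sg Q p i j (WithLp.ofLp y) = gg (gl Q p) i j y := by
  unfold sg
  rw [gch_at Q p hy]
  rfl

theorem dj_at {D : Set (E n)} (hD : RelOpen D) {f : V n → ℝ} {φ : E n → ℝ}
    (hφ : ContDiffOn ℝ ∞ φ D) (h : ∀ z ∈ D, f (WithLp.ofLp z) = φ z) {y : E n} (hy : y ∈ D)
    (j : Fin n) : dj f (WithLp.ofLp y) j = pd j φ y := by
  rw [dj_old f (hD.subset hy) j]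
  exact brEq_dj hD hφ h hy j

theorem itdj_at {D : Set (E n)} (hD : RelOpen D) {f : V n → ℝ} {φ : E n → ℝ}
    (hφ : ContDiffOn ℝ ∞ φ D) (h : ∀ z ∈ D, f (WithLp.ofLp z) = φ z) (l : Fin n) (m : ℕ)
    {y : E n} (hy : y ∈ D) :
    (fun (f : V n → ℝ) (y : V n) => dj f y l)^[m] f (WithLp.ofLp y) = itp l m φ y := by
  have hitc : ∀ m, ContDiffOn ℝ ∞ (itp l m φ) D := by
    intro m
    induction m with
    | zero => exact hφ
    | succ m ih =>
      rw [itp_succ]
      exact hD.pd_smooth ih l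
  induction m generalizing y with
  | zero => exact h y hy
  | succ m ih =>
    rw [Function.iterate_succ_apply', itp_succ]
    exact dj_at hD (hitc m) (fun z hz => ih hz) hy l

variable [T2Space M] [CompactSpace M] [ConnectedSpace M]

/-- equal matrices in the chart at `p` give equal matrices in the chart at `x` -/
theorem gram_inj (Q P : Pair (at_ n M) N) (p : M) {x : M} (hx : x ∈ (xc n p).source)
    (h : gram (S.gOf (conv Q)) p x = gram (S.gOf (conv P)) p x) : Q.g x = P.g x := by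
  rw [gram_eq (S.gOf (conv Q)) p x, gram_eq (S.gOf (conv P)) p x] at h
  have h1 : mat (tangentCoordChange (𝓡∂ n) x p x) * mat (cc (𝓡∂ n) p x) = 1 := by
    rw [mat_mul, ← mat_id]
    congr 1
    ext1 v
    exact cc_inv_left (𝓡∂ n) hx v
  have h2 := mul_eq_one_comm.1 h1
  set T := mat (cc (𝓡∂ n) p x)
  set T' := mat (tangentCoordChange (𝓡∂ n) x p x)
  have h3 : Tᵀ * T'ᵀ = 1 := by rw [← Matrix.transpose_mul, h1, Matrix.transpose_one]
  have h3' : T'ᵀ * Tᵀ = 1 := by rw [← Matrix.transpose_mul, h2, Matrix.transpose_one]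
  have h4 : ∀ G : Matrix (Fin n) (Fin n) ℝ, T'ᵀ * (Tᵀ * G * T) * T' = G := by
    intro G
    calc T'ᵀ * (Tᵀ * G * T) * T' = (T'ᵀ * Tᵀ) * G * (T * T') := by
          simp only [Matrix.mul_assoc]
      _ = G := by rw [h3', h2, Matrix.one_mul, Matrix.mul_one]
  have h5 : gram (S.gOf (conv Q)) x x = gram (S.gOf (conv P)) x x := by
    rw [← h4 (gram (S.gOf (conv Q)) x x), h, h4]
  rw [S.gram_self_gOf, S.gram_self_gOf] at h5
  exact h5

end

/-- Near the flat metric, in harmonic gauge. -/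
theorem near_flat {n : ℕ} [NeZero n] (hn : 3 ≤ n) (m : ℕ) (hm : n + 3 ≤ 2 * m) (R C : ℝ)
    (hR0 : 0 < R) : ∃ ε : ℝ, 0 < ε ∧ ∀ {N : ℕ} (_ : 1 ≤ N) {M : Type u} [TopologicalSpace M]
    [ChartedSpace (EuclideanHalfSpace n) M] [IsManifold (𝓡∂ n) ∞ M] [T2Space M] [CompactSpace M]
    [ConnectedSpace M] (Z : At n M) (_ : Z = at_ n M) (Γ O₀ : Set M) (_ : IsOpen O₀)
    (_ : Γ = O₀ ∩ bd Z) (_ : Γ.Nonempty) (P P' Q : Pair Z N) (_ : Vale.Agent.P088.B.SameData Γ P Q)
    (_ : Related Γ P P') (p : M) (_ : IsBall Z p R) (_ : Flat P' p R) (ρ : ℝ) (_ : 0 < ρ)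
    (_ : ρ < R) (_ : B8.PwLe (kball Z p ρ)ᶜ Γ P' Q)
    (_ : ∃ U, B8.GaugeBy U (kball Z p ρ)ᶜ Γ P'.A Q.A Z) (_ : HarmCo Q p R)
    (_ : Small m ε C Q p R), Related Γ P Q := by
  obtain ⟨ε, hε, hmain⟩ := nearFlat_one.{u} n hn m hm R C hR0
  refine ⟨ε, hε, ?_⟩
  intro N hN M _ _ _ _ _ _ Z hZ Γ O₀ hO₀ hΓ hne P P' Q hd hR p hp hflat ρ hρ hρR hpw hU hharm hsm
  have hd' : Vale.Agent.P088.B.SameData Γ P' Q := Vale.Agent.P088.B.same_related Z hZ hO₀ hΓ hne hR hd
  subst hZ
  obtain ⟨U, hU⟩ := hU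
  letI := borel M
  haveI : BorelSpace M := ⟨rfl⟩
  obtain ⟨hrel, hok, -, -⟩ := TM.fLoc n N M
  have hCB : IsCB n p R := isCB_of hp
  have hK : kball (at_ n M) p ρ = cb n p ρ := kball_at hCB hρ.le hρR.le
  have hV : oball (at_ n M) p R = (xc n p).symm '' Metric.ball (xc n p p) R := oball_at hCB
  obtain ⟨hOo, hOp, hObd⟩ := compl_cb (M := M) (n := n) (by omega) hCB hρ hρR
  have hb : bd (at_ n M) = (𝓡∂ n).boundary M := bd_at
  set z : E n := xc n p p with hz
  have hbt : Metric.ball z R ⊆ tg n p :=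
    Metric.ball_subset_closedBall.trans (hCB.2.trans inter_subset_left)
  have hpos : Metric.ball z R ⊆ {y | 0 < y 0} :=
    Metric.ball_subset_closedBall.trans (hCB.2.trans inter_subset_right)
  have hbH : Metric.ball z R ⊆ Hs n := fun y hy => le_of_lt (show 0 < y 0 from hpos hy)
  have hbr : RelOpen (Metric.ball z R) := CHarm_relOpen_of_open Metric.isOpen_ball hbH
  have hmem : ∀ y ∈ Metric.ball z R, (xc n p).symm y ∈ oball (at_ n M) p R := fun y hy => by
    rw [hV]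
    exact mem_image_of_mem _ hy
  have hchy : ∀ y ∈ Metric.ball z R, (at_ n M).ch p ((xc n p).symm y) = WithLp.ofLp y :=
    fun y hy => by rw [ch_at, (xc n p).right_inv (hbt hy)]
  -- the hole
  have hole : B8.Hole U (kball (at_ n M) p ρ) (oball (at_ n M) p R) Γ P' Q := by
    refine ⟨?_, ?_, ?_, ?_, ?_, hpw, hU⟩
    · rw [hK]
      exact isOpen_compl_iff.1 hOo
    · rw [hK, hb, eq_empty_iff_forall_notMem]
      rintro x ⟨h1, h2⟩
      exact hObd x h2 h1
    · rw [hK]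
      exact hOp
    · rw [hV]
      exact cRungeB_B_open TM.fLoc hCB
    · rw [hK, hV]
      exact image_mono (Metric.closedBall_subset_ball hρR)
  obtain ⟨h1, -, h2⟩ := B8.hole' hn hN (at_ n M) rfl Γ O₀ hO₀ hΓ hne P' Q hd' U _ _ hole
  obtain ⟨V, hV1, -⟩ := h2 ⟨fun _ => 1, fun a b => contMDiffOn_const, fun x hx => ⟨by simp, fun j => by
    have e1 : dM (fun y : Vale.Agent.P088.B.V n => (1 : Matrix (Fin N) (Fin N) ℂ))
        ((at_ n M).ch x x) j = 0 := by
      ext a b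
      unfold dM dj
      simp
    rw [e1, (hflat x hx).2, Matrix.mul_zero]
    rfl⟩⟩
  -- the second pair with the first connection
  have hgeq : Vale.Agent.P088.B.GaugeEq Γ P'.A Q.A (at_ n M) :=
    ⟨V, hV1.1, hV1.2.1, hV1.2.2.1, fun x j => hV1.2.2.2 x (mem_univ x) j⟩
  obtain ⟨W, hW, hW1, hW2⟩ := Vale.Agent.P088.B.toGauge hgeq
  have hS : EYM.SameD (B2.one P') (EYM.O.wA (B2.one Q) (B2.one P').A) Γ :=
    (EYM.O.mg_closed n N M (EYM.O.wA (B2.one Q) (B2.one P').A) (B2.one P') Γ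
      (B2.one Q).A W hW hW1 hW2).2.2 (Vale.Agent.P088.B.sameD_one hd')
  have hRB : EYM.RelBd n Γ := ⟨O₀, hO₀, by rw [hΓ, hb]⟩
  have hgP : ∀ y ∈ Metric.ball z R, gl P' p y = 1 := by
    intro y hy
    have e1 := (hflat _ (hmem y hy)).1
    rw [hchy y hy, gch_at P' p (hbt hy)] at e1
    exact e1
  have hAP : ∀ y ∈ Metric.ball z R, ∀ i, ((B2.one P').loc p).B i y = 0 := by
    intro y hy i
    have e1 := (hflat _ (hmem y hy)).2
    show S.formOf (P'.A ((xc n p).symm y)) _ = 0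
    rw [e1]
    show (S.formOf (0 : Fin n → Matrix (Fin N) (Fin N) ℂ)) _ = 0
    rw [formOf_zero]
    rfl
  have hokQ : ((EYM.O.wA (B2.one Q) (B2.one P').A).loc p).Ok (Metric.ball z R) :=
    CHarm_ok_mono (hok _ p) hbt
  have hgQ : ∀ j k, ContDiffOn ℝ ∞ (gg (gl Q p) j k) (Metric.ball z R) := fun j k =>
    hbr.gg_smooth hokQ.g_smooth hokQ.g_pos j k
  have hfin := hmain N hN M (B2.one P') (EYM.O.wA (B2.one Q) (B2.one P').A) Γ p ρ hRB hne hS hCB
    hρ hρR (fun y hy => ⟨hgP y hy, hAP y hy⟩) (fun y hy i => hAP y hy i) (fun x _ X => rfl)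
    (fun x hx v w => by
      show S.bil (Q.g x) v w = S.bil (P'.g x) v w
      rw [h1 x (by rw [hK]; exact hx)])
    (fun y hy i => by
      have e1 := hharm _ (hmem y hy) i
      rw [hchy y hy] at e1
      have e2 : ∀ j, dj (sg Q p i j) (WithLp.ofLp y) j = pd j (gg (gl Q p) i j) y := fun j =>
        dj_at hbr (hgQ i j) (fun z hz => sg_at Q p (hbt hz) i j) hy j
      simp only [e2] at e1
      exact e1)
    (fun y hy i j l => by
      have e1 := (hsm _ (hmem y hy) i j l).1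
      rw [hchy y hy, dj_at hbr (hgQ i j) (fun z hz => sg_at Q p (hbt hz) i j) hy l] at e1
      exact e1)
    (fun y hy i j l => by
      have e1 := (hsm _ (hmem y hy) i j l).2
      rw [hchy y hy, itdj_at hbr (hgQ i j) (fun z hz => sg_at Q p (hbt hz) i j) l m hy] at e1
      exact e1)
  have hg : Q.g = P'.g := by
    funext x
    by_cases hx : x ∈ kball (at_ n M) p ρ
    · rw [hK] at hx
      obtain ⟨y, hy, rfl⟩ := hx
      have hyR : y ∈ Metric.ball z R := Metric.closedBall_subset_ball hρR hy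
      refine gram_inj Q P' p ((xc n p).map_target (hbt hyR)) ?_
      have e1 : gl Q p y = 1 := hfin y hyR
      have e2 := hgP y hyR
      exact e1.trans e2.symm
    · exact h1 x hx
  exact Vale.Agent.P088.B.related_gauge hR hgeq hg

end Vale.Agent.P088.H207

end
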