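import Vale.Agent.P088.H207.G6

/-!
# P088: the orthogonality relation on a manifold
-/

set_option linter.all false

open Bundle Manifold MeasureTheory Set Filter Topology
open scoped ContDiff Matrix ENNReal

noncomputable section

namespace Vale.Agent.P088.H207

open Vale.Agent.P088 Vale.Agent.P088.EYM Vale.Agent.P088.EYM.O

universe u

section

variable {n N : ℕ} [NeZero n] {M : Type u} [TopologicalSpace M]
  [ChartedSpace (EuclideanHalfSpace n) M] [IsManifold (𝓡∂ n) ∞ M] [T2Space M] [CompactSpace M]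
  [MeasurableSpace M] [BorelSpace M]

/-- Equal energies, localised. -/
theorem en_diff (P Q : One n N M) {p : M} {R ρ : ℝ} (hR : IsCB n p R) (hρR : ρ < R)
    (hA : ∀ m, m ∉ cb n p ρ → ∀ X : TangentSpace (𝓡∂ n) m, P.A.form m X = Q.A.form m X)
    (hg : ∀ m, m ∉ cb n p ρ → ∀ v w : TangentSpace (𝓡∂ n) m,
      Q.g.inner m v w = P.g.inner m v w)
    {u w : M → Fib N} (hu : SmS n u) (hw : SmS n w) (hE : P.E w u = Q.E w u) :
    ∫ y in Metric.closedBall (xc n p p) ρ,
      (ed (Q.loc p) (lu (𝓡∂ n) p w) (lu (𝓡∂ n) p u) y -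
        ed (P.loc p) (lu (𝓡∂ n) p w) (lu (𝓡∂ n) p u) y) = 0 := by
  obtain ⟨hfin, -, hint⟩ := TM.fInt n N M P
  have hrc := continuous_rho P.g Q.g
  have hcbt : Metric.closedBall (xc n p p) ρ ⊆ tg n p :=
    (Metric.closedBall_subset_closedBall hρR.le).trans (hR.2.trans inter_subset_left)
  set G : M → ℂ := fun x => (rho P.g Q.g x : ℂ) * pairing Q.g Q.A w u x -
    pairing P.g P.A w u x with hG
  have hcP : Continuous (pairing P.g P.A w u) := continuous_pairing P.g P.A hw hu
  have hcQ : Continuous (pairing Q.g Q.A w u) := continuous_pairing Q.g Q.A hw hu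
  have hGc : Continuous G :=
    ((Complex.continuous_ofReal.comp hrc).mul hcQ).sub hcP
  have hQE : Q.E w u = ∫ x, (rho P.g Q.g x : ℂ) * pairing Q.g Q.A w u x ∂P.μ := by
    unfold One.E energy
    rw [withDensity_rho P Q, integral_withDensity_eq_integral_toReal_smul₀]
    · refine integral_congr_ae (Eventually.of_forall fun x => ?_)
      simp only
      rw [ENNReal.toReal_ofReal (rho_pos P.g Q.g x).le, Complex.real_smul]
    · exact hrc.measurable.ennreal_ofReal.aemeasurable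
    · exact Eventually.of_forall fun x => ENNReal.ofReal_lt_top
  have hc' : Continuous fun x => (rho P.g Q.g x : ℂ) * pairing Q.g Q.A w u x :=
    (Complex.continuous_ofReal.comp hrc).mul hcQ
  have h0 : ∫ x, G x ∂P.μ = 0 := by
    have e1 : ∫ x, G x ∂P.μ = (∫ x, (rho P.g Q.g x : ℂ) * pairing Q.g Q.A w u x ∂P.μ) -
        ∫ x, pairing P.g P.A w u x ∂P.μ :=
      integral_sub (CEnergy_integrable P hc') (CEnergy_integrable P hcP)
    rw [e1, ← hQE, ← hE]
    exact sub_self _
  have hGz : ∀ x, x ∉ cb n p ρ → G x = 0 := by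
    intro x hx
    have e1 : gram P.g x x = gram Q.g x x := O.gram_of_inner fun a b => (hg x hx a b).symm
    simp only [hG]
    rw [O.rho_one e1, O.pairing_congr e1 (hA x hx), Complex.ofReal_one, one_mul, sub_self]
  have h1 : ∫ x in (xc n p).symm '' Metric.closedBall (xc n p p) ρ, G x ∂P.μ = 0 := by
    rw [← h0]
    exact setIntegral_eq_integral_of_forall_compl_eq_zero fun x hx => hGz x hx
  rw [(hint p _ Metric.isClosed_closedBall.measurableSet hcbt).2 G
    hGc.aestronglyMeasurable] at h1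
  rw [← h1]
  refine setIntegral_congr_fun Metric.isClosed_closedBall.measurableSet fun y hy => ?_
  have hx : (xc n p).symm y ∈ (extChartAt (𝓡∂ n) p).source := (xc n p).map_target (hcbt hy)
  have hpos := Real.sqrt_pos.2 (gram_det_pos P.g hx)
  rw [CEnergy_ed P p hw hu (hcbt hy), CEnergy_ed Q p hw hu (hcbt hy)]
  simp only [hG]
  rw [rho_eq P.g Q.g hx]
  have e1 : ((P.loc p).g y) = gram P.g p ((xc n p).symm y) := rfl
  have e2 : ((Q.loc p).g y) = gram Q.g p ((xc n p).symm y) := rfl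
  rw [e1, e2]
  have hne : ((√(gram P.g p ((xc n p).symm y)).det : ℝ) : ℂ) ≠ 0 := by
    exact_mod_cast hpos.ne'
  push_cast
  field_simp

variable [ConnectedSpace M]

/-- Equal data give equal energies of the solutions. -/
theorem en_eq {P Q : One n N M} {Γ : Set M} (hΓ : RelBd n Γ) (hne : Γ.Nonempty)
    (hS : SameD P Q Γ) {u w : M → Fib N} (hu : u ∈ P.U Γ) (hw : w ∈ Q.U Γ) :
    P.E w u = Q.E w u := by
  have hbd : ((𝓡∂ n).boundary M).Nonempty := by
    obtain ⟨O, -, hO⟩ := hΓ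
    obtain ⟨m, hm⟩ := hne
    rw [hO] at hm
    exact ⟨m, hm.2⟩
  obtain ⟨⟨hsP, hsQ, -⟩, hd⟩ := Vale.Agent.P088.EYM.cData TM.fUniq TM.fForm n N M P Q Γ hΓ hne hS
  obtain ⟨f, hf, hfu⟩ := hu
  obtain ⟨u', hu'⟩ := hsQ f hf
  obtain ⟨h, hh, hhw⟩ := hw
  obtain ⟨-, -, hE⟩ := TM.fUniq n N M Q hbd
  have h1 : P.E w u = Q.E w u' := by
    refine hd (u, u') ⟨f, hf, hfu, hu'⟩ w w hhw.smooth hhw.smooth (fun _ _ => rfl) ?_
    have e1 : {x ∈ (𝓡∂ n).boundary M | w x ≠ 0} = {x ∈ (𝓡∂ n).boundary M | h x ≠ 0} := by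
      ext x
      constructor
      · rintro ⟨h1, h2⟩
        exact ⟨h1, by rwa [← hhw.boundary x h1]⟩
      · rintro ⟨h1, h2⟩
        exact ⟨h1, by rwa [hhw.boundary x h1]⟩
    rw [e1]
    exact hh.supp
  rw [h1]
  exact (hE h w u' u hhw hu'.smooth hfu.smooth fun x hx => by
    rw [hu'.boundary x hx, hfu.boundary x hx]).1

end

end Vale.Agent.P088.H207

end
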