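import Vale.Agent.P088.H207.H1

/-!
# P088: the orthogonality relation for local solutions
-/

set_option linter.all false

open Bundle Manifold MeasureTheory Set Filter Topology
open scoped ContDiff Matrix ENNReal

noncomputable section

namespace Vale.Agent.P088.H207

open Vale.Agent.P088 Vale.Agent.P088.EYM Vale.Agent.P088.EYM.O

universe u

section

variable {n N : ℕ}

/-- Limits of bilinear integrals on a compact set. -/
theorem lim_int {K : Set (E n)} (hK : IsCompact K) {a : Fin n → Fin n → E n → ℂ}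
    (ha : ∀ j l, ContinuousOn (a j l) K) {f g : Fin n → E n → Fib N}
    {fk gk : ℕ → Fin n → E n → Fib N} (hf : ∀ j, ContinuousOn (f j) K)
    (hg : ∀ j, ContinuousOn (g j) K) (hfk : ∀ k j, ContinuousOn (fk k j) K)
    (hgk : ∀ k j, ContinuousOn (gk k j) K) {e : ℕ → ℝ} (he : Tendsto e atTop (𝓝 0))
    (h1 : ∀ k j, ∀ y ∈ K, ‖fk k j y - f j y‖ ≤ e k) (h2 : ∀ k j, ∀ y ∈ K, ‖gk k j y - g j y‖ ≤ e k)
    (h0 : ∀ k, ∫ y in K, ∑ j, ∑ l, a j l y * inner ℂ (gk k j y) (fk k l y) = 0) :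
    ∫ y in K, ∑ j, ∑ l, a j l y * inner ℂ (g j y) (f l y) = 0 := by
  obtain ⟨B, hB⟩ := he.bddAbove_range
  have hB' : ∀ k, e k ≤ B := fun k => hB ⟨k, rfl⟩
  have hKm : MeasurableSet K := hK.isClosed.measurableSet
  have hpt : ∀ {u : Fin n → E n → Fib N} {uk : ℕ → Fin n → E n → Fib N},
      (∀ k j, ∀ y ∈ K, ‖uk k j y - u j y‖ ≤ e k) → ∀ j, ∀ y ∈ K,
      Tendsto (fun k => uk k j y) atTop (𝓝 (u j y)) := by
    intro u uk h j y hy
    rw [tendsto_iff_norm_sub_tendsto_zero]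
    exact squeeze_zero (fun _ => norm_nonneg _) (fun k => h k j y hy) he
  have hbd : ∀ {u : Fin n → E n → Fib N} {uk : ℕ → Fin n → E n → Fib N},
      (∀ k j, ∀ y ∈ K, ‖uk k j y - u j y‖ ≤ e k) → ∀ k j, ∀ y ∈ K,
      ‖uk k j y‖ ≤ ‖u j y‖ + B := by
    intro u uk h k j y hy
    have e1 : uk k j y = u j y + (uk k j y - u j y) := by abel
    rw [e1]
    exact (norm_add_le _ _).trans (add_le_add_right ((h k j y hy).trans (hB' k)) _)
  have hlim := tendsto_integral_of_dominated_convergence (μ := volume.restrict K)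
    (F := fun k y => ∑ j, ∑ l, a j l y * inner ℂ (gk k j y) (fk k l y))
    (f := fun y => ∑ j, ∑ l, a j l y * inner ℂ (g j y) (f l y))
    (fun y => ∑ j, ∑ l, ‖a j l y‖ * ((‖g j y‖ + B) * (‖f l y‖ + B)))
    (fun k => (continuousOn_finset_sum _ fun j _ => continuousOn_finset_sum _ fun l _ =>
      (ha j l).mul ((hgk k j).inner (𝕜 := ℂ) (hfk k l))).aestronglyMeasurable hKm)
    ((continuousOn_finset_sum _ fun j _ => continuousOn_finset_sum _ fun l _ =>
      (ha j l).norm.mul (((hg j).norm.add continuousOn_const).mul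
        ((hf l).norm.add continuousOn_const))).integrableOn_compact hK)
    (fun k => (ae_restrict_iff' hKm).2 (Eventually.of_forall fun y hy => by
      refine (norm_sum_le _ _).trans (Finset.sum_le_sum fun j _ => ?_)
      refine (norm_sum_le _ _).trans (Finset.sum_le_sum fun l _ => ?_)
      rw [norm_mul]
      refine mul_le_mul_of_nonneg_left ((norm_inner_le_norm _ _).trans ?_) (norm_nonneg _)
      exact mul_le_mul (hbd h2 k j y hy) (hbd h1 k l y hy) (norm_nonneg _)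
        ((norm_nonneg _).trans (hbd h2 k j y hy))))
    ((ae_restrict_iff' hKm).2 (Eventually.of_forall fun y hy =>
      tendsto_finset_sum _ fun j _ => tendsto_finset_sum _ fun l _ =>
        ((hpt h2 j y hy).inner (hpt h1 l y hy)).const_mul _))
  simp only [h0] at hlim
  exact (tendsto_nhds_unique tendsto_const_nhds hlim).symm

end

section

variable {n N : ℕ} [NeZero n] {M : Type u} [TopologicalSpace M]
  [ChartedSpace (EuclideanHalfSpace n) M] [IsManifold (𝓡∂ n) ∞ M] [T2Space M] [CompactSpace M]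
  [MeasurableSpace M] [BorelSpace M] [ConnectedSpace M]

omit [T2Space M] [CompactSpace M] [BorelSpace M] [ConnectedSpace M] in
theorem ed_nc (P : One n N M) (p : M) {D : Set (E n)}
    (hB : ∀ x ∈ D, ∀ i, (P.loc p).B i x = 0) (c d : E n → Fib N) {y : E n} (hy : y ∈ D) :
    ed (P.loc p) c d y = ∑ j, ∑ k, (gg (P.loc p).g j k y : ℂ) * inner ℂ (pd j c y) (pd k d y) := by
  unfold ed nab
  refine Finset.sum_congr rfl fun j _ => Finset.sum_congr rfl fun k _ => ?_
  rw [hB y hy j, hB y hy k]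
  simp only [_root_.zero_apply, add_zero]
  rfl

/-- The orthogonality relation. -/
theorem orth (hn : 2 ≤ n) {P Q : One n N M} {Γ : Set M} (hΓ : RelBd n Γ)
    (hne : Γ.Nonempty) (hS : SameD P Q Γ) {p : M} {R ρ : ℝ} (hR : IsCB n p R) (hρ : 0 < ρ)
    (hρR : ρ < R)
    (hP : ∀ x ∈ Metric.ball (xc n p p) R, (P.loc p).g x = 1 ∧ ∀ i, (P.loc p).B i x = 0)
    (hQB : ∀ x ∈ Metric.ball (xc n p p) R, ∀ i, (Q.loc p).B i x = 0)
    (hA : ∀ m, m ∉ cb n p ρ → ∀ X : TangentSpace (𝓡∂ n) m, P.A.form m X = Q.A.form m X)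
    (hg : ∀ m, m ∉ cb n p ρ → ∀ v w : TangentSpace (𝓡∂ n) m,
      Q.g.inner m v w = P.g.inner m v w)
    {F G : E n → Fib N} (hF : Sol (P.loc p) (Metric.ball (xc n p p) R) F)
    (hG : Sol (Q.loc p) (Metric.ball (xc n p p) R) G) :
    ∫ y in Metric.closedBall (xc n p p) ρ, ∑ j, ∑ l,
      ((gg (Q.loc p).g j l y - (if j = l then 1 else 0) : ℝ) : ℂ) *
        inner ℂ (pd j G y) (pd l F y) = 0 := by
  obtain ⟨hrel, hok, hbdy, hsm⟩ := TM.fLoc n N M
  set z : E n := xc n p p with hz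
  have hbt : Metric.ball z R ⊆ tg n p :=
    Metric.ball_subset_closedBall.trans (hR.2.trans inter_subset_left)
  have hpos : Metric.ball z R ⊆ {y | 0 < y 0} :=
    Metric.ball_subset_closedBall.trans (hR.2.trans inter_subset_right)
  have hbH : Metric.ball z R ⊆ Hs n := fun y hy => le_of_lt (show 0 < y 0 from hpos hy)
  have hbr : RelOpen (Metric.ball z R) := CHarm_relOpen_of_open Metric.isOpen_ball hbH
  have hKR : Metric.closedBall z ρ ⊆ Metric.ball z R := Metric.closedBall_subset_ball hρR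
  have hokP : (P.loc p).Ok (Metric.ball z R) := CHarm_ok_mono (hok P p) hbt
  have hokQ : (Q.loc p).Ok (Metric.ball z R) := CHarm_ok_mono (hok Q p) hbt
  obtain ⟨⟨hsP, hsQ, -⟩, -⟩ := Vale.Agent.P088.EYM.cData TM.fUniq TM.fForm n N M P Q Γ hΓ hne hS
  obtain ⟨ρ₁, hρ₁, hρ₁R⟩ := exists_between hρR
  obtain ⟨uk, huk, hlu⟩ := runge_seq n N M P Γ p R ρ₁ hn hΓ hne hsP hR (hρ.trans hρ₁) hρ₁R F
    (hF.1.of_le two_le_inf) hF.2
  obtain ⟨wk, hwk, hlw⟩ := runge_seq n N M Q Γ p R ρ₁ hn hΓ hne hsQ hR (hρ.trans hρ₁) hρ₁R G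
    (hG.1.of_le two_le_inf) hG.2
  obtain ⟨C, hC⟩ := grad_est n N (P.loc p) z R ρ ρ₁ hokP hbH hρ₁ hρ₁R
  obtain ⟨C', hC'⟩ := grad_est n N (Q.loc p) z R ρ ρ₁ hokQ hbH hρ₁ hρ₁R
  set I : ℕ → ℝ := fun k => C * ∫ y in Metric.ball z ρ₁, ‖lu (𝓡∂ n) p (uk k) y - F y‖ ^ 2
  set I' : ℕ → ℝ := fun k => C' * ∫ y in Metric.ball z ρ₁, ‖lu (𝓡∂ n) p (wk k) y - G y‖ ^ 2
  have hI : Tendsto I atTop (𝓝 0) := by
    have := hlu.const_mul C
    rwa [mul_zero] at this
  have hI' : Tendsto I' atTop (𝓝 0) := by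
    have := hlw.const_mul C'
    rwa [mul_zero] at this
  have he : Tendsto (fun k => √(I k) + √(I' k)) atTop (𝓝 0) := by
    have h1 := (Real.continuous_sqrt.tendsto 0).comp hI
    have h2 := (Real.continuous_sqrt.tendsto 0).comp hI'
    rw [Real.sqrt_zero] at h1 h2
    have := h1.add h2
    rwa [add_zero] at this
  have husol : ∀ k, Sol (P.loc p) (Metric.ball z R) (lu (𝓡∂ n) p (uk k)) := by
    intro k
    obtain ⟨f, hf, hu⟩ := huk k
    have h1 := TM.fHarm n N M P f (uk k) hu p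
    exact ⟨h1.1.mono hbt, fun x hx => h1.2 x (hbt hx)⟩
  have hwsol : ∀ k, Sol (Q.loc p) (Metric.ball z R) (lu (𝓡∂ n) p (wk k)) := by
    intro k
    obtain ⟨f, hf, hu⟩ := hwk k
    have h1 := TM.fHarm n N M Q f (wk k) hu p
    exact ⟨h1.1.mono hbt, fun x hx => h1.2 x (hbt hx)⟩
  have hpdc : ∀ {u : E n → Fib N}, ContDiffOn ℝ ∞ u (Metric.ball z R) → ∀ j,
      ContinuousOn (pd j u) (Metric.closedBall z ρ) := fun hu j =>
    ((hbr.pd_smooth hu j).continuousOn).mono hKR
  have hpdsub : ∀ {u v : E n → Fib N}, ContDiffOn ℝ ∞ u (Metric.ball z R) →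
      ContDiffOn ℝ ∞ v (Metric.ball z R) → ∀ j, ∀ y ∈ Metric.ball z R,
      pd j (fun y => u y - v y) y = pd j u y - pd j v y := by
    intro u v hu hv j y hy
    rw [cRunge_pd (hpos hy), cRunge_pd (hpos hy), cRunge_pd (hpos hy), fderiv_fun_sub
      ((hu.contDiffAt (Metric.isOpen_ball.mem_nhds hy)).differentiableAt (by simp))
      ((hv.contDiffAt (Metric.isOpen_ball.mem_nhds hy)).differentiableAt (by simp))]
    rfl
  refine lim_int (isCompact_closedBall z ρ) (fk := fun k j => pd j (lu (𝓡∂ n) p (uk k)))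
    (gk := fun k j => pd j (lu (𝓡∂ n) p (wk k))) (fun j l => ?_) (fun j => hpdc hF.1 j)
    (fun j => hpdc hG.1 j) (fun k j => hpdc (husol k).1 j) (fun k j => hpdc (hwsol k).1 j) he
    ?_ ?_ ?_
  · exact Complex.continuous_ofReal.comp_continuousOn
      ((((hbr.gg_smooth hokQ.g_smooth hokQ.g_pos j l).continuousOn).mono hKR).sub
        continuousOn_const)
  · intro k j y hy
    rw [← hpdsub (husol k).1 hF.1 j y (hKR hy)]
    have h1 := hC _ (cClosed_sol_sub hbr hokP (husol k) hF) y hy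
    have h2 : ‖pd j (fun y => lu (𝓡∂ n) p (uk k) y - F y) y‖ ≤ √(I k) := by
      refine Real.le_sqrt_of_sq_le (le_trans ?_ h1)
      refine pow_le_pow_left₀ (norm_nonneg _) ?_ 2
      refine (Finset.single_le_sum
        (f := fun j => ‖pd j (fun y => lu (𝓡∂ n) p (uk k) y - F y) y‖)
        (fun _ _ => norm_nonneg _) (Finset.mem_univ j)).trans ?_
      exact le_add_of_nonneg_left (norm_nonneg _)
    exact h2.trans (le_add_of_nonneg_right (Real.sqrt_nonneg _))
  · intro k j y hy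
    rw [← hpdsub (hwsol k).1 hG.1 j y (hKR hy)]
    have h1 := hC' _ (cClosed_sol_sub hbr hokQ (hwsol k) hG) y hy
    have h2 : ‖pd j (fun y => lu (𝓡∂ n) p (wk k) y - G y) y‖ ≤ √(I' k) := by
      refine Real.le_sqrt_of_sq_le (le_trans ?_ h1)
      refine pow_le_pow_left₀ (norm_nonneg _) ?_ 2
      refine (Finset.single_le_sum
        (f := fun j => ‖pd j (fun y => lu (𝓡∂ n) p (wk k) y - G y) y‖)
        (fun _ _ => norm_nonneg _) (Finset.mem_univ j)).trans ?_
      exact le_add_of_nonneg_left (norm_nonneg _)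
    exact h2.trans (le_add_of_nonneg_left (Real.sqrt_nonneg _))
  · intro k
    obtain ⟨f, hf, hu⟩ := huk k
    obtain ⟨h, hh, hw⟩ := hwk k
    have h1 := en_diff P Q hR hρR hA hg hu.smooth hw.smooth (en_eq hΓ hne hS (huk k) (hwk k))
    rw [← h1]
    refine setIntegral_congr_fun Metric.isClosed_closedBall.measurableSet fun y hy => ?_
    rw [ed_nc Q p hQB _ _ (hKR hy), ed_nc P p (fun x hx => (hP x hx).2) _ _ (hKR hy)]
    rw [← Finset.sum_sub_distrib]
    refine Finset.sum_congr rfl fun j _ => ?_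
    rw [← Finset.sum_sub_distrib]
    refine Finset.sum_congr rfl fun l _ => ?_
    rw [gg_one (hP y (hKR hy)).1]
    push_cast
    ring

end

end Vale.Agent.P088.H207

end
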