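import Vale.Agent.P088.H207.H2
import Vale.Agent.P088.H833.Top

/-!
# P088: the orthogonality relation in coordinates
-/

set_option linter.all false

open Bundle Manifold MeasureTheory Set Filter Topology
open scoped ContDiff Matrix ENNReal

noncomputable section

namespace Vale.Agent.P088.H207

open Vale.Agent.P088 Vale.Agent.P088.EYM Vale.Agent.P088.EYM.O

universe u

section

variable {n N : ℕ}

/-- The open ball of radius `1/4` about the centre of the cube. -/
def bO (n : ℕ) : Set (Fin n → ℝ) := {y | ∑ j, (y j - 1 / 2) ^ 2 < (1 / 4) ^ 2}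

/-- The coordinates of the cube. -/
def tau (z : E n) (c : ℝ) (x : E n) : Fin n → ℝ := fun j => 1 / 2 + c⁻¹ * (x j - z j)

/-- The inverse of `tau`. -/
def sgm (z : E n) (c : ℝ) (y : Fin n → ℝ) : E n := WithLp.toLp 2 fun j => z j + c * (y j - 1 / 2)

theorem tau_sgm (z : E n) {c : ℝ} (hc : c ≠ 0) (y : Fin n → ℝ) : tau z c (sgm z c y) = y := by
  funext j
  unfold tau sgm
  simp only
  field_simp
  ring

theorem sgm_tau (z : E n) {c : ℝ} (hc : c ≠ 0) (x : E n) : sgm z c (tau z c x) = x := by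
  ext j
  unfold tau sgm
  simp only
  field_simp
  ring

theorem tau_mem (z : E n) {c R : ℝ} (hR : 0 < R) (hc : c = 4 * R) (x : E n) (ρ : ℝ)
    (hρ : 0 < ρ) :
    (∑ j, (tau z c x j - 1 / 2) ^ 2 < (ρ / c) ^ 2 ↔ x ∈ Metric.ball z ρ) ∧
      (∑ j, (tau z c x j - 1 / 2) ^ 2 ≤ (ρ / c) ^ 2 ↔ x ∈ Metric.closedBall z ρ) := by
  have hc0 : 0 < c := by rw [hc]; positivity
  have h1 : ∑ j, (tau z c x j - 1 / 2) ^ 2 = (‖x - z‖ / c) ^ 2 := by
    rw [div_pow, EuclideanSpace.real_norm_sq_eq, Finset.sum_div]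
    refine Finset.sum_congr rfl fun j _ => ?_
    unfold tau
    rw [PiLp.sub_apply, add_sub_cancel_left, mul_pow, inv_pow]
    field_simp
  rw [h1, mem_ball_iff_norm, mem_closedBall_iff_norm]
  refine ⟨?_, ?_⟩
  · rw [pow_lt_pow_iff_left₀ (by positivity) (by positivity) two_ne_zero,
      div_lt_div_iff_of_pos_right hc0]
  · rw [pow_le_pow_iff_left₀ (by positivity) (by positivity) two_ne_zero,
      div_le_div_iff_of_pos_right hc0]

theorem tau_bO (z : E n) {c R : ℝ} (hR : 0 < R) (hc : c = 4 * R) (x : E n) :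
    tau z c x ∈ bO n ↔ x ∈ Metric.ball z R := by
  rw [← (tau_mem z hR hc x R hR).1, hc]
  have : R / (4 * R) = 1 / 4 := by field_simp
  rw [this]
  rfl

theorem sgm_bO (z : E n) {c R : ℝ} (hR : 0 < R) (hc : c = 4 * R) (y : Fin n → ℝ) :
    sgm z c y ∈ Metric.ball z R ↔ y ∈ bO n := by
  rw [← tau_bO z hR hc, tau_sgm z (by rw [hc]; positivity)]

theorem bO_eq : bO n = (WithLp.ofLp : E n → Fin n → ℝ) ''
    Metric.ball (WithLp.toLp 2 fun _ => (1 / 2 : ℝ)) (1 / 4) := by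
  ext y
  constructor
  · intro hy
    refine ⟨WithLp.toLp 2 y, ?_, rfl⟩
    rw [mem_ball_iff_norm]
    refine (pow_lt_pow_iff_left₀ (norm_nonneg _) (by norm_num) two_ne_zero).1 ?_
    rw [EuclideanSpace.real_norm_sq_eq]
    exact hy
  · rintro ⟨x, hx, rfl⟩
    rw [mem_ball_iff_norm] at hx
    have := (pow_lt_pow_iff_left₀ (norm_nonneg _) (by norm_num) two_ne_zero).2 hx
    rw [EuclideanSpace.real_norm_sq_eq] at this
    exact this

theorem bO_open : IsOpen (bO n) := by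
  unfold bO
  refine isOpen_lt ?_ continuous_const
  fun_prop

theorem bO_reg (hn : 0 < n) : interior (closure (bO n)) = bO n := by
  haveI : Nontrivial (E n) := by
    haveI : NeZero n := ⟨hn.ne'⟩
    exact ⟨EuclideanSpace.single 0 1, 0, by
      intro h
      have := congrArg (fun v : E n => v 0) h
      simp at this⟩
  have h1 : (WithLp.ofLp : E n → Fin n → ℝ) = (EuclideanSpace.equiv (Fin n) ℝ).toHomeomorph := rfl
  rw [bO_eq, h1, ← Homeomorph.image_closure, ← Homeomorph.image_interior,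
    closure_ball _ (by norm_num), interior_closedBall _ (by norm_num)]

theorem bO_core : bO n ⊆ LR.core n := by
  intro y hy j
  have h1 : (y j - 1 / 2) ^ 2 < (1 / 4) ^ 2 :=
    lt_of_le_of_lt (Finset.single_le_sum (f := fun j => (y j - 1 / 2) ^ 2)
      (fun _ _ => sq_nonneg _) (Finset.mem_univ j)) hy
  have h2 := abs_lt_of_sq_lt_sq h1 (by norm_num)
  rw [abs_lt] at h2
  constructor <;> linarith [h2.1, h2.2]

end

section

variable {n N : ℕ} [NeZero n]

/-- A function on the cube as a section in the chart. -/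
def li (N : ℕ) (z : E n) (c : ℝ) (a : Fin N) (W : (Fin n → ℝ) → ℂ) (x : E n) : Fib N :=
  W (tau z c x) • EuclideanSpace.single a (1 : ℂ)

omit [NeZero n] in
theorem tau_cd (z : E n) (c : ℝ) : ContDiff ℝ ∞ (tau z c) := by
  unfold tau
  fun_prop

omit [NeZero n] in
theorem sgm_cd (z : E n) (c : ℝ) : ContDiff ℝ ∞ (sgm z c) := by
  have h1 : sgm z c = fun y => (EuclideanSpace.equiv (Fin n) ℝ).symm
      (fun j => z j + c * (y j - 1 / 2)) := rfl
  rw [h1]
  refine (EuclideanSpace.equiv (Fin n) ℝ).symm.contDiff.comp ?_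
  fun_prop

omit [NeZero n] in
theorem tau_fd (z : E n) (c : ℝ) (x : E n) : HasFDerivAt (tau z c)
    (c⁻¹ • ((EuclideanSpace.equiv (Fin n) ℝ) : E n →L[ℝ] (Fin n → ℝ))) x := by
  rw [hasFDerivAt_pi']
  intro j
  have h1 : HasFDerivAt (fun x : E n => x j) (EuclideanSpace.proj (𝕜 := ℝ) j : E n →L[ℝ] ℝ) x :=
    (EuclideanSpace.proj (𝕜 := ℝ) j : E n →L[ℝ] ℝ).hasFDerivAt
  have h2 := ((h1.sub_const (z j)).const_mul c⁻¹).const_add (1 / 2 : ℝ)
  refine h2.congr_fderiv ?_
  ext v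
  simp

theorem li_cd {z : E n} {c : ℝ} {a : Fin N} {W : (Fin n → ℝ) → ℂ} (hW : ContDiff ℝ ∞ W) :
    ContDiff ℝ ∞ (li N z c a W) := (hW.comp (tau_cd z c)).smul contDiff_const

theorem li_fd {z : E n} {c : ℝ} {a : Fin N} {W : (Fin n → ℝ) → ℂ} {x : E n}
    (hW : DifferentiableAt ℝ W (tau z c x)) (k : Fin n) :
    fderiv ℝ (li N z c a W) x (ev k) = li N z c a (fun y => (c⁻¹ : ℝ) • LR.pd k W y) x := by
  have h1 : HasFDerivAt (fun x => W (tau z c x)) _ x := hW.hasFDerivAt.comp x (tau_fd z c x)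
  have h2 : HasFDerivAt (li N z c a W) _ x :=
    h1.smul_const (EuclideanSpace.single a (1 : ℂ) : Fib N)
  rw [h2.fderiv]
  unfold li LR.pd
  simp only [ContinuousLinearMap.smulRight_apply, ContinuousLinearMap.comp_apply,
    _root_.smul_apply, map_smul]
  congr 2

theorem pd_csmul {W : (Fin n → ℝ) → ℂ} {y : Fin n → ℝ} (hW : DifferentiableAt ℝ W y) (c : ℝ)
    (k : Fin n) : LR.pd k (fun y => c • W y) y = c • LR.pd k W y := by
  unfold LR.pd
  rw [fderiv_fun_const_smul hW]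
  rfl

/-- The operator in the coordinates of the cube. -/
theorem li_lop {L : LD n N} {D : Set (E n)} (hD : IsOpen D) (hpos : D ⊆ {y | 0 < y 0})
    (hB : ∀ x ∈ D, ∀ i, L.B i x = 0) {z : E n} {c : ℝ} {s : LR.MF n} (hs : LR.SmM s)
    (hgs : ∀ x ∈ D, ∀ j k, gg L.g j k x = s (tau z c x) j k) {a : Fin N}
    {W : (Fin n → ℝ) → ℂ} (hW : ContDiff ℝ ∞ W) {x : E n} (hx : x ∈ D) :
    Lop L (li N z c a W) x = li N z c a (fun y => (c⁻¹ : ℝ) • ((c⁻¹ : ℝ) • LR.dv s W y)) x := by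
  have hpd : ∀ k, ContDiff ℝ ∞ (LR.pd k W) := fun k =>
    (hW.fderiv_right (m := ∞) (by simp)).clm_apply contDiff_const
  have hfl : ∀ j, ContDiff ℝ ∞ (fun y => ∑ k, (s y j k : ℂ) * LR.pd k W y) := fun j =>
    ContDiff.sum fun k _ => (Complex.ofRealCLM.contDiff.comp (hs j k)).mul (hpd k)
  rw [lop_nc hD hpos hB _ hx]
  have h1 : ∀ j, (fun y => ∑ k, gg L.g j k y • fderiv ℝ (li N z c a W) y (ev k)) =ᶠ[𝓝 x]
      li N z c a (fun y => (c⁻¹ : ℝ) • ∑ k, (s y j k : ℂ) * LR.pd k W y) := by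
    intro j
    filter_upwards [hD.mem_nhds hx] with y hy
    have e1 : ∀ k, gg L.g j k y • fderiv ℝ (li N z c a W) y (ev k) =
        li N z c a (fun y => (c⁻¹ : ℝ) • ((s y j k : ℂ) * LR.pd k W y)) y := by
      intro k
      rw [li_fd (hW.differentiable (by simp) _), hgs y hy]
      unfold li
      rw [← Complex.coe_smul, smul_smul]
      congr 1
      simp only [Complex.real_smul]
      ring
    simp only [e1]
    unfold li
    rw [← Finset.sum_smul]
    congr 1
    exact (Finset.smul_sum (r := (c⁻¹ : ℝ))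
      (f := fun k => ((s (tau z c y) j k : ℝ) : ℂ) * LR.pd k W (tau z c y))).symm
  have h2 : ∀ j, fderiv ℝ (fun y => ∑ k, gg L.g j k y • fderiv ℝ (li N z c a W) y (ev k)) x
      (ev j) = li N z c a (fun y => (c⁻¹ : ℝ) • ((c⁻¹ : ℝ) •
        LR.pd j (fun y => ∑ k, (s y j k : ℂ) * LR.pd k W y) y)) x := by
    intro j
    rw [(h1 j).fderiv_eq, li_fd (((hfl j).const_smul (c⁻¹ : ℝ)).differentiable (by simp) _)]
    unfold li
    congr 1
    exact congrArg (fun t : ℂ => (c⁻¹ : ℝ) • t)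
      (pd_csmul ((hfl j).differentiable (by simp) (tau z c x)) c⁻¹ j)
  simp only [h2]
  unfold li LR.dv
  rw [← Finset.sum_smul]
  congr 1
  show _ = (c⁻¹ : ℝ) • ((c⁻¹ : ℝ) • ∑ i, _)
  rw [Finset.smul_sum, Finset.smul_sum]

end

end Vale.Agent.P088.H207

end
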