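import Vale.Agent.P088.H207.H3

/-!
# P088: the orthogonality relation `Star` from equal data on a manifold
-/

set_option linter.all false

open Bundle Manifold MeasureTheory Set Filter Topology
open scoped ContDiff Matrix ENNReal

noncomputable section

namespace Vale.Agent.P088.H207

open Vale.Agent.P088 Vale.Agent.P088.EYM Vale.Agent.P088.EYM.O

universe u

section

variable {n : ℕ} [NeZero n]

/-- change of variables -/
theorem int_tau (z : E n) {c : ℝ} (hc : c ≠ 0) (f : (Fin n → ℝ) → ℂ) :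
    ∫ x, f (tau z c x) = |(c⁻¹ ^ n)⁻¹| • ∫ y, f y := by
  have h1 : ∫ y, f y = ∫ x : E n, f (WithLp.ofLp x) :=
    ((PiLp.volume_preserving_ofLp (Fin n)).integral_comp
      (MeasurableEquiv.toLp 2 (Fin n → ℝ)).symm.measurableEmbedding f).symm
  set b : E n := WithLp.toLp 2 fun j => 1 / 2 - c⁻¹ * z j with hb
  have h2 : ∀ x : E n, tau z c x = WithLp.ofLp (c⁻¹ • x + b) := by
    intro x
    funext j
    unfold tau
    rw [PiLp.add_apply, PiLp.smul_apply, hb, smul_eq_mul]
    simp only
    ring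
  simp only [h2]
  rw [h1, ← integral_add_right_eq_self (fun x : E n => f (WithLp.ofLp x)) b]
  have h3 := Measure.integral_comp_smul (volume : Measure (E n))
    (fun x => f (WithLp.ofLp (x + b))) c⁻¹
  rw [h3, finrank_euclideanSpace_fin]

theorem conj_cd {W : (Fin n → ℝ) → ℂ} (hW : ContDiff ℝ ∞ W) :
    ContDiff ℝ ∞ (fun y => (starRingEnd ℂ) (W y)) :=
  (Complex.conjCLE.toContinuousLinearMap.contDiff).comp hW

theorem conj_pd {W : (Fin n → ℝ) → ℂ} {y : Fin n → ℝ} (hW : DifferentiableAt ℝ W y) (k : Fin n) :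
    LR.pd k (fun y => (starRingEnd ℂ) (W y)) y = (starRingEnd ℂ) (LR.pd k W y) := by
  have h1 : HasFDerivAt (fun y => (starRingEnd ℂ) (W y))
      ((Complex.conjCLE : ℂ →L[ℝ] ℂ) ∘L fderiv ℝ W y) y :=
    (Complex.conjCLE : ℂ →L[ℝ] ℂ).hasFDerivAt.comp y hW.hasFDerivAt
  unfold LR.pd
  rw [h1.fderiv]
  rfl

theorem conj_dv {s : LR.MF n} (hs : LR.SmM s) {W : (Fin n → ℝ) → ℂ} (hW : ContDiff ℝ ∞ W)
    (y : Fin n → ℝ) : LR.dv s (fun y => (starRingEnd ℂ) (W y)) y =
      (starRingEnd ℂ) (LR.dv s W y) := by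
  have hpd : ∀ k, ContDiff ℝ ∞ (LR.pd k W) := fun k =>
    (hW.fderiv_right (m := ∞) (by simp)).clm_apply contDiff_const
  have hfl : ∀ j, ContDiff ℝ ∞ (fun y => ∑ k, (s y j k : ℂ) * LR.pd k W y) := fun j =>
    ContDiff.sum fun k _ => (Complex.ofRealCLM.contDiff.comp (hs j k)).mul (hpd k)
  unfold LR.dv
  rw [map_sum]
  refine Finset.sum_congr rfl fun j _ => ?_
  have e1 : (fun y => ∑ k, (s y j k : ℂ) * LR.pd k (fun y => (starRingEnd ℂ) (W y)) y) =
      fun y => (starRingEnd ℂ) (∑ k, (s y j k : ℂ) * LR.pd k W y) := by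
    funext y
    rw [map_sum]
    refine Finset.sum_congr rfl fun k _ => ?_
    rw [conj_pd (hW.differentiable (by simp) y), map_mul, Complex.conj_ofReal]
  rw [e1, conj_pd ((hfl j).differentiable (by simp) y)]

end

section

variable {n N : ℕ} [NeZero n] {M : Type u} [TopologicalSpace M]
  [ChartedSpace (EuclideanHalfSpace n) M] [IsManifold (𝓡∂ n) ∞ M] [T2Space M] [CompactSpace M]
  [MeasurableSpace M] [BorelSpace M] [ConnectedSpace M]

/-- Equal data on `M` give the orthogonality relation in the cube. -/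
theorem star_one (hn : 2 ≤ n) (a : Fin N) {P Q : One n N M} {Γ : Set M} (hΓ : RelBd n Γ)
    (hne : Γ.Nonempty) (hS : SameD P Q Γ) {p : M} {R ρ : ℝ} (hR : IsCB n p R) (hρ : 0 < ρ)
    (hρR : ρ < R)
    (hP : ∀ x ∈ Metric.ball (xc n p p) R, (P.loc p).g x = 1 ∧ ∀ i, (P.loc p).B i x = 0)
    (hQB : ∀ x ∈ Metric.ball (xc n p p) R, ∀ i, (Q.loc p).B i x = 0)
    (hA : ∀ m, m ∉ cb n p ρ → ∀ X : TangentSpace (𝓡∂ n) m, P.A.form m X = Q.A.form m X)
    (hg : ∀ m, m ∉ cb n p ρ → ∀ v w : TangentSpace (𝓡∂ n) m,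
      Q.g.inner m v w = P.g.inner m v w)
    {g : LR.MF n} (hgs : LR.SmM g) (hgp : ∀ y, (g y).PosDef)
    (hgQ : ∀ x ∈ Metric.ball (xc n p p) R, g (tau (xc n p p) (4 * R) x) = (Q.loc p).g x) :
    LR.Star (bO n) (LR.sg g) := by
  have hR0 : 0 < R := hR.1
  set z : E n := xc n p p with hz
  obtain ⟨c, hc⟩ : ∃ c : ℝ, c = 4 * R := ⟨_, rfl⟩
  have hc0 : 0 < c := by rw [hc]; positivity
  rw [← hc] at hgQ
  have hbt : Metric.ball z R ⊆ tg n p :=
    Metric.ball_subset_closedBall.trans (hR.2.trans inter_subset_left)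
  have hpos : Metric.ball z R ⊆ {y | 0 < y 0} :=
    Metric.ball_subset_closedBall.trans (hR.2.trans inter_subset_right)
  have hs : LR.SmM (LR.sg g) := H833.smM_sg hgs hgp
  have hsy := H833.symm_sg hgp
  have hgg : ∀ x ∈ Metric.ball z R, ∀ j k,
      gg (Q.loc p).g j k x = LR.sg g (tau z c x) j k := by
    intro x hx j k
    unfold LR.sg gg
    rw [hgQ x hx]
    rfl
  intro U W hU hW hUe hWe
  have hW' := conj_cd hW
  -- the two local solutions
  have hF : Sol (P.loc p) (Metric.ball z R) (li N z c a U) := by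
    refine ⟨(li_cd hU).contDiffOn, fun x hx => ?_⟩
    rw [li_lop (s := fun _ => 1) Metric.isOpen_ball hpos (fun x hx => (hP x hx).2)
      (fun i j => contDiff_const) (fun x hx j k => by
        rw [gg_one (hP x hx).1]
        simp [Matrix.one_apply]) hU hx]
    unfold li
    simp only
    rw [hUe _ ((tau_bO z hR0 hc x).2 hx)]
    simp
  have hG : Sol (Q.loc p) (Metric.ball z R) (li N z c a fun y => (starRingEnd ℂ) (W y)) := by
    refine ⟨(li_cd hW').contDiffOn, fun x hx => ?_⟩
    rw [li_lop (s := LR.sg g) Metric.isOpen_ball hpos hQB hs hgg hW' hx]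
    unfold li
    simp only
    rw [conj_dv hs hW, hWe _ ((tau_bO z hR0 hc x).2 hx)]
    simp
  have h0 := orth hn hΓ hne hS hR hρ hρR hP hQB hA hg hF hG
  -- the integrand
  set f : (Fin n → ℝ) → ℂ := fun x => ∑ i, ∑ j, ((LR.sg g x - 1) i j : ℂ) * LR.pd i U x *
    LR.pd j W x with hf
  have hint : ∀ x ∈ Metric.ball z R, (∑ j, ∑ l,
      ((gg (Q.loc p).g j l x - (if j = l then 1 else 0) : ℝ) : ℂ) *
        inner ℂ (pd j (li N z c a fun y => (starRingEnd ℂ) (W y)) x) (pd l (li N z c a U) x)) =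
      ((c⁻¹ : ℝ) : ℂ) ^ 2 * f (tau z c x) := by
    intro x hx
    rw [hf]
    simp only
    rw [Finset.mul_sum, Finset.sum_comm]
    refine Finset.sum_congr rfl fun l _ => ?_
    rw [Finset.mul_sum]
    refine Finset.sum_congr rfl fun j _ => ?_
    rw [cRunge_pd (hpos hx), cRunge_pd (hpos hx), li_fd (hW'.differentiable (by simp) _),
      li_fd (hU.differentiable (by simp) _), hgg x hx]
    unfold li
    simp only
    rw [conj_pd (hW.differentiable (by simp) _), inner_smul_left, inner_smul_right,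
      EuclideanSpace.inner_single_left]
    have e1 : (LR.sg g (tau z c x) j l) = LR.sg g (tau z c x) l j := by
      have := (hsy (tau z c x)).apply l j
      exact this
    have e2 : ((if j = l then 1 else 0 : ℝ)) = (1 : Matrix (Fin n) (Fin n) ℝ) l j := by
      rw [Matrix.one_apply]
      by_cases h : j = l
      · rw [if_pos h, if_pos h.symm]
      · rw [if_neg h, if_neg (Ne.symm h)]
    rw [e1, e2, Matrix.sub_apply]
    simp only [Complex.real_smul, map_mul, Complex.conj_ofReal, Complex.conj_conj]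
    simp
    ring
  have hfz : ∀ x ∈ Metric.ball z R, x ∉ Metric.closedBall z ρ → f (tau z c x) = 0 := by
    intro x hx hxρ
    have h5 : (xc n p).symm x ∉ cb n p ρ := by
      rintro ⟨x', hx', he⟩
      have h6 : x' = x := (xc n p).symm.injOn
        ((hR.2 (Metric.closedBall_subset_closedBall hρR.le hx')).1) (hbt hx) he
      exact hxρ (h6 ▸ hx')
    have h6 : g (tau z c x) = 1 := by
      rw [hgQ x hx, ← (hP x hx).1]
      ext i j
      exact hg _ h5 _ _
    rw [hf]
    simp only
    rw [H833.sg_one h6, sub_self]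
    simp
  -- change of variables
  have h1 : ∫ x in Metric.ball z R, f (tau z c x) = 0 := by
    have e1 : ∫ x in Metric.closedBall z ρ, f (tau z c x) = 0 := by
      have e2 : ((c⁻¹ : ℝ) : ℂ) ^ 2 * ∫ x in Metric.closedBall z ρ, f (tau z c x) = 0 := by
        rw [← h0, ← integral_const_mul]
        refine (setIntegral_congr_fun Metric.isClosed_closedBall.measurableSet fun y hy => ?_).symm
        exact hint y (Metric.closedBall_subset_ball hρR hy)
      have e3 : ((c⁻¹ : ℝ) : ℂ) ^ 2 ≠ 0 := by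
        refine pow_ne_zero 2 ?_
        exact_mod_cast (inv_pos.2 hc0).ne'
      exact (mul_eq_zero.1 e2).resolve_left e3
    rw [← e1]
    refine setIntegral_eq_of_subset_of_forall_diff_eq_zero
      Metric.isOpen_ball.measurableSet (Metric.closedBall_subset_ball hρR) ?_
    intro x hx
    exact hfz x hx.1 hx.2
  have h2 : ∫ x, (bO n).indicator f (tau z c x) = ∫ x in Metric.ball z R, f (tau z c x) := by
    rw [← integral_indicator Metric.isOpen_ball.measurableSet]
    refine integral_congr_ae (Eventually.of_forall fun x => ?_)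
    by_cases hx : x ∈ Metric.ball z R
    · simp only [indicator_of_mem hx, indicator_of_mem ((tau_bO z hR0 hc x).2 hx)]
    · have hx' : tau z c x ∉ bO n := fun h => hx ((tau_bO z hR0 hc x).1 h)
      simp only [indicator_of_notMem hx, indicator_of_notMem hx']
  rw [h1, int_tau z hc0.ne'] at h2
  have h3 : |(c⁻¹ ^ n)⁻¹| ≠ 0 := by positivity
  have h4 := (smul_eq_zero.1 h2).resolve_left h3
  rw [integral_indicator bO_open.measurableSet] at h4
  exact h4

end

end Vale.Agent.P088.H207

end
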