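import Vale.Agent.P088.H207.H3
import Vale.Agent.P088.H158.PushB

/-!
# P088: from a diffeomorphism of the cube to a diffeomorphism of the manifold
-/

set_option linter.all false

open Bundle Manifold MeasureTheory Set Filter Topology
open scoped ContDiff Matrix ENNReal

noncomputable section

namespace Vale.Agent.P088.H207

open Vale.Agent.P088 Vale.Agent.P088.EYM Vale.Agent.P088.EYM.O

universe u

section

variable {n : ℕ}

/-- A smooth map of the cube which is the identity off the ball. -/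
structure Lc (h : (Fin n → ℝ) → Fin n → ℝ) : Prop where
  cd : ContDiff ℝ ∞ h
  off : ∀ y, y ∉ bO n → h y = y
  on : ∀ y ∈ bO n, h y ∈ bO n

theorem lc_w {w K : (Fin n → ℝ) → Fin n → ℝ} (D : LR.Dif (bO n) w K) :
    Lc (fun y => y + w y) := by
  refine ⟨contDiff_id.add D.sw, fun y hy => by simp [D.z y hy], fun y hy => ?_⟩
  by_contra h
  have h1 := D.z _ h
  have h2 := D.l (y + w y)
  rw [h1, add_zero, D.l y] at h2
  exact h (h2 ▸ hy)

theorem lc_K {w K : (Fin n → ℝ) → Fin n → ℝ} (D : LR.Dif (bO n) w K) : Lc K := by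
  refine ⟨D.sK, fun y hy => ?_, fun y hy => ?_⟩
  · have h2 := D.l y
    rwa [D.z y hy, add_zero] at h2
  · by_contra h
    have h2 := D.r y
    rw [D.z _ h, add_zero] at h2
    rw [h2] at h
    exact h hy

/-- The map in the chart. -/
def tch (z : E n) (c : ℝ) (h : (Fin n → ℝ) → Fin n → ℝ) (x : E n) : E n :=
  sgm z c (h (tau z c x))

theorem tch_off {z : E n} {c R : ℝ} (hR : 0 < R) (hc : c = 4 * R)
    {h : (Fin n → ℝ) → Fin n → ℝ} (H : Lc h) {x : E n} (hx : x ∉ Metric.ball z R) :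
    tch z c h x = x := by
  unfold tch
  rw [H.off _ (fun h => hx ((tau_bO z hR hc x).1 h)), sgm_tau z (by rw [hc]; positivity)]

theorem tch_on {z : E n} {c R : ℝ} (hR : 0 < R) (hc : c = 4 * R)
    {h : (Fin n → ℝ) → Fin n → ℝ} (H : Lc h) {x : E n} (hx : x ∈ Metric.ball z R) :
    tch z c h x ∈ Metric.ball z R :=
  (sgm_bO z hR hc _).2 (H.on _ ((tau_bO z hR hc x).2 hx))

theorem tch_cd {z : E n} {c : ℝ} {h : (Fin n → ℝ) → Fin n → ℝ} (H : Lc h) :
    ContDiff ℝ ∞ (tch z c h) := (sgm_cd z c).comp (H.cd.comp (tau_cd z c))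

theorem tch_inv {z : E n} {c : ℝ} (hc : c ≠ 0) {h k : (Fin n → ℝ) → Fin n → ℝ}
    (H : ∀ y, k (h y) = y) (x : E n) : tch z c k (tch z c h x) = x := by
  unfold tch
  rw [tau_sgm z hc, H, sgm_tau z hc]

end

section

variable {n : ℕ} [NeZero n] {M : Type u} [TopologicalSpace M]
  [ChartedSpace (EuclideanHalfSpace n) M] [IsManifold (𝓡∂ n) ∞ M]

/-- The map of `M` which is given in the chart at `p`. -/
def mv (p : M) (c : ℝ) (h : (Fin n → ℝ) → Fin n → ℝ) (m : M) : M :=
  haveI := Classical.dec (m ∈ (xc n p).source)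
  if m ∈ (xc n p).source then (xc n p).symm (tch (xc n p p) c h (xc n p m)) else m

theorem mv_src {p : M} {c : ℝ} {h : (Fin n → ℝ) → Fin n → ℝ} {m : M}
    (hm : m ∈ (xc n p).source) :
    mv p c h m = (xc n p).symm (tch (xc n p p) c h (xc n p m)) := if_pos hm

theorem mv_nsrc {p : M} {c : ℝ} {h : (Fin n → ℝ) → Fin n → ℝ} {m : M}
    (hm : m ∉ (xc n p).source) : mv p c h m = m := if_neg hm

theorem tch_tg {p : M} {R c : ℝ} (hR : IsCB n p R) (hc : c = 4 * R)
    {h : (Fin n → ℝ) → Fin n → ℝ} (H : Lc h) {x : E n} (hx : x ∈ tg n p) :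
    tch (xc n p p) c h x ∈ tg n p := by
  by_cases hb : x ∈ Metric.ball (xc n p p) R
  · exact (hR.2 (Metric.ball_subset_closedBall (tch_on hR.1 hc H hb))).1
  · rwa [tch_off hR.1 hc H hb]

theorem mv_inv {p : M} {R c : ℝ} (hR : IsCB n p R) (hc : c = 4 * R)
    {h k : (Fin n → ℝ) → Fin n → ℝ} (H : Lc h) (hk : ∀ y, k (h y) = y) (m : M) :
    mv p c k (mv p c h m) = m := by
  have hR0 := hR.1
  by_cases hm : m ∈ (xc n p).source
  · have h1 : tch (xc n p p) c h (xc n p m) ∈ tg n p := tch_tg hR hc H ((xc n p).map_source hm)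
    rw [mv_src hm, mv_src ((xc n p).map_target h1), (xc n p).right_inv h1,
      tch_inv (by rw [hc]; positivity) hk, (xc n p).left_inv hm]
  · rw [mv_nsrc hm, mv_nsrc hm]

theorem mv_off {p : M} {R c : ℝ} (hR : IsCB n p R) (hc : c = 4 * R)
    {h : (Fin n → ℝ) → Fin n → ℝ} (H : Lc h) {m : M}
    (hm : m ∉ (xc n p).symm '' Metric.ball (xc n p p) R) : mv p c h m = m := by
  by_cases hs : m ∈ (xc n p).source
  · have h1 : xc n p m ∉ Metric.ball (xc n p p) R := fun h =>
      hm ⟨xc n p m, h, (xc n p).left_inv hs⟩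
    rw [mv_src hs, tch_off hR.1 hc H h1, (xc n p).left_inv hs]
  · exact mv_nsrc hs

theorem cb_src {p : M} {R : ℝ} (hR : IsCB n p R) {m : M} (hm : m ∈ cb n p R) :
    m ∈ (xc n p).source ∧ xc n p m ∈ Metric.closedBall (xc n p p) R := by
  obtain ⟨y, hy, rfl⟩ := hm
  have h1 := (hR.2 hy).1
  exact ⟨(xc n p).map_target h1, by rwa [(xc n p).right_inv h1]⟩

variable [T2Space M]

theorem mv_ev {p : M} {R c : ℝ} (hR : IsCB n p R) (hc : c = 4 * R)
    {h : (Fin n → ℝ) → Fin n → ℝ} (H : Lc h) {m : M} (hm : m ∉ cb n p R) :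
    mv p c h =ᶠ[𝓝 m] id := by
  have hcl : IsClosed (cb n p R) := (cRunge_cbcompact p hR le_rfl).isClosed
  filter_upwards [hcl.isOpen_compl.mem_nhds hm] with x hx
  exact mv_off hR hc H fun h => hx (image_mono Metric.ball_subset_closedBall h)

theorem mv_smooth {p : M} {R c : ℝ} (hR : IsCB n p R) (hc : c = 4 * R)
    {h : (Fin n → ℝ) → Fin n → ℝ} (H : Lc h) : ContMDiff (𝓡∂ n) (𝓡∂ n) ∞ (mv p c h) := by
  intro m
  by_cases hm : m ∈ (xc n p).source
  · have h1 : ContMDiffOn (𝓡∂ n) 𝓘(ℝ, E n) ∞ (xc n p) (xc n p).source := by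
      have := contMDiffOn_extChartAt (I := 𝓡∂ n) (x := p) (n := ∞) (M := M)
      rwa [← extChartAt_source (𝓡∂ n)] at this
    have h2 : ContMDiffOn (𝓡∂ n) 𝓘(ℝ, E n) ∞ (fun x => tch (xc n p p) c h (xc n p x))
        (xc n p).source := (tch_cd H).contMDiff.comp_contMDiffOn h1
    have h3 : ContMDiffOn 𝓘(ℝ, E n) (𝓡∂ n) ∞ (xc n p).symm (xc n p).target :=
      contMDiffOn_extChartAt_symm p
    have h4 : ContMDiffOn (𝓡∂ n) (𝓡∂ n) ∞ (mv p c h) (xc n p).source :=
      (h3.comp h2 (fun x hx => tch_tg hR hc H ((xc n p).map_source hx))).congr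
        fun x hx => mv_src hx
    exact h4.contMDiffAt ((isOpen_extChartAt_source p).mem_nhds hm)
  · exact contMDiffAt_id.congr_of_eventuallyEq
      (mv_ev hR hc H fun h => hm (cb_src hR h).1)

/-- The derivative in the chart. -/
theorem mv_jac {p : M} {R c : ℝ} (hR : IsCB n p R) (hc : c = 4 * R)
    {w K : (Fin n → ℝ) → Fin n → ℝ} (D : LR.Dif (bO n) w K) {m : M} (hm : m ∈ cb n p R) :
    Jac (fun y => xc n p (mv p c (fun y => y + w y) ((xc n p).symm y))) (xc n p m) =
      LR.jm w (tau (xc n p p) c (xc n p m)) := by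
  obtain ⟨hs, hcb⟩ := cb_src hR hm
  have hc0 : c ≠ 0 := by
    have := hR.1
    rw [hc]; positivity
  obtain ⟨htg, hpos⟩ := hR.2 hcb
  obtain ⟨O, hO, hOt⟩ := cLoc_relOpen (n := n) p
  have hpos' : 0 < (xc n p m) 0 := hpos
  have hev : ∀ᶠ y in 𝓝 (xc n p m), xc n p (mv p c (fun y => y + w y) ((xc n p).symm y)) =
      tch (xc n p p) c (fun y => y + w y) y := by
    have h1 : xc n p m ∈ O := by
      have : xc n p m ∈ tg n p := htg
      rw [hOt] at this
      exact this.1
    have h2 : IsOpen {y : E n | 0 < y 0} := isOpen_lt continuous_const (by fun_prop)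
    filter_upwards [hO.mem_nhds h1, h2.mem_nhds hpos'] with y hy1 hy2
    have h3 : y ∈ tg n p := by
      rw [hOt]
      exact ⟨hy1, le_of_lt (show 0 < y 0 from hy2)⟩
    rw [mv_src ((xc n p).map_target h3), (xc n p).right_inv h3,
      (xc n p).right_inv (tch_tg hR hc (lc_w D) h3)]
  ext i j
  show pd j (fun y => (xc n p (mv p c (fun y => y + w y) ((xc n p).symm y))) i) (xc n p m) = _
  rw [cRunge_pd hpos']
  have h4 : (fun y => (xc n p (mv p c (fun y => y + w y) ((xc n p).symm y))) i) =ᶠ[𝓝 (xc n p m)]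
      fun y => (tch (xc n p p) c (fun y => y + w y) y) i := by
    filter_upwards [hev] with y hy
    rw [hy]
  rw [h4.fderiv_eq]
  set z := xc n p p
  set x := xc n p m
  have h5 : HasFDerivAt (fun y => y + w y) (ContinuousLinearMap.id ℝ (Fin n → ℝ) +
      fderiv ℝ w (tau z c x)) (tau z c x) :=
    (hasFDerivAt_id _).add (D.sw.differentiable (by simp) _).hasFDerivAt
  have h6 : HasFDerivAt (fun y => (fun y => y + w y) (tau z c y)) _ x := h5.comp x (tau_fd z c x)
  have h7 := ((((hasFDerivAt_pi'.1 h6) i).sub_const (1 / 2 : ℝ)).const_mul c).const_add (z i)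
  have h8 : HasFDerivAt (fun y => (tch z c (fun y => y + w y) y) i) _ x := h7
  rw [h8.fderiv]
  have h9 : (EuclideanSpace.equiv (Fin n) ℝ) (ev j : E n) = Pi.single j 1 := rfl
  simp only [_root_.smul_apply, ContinuousLinearMap.comp_apply, _root_.add_apply,
    ContinuousLinearMap.proj_apply, smul_eq_mul, map_smul, ContinuousLinearMap.id_apply,
    ContinuousLinearEquiv.coe_coe, h9]
  unfold LR.jm LR.pd
  simp only [Pi.add_apply, Pi.smul_apply, smul_eq_mul]
  have h10 : (Pi.single j (1 : ℝ) : Fin n → ℝ) i = (1 : Matrix (Fin n) (Fin n) ℝ) i j := by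
    rw [Matrix.one_apply, Pi.single_apply]
  rw [← h10, ← mul_assoc, mul_inv_cancel₀ hc0, one_mul]

end

end Vale.Agent.P088.H207

end
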