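import Vale.Agent.P088.H207.H5

/-!
# P088: the conclusion of Question 1 from a diffeomorphism of the cube
-/

set_option linter.all false

open Bundle Manifold MeasureTheory Set Filter Topology
open scoped ContDiff Matrix ENNReal

noncomputable section

namespace Vale.Agent.P088.H207

open Vale.Agent.P088 Vale.Agent.P088.B Vale.Agent.P088.EYM Vale.Agent.P088.EYM.O

universe u

section

variable {n N : ℕ} [NeZero n] {M : Type u} [TopologicalSpace M]
  [ChartedSpace (EuclideanHalfSpace n) M] [IsManifold (𝓡∂ n) ∞ M] [T2Space M]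

/-- The derivative of a map of `M`. -/
def Dm (F : M → M) (m : M) : E n →L[ℝ] E n := mfderiv (𝓡∂ n) (𝓡∂ n) F m

/-- The coordinate vectors at `m` of the chart at `p`. -/
def cV (p m : M) (j : Fin n) : E n := coordVec (𝓡∂ n) p m j

theorem mv_off_D {p : M} {R c : ℝ} (hR : IsCB n p R) (hc : c = 4 * R)
    {w K : (Fin n → ℝ) → Fin n → ℝ} (D : LR.Dif (bO n) w K) {m : M}
    (hm : m ∉ (xc n p).symm '' Metric.ball (xc n p p) R) (v : E n) :
    Dm (mv p c fun y => y + w y) m v = v := by
  have hn : 0 < n := Nat.pos_of_ne_zero (NeZero.ne n)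
  by_cases hcb : m ∈ cb n p R
  · obtain ⟨hs, hcb'⟩ := cb_src hR hcb
    have hmm : mv p c (fun y => y + w y) m = m := mv_off hR hc (lc_w D) hm
    obtain ⟨h1, h2⟩ := EYM.cChart n M univ (mv p c fun y => y + w y) isOpen_univ
      (mv_smooth hR hc (lc_w D)).contMDiffOn p p m (mem_univ _) hs (by rw [hmm]; exact hs)
    have hb : xc n p m ∉ Metric.ball (xc n p p) R := fun h =>
      hm ⟨xc n p m, h, (xc n p).left_inv hs⟩
    have hbO : tau (xc n p p) c (xc n p m) ∉ bO n := fun h => hb ((tau_bO _ hR.1 hc _).1 h)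
    have hJ : Jac (fun y => xc n p (mv p c (fun y => y + w y) ((xc n p).symm y))) (xc n p m) =
        1 := by
      rw [mv_jac hR hc D hcb]
      ext i j
      unfold LR.jm LR.pd
      rw [LR.H158.fderiv_zero_off (bO_reg hn) D.sw D.z hbO]
      simp
    obtain ⟨a, ha⟩ := h2 v
    have h3 : ∀ j : Fin n, Dm (mv p c fun y => y + w y) m (cV p m j) =
        cV p m j := by
      intro j
      have h4 : Dm (mv p c fun y => y + w y) m (cV p m j) = ∑ k,
          Jac (fun y => xc n p (mv p c (fun y => y + w y) ((xc n p).symm y))) (xc n p m) k j •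
            cV p (mv p c (fun y => y + w y) m) k := h1 j
      rw [hJ] at h4
      have h5 : ∀ x : M, x = m → (∑ k, (1 : Matrix (Fin n) (Fin n) ℝ) k j •
          cV p x k) = cV p m j := by
        rintro x rfl
        simp [Matrix.one_apply]
      exact h4.trans (h5 _ hmm)
    have ha' : v = ∑ j, a j • cV p m j := ha
    rw [ha', map_sum]
    exact Finset.sum_congr rfl fun j _ => by rw [map_smul, h3 j]
  · have h1 := mv_ev hR hc (lc_w D) hcb
    have h2 : mfderiv (𝓡∂ n) (𝓡∂ n) (mv p c fun y => y + w y) m =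
        mfderiv (𝓡∂ n) (𝓡∂ n) (id : M → M) m := h1.mfderiv_eq
    unfold Dm
    rw [h2, mfderiv_id]
    rfl

variable [MeasurableSpace M]

/-- The metric of `M` as a family of bilinear forms on `ℝ^n`. -/
def Gm (P : One n N M) (m : M) : E n →L[ℝ] E n →L[ℝ] ℝ := P.g.inner m

/-- The pull back of the metric. -/
theorem mv_met {P Q : One n N M} {p : M} {R c : ℝ} (hR : IsCB n p R) (hc : c = 4 * R)
    {w K : (Fin n → ℝ) → Fin n → ℝ} (D : LR.Dif (bO n) w K)
    (hP : ∀ x ∈ Metric.ball (xc n p p) R, (P.loc p).g x = 1)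
    (hg : ∀ m, m ∉ (xc n p).symm '' Metric.ball (xc n p p) R → Gm Q m = Gm P m)
    (hQ : ∀ x ∈ Metric.ball (xc n p p) R, (Q.loc p).g x =
      (LR.jm w (tau (xc n p p) c x))ᵀ * LR.jm w (tau (xc n p p) c x)) (m : M) (v v' : E n) :
    Gm Q m v v' = Gm P (mv p c (fun y => y + w y) m) (Dm (mv p c fun y => y + w y) m v)
      (Dm (mv p c fun y => y + w y) m v') := by
  by_cases hm : m ∈ (xc n p).symm '' Metric.ball (xc n p p) R
  · obtain ⟨y, hy, rfl⟩ := hm
    have hycb := Metric.ball_subset_closedBall hy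
    have hyt : y ∈ tg n p := (hR.2 hycb).1
    have hs : (xc n p).symm y ∈ (xc n p).source := (xc n p).map_target hyt
    have hmv : mv p c (fun y => y + w y) ((xc n p).symm y) =
        (xc n p).symm (tch (xc n p p) c (fun y => y + w y) y) := by
      rw [mv_src hs, (xc n p).right_inv hyt]
    have htc := tch_on hR.1 hc (lc_w D) hy
    have hs' : mv p c (fun y => y + w y) ((xc n p).symm y) ∈ (xc n p).source := by
      rw [hmv]
      exact (xc n p).map_target (hR.2 (Metric.ball_subset_closedBall htc)).1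
    obtain ⟨h1, h2⟩ := EYM.cChart n M univ (mv p c fun y => y + w y) isOpen_univ
      (mv_smooth hR hc (lc_w D)).contMDiffOn p p ((xc n p).symm y) (mem_univ _) hs hs'
    have hJ := mv_jac hR hc D (m := (xc n p).symm y) (mem_image_of_mem _ hycb)
    rw [(xc n p).right_inv hyt] at hJ
    rw [(xc n p).right_inv hyt, hJ] at h1
    obtain ⟨a, ha⟩ := h2 v
    obtain ⟨b, hb⟩ := h2 v'
    set m := (xc n p).symm y with hmdef
    set J := LR.jm w (tau (xc n p p) c y) with hJdef
    have hD : ∀ a : Fin n → ℝ, Dm (mv p c fun y => y + w y) m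
        (∑ j, a j • cV p m j) =
        ∑ k, (J *ᵥ a) k • cV p (mv p c (fun y => y + w y) m) k := by
      intro a
      rw [map_sum]
      have e1 : ∀ j : Fin n, Dm (mv p c fun y => y + w y) m (a j • cV p m j) =
          ∑ k, (a j * J k j) • cV p (mv p c (fun y => y + w y) m) k := by
        intro j
        rw [map_smul]
        have e2 : Dm (mv p c fun y => y + w y) m (cV p m j) =
          ∑ k, J k j • cV p (mv p c (fun y => y + w y) m) k := h1 j
        rw [e2, Finset.smul_sum]
        exact Finset.sum_congr rfl fun k _ => by rw [smul_smul]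
      simp only [e1]
      rw [Finset.sum_comm]
      refine Finset.sum_congr rfl fun k _ => ?_
      rw [← Finset.sum_smul]
      congr 1
      unfold Matrix.mulVec dotProduct
      exact Finset.sum_congr rfl fun j _ => mul_comm _ _
    have ha' : v = ∑ j, a j • cV p m j := ha
    have hb' : v' = ∑ j, b j • cV p m j := hb
    rw [ha', hb', hD a, hD b]
    have e3 : Gm Q m (∑ j, a j • cV p m j)
        (∑ j, b j • cV p m j) = ∑ l, (∑ k, a k * gram Q.g p m k l) * b l :=
      cTensor_expand Q p m a b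
    have e4 : Gm P (mv p c (fun y => y + w y) m)
        (∑ j, (J *ᵥ a) j • cV p (mv p c (fun y => y + w y) m) j)
        (∑ j, (J *ᵥ b) j • cV p (mv p c (fun y => y + w y) m) j) =
        ∑ l, (∑ k, (J *ᵥ a) k * gram P.g p (mv p c (fun y => y + w y) m) k l) * (J *ᵥ b) l :=
      cTensor_expand P p (mv p c (fun y => y + w y) m) (J *ᵥ a) (J *ᵥ b)
    rw [e3, e4]
    have e5 : gram P.g p (mv p c (fun y => y + w y) m) = 1 := by
      rw [hmv]
      exact hP _ htc
    have e6 : gram Q.g p m = Jᵀ * J := hQ y hy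
    rw [e5, e6]
    have e7 : ∀ (G : Matrix (Fin n) (Fin n) ℝ) (a b : Fin n → ℝ),
        ∑ l, (∑ k, a k * G k l) * b l = a ⬝ᵥ (G *ᵥ b) := by
      intro G a b
      rw [Matrix.dotProduct_mulVec]
      rfl
    rw [e7, e7, Matrix.one_mulVec, ← Matrix.mulVec_mulVec, Matrix.dotProduct_mulVec,
      Matrix.vecMul_transpose]
  · rw [mv_off_D hR hc D hm, mv_off_D hR hc D hm, mv_off hR hc (lc_w D) hm, hg m hm]

/-- The connection form as a family of linear forms on `ℝ^n`. -/
def Am (P : One n N M) (m : M) : E n →L[ℝ] EndF N := P.A.form m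

theorem mv_con {P : One n N M} {p : M} {R c : ℝ} (hR : IsCB n p R) (hc : c = 4 * R)
    {w K : (Fin n → ℝ) → Fin n → ℝ} (D : LR.Dif (bO n) w K)
    (hA : ∀ x ∈ Metric.ball (xc n p p) R, Am P ((xc n p).symm x) = 0) (m : M) (v : E n) :
    Am P m v = Am P (mv p c (fun y => y + w y) m) (Dm (mv p c fun y => y + w y) m v) := by
  by_cases hm : m ∈ (xc n p).symm '' Metric.ball (xc n p p) R
  · obtain ⟨y, hy, rfl⟩ := hm
    have hyt : y ∈ tg n p := (hR.2 (Metric.ball_subset_closedBall hy)).1
    have hs : (xc n p).symm y ∈ (xc n p).source := (xc n p).map_target hyt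
    rw [mv_src hs, (xc n p).right_inv hyt, hA y hy, hA _ (tch_on hR.1 hc (lc_w D) hy)]
    rfl
  · rw [mv_off_D hR hc D hm, mv_off hR hc (lc_w D) hm]

/-- The diffeomorphism of `M`. -/
def mvD {p : M} {R c : ℝ} (hR : IsCB n p R) (hc : c = 4 * R)
    {w K : (Fin n → ℝ) → Fin n → ℝ} (D : LR.Dif (bO n) w K) :
    Diffeomorph (𝓡∂ n) (𝓡∂ n) M M ∞ where
  toFun := mv p c fun y => y + w y
  invFun := mv p c K
  left_inv := mv_inv hR hc (lc_w D) D.l
  right_inv := mv_inv hR hc (lc_K D) D.r
  contMDiff_toFun := mv_smooth hR hc (lc_w D)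
  contMDiff_invFun := mv_smooth hR hc (lc_K D)

end

end Vale.Agent.P088.H207

end
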