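import Vale.Agent.P088.H207.H6
import Vale.Agent.P088.H207.G6

/-!
# P088: the conclusion of Question 1 from a diffeomorphism of the cube, elementary form
-/

set_option linter.all false

open Bundle Manifold MeasureTheory Set Filter Topology
open scoped ContDiff Matrix ENNReal

noncomputable section

namespace Vale.Agent.P088.H207

open Vale.Agent.P088 Vale.Agent.P088.B Vale.Agent.P088.EYM Vale.Agent.P088.EYM.O

universe u

section

variable {n N : ℕ} [NeZero n] {M : Type u} [TopologicalSpace M]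
  [ChartedSpace (EuclideanHalfSpace n) M] [IsManifold (𝓡∂ n) ∞ M] [T2Space M]

/-- Composition of a transform with a further diffeomorphism. -/
theorem related_comp {Γ : Set M} {P P' P'' : Pair (at_ n M) N} (hR : Related Γ P P')
    (F : Diffeomorph (𝓡∂ n) (𝓡∂ n) M M ∞) (hF : ∀ x ∈ Γ, F x = x)
    (hmet : letI := borel M; ∀ (m : M) (v v' : E n), Gm (B2.one P'') m v v' =
      Gm (B2.one P') (F m) (Dm F m v) (Dm F m v'))
    (hcon : letI := borel M; ∀ (m : M) (v : E n), Am (B2.one P'') m v =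
      Am (B2.one P') (F m) (Dm F m v)) : Related Γ P P'' := by
  obtain ⟨Φ, Ψ, U, h1, h2, h3, h4, h5, h6, h7⟩ := hR
  have hrel : B2.Rel₂ Γ id P P' Φ Ψ U :=
    ⟨h1, h2, fun x => (h3 x).1, fun x => (h3 x).2, h4, h5, h6, h7⟩
  letI := borel M
  obtain ⟨G, hG, -, hgeo⟩ := B2.toGeo (Γ₁ := Γ) (χ := id) hrel
  obtain ⟨hU, hbd, hm1, hc1⟩ := hgeo
  set V : M → EndF N := fun x => S.toE (U x) with hV
  have hdF : ∀ x, MDifferentiableAt (𝓡∂ n) (𝓡∂ n) F x := fun x =>
    F.contMDiff.mdifferentiableAt (by simp)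
  have hdG : ∀ x, MDifferentiableAt (𝓡∂ n) (𝓡∂ n) G x := fun x =>
    G.contMDiff.mdifferentiableAt (by simp)
  have hchain : ∀ x (v : E n), Dm (F.trans G) x v = Dm G (F x) (Dm F x v) := by
    intro x v
    have e1 : mfderiv (𝓡∂ n) (𝓡∂ n) (G ∘ F) x =
        (mfderiv (𝓡∂ n) (𝓡∂ n) G (F x)).comp (mfderiv (𝓡∂ n) (𝓡∂ n) F x) :=
      mfderiv_comp x (hdG (F x)) (hdF x)
    have e2 : (⇑(F.trans G) : M → M) = G ∘ F := rfl
    unfold Dm
    rw [e2, e1]
    rfl
  have hm2 : ∀ (x : M) (v w : E n), Gm (B2.one P'') x v w =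
      Gm (B2.one P) (G (F x)) (Dm (F.trans G) x v) (Dm (F.trans G) x w) := by
    intro x v w
    rw [hchain, hchain, hmet]
    exact hm1 (F x) _ _
  have hdV : ∀ (x : M) (v : E n), (dmap (𝓡∂ n) (fun x => V (F x)) x v : EndF N) =
      dmap (𝓡∂ n) V (F x) (Dm F x v) := by
    intro x v
    have e4 : mfderiv (𝓡∂ n) 𝓘(ℝ, EndF N) (V ∘ F) x =
        (mfderiv (𝓡∂ n) 𝓘(ℝ, EndF N) V (F x)).comp (mfderiv (𝓡∂ n) (𝓡∂ n) F x) :=
      mfderiv_comp x (hU.smooth.mdifferentiableAt (by simp)) (hdF x)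
    unfold dmap
    show mfderiv (𝓡∂ n) 𝓘(ℝ, EndF N) (V ∘ F) x v = _
    rw [e4]
    rfl
  have hc2 : ∀ (x : M) (v : E n), Am (B2.one P'') x v =
      ContinuousLinearMap.adjoint (V (F x)) ∘L (Am (B2.one P) (G (F x))
        (Dm (F.trans G) x v)) ∘L (V (F x)) +
      ContinuousLinearMap.adjoint (V (F x)) ∘L (dmap (𝓡∂ n) (fun x => V (F x)) x v) := by
    intro x v
    rw [hchain, hcon, hdV]
    exact hc1 (F x) _
  refine related_conv (S.bridge_related EYM.cChart ⟨F.trans G, fun x => V (F x), ?_, ?_, ?_, ?_⟩)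
  · exact ⟨hU.smooth.comp F.contMDiff, fun x => hU.unitary (F x)⟩
  · intro x hx
    have e1 := hbd x hx
    constructor
    · show G (F x) = x
      rw [hF x hx]
      exact e1.1
    · show V (F x) = 1
      rw [hF x hx]
      exact e1.2
  · intro x v w
    exact hm2 x v w
  · intro x v
    exact hc2 x v

variable [CompactSpace M] [ConnectedSpace M]

/-- The pair with the metric of `Q` and the connection of `P`. -/
def mix (P Q : Pair (at_ n M) N) : Pair (at_ n M) N :=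
  ⟨Q.g, P.A, fun x => ⟨(Q.pos x).1, (P.pos x).2⟩,
    fun p i j => ⟨(Q.smo p i j).1, (P.smo p i j).2⟩, Q.vol, Q.isVol⟩

theorem mix_met {P' Q : Pair (at_ n M) N} {p : M} {R c : ℝ} (hR : IsCB n p R) (hc : c = 4 * R)
    {w K : (Fin n → ℝ) → Fin n → ℝ} (D : LR.Dif (bO n) w K)
    (hP : ∀ y ∈ Metric.ball (xc n p p) R, gl P' p y = 1)
    (hoff : ∀ m, m ∉ (xc n p).symm '' Metric.ball (xc n p p) R → Q.g m = P'.g m)
    (hQ : ∀ y ∈ Metric.ball (xc n p p) R, gl Q p y =
      (LR.jm w (tau (xc n p p) c y))ᵀ * LR.jm w (tau (xc n p p) c y)) :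
    letI := borel M
    ∀ (m : M) (v v' : E n), Gm (B2.one Q) m v v' =
      Gm (B2.one P') (mvD hR hc D m) (Dm (mvD hR hc D) m v) (Dm (mvD hR hc D) m v') := by
  letI := borel M
  intro m v v'
  have h1 : ∀ m, m ∉ (xc n p).symm '' Metric.ball (xc n p p) R →
      Gm (B2.one Q) m = Gm (B2.one P') m := by
    intro m hm
    show S.bil (Q.g m) = S.bil (P'.g m)
    rw [hoff m hm]
  exact mv_met (P := B2.one P') (Q := B2.one Q) hR hc D hP h1 hQ m v v'

theorem mix_con {P' : Pair (at_ n M) N} {p : M} {R c : ℝ} (hR : IsCB n p R) (hc : c = 4 * R)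
    {w K : (Fin n → ℝ) → Fin n → ℝ} (D : LR.Dif (bO n) w K)
    (hAP : ∀ y ∈ Metric.ball (xc n p p) R, P'.A ((xc n p).symm y) = 0) :
    letI := borel M
    ∀ (m : M) (v : E n), Am (B2.one P') m v =
      Am (B2.one P') (mvD hR hc D m) (Dm (mvD hR hc D) m v) := by
  letI := borel M
  intro m v
  have h1 : ∀ x ∈ Metric.ball (xc n p p) R, Am (B2.one P') ((xc n p).symm x) = 0 := by
    intro x hx
    show S.formOf (P'.A ((xc n p).symm x)) = 0
    rw [hAP x hx]
    exact formOf_zero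
  exact mv_con (P := B2.one P') hR hc D h1 m v

theorem mix_g (P Q : Pair (at_ n M) N) (m : M) :
    letI := borel M
    Gm (B2.one (mix P Q)) m = Gm (B2.one Q) m := by
  letI := borel M
  show S.bil ((mix P Q).g m) = S.bil (Q.g m)
  rfl

theorem mix_A (P Q : Pair (at_ n M) N) (m : M) :
    letI := borel M
    Am (B2.one (mix P Q)) m = Am (B2.one P) m := by
  letI := borel M
  show S.formOf ((mix P Q).A m) = S.formOf (P.A m)
  rfl

/-- The conclusion of Question 1. -/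
theorem related_mv {Γ : Set M} {P P' Q : Pair (at_ n M) N} (hR₀ : Related Γ P P')
    {p : M} {R c : ℝ} (hR : IsCB n p R) (hc : c = 4 * R)
    {w K : (Fin n → ℝ) → Fin n → ℝ} (D : LR.Dif (bO n) w K)
    (hΓ : ∀ x ∈ Γ, x ∉ (xc n p).symm '' Metric.ball (xc n p p) R)
    (hP : ∀ y ∈ Metric.ball (xc n p p) R, gl P' p y = 1)
    (hAP : ∀ y ∈ Metric.ball (xc n p p) R, P'.A ((xc n p).symm y) = 0)
    (hoff : ∀ m, m ∉ (xc n p).symm '' Metric.ball (xc n p p) R → Q.g m = P'.g m)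
    (hQ : ∀ y ∈ Metric.ball (xc n p p) R, gl Q p y =
      (LR.jm w (tau (xc n p p) c y))ᵀ * LR.jm w (tau (xc n p p) c y))
    (hG : Vale.Agent.P088.B.GaugeEq Γ P'.A Q.A (at_ n M)) : Related Γ P Q := by
  have h1 : Related Γ P (mix P' Q) := by
    refine related_comp hR₀ (mvD hR hc D) (fun x hx => ?_) ?_ ?_
    · exact mv_off hR hc (lc_w D) (hΓ x hx)
    · intro m v v'
      rw [mix_g]
      exact mix_met hR hc D hP hoff hQ m v v'
    · intro m v
      rw [mix_A]
      exact mix_con hR hc D hAP m v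
  exact related_gauge h1 hG rfl

end

end Vale.Agent.P088.H207

end
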