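import Vale.Agent.P088.H207.St
import Mathlib.Analysis.Calculus.ContDiff.FTaylorSeries

/-!
# P088: near the flat metric, definitions, part 2
-/

open Set
open scoped Matrix

noncomputable section

namespace Vale.Agent.P088.H207

open Vale.Agent.P088.B

universe u

variable {n N : ℕ} [NeZero n] {M : Type u} {Z : At n M}

/-- In the chart at `p`, on the ball of radius `R`: the derivatives of `g_{ij} - δ_{ij}` of order
at most `k` are at most `ε`. -/
def Close (k : ℕ) (ε : ℝ) (Q : Pair Z N) (p : M) (R : ℝ) : Prop :=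
  ∀ x ∈ oball Z p R, ∀ i j, ∀ l ≤ k, ‖iteratedFDeriv ℝ l (fun y : V n =>
    gch Z Q.g p y i j - (1 : Matrix (Fin n) (Fin n) ℝ) i j) (Z.ch p x)‖ ≤ ε

end Vale.Agent.P088.H207

end
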