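import Vale.Agent.P088.H207.H4
import Vale.Agent.P088.H207.H7
import Vale.Agent.P088.H207.St2
import Vale.Agent.P088.H833.TopS
import Vale.Agent.P088.H393.Est
import Vale.Agent.P088.H53.Gauge
import Vale.Agent.P088.H925.Scale
import Vale.Agent.P088.H634.Dif
import Vale.Agent.P088.H884.Iso

/-!
# P088: the metric of a pair in the cube
-/

set_option linter.all false

open Bundle Manifold MeasureTheory Set Filter Topology
open scoped ContDiff Matrix ENNReal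

noncomputable section

namespace Vale.Agent.P088.H207

open Vale.Agent.P088 Vale.Agent.P088.B Vale.Agent.P088.EYM

universe u

/-- Local rigidity from the orthogonality relation. -/
theorem rigid (n : ℕ) (hn : 3 ≤ n) : ∃ (k : ℕ) (ε : ℝ), 0 < ε ∧ ∀ (Ω : Set (LR.V n)), IsOpen Ω →
    interior (closure Ω) = Ω → Ω ⊆ LR.core n → ∀ g : LR.MF n, LR.SmM g → (∀ x, (g x).PosDef) →
    (∀ x ∉ Ω, g x = 1) →
    (∀ i j, LR.Cl k ε (fun x => g x i j - (1 : Matrix (Fin n) (Fin n) ℝ) i j)) →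
    LR.Star Ω (LR.sg g) → ∃ w K, LR.Dif Ω w K ∧ ∀ x, g x = (LR.jm w x)ᵀ * LR.jm w x :=
  H833.rigid LR.H72.norm0 LR.H72.norm1 H776.rowA3 LR.G.gauge_row H634.rowDIF LR.H158.rowPUSH
    LR.H393.core H884.iso n hn

section

variable {n : ℕ}

/-- Extension of a matrix field by `1` off a ball. -/
def ext1 (y₀ : Fin n → ℝ) (R : ℝ) (f : LR.MF n) : LR.MF n := fun y =>
  haveI := Classical.dec (∑ i, (y i - y₀ i) ^ 2 < R ^ 2)
  if ∑ i, (y i - y₀ i) ^ 2 < R ^ 2 then f y else 1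

variable {y₀ : Fin n → ℝ} {R ρ : ℝ} {f : LR.MF n}

theorem ext1_in {y : Fin n → ℝ} (hy : ∑ i, (y i - y₀ i) ^ 2 < R ^ 2) : ext1 y₀ R f y = f y :=
  if_pos hy

theorem ext1_out {y : Fin n → ℝ} (hy : ¬ ∑ i, (y i - y₀ i) ^ 2 < R ^ 2) : ext1 y₀ R f y = 1 :=
  if_neg hy

theorem isOpen_in : IsOpen {y : Fin n → ℝ | ∑ i, (y i - y₀ i) ^ 2 < R ^ 2} :=
  isOpen_lt (by fun_prop) continuous_const

theorem isOpen_out : IsOpen {y : Fin n → ℝ | ρ ^ 2 < ∑ i, (y i - y₀ i) ^ 2} :=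
  isOpen_lt continuous_const (by fun_prop)

theorem ext1_one (h1 : ∀ y, ∑ i, (y i - y₀ i) ^ 2 < R ^ 2 → ρ ^ 2 < ∑ i, (y i - y₀ i) ^ 2 →
    f y = 1) {y : Fin n → ℝ} (hy : ρ ^ 2 < ∑ i, (y i - y₀ i) ^ 2) : ext1 y₀ R f y = 1 := by
  by_cases h : ∑ i, (y i - y₀ i) ^ 2 < R ^ 2
  · rw [ext1_in h, h1 y h hy]
  · exact ext1_out h

theorem ext1_sm (h0 : ρ ^ 2 < R ^ 2) (hf : ∀ i j, ContDiffOn ℝ ∞ (fun y => f y i j)
      {y : Fin n → ℝ | ∑ i, (y i - y₀ i) ^ 2 < R ^ 2})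
    (h1 : ∀ y, ∑ i, (y i - y₀ i) ^ 2 < R ^ 2 → ρ ^ 2 < ∑ i, (y i - y₀ i) ^ 2 → f y = 1) :
    LR.SmM (ext1 y₀ R f) := by
  intro i j
  rw [contDiff_iff_contDiffAt]
  intro y
  by_cases hy : ∑ i, (y i - y₀ i) ^ 2 < R ^ 2
  · have e1 : (fun y => ext1 y₀ R f y i j) =ᶠ[𝓝 y] fun y => f y i j := by
      filter_upwards [isOpen_in.mem_nhds hy] with x hx
      rw [ext1_in hx]
    exact ((hf i j).contDiffAt (isOpen_in.mem_nhds hy)).congr_of_eventuallyEq e1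
  · have e1 : (fun y => ext1 y₀ R f y i j) =ᶠ[𝓝 y] fun _ => (1 : Matrix _ _ ℝ) i j := by
      filter_upwards [isOpen_out.mem_nhds (show y ∈ {y : Fin n → ℝ | ρ ^ 2 <
        ∑ i, (y i - y₀ i) ^ 2} from lt_of_lt_of_le h0 (not_lt.1 hy))] with x hx
      rw [ext1_one h1 hx]
    exact contDiffAt_const.congr_of_eventuallyEq e1

theorem ext1_cl (h0 : ρ ^ 2 < R ^ 2)
    (h1 : ∀ y, ∑ i, (y i - y₀ i) ^ 2 < R ^ 2 → ρ ^ 2 < ∑ i, (y i - y₀ i) ^ 2 → f y = 1)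
    {k : ℕ} {ε : ℝ} (hε : 0 ≤ ε) (i j : Fin n)
    (h2 : ∀ y, ∑ i, (y i - y₀ i) ^ 2 < R ^ 2 → ∀ l ≤ k, ‖iteratedFDeriv ℝ l
      (fun y => f y i j - (1 : Matrix (Fin n) (Fin n) ℝ) i j) y‖ ≤ ε) :
    LR.Cl k ε (fun y => ext1 y₀ R f y i j - (1 : Matrix (Fin n) (Fin n) ℝ) i j) := by
  intro l hl y
  by_cases hy : ∑ i, (y i - y₀ i) ^ 2 < R ^ 2
  · have e1 : (fun y => ext1 y₀ R f y i j - (1 : Matrix (Fin n) (Fin n) ℝ) i j) =ᶠ[𝓝 y]
        fun y => f y i j - (1 : Matrix (Fin n) (Fin n) ℝ) i j := by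
      filter_upwards [isOpen_in.mem_nhds hy] with x hx
      rw [ext1_in hx]
    rw [(e1.iteratedFDeriv ℝ l).self_of_nhds]
    exact h2 y hy l hl
  · have e1 : (fun y => ext1 y₀ R f y i j - (1 : Matrix (Fin n) (Fin n) ℝ) i j) =ᶠ[𝓝 y]
        fun _ => (0 : ℝ) := by
      filter_upwards [isOpen_out.mem_nhds (show y ∈ {y : Fin n → ℝ | ρ ^ 2 <
        ∑ i, (y i - y₀ i) ^ 2} from lt_of_lt_of_le h0 (not_lt.1 hy))] with x hx
      rw [ext1_one h1 hx, sub_self]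
    rw [(e1.iteratedFDeriv ℝ l).self_of_nhds]
    have e2 : iteratedFDeriv ℝ l (fun _ : Fin n → ℝ => (0 : ℝ)) y = 0 := by
      rw [iteratedFDeriv_zero_fun]
      rfl
    rw [e2, norm_zero]
    exact hε

/-- The matrix field in the coordinates of the cube. -/
def toC (y₀ : Fin n → ℝ) (c : ℝ) (G : LR.MF n) : LR.MF n := fun y =>
  G (LR.H925.ps c y + y₀)

theorem toC_sm {c : ℝ} {G : LR.MF n} (hG : LR.SmM G) : LR.SmM (toC y₀ c G) := fun i j =>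
  (hG i j).comp ((LR.H925.contDiff_ps c).add contDiff_const)

theorem toC_cl {c : ℝ} (hc : 0 < c) {G : LR.MF n} (hG : LR.SmM G) {k : ℕ} {ε : ℝ} (i j : Fin n)
    (h : LR.Cl k ε (fun y => G y i j - (1 : Matrix (Fin n) (Fin n) ℝ) i j)) :
    LR.Cl k (max 1 c ^ k * ε)
      (fun y => toC y₀ c G y i j - (1 : Matrix (Fin n) (Fin n) ℝ) i j) := by
  have h1 : LR.Cl k ε (fun y => G (y + y₀) i j - (1 : Matrix (Fin n) (Fin n) ℝ) i j) := by
    intro l hl y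
    have := iteratedFDeriv_comp_add_right (𝕜 := ℝ)
      (f := fun y => G y i j - (1 : Matrix (Fin n) (Fin n) ℝ) i j) l y₀ y
    rw [this]
    exact h l hl (y + y₀)
  exact LR.H925.cl_ps (f := fun y => G (y + y₀) i j - (1 : Matrix (Fin n) (Fin n) ℝ) i j)
    (((hG i j).comp (contDiff_id.add contDiff_const)).sub contDiff_const) hc h1

end

end Vale.Agent.P088.H207

end
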