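import Vale.Agent.P088.H207.H8

/-!
# P088: rigidity of a flat ball, the elementary statement
-/

set_option linter.all false

open Bundle Manifold MeasureTheory Set Filter Topology
open scoped ContDiff Matrix ENNReal

noncomputable section

namespace Vale.Agent.P088.H207

open Vale.Agent.P088 Vale.Agent.P088.B Vale.Agent.P088.EYM

universe u

theorem ps_tau {n : ℕ} (z : E n) {c : ℝ} (hc : c ≠ 0) (x : E n) :
    LR.H925.ps c (tau z c x) + WithLp.ofLp z = WithLp.ofLp x := by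
  funext j
  show c * ((1 / 2 + c⁻¹ * (x j - z j)) - 1 / 2) + z j = x j
  field_simp
  ring

theorem ps_bO {n : ℕ} {y₀ : Fin n → ℝ} {c R : ℝ} (hR : 0 < R) (hc : c = 4 * R)
    {y : Fin n → ℝ} (hy : y ∉ bO n) :
    ¬ ∑ i, ((LR.H925.ps c y + y₀) i - y₀ i) ^ 2 < R ^ 2 := by
  have h1 : ∑ i, ((LR.H925.ps c y + y₀) i - y₀ i) ^ 2 = c ^ 2 * ∑ i, (y i - 1 / 2) ^ 2 := by
    rw [Finset.mul_sum]
    refine Finset.sum_congr rfl fun i _ => ?_
    show (c * (y i - 1 / 2) + y₀ i - y₀ i) ^ 2 = _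
    ring
  have h2 : (1 / 4 : ℝ) ^ 2 ≤ ∑ i, (y i - 1 / 2) ^ 2 := not_lt.1 hy
  rw [h1, not_lt, hc]
  nlinarith [sq_nonneg R, mul_le_mul_of_nonneg_left h2 (by positivity : (0 : ℝ) ≤ (4 * R) ^ 2)]

/-- Rigidity of a flat ball. -/
theorem flat_ball {n : ℕ} [NeZero n] (hn : 3 ≤ n) : ∃ k : ℕ, ∀ R : ℝ, 0 < R → ∃ ε : ℝ, 0 < ε ∧
    ∀ {N : ℕ} (_ : 1 ≤ N) {M : Type u} [TopologicalSpace M]
    [ChartedSpace (EuclideanHalfSpace n) M] [IsManifold (𝓡∂ n) ∞ M] [T2Space M] [CompactSpace M]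
    [ConnectedSpace M] (Z : At n M) (_ : Z = at_ n M) (Γ O₀ : Set M) (_ : IsOpen O₀)
    (_ : Γ = O₀ ∩ bd Z) (_ : Γ.Nonempty) (P P' Q : Pair Z N) (_ : Vale.Agent.P088.B.SameData Γ P Q)
    (_ : Related Γ P P') (p : M) (_ : IsBall Z p R) (_ : Flat P' p R) (ρ : ℝ) (_ : 0 < ρ)
    (_ : ρ < R) (_ : B8.PwLe (kball Z p ρ)ᶜ Γ P' Q)
    (_ : ∃ U, B8.GaugeBy U (kball Z p ρ)ᶜ Γ P'.A Q.A Z) (_ : Close k ε Q p R),
    Related Γ P Q := by
  obtain ⟨k, ε₀, hε₀, hrig⟩ := rigid n hn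
  refine ⟨k, fun R hR0 => ⟨ε₀ / max 1 (4 * R) ^ k, by positivity, ?_⟩⟩
  intro N hN M _ _ _ _ _ _ Z hZ Γ O₀ hO₀ hΓ hne P P' Q hd hR p hp hflat ρ hρ hρR hpw hU hcl
  have hd' : Vale.Agent.P088.B.SameData Γ P' Q := Vale.Agent.P088.B.same_related Z hZ hO₀ hΓ hne hR hd
  subst hZ
  obtain ⟨U, hU⟩ := hU
  letI := borel M
  haveI : BorelSpace M := ⟨rfl⟩
  obtain ⟨hrel, hok, -, -⟩ := TM.fLoc n N M
  have hCB : IsCB n p R := isCB_of hp
  have hK : kball (at_ n M) p ρ = cb n p ρ := kball_at hCB hρ.le hρR.le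
  have hV : oball (at_ n M) p R = (xc n p).symm '' Metric.ball (xc n p p) R := oball_at hCB
  obtain ⟨hOo, hOp, hObd⟩ := compl_cb (M := M) (n := n) (by omega) hCB hρ hρR
  have hb : bd (at_ n M) = (𝓡∂ n).boundary M := bd_at
  set z : E n := xc n p p with hz
  have hbt : Metric.ball z R ⊆ tg n p :=
    Metric.ball_subset_closedBall.trans (hCB.2.trans inter_subset_left)
  have hpos : Metric.ball z R ⊆ {y | 0 < y 0} :=
    Metric.ball_subset_closedBall.trans (hCB.2.trans inter_subset_right)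
  have hmem : ∀ y ∈ Metric.ball z R, (xc n p).symm y ∈ oball (at_ n M) p R := fun y hy => by
    rw [hV]
    exact mem_image_of_mem _ hy
  have hchy : ∀ y ∈ Metric.ball z R, (at_ n M).ch p ((xc n p).symm y) = WithLp.ofLp y :=
    fun y hy => by rw [ch_at, (xc n p).right_inv (hbt hy)]
  -- the hole
  have hole : B8.Hole U (kball (at_ n M) p ρ) (oball (at_ n M) p R) Γ P' Q := by
    refine ⟨?_, ?_, ?_, ?_, ?_, hpw, hU⟩
    · rw [hK]
      exact isOpen_compl_iff.1 hOo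
    · rw [hK, hb, eq_empty_iff_forall_notMem]
      rintro x ⟨h1, h2⟩
      exact hObd x h2 h1
    · rw [hK]
      exact hOp
    · rw [hV]
      exact cRungeB_B_open TM.fLoc hCB
    · rw [hK, hV]
      exact image_mono (Metric.closedBall_subset_ball hρR)
  obtain ⟨h1, -, h2⟩ := B8.hole' hn hN (at_ n M) rfl Γ O₀ hO₀ hΓ hne P' Q hd' U _ _ hole
  obtain ⟨V, hV1, -⟩ := h2 ⟨fun _ => 1, fun a b => contMDiffOn_const, fun x hx => ⟨by simp, fun j => by
    have e1 : dM (fun y : Vale.Agent.P088.B.V n => (1 : Matrix (Fin N) (Fin N) ℂ))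
        ((at_ n M).ch x x) j = 0 := by
      ext a b
      unfold dM dj
      simp
    rw [e1, (hflat x hx).2, Matrix.mul_zero]
    rfl⟩⟩
  -- the second pair with the first connection
  have hgeq : Vale.Agent.P088.B.GaugeEq Γ P'.A Q.A (at_ n M) :=
    ⟨V, hV1.1, hV1.2.1, hV1.2.2.1, fun x j => hV1.2.2.2 x (mem_univ x) j⟩
  obtain ⟨W, hW, hW1, hW2⟩ := Vale.Agent.P088.B.toGauge hgeq
  have hS : EYM.SameD (B2.one P') (EYM.O.wA (B2.one Q) (B2.one P').A) Γ :=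
    (EYM.O.mg_closed n N M (EYM.O.wA (B2.one Q) (B2.one P').A) (B2.one P') Γ
      (B2.one Q).A W hW hW1 hW2).2.2 (Vale.Agent.P088.B.sameD_one hd')
  have hRB : EYM.RelBd n Γ := ⟨O₀, hO₀, by rw [hΓ, hb]⟩
  have hgP : ∀ y ∈ Metric.ball z R, gl P' p y = 1 := by
    intro y hy
    have e1 := (hflat _ (hmem y hy)).1
    rw [hchy y hy, gch_at P' p (hbt hy)] at e1
    exact e1
  have hA0 : ∀ y ∈ Metric.ball z R, P'.A ((xc n p).symm y) = 0 := fun y hy =>
    (hflat _ (hmem y hy)).2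
  have hAP : ∀ y ∈ Metric.ball z R, ∀ i, ((B2.one P').loc p).B i y = 0 := by
    intro y hy i
    show S.formOf (P'.A ((xc n p).symm y)) _ = 0
    rw [hA0 y hy]
    show (S.formOf (0 : Fin n → Matrix (Fin N) (Fin N) ℂ)) _ = 0
    rw [formOf_zero]
    rfl
  have hokQ : ((EYM.O.wA (B2.one Q) (B2.one P').A).loc p).Ok (Metric.ball z R) :=
    CHarm_ok_mono (hok _ p) hbt
  -- the metric in the cube
  obtain ⟨c, hc⟩ : ∃ c : ℝ, c = 4 * R := ⟨_, rfl⟩
  have hc0 : 0 < c := by rw [hc]; positivity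
  have hsq : ρ ^ 2 < R ^ 2 := pow_lt_pow_left₀ hρR hρ.le two_ne_zero
  have hnrm : ∀ y : Fin n → ℝ, ∑ i, (y i - (WithLp.ofLp z) i) ^ 2 =
      ‖(WithLp.toLp 2 y : E n) - z‖ ^ 2 := by
    intro y
    rw [EuclideanSpace.real_norm_sq_eq]
    rfl
  have hin : ∀ y : Fin n → ℝ, ∑ i, (y i - (WithLp.ofLp z) i) ^ 2 < R ^ 2 →
      (WithLp.toLp 2 y : E n) ∈ Metric.ball z R := by
    intro y hy
    rw [hnrm] at hy
    rw [mem_ball_iff_norm]
    exact (pow_lt_pow_iff_left₀ (norm_nonneg _) hR0.le two_ne_zero).1 hy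
  set f : LR.MF n := gch (at_ n M) Q.g p with hf
  have hfgl : ∀ x ∈ Metric.ball z R, f (WithLp.ofLp x) = gl Q p x := fun x hx =>
    gch_at Q p (hbt hx)
  have hf1 : ∀ y, ∑ i, (y i - (WithLp.ofLp z) i) ^ 2 < R ^ 2 →
      ρ ^ 2 < ∑ i, (y i - (WithLp.ofLp z) i) ^ 2 → f y = 1 := by
    intro y hy hy'
    have hx := hin y hy
    have hxρ : (WithLp.toLp 2 y : E n) ∉ Metric.closedBall z ρ := by
      intro h
      rw [mem_closedBall_iff_norm] at h
      rw [hnrm] at hy'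
      exact absurd (pow_le_pow_left₀ (norm_nonneg _) h 2) (not_le.2 hy')
    have h5 : (xc n p).symm (WithLp.toLp 2 y : E n) ∉ cb n p ρ := by
      rintro ⟨x', hx', he⟩
      have h6 : x' = WithLp.toLp 2 y := (xc n p).symm.injOn
        ((hCB.2 (Metric.closedBall_subset_closedBall hρR.le hx')).1) (hbt hx) he
      exact hxρ (h6 ▸ hx')
    have e1 : f y = gl Q p (WithLp.toLp 2 y) := hfgl _ hx
    rw [e1, ← hgP _ hx]
    ext i j
    show S.bil (Q.g _) _ _ = S.bil (P'.g _) _ _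
    rw [h1 _ (by rw [hK]; exact h5)]
  have hfs : ∀ i j, ContDiffOn ℝ ∞ (fun y => f y i j)
      {y : Fin n → ℝ | ∑ i, (y i - (WithLp.ofLp z) i) ^ 2 < R ^ 2} := by
    intro i j
    have e1 : ContDiff ℝ ∞ (fun y : Fin n → ℝ => (WithLp.toLp 2 y : E n)) :=
      (EuclideanSpace.equiv (Fin n) ℝ).symm.contDiff
    have e2 : ContDiffOn ℝ ∞ (fun x : E n => gl Q p x i j) (Metric.ball z R) :=
      hokQ.g_smooth i j
    refine (e2.comp e1.contDiffOn fun y hy => hin y hy).congr fun y hy => ?_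
    have e3 : f y = gl Q p (WithLp.toLp 2 y) := hfgl _ (hin y hy)
    rw [e3]
    rfl
  set G : LR.MF n := ext1 (WithLp.ofLp z) R f with hG
  have hGs : LR.SmM G := ext1_sm hsq hfs hf1
  set g : LR.MF n := toC (WithLp.ofLp z) c G with hg
  have hgs : LR.SmM g := toC_sm hGs
  have hGp : ∀ y, (G y).PosDef := by
    intro y
    by_cases hy : ∑ i, (y i - (WithLp.ofLp z) i) ^ 2 < R ^ 2
    · rw [hG, ext1_in hy]
      have e3 : f y = gl Q p (WithLp.toLp 2 y) := hfgl _ (hin y hy)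
      rw [e3]
      exact hokQ.g_pos _ (hin y hy)
    · rw [hG, ext1_out hy]
      exact Matrix.PosDef.one
  have hgp : ∀ y, (g y).PosDef := fun y => hGp _
  have hgQ : ∀ x ∈ Metric.ball z R, g (tau z c x) = gl Q p x := by
    intro x hx
    have e1 : g (tau z c x) = G (WithLp.ofLp x) := by
      show G (LR.H925.ps c (tau z c x) + WithLp.ofLp z) = _
      rw [ps_tau z hc0.ne']
    have e2 : ∑ i, ((WithLp.ofLp x) i - (WithLp.ofLp z) i) ^ 2 < R ^ 2 := by
      rw [hnrm]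
      exact pow_lt_pow_left₀ (mem_ball_iff_norm.1 hx) (norm_nonneg _) two_ne_zero
    rw [e1, hG, ext1_in e2, hfgl x hx]
  have hg1 : ∀ y, y ∉ bO n → g y = 1 := fun y hy => ext1_out (ps_bO hR0 hc hy)
  have hgcl : ∀ i j, LR.Cl k ε₀ (fun x => g x i j - (1 : Matrix (Fin n) (Fin n) ℝ) i j) := by
    intro i j
    have e1 : LR.Cl k (ε₀ / max 1 (4 * R) ^ k)
        (fun y => G y i j - (1 : Matrix (Fin n) (Fin n) ℝ) i j) := by
      refine ext1_cl hsq hf1 (by positivity) i j fun y hy l hl => ?_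
      have e2 := hcl _ (hmem _ (hin y hy)) i j l hl
      rw [hchy _ (hin y hy)] at e2
      exact e2
    have e2 := toC_cl (y₀ := WithLp.ofLp z) hc0 hGs i j e1
    rw [← hc] at e2
    rwa [mul_div_cancel₀] at e2
    positivity
  have hstar : LR.Star (bO n) (LR.sg g) :=
    star_one (by omega) (⟨0, by omega⟩ : Fin N) (P := B2.one P')
      (Q := EYM.O.wA (B2.one Q) (B2.one P').A) hRB hne hS hCB hρ hρR
      (fun y hy => ⟨hgP y hy, hAP y hy⟩) (fun y hy i => hAP y hy i) (fun x _ X => rfl)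
      (fun x hx v w => by
        show S.bil (Q.g x) v w = S.bil (P'.g x) v w
        rw [h1 x (by rw [hK]; exact hx)]) hgs hgp (fun x hx => by
        rw [← hc]
        exact hgQ x hx)
  obtain ⟨w, K, D, hwK⟩ := hrig (bO n) bO_open (bO_reg (by omega)) bO_core g hgs hgp hg1 hgcl hstar
  refine related_mv hR hCB hc D ?_ hgP hA0 ?_ ?_ hgeq
  · intro x hx hx'
    rw [hΓ, hb] at hx
    have h3 : x ∈ Mi n M := cRungeB_cb_mi TM.fLoc hCB
      (image_mono Metric.ball_subset_closedBall hx')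
    have h4 := hx.2
    rw [← ModelWithCorners.compl_interior] at h4
    exact h4 h3
  · intro m hm
    refine h1 m ?_
    rw [hK]
    exact fun h => hm (image_mono (Metric.closedBall_subset_ball hρR) h)
  · intro y hy
    rw [← hgQ y hy]
    exact hwK _

end Vale.Agent.P088.H207

end
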