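import Vale.Agent.P088.H207.H2
import Vale.Agent.P088.H833.Top
import Vale.Agent.P088.H442.Defs3

/-!
# P088: two metrics in one chart, coordinates
-/

set_option linter.all false

open Bundle Manifold MeasureTheory Set Filter Topology
open scoped ContDiff Matrix ENNReal

noncomputable section

namespace Vale.Agent.P088.H207.J

open Vale.Agent.P088 Vale.Agent.P088.EYM Vale.Agent.P088.EYM.O Vale.Agent.P088.H207

universe u

section

variable {n N : ℕ}

/-- The open ball of radius `r` about `0`. -/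
def bB (n : ℕ) (r : ℝ) : Set (Fin n → ℝ) := {y | ∑ j, (y j) ^ 2 < r ^ 2}

/-- The coordinates relative to `z`. -/
def tr (z : E n) (x : E n) : Fin n → ℝ := fun j => x j - z j

/-- The inverse of `tr`. -/
def tri (z : E n) (y : Fin n → ℝ) : E n := WithLp.toLp 2 fun j => z j + y j

theorem tr_tri (z : E n) (y : Fin n → ℝ) : tr z (tri z y) = y := by
  funext j
  unfold tr tri
  simp only
  ring

theorem tri_tr (z : E n) (x : E n) : tri z (tr z x) = x := by
  ext j
  unfold tr tri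
  simp only
  ring

theorem tr_sq (z : E n) (x : E n) : ∑ j, (tr z x j) ^ 2 = ‖x - z‖ ^ 2 := by
  rw [EuclideanSpace.real_norm_sq_eq]
  rfl

theorem tr_bB (z : E n) {r : ℝ} (hr : 0 < r) (x : E n) :
    tr z x ∈ bB n r ↔ x ∈ Metric.ball z r := by
  rw [mem_ball_iff_norm]
  show ∑ j, (tr z x j) ^ 2 < r ^ 2 ↔ _
  rw [tr_sq, pow_lt_pow_iff_left₀ (norm_nonneg _) hr.le two_ne_zero]

theorem tri_bB (z : E n) {r : ℝ} (hr : 0 < r) (y : Fin n → ℝ) :
    tri z y ∈ Metric.ball z r ↔ y ∈ bB n r := by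
  rw [← tr_bB z hr, tr_tri]

theorem bB_eq {r : ℝ} (hr : 0 < r) : bB n r = (WithLp.ofLp : E n → Fin n → ℝ) ''
    Metric.ball 0 r := by
  ext y
  constructor
  · intro hy
    refine ⟨WithLp.toLp 2 y, ?_, rfl⟩
    rw [mem_ball_zero_iff]
    refine (pow_lt_pow_iff_left₀ (norm_nonneg _) hr.le two_ne_zero).1 ?_
    rw [EuclideanSpace.real_norm_sq_eq]
    exact hy
  · rintro ⟨x, hx, rfl⟩
    rw [mem_ball_zero_iff] at hx
    have := (pow_lt_pow_iff_left₀ (norm_nonneg _) hr.le two_ne_zero).2 hx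
    rw [EuclideanSpace.real_norm_sq_eq] at this
    exact this

theorem bB_open {r : ℝ} : IsOpen (bB n r) := by
  unfold bB
  refine isOpen_lt ?_ continuous_const
  fun_prop

theorem bB_reg (hn : 0 < n) {r : ℝ} (hr : 0 < r) : interior (closure (bB n r)) = bB n r := by
  haveI : Nontrivial (E n) := by
    haveI : NeZero n := ⟨hn.ne'⟩
    exact ⟨EuclideanSpace.single 0 1, 0, by
      intro h
      have := congrArg (fun v : E n => v 0) h
      simp at this⟩
  have h1 : (WithLp.ofLp : E n → Fin n → ℝ) = (EuclideanSpace.equiv (Fin n) ℝ).toHomeomorph := rfl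
  rw [bB_eq hr, h1, ← Homeomorph.image_closure, ← Homeomorph.image_interior,
    closure_ball _ hr.ne', interior_closedBall _ hr.ne']

theorem bB_box {r : ℝ} (hr : 0 < r) : ∀ y ∈ bB n r, ∀ j, |y j| ≤ r := by
  intro y hy j
  have h1 : (y j) ^ 2 < r ^ 2 :=
    lt_of_le_of_lt (Finset.single_le_sum (f := fun j => (y j) ^ 2)
      (fun _ _ => sq_nonneg _) (Finset.mem_univ j)) hy
  exact (abs_lt_of_sq_lt_sq h1 hr.le).le

end

section

variable {n N : ℕ} [NeZero n]

/-- A function as a section in the chart. -/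
def li (N : ℕ) (z : E n) (a : Fin N) (W : (Fin n → ℝ) → ℂ) (x : E n) : Fib N :=
  W (tr z x) • EuclideanSpace.single a (1 : ℂ)

omit [NeZero n] in
theorem tr_cd (z : E n) : ContDiff ℝ ∞ (tr z) := by
  unfold tr
  fun_prop

omit [NeZero n] in
theorem tri_cd (z : E n) : ContDiff ℝ ∞ (tri z) := by
  have h1 : tri z = fun y => (EuclideanSpace.equiv (Fin n) ℝ).symm
      (fun j => z j + y j) := rfl
  rw [h1]
  refine (EuclideanSpace.equiv (Fin n) ℝ).symm.contDiff.comp ?_
  fun_prop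

omit [NeZero n] in
theorem tr_fd (z : E n) (x : E n) : HasFDerivAt (tr z)
    ((EuclideanSpace.equiv (Fin n) ℝ) : E n →L[ℝ] (Fin n → ℝ)) x := by
  rw [hasFDerivAt_pi']
  intro j
  have h1 : HasFDerivAt (fun x : E n => x j) (EuclideanSpace.proj (𝕜 := ℝ) j : E n →L[ℝ] ℝ) x :=
    (EuclideanSpace.proj (𝕜 := ℝ) j : E n →L[ℝ] ℝ).hasFDerivAt
  exact h1.sub_const (z j)

theorem li_cd {z : E n} {a : Fin N} {W : (Fin n → ℝ) → ℂ} (hW : ContDiff ℝ ∞ W) :
    ContDiff ℝ ∞ (li N z a W) := (hW.comp (tr_cd z)).smul contDiff_const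

theorem li_fd {z : E n} {a : Fin N} {W : (Fin n → ℝ) → ℂ} {x : E n}
    (hW : DifferentiableAt ℝ W (tr z x)) (k : Fin n) :
    fderiv ℝ (li N z a W) x (ev k) = li N z a (fun y => LR.pd k W y) x := by
  have h1 : HasFDerivAt (fun x => W (tr z x)) _ x := hW.hasFDerivAt.comp x (tr_fd z x)
  have h2 : HasFDerivAt (li N z a W) _ x :=
    h1.smul_const (EuclideanSpace.single a (1 : ℂ) : Fib N)
  rw [h2.fderiv]
  unfold li LR.pd
  simp only [ContinuousLinearMap.smulRight_apply, ContinuousLinearMap.comp_apply]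
  rfl

/-- The operator in the coordinates. -/
theorem li_lop {L : LD n N} {D : Set (E n)} (hD : IsOpen D) (hpos : D ⊆ {y | 0 < y 0})
    (hB : ∀ x ∈ D, ∀ i, L.B i x = 0) {z : E n} {s : LR.MF n} (hs : LR.SmM s)
    (hgs : ∀ x ∈ D, ∀ j k, gg L.g j k x = s (tr z x) j k) {a : Fin N}
    {W : (Fin n → ℝ) → ℂ} (hW : ContDiff ℝ ∞ W) {x : E n} (hx : x ∈ D) :
    Lop L (li N z a W) x = li N z a (fun y => LR.dv s W y) x := by
  have hpd : ∀ k, ContDiff ℝ ∞ (LR.pd k W) := fun k =>
    (hW.fderiv_right (m := ∞) (by simp)).clm_apply contDiff_const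
  have hfl : ∀ j, ContDiff ℝ ∞ (fun y => ∑ k, (s y j k : ℂ) * LR.pd k W y) := fun j =>
    ContDiff.sum fun k _ => (Complex.ofRealCLM.contDiff.comp (hs j k)).mul (hpd k)
  rw [lop_nc hD hpos hB _ hx]
  have h1 : ∀ j, (fun y => ∑ k, gg L.g j k y • fderiv ℝ (li N z a W) y (ev k)) =ᶠ[𝓝 x]
      li N z a (fun y => ∑ k, (s y j k : ℂ) * LR.pd k W y) := by
    intro j
    filter_upwards [hD.mem_nhds hx] with y hy
    have e1 : ∀ k, gg L.g j k y • fderiv ℝ (li N z a W) y (ev k) =
        li N z a (fun y => (s y j k : ℂ) * LR.pd k W y) y := by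
      intro k
      rw [li_fd (hW.differentiable (by simp) _), hgs y hy]
      unfold li
      rw [← Complex.coe_smul, smul_smul]
    simp only [e1]
    unfold li
    rw [← Finset.sum_smul]
  have h2 : ∀ j, fderiv ℝ (fun y => ∑ k, gg L.g j k y • fderiv ℝ (li N z a W) y (ev k)) x
      (ev j) = li N z a (fun y =>
        LR.pd j (fun y => ∑ k, (s y j k : ℂ) * LR.pd k W y) y) x := by
    intro j
    rw [(h1 j).fderiv_eq, li_fd ((hfl j).differentiable (by simp) _)]
  simp only [h2]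
  unfold li LR.dv
  rw [← Finset.sum_smul]

/-- change of variables -/
theorem int_tr (z : E n) (f : (Fin n → ℝ) → ℂ) : ∫ x, f (tr z x) = ∫ y, f y := by
  have h1 : ∫ y, f y = ∫ x : E n, f (WithLp.ofLp x) :=
    ((PiLp.volume_preserving_ofLp (Fin n)).integral_comp
      (MeasurableEquiv.toLp 2 (Fin n → ℝ)).symm.measurableEmbedding f).symm
  have h2 : ∀ x : E n, tr z x = WithLp.ofLp (x - z) := fun x => rfl
  simp only [h2]
  rw [h1, integral_sub_right_eq_self (fun x : E n => f (WithLp.ofLp x)) z]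

end

end Vale.Agent.P088.H207.J

end
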