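import Vale.Agent.P088.H207.J5
import Vale.Agent.P088.H207.H6

/-!
# P088: the conclusion of Question 1 from a diffeomorphism of the cube
-/

set_option linter.all false

open Bundle Manifold MeasureTheory Set Filter Topology
open scoped ContDiff Matrix ENNReal

noncomputable section

namespace Vale.Agent.P088.H207.J

open Vale.Agent.P088 Vale.Agent.P088.B Vale.Agent.P088.EYM Vale.Agent.P088.EYM.O
open Vale.Agent.P088.H207 (Dm cV Gm Am)

universe u

section

variable {n N : ℕ} [NeZero n] {M : Type u} [TopologicalSpace M]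
  [ChartedSpace (EuclideanHalfSpace n) M] [IsManifold (𝓡∂ n) ∞ M] [T2Space M]

theorem mv_off_D {p : M} {R : ℝ} (hR : IsCB n p R)
    {w K : (Fin n → ℝ) → Fin n → ℝ} (D : LR.Dif (bB n R) w K) {m : M}
    (hm : m ∉ (xc n p).symm '' Metric.ball (xc n p p) R) (v : E n) :
    Dm (mv p fun y => y + w y) m v = v := by
  have hn : 0 < n := Nat.pos_of_ne_zero (NeZero.ne n)
  by_cases hcb : m ∈ cb n p R
  · obtain ⟨hs, hcb'⟩ := cb_src hR hcb
    have hmm : mv p (fun y => y + w y) m = m := mv_off hR (lc_w D) hm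
    obtain ⟨h1, h2⟩ := EYM.cChart n M univ (mv p fun y => y + w y) isOpen_univ
      (mv_smooth hR (lc_w D)).contMDiffOn p p m (mem_univ _) hs (by rw [hmm]; exact hs)
    have hb : xc n p m ∉ Metric.ball (xc n p p) R := fun h =>
      hm ⟨xc n p m, h, (xc n p).left_inv hs⟩
    have hbO : tr (xc n p p) (xc n p m) ∉ bB n R := fun h => hb ((tr_bB _ hR.1 _).1 h)
    have hJ : Jac (fun y => xc n p (mv p (fun y => y + w y) ((xc n p).symm y))) (xc n p m) =
        1 := by
      rw [mv_jac hR D hcb]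
      ext i j
      unfold LR.jm LR.pd
      rw [LR.H158.fderiv_zero_off (bB_reg hn hR.1) D.sw D.z hbO]
      simp
    obtain ⟨a, ha⟩ := h2 v
    have h3 : ∀ j : Fin n, Dm (mv p fun y => y + w y) m (cV p m j) =
        cV p m j := by
      intro j
      have h4 : Dm (mv p fun y => y + w y) m (cV p m j) = ∑ k,
          Jac (fun y => xc n p (mv p (fun y => y + w y) ((xc n p).symm y))) (xc n p m) k j •
            cV p (mv p (fun y => y + w y) m) k := h1 j
      rw [hJ] at h4
      have h5 : ∀ x : M, x = m → (∑ k, (1 : Matrix (Fin n) (Fin n) ℝ) k j •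
          cV p x k) = cV p m j := by
        rintro x rfl
        simp [Matrix.one_apply]
      exact h4.trans (h5 _ hmm)
    have ha' : v = ∑ j, a j • cV p m j := ha
    rw [ha', map_sum]
    exact Finset.sum_congr rfl fun j _ => by rw [map_smul, h3 j]
  · have h1 := mv_ev hR (lc_w D) hcb
    have h2 : mfderiv (𝓡∂ n) (𝓡∂ n) (mv p fun y => y + w y) m =
        mfderiv (𝓡∂ n) (𝓡∂ n) (id : M → M) m := h1.mfderiv_eq
    unfold Dm
    rw [h2, mfderiv_id]
    rfl

variable [MeasurableSpace M]

/-- The pull back of the metric. -/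
theorem mv_met {P Q : One n N M} {p : M} {R : ℝ} (hR : IsCB n p R)
    {w K : (Fin n → ℝ) → Fin n → ℝ} (D : LR.Dif (bB n R) w K)
    (hg : ∀ m, m ∉ (xc n p).symm '' Metric.ball (xc n p p) R → Gm Q m = Gm P m)
    (hQ : ∀ x ∈ Metric.ball (xc n p p) R, (Q.loc p).g x =
      (LR.jm w (tr (xc n p p) x))ᵀ * (P.loc p).g (tch (xc n p p) (fun y => y + w y) x) *
        LR.jm w (tr (xc n p p) x)) (m : M) (v v' : E n) :
    Gm Q m v v' = Gm P (mv p (fun y => y + w y) m) (Dm (mv p fun y => y + w y) m v)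
      (Dm (mv p fun y => y + w y) m v') := by
  by_cases hm : m ∈ (xc n p).symm '' Metric.ball (xc n p p) R
  · obtain ⟨y, hy, rfl⟩ := hm
    have hycb := Metric.ball_subset_closedBall hy
    have hyt : y ∈ tg n p := (hR.2 hycb).1
    have hs : (xc n p).symm y ∈ (xc n p).source := (xc n p).map_target hyt
    have hmv : mv p (fun y => y + w y) ((xc n p).symm y) =
        (xc n p).symm (tch (xc n p p) (fun y => y + w y) y) := by
      rw [mv_src hs, (xc n p).right_inv hyt]
    have htc := tch_on hR.1 (lc_w D) hy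
    have hs' : mv p (fun y => y + w y) ((xc n p).symm y) ∈ (xc n p).source := by
      rw [hmv]
      exact (xc n p).map_target (hR.2 (Metric.ball_subset_closedBall htc)).1
    obtain ⟨h1, h2⟩ := EYM.cChart n M univ (mv p fun y => y + w y) isOpen_univ
      (mv_smooth hR (lc_w D)).contMDiffOn p p ((xc n p).symm y) (mem_univ _) hs hs'
    have hJ := mv_jac hR D (m := (xc n p).symm y) (mem_image_of_mem _ hycb)
    rw [(xc n p).right_inv hyt] at hJ
    rw [(xc n p).right_inv hyt, hJ] at h1
    obtain ⟨a, ha⟩ := h2 v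
    obtain ⟨b, hb⟩ := h2 v'
    set m := (xc n p).symm y with hmdef
    set J := LR.jm w (tr (xc n p p) y) with hJdef
    have hD : ∀ a : Fin n → ℝ, Dm (mv p fun y => y + w y) m
        (∑ j, a j • cV p m j) =
        ∑ k, (J *ᵥ a) k • cV p (mv p (fun y => y + w y) m) k := by
      intro a
      rw [map_sum]
      have e1 : ∀ j : Fin n, Dm (mv p fun y => y + w y) m (a j • cV p m j) =
          ∑ k, (a j * J k j) • cV p (mv p (fun y => y + w y) m) k := by
        intro j
        rw [map_smul]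
        have e2 : Dm (mv p fun y => y + w y) m (cV p m j) =
          ∑ k, J k j • cV p (mv p (fun y => y + w y) m) k := h1 j
        rw [e2, Finset.smul_sum]
        exact Finset.sum_congr rfl fun k _ => by rw [smul_smul]
      simp only [e1]
      rw [Finset.sum_comm]
      refine Finset.sum_congr rfl fun k _ => ?_
      rw [← Finset.sum_smul]
      congr 1
      unfold Matrix.mulVec dotProduct
      exact Finset.sum_congr rfl fun j _ => mul_comm _ _
    have ha' : v = ∑ j, a j • cV p m j := ha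
    have hb' : v' = ∑ j, b j • cV p m j := hb
    rw [ha', hb', hD a, hD b]
    have e3 : Gm Q m (∑ j, a j • cV p m j)
        (∑ j, b j • cV p m j) = ∑ l, (∑ k, a k * gram Q.g p m k l) * b l :=
      cTensor_expand Q p m a b
    have e4 : Gm P (mv p (fun y => y + w y) m)
        (∑ j, (J *ᵥ a) j • cV p (mv p (fun y => y + w y) m) j)
        (∑ j, (J *ᵥ b) j • cV p (mv p (fun y => y + w y) m) j) =
        ∑ l, (∑ k, (J *ᵥ a) k * gram P.g p (mv p (fun y => y + w y) m) k l) * (J *ᵥ b) l :=
      cTensor_expand P p (mv p (fun y => y + w y) m) (J *ᵥ a) (J *ᵥ b)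
    rw [e3, e4]
    set G' := (P.loc p).g (tch (xc n p p) (fun y => y + w y) y) with hG'
    have e5 : gram P.g p (mv p (fun y => y + w y) m) = G' := by
      rw [hmv]
      rfl
    have e6 : gram Q.g p m = Jᵀ * G' * J := hQ y hy
    rw [e5, e6]
    have e7 : ∀ (G : Matrix (Fin n) (Fin n) ℝ) (a b : Fin n → ℝ),
        ∑ l, (∑ k, a k * G k l) * b l = a ⬝ᵥ (G *ᵥ b) := by
      intro G a b
      rw [Matrix.dotProduct_mulVec]
      rfl
    rw [e7, e7, ← Matrix.mulVec_mulVec, ← Matrix.mulVec_mulVec, Matrix.dotProduct_mulVec,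
      Matrix.vecMul_transpose]
  · rw [mv_off_D hR D hm, mv_off_D hR D hm, mv_off hR (lc_w D) hm, hg m hm]

theorem mv_con {P : One n N M} {p : M} {R : ℝ} (hR : IsCB n p R)
    {w K : (Fin n → ℝ) → Fin n → ℝ} (D : LR.Dif (bB n R) w K)
    (hA : ∀ x ∈ Metric.ball (xc n p p) R, Am P ((xc n p).symm x) = 0) (m : M) (v : E n) :
    Am P m v = Am P (mv p (fun y => y + w y) m) (Dm (mv p fun y => y + w y) m v) := by
  by_cases hm : m ∈ (xc n p).symm '' Metric.ball (xc n p p) R
  · obtain ⟨y, hy, rfl⟩ := hm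
    have hyt : y ∈ tg n p := (hR.2 (Metric.ball_subset_closedBall hy)).1
    have hs : (xc n p).symm y ∈ (xc n p).source := (xc n p).map_target hyt
    rw [mv_src hs, (xc n p).right_inv hyt, hA y hy, hA _ (tch_on hR.1 (lc_w D) hy)]
    rfl
  · rw [mv_off_D hR D hm, mv_off hR (lc_w D) hm]

/-- The diffeomorphism of `M`. -/
def mvD {p : M} {R : ℝ} (hR : IsCB n p R)
    {w K : (Fin n → ℝ) → Fin n → ℝ} (D : LR.Dif (bB n R) w K) :
    Diffeomorph (𝓡∂ n) (𝓡∂ n) M M ∞ where
  toFun := mv p fun y => y + w y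
  invFun := mv p K
  left_inv := mv_inv hR (lc_w D) D.l
  right_inv := mv_inv hR (lc_K D) D.r
  contMDiff_toFun := mv_smooth hR (lc_w D)
  contMDiff_invFun := mv_smooth hR (lc_K D)

end

end Vale.Agent.P088.H207.J

end
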