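import Vale.Agent.P088.H207.H7
import Vale.Agent.P088.H207.J6

/-!
# P088: the conclusion of Question 1 from a diffeomorphism in a chart, general metrics
-/

set_option linter.all false

open Bundle Manifold MeasureTheory Set Filter Topology
open scoped ContDiff Matrix ENNReal

noncomputable section

namespace Vale.Agent.P088.H207.J

open Vale.Agent.P088 Vale.Agent.P088.B Vale.Agent.P088.EYM Vale.Agent.P088.EYM.O
open Vale.Agent.P088.H207 (Dm Gm Am gl mix mix_g mix_A related_comp)

universe u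

section

variable {n N : ℕ} [NeZero n] {M : Type u} [TopologicalSpace M]
  [ChartedSpace (EuclideanHalfSpace n) M] [IsManifold (𝓡∂ n) ∞ M] [T2Space M]
  [CompactSpace M] [ConnectedSpace M]

theorem mix_met {P' Q : Pair (at_ n M) N} {p : M} {R : ℝ} (hR : IsCB n p R)
    {w K : (Fin n → ℝ) → Fin n → ℝ} (D : LR.Dif (bB n R) w K)
    (hoff : ∀ m, m ∉ (xc n p).symm '' Metric.ball (xc n p p) R → Q.g m = P'.g m)
    (hQ : ∀ y ∈ Metric.ball (xc n p p) R, gl Q p y =
      (LR.jm w (tr (xc n p p) y))ᵀ * gl P' p (tch (xc n p p) (fun y => y + w y) y) *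
        LR.jm w (tr (xc n p p) y)) :
    letI := borel M
    ∀ (m : M) (v v' : E n), Gm (B2.one Q) m v v' =
      Gm (B2.one P') (mvD hR D m) (Dm (mvD hR D) m v) (Dm (mvD hR D) m v') := by
  letI := borel M
  intro m v v'
  have h1 : ∀ m, m ∉ (xc n p).symm '' Metric.ball (xc n p p) R →
      Gm (B2.one Q) m = Gm (B2.one P') m := by
    intro m hm
    show S.bil (Q.g m) = S.bil (P'.g m)
    rw [hoff m hm]
  exact mv_met (P := B2.one P') (Q := B2.one Q) hR D h1 hQ m v v'

theorem mix_con {P' : Pair (at_ n M) N} {p : M} {R : ℝ} (hR : IsCB n p R)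
    {w K : (Fin n → ℝ) → Fin n → ℝ} (D : LR.Dif (bB n R) w K)
    (hAP : ∀ y ∈ Metric.ball (xc n p p) R, P'.A ((xc n p).symm y) = 0) :
    letI := borel M
    ∀ (m : M) (v : E n), Am (B2.one P') m v =
      Am (B2.one P') (mvD hR D m) (Dm (mvD hR D) m v) := by
  letI := borel M
  intro m v
  have h1 : ∀ x ∈ Metric.ball (xc n p p) R, Am (B2.one P') ((xc n p).symm x) = 0 := by
    intro x hx
    show S.formOf (P'.A ((xc n p).symm x)) = 0
    rw [hAP x hx]
    exact formOf_zero
  exact mv_con (P := B2.one P') hR D h1 m v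

/-- The conclusion of Question 1. -/
theorem related_mv {Γ : Set M} {P P' Q : Pair (at_ n M) N} (hR₀ : Related Γ P P')
    {p : M} {R : ℝ} (hR : IsCB n p R)
    {w K : (Fin n → ℝ) → Fin n → ℝ} (D : LR.Dif (bB n R) w K)
    (hΓ : ∀ x ∈ Γ, x ∉ (xc n p).symm '' Metric.ball (xc n p p) R)
    (hAP : ∀ y ∈ Metric.ball (xc n p p) R, P'.A ((xc n p).symm y) = 0)
    (hoff : ∀ m, m ∉ (xc n p).symm '' Metric.ball (xc n p p) R → Q.g m = P'.g m)
    (hQ : ∀ y ∈ Metric.ball (xc n p p) R, gl Q p y =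
      (LR.jm w (tr (xc n p p) y))ᵀ * gl P' p (tch (xc n p p) (fun y => y + w y) y) *
        LR.jm w (tr (xc n p p) y))
    (hG : Vale.Agent.P088.B.GaugeEq Γ P'.A Q.A (at_ n M)) : Related Γ P Q := by
  have h1 : Related Γ P (mix P' Q) := by
    refine related_comp hR₀ (mvD hR D) (fun x hx => ?_) ?_ ?_
    · exact mv_off hR (lc_w D) (hΓ x hx)
    · intro m v v'
      rw [mix_g]
      exact mix_met hR D hoff hQ m v v'
    · intro m v
      rw [mix_A]
      exact mix_con hR D hAP m v
  exact related_gauge h1 hG rfl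

end

end Vale.Agent.P088.H207.J

end
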