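import Vale.Agent.P088.H207.St2

/-!
# P088: near the flat metric, definitions, part 3
-/

open Set
open scoped Matrix ContDiff

noncomputable section

namespace Vale.Agent.P088.H207

open Vale.Agent.P088.B

universe u

variable {n N : ℕ} [NeZero n] {M : Type u} {Z : At n M}

/-- `c` is smooth on `ℝ^n`, and the derivatives of `c - 1` of order at most `k` are at most `ε`. -/
def Near (k : ℕ) (ε : ℝ) (c : V n → ℝ) : Prop :=
  ContDiff ℝ ∞ c ∧ ∀ l ≤ k, ∀ y, ‖iteratedFDeriv ℝ l (fun y => c y - 1) y‖ ≤ ε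

/-- In the chart at `p`, on the ball of radius `R`: `g_{ij} = c δ_{ij}` and `A = 0`. -/
def Conf (c : V n → ℝ) (P : Pair Z N) (p : M) (R : ℝ) : Prop :=
  ∀ x ∈ oball Z p R,
    gch Z P.g p (Z.ch p x) = c (Z.ch p x) • (1 : Matrix (Fin n) (Fin n) ℝ) ∧ P.A x = 0

end Vale.Agent.P088.H207

end
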