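import Vale.Agent.P088.H207.J4
import Vale.Agent.P088.H207.J7
import Vale.Agent.P088.H207.St3
import Vale.Agent.P088.H442.CFMet

/-!
# P088: local uniqueness near conformally flat metrics in a ball, the elementary statement
-/

set_option linter.all false

open Bundle Manifold MeasureTheory Set Filter Topology
open scoped ContDiff Matrix ENNReal

noncomputable section

namespace Vale.Agent.P088.H207.J

open Vale.Agent.P088 Vale.Agent.P088.B Vale.Agent.P088.EYM
open Vale.Agent.P088.H207 (gl oball kball IsBall Close Near Conf isCB_of kball_at oball_at ch_at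
  gch_at compl_cb)

universe u

section

variable {n : ℕ}

/-- The matrix field `f` on the ball of radius `R`, and `g` off it. -/
def glue (R : ℝ) (f g : LR.MF n) : LR.MF n := fun y =>
  haveI := Classical.dec (y ∈ bB n R)
  if y ∈ bB n R then f y else g y

variable {R ρ : ℝ} {f g : LR.MF n}

theorem glue_in {y : Fin n → ℝ} (hy : y ∈ bB n R) : glue R f g y = f y := if_pos hy

theorem glue_out {y : Fin n → ℝ} (hy : y ∉ bB n R) : glue R f g y = g y := if_neg hy

theorem isOpen_off : IsOpen {y : Fin n → ℝ | ρ ^ 2 < ∑ i, (y i) ^ 2} :=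
  isOpen_lt continuous_const (by fun_prop)

theorem glue_off (h1 : ∀ y ∈ bB n R, ρ ^ 2 < ∑ i, (y i) ^ 2 → f y = g y) {y : Fin n → ℝ}
    (hy : ρ ^ 2 < ∑ i, (y i) ^ 2) : glue R f g y = g y := by
  by_cases h : y ∈ bB n R
  · rw [glue_in h, h1 y h hy]
  · exact glue_out h

theorem mem_off (h0 : ρ ^ 2 < R ^ 2) {y : Fin n → ℝ} (hy : y ∉ bB n R) :
    ρ ^ 2 < ∑ i, (y i) ^ 2 := lt_of_lt_of_le h0 (not_lt.1 hy)

theorem glue_sm (h0 : ρ ^ 2 < R ^ 2) (hf : ∀ i j, ContDiffOn ℝ ∞ (fun y => f y i j) (bB n R))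
    (hg : LR.SmM g) (h1 : ∀ y ∈ bB n R, ρ ^ 2 < ∑ i, (y i) ^ 2 → f y = g y) :
    LR.SmM (glue R f g) := by
  intro i j
  rw [contDiff_iff_contDiffAt]
  intro y
  by_cases hy : y ∈ bB n R
  · have e1 : (fun y => glue R f g y i j) =ᶠ[𝓝 y] fun y => f y i j := by
      filter_upwards [bB_open.mem_nhds hy] with x hx
      rw [glue_in hx]
    exact ((hf i j).contDiffAt (bB_open.mem_nhds hy)).congr_of_eventuallyEq e1
  · have e1 : (fun y => glue R f g y i j) =ᶠ[𝓝 y] fun y => g y i j := by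
      filter_upwards [isOpen_off.mem_nhds (mem_off h0 hy)] with x hx
      rw [glue_off h1 hx]
    exact (hg i j).contDiffAt.congr_of_eventuallyEq e1

theorem glue_cl (h0 : ρ ^ 2 < R ^ 2)
    (h1 : ∀ y ∈ bB n R, ρ ^ 2 < ∑ i, (y i) ^ 2 → f y = g y)
    {k : ℕ} {ε : ℝ} (i j : Fin n)
    (h2 : ∀ y ∈ bB n R, ∀ l ≤ k, ‖iteratedFDeriv ℝ l
      (fun y => f y i j - (1 : Matrix (Fin n) (Fin n) ℝ) i j) y‖ ≤ ε)
    (h3 : LR.Cl k ε (fun y => g y i j - (1 : Matrix (Fin n) (Fin n) ℝ) i j)) :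
    LR.Cl k ε (fun y => glue R f g y i j - (1 : Matrix (Fin n) (Fin n) ℝ) i j) := by
  intro l hl y
  by_cases hy : y ∈ bB n R
  · have e1 : (fun y => glue R f g y i j - (1 : Matrix (Fin n) (Fin n) ℝ) i j) =ᶠ[𝓝 y]
        fun y => f y i j - (1 : Matrix (Fin n) (Fin n) ℝ) i j := by
      filter_upwards [bB_open.mem_nhds hy] with x hx
      rw [glue_in hx]
    rw [(e1.iteratedFDeriv ℝ l).self_of_nhds]
    exact h2 y hy l hl
  · have e1 : (fun y => glue R f g y i j - (1 : Matrix (Fin n) (Fin n) ℝ) i j) =ᶠ[𝓝 y]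
        fun y => g y i j - (1 : Matrix (Fin n) (Fin n) ℝ) i j := by
      filter_upwards [isOpen_off.mem_nhds (mem_off h0 hy)] with x hx
      rw [glue_off h1 hx]
    rw [(e1.iteratedFDeriv ℝ l).self_of_nhds]
    exact h3 l hl y

/-- Translation. -/
theorem cl_trans {k : ℕ} {ε : ℝ} {f : (Fin n → ℝ) → ℝ} (h : ∀ l ≤ k, ∀ y,
    ‖iteratedFDeriv ℝ l f y‖ ≤ ε) (y₀ : Fin n → ℝ) : LR.Cl k ε (fun y => f (y + y₀)) := by
  intro l hl y
  have := iteratedFDeriv_comp_add_right (𝕜 := ℝ) (f := f) l y₀ y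
  rw [this]
  exact h l hl (y + y₀)

end

/-- Local uniqueness near a conformally flat metric in a ball. -/
theorem conf_ball {n : ℕ} [NeZero n]
    (hCF : ∃ k : ℕ, ∀ R : ℝ, 0 < R → ∃ ε > 0, LR.CF.LocB n LR.CF.St2 k ε R) (hn : 3 ≤ n) :
    ∃ k : ℕ, ∀ R : ℝ, 0 < R → ∃ ε : ℝ, 0 < ε ∧
    ∀ {N : ℕ} (_ : 1 ≤ N) {M : Type u} [TopologicalSpace M]
    [ChartedSpace (EuclideanHalfSpace n) M] [IsManifold (𝓡∂ n) ∞ M] [T2Space M] [CompactSpace M]
    [ConnectedSpace M] (Z : At n M) (_ : Z = at_ n M) (Γ O₀ : Set M) (_ : IsOpen O₀)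
    (_ : Γ = O₀ ∩ bd Z) (_ : Γ.Nonempty) (P P' Q : Pair Z N) (_ : Vale.Agent.P088.B.SameData Γ P Q)
    (_ : Related Γ P P') (p : M) (_ : IsBall Z p R) (c : B.V n → ℝ) (_ : Near k ε c)
    (_ : Conf c P' p R) (ρ : ℝ) (_ : 0 < ρ)
    (_ : ρ < R) (_ : B8.PwLe (kball Z p ρ)ᶜ Γ P' Q)
    (_ : ∃ U, B8.GaugeBy U (kball Z p ρ)ᶜ Γ P'.A Q.A Z) (_ : Close k ε Q p R),
    Related Γ P Q := by
  obtain ⟨k, hk⟩ := hCF
  refine ⟨k, fun R hR0 => ?_⟩
  obtain ⟨ε₀, hε₀, hrig⟩ := hk R hR0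
  refine ⟨min ε₀ (1 / 2), lt_min hε₀ (by norm_num), ?_⟩
  intro N hN M _ _ _ _ _ _ Z hZ Γ O₀ hO₀ hΓ hne P P' Q hd hR p hp c hc hconf ρ hρ hρR hpw hU hcl
  have hd' : Vale.Agent.P088.B.SameData Γ P' Q := Vale.Agent.P088.B.same_related Z hZ hO₀ hΓ hne hR hd
  subst hZ
  obtain ⟨U, hU⟩ := hU
  letI := borel M
  haveI : BorelSpace M := ⟨rfl⟩
  obtain ⟨hrel, hok, -, -⟩ := TM.fLoc n N M
  have hCB : IsCB n p R := isCB_of hp
  have hK : kball (at_ n M) p ρ = cb n p ρ := kball_at hCB hρ.le hρR.le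
  have hV : oball (at_ n M) p R = (xc n p).symm '' Metric.ball (xc n p p) R := oball_at hCB
  obtain ⟨hOo, hOp, hObd⟩ := compl_cb (M := M) (n := n) (by omega) hCB hρ hρR
  have hb : bd (at_ n M) = (𝓡∂ n).boundary M := bd_at
  set z : E n := xc n p p with hz
  have hbt : Metric.ball z R ⊆ tg n p :=
    Metric.ball_subset_closedBall.trans (hCB.2.trans inter_subset_left)
  have hpos : Metric.ball z R ⊆ {y | 0 < y 0} :=
    Metric.ball_subset_closedBall.trans (hCB.2.trans inter_subset_right)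
  have hmem : ∀ y ∈ Metric.ball z R, (xc n p).symm y ∈ oball (at_ n M) p R := fun y hy => by
    rw [hV]
    exact mem_image_of_mem _ hy
  have hchy : ∀ y ∈ Metric.ball z R, (at_ n M).ch p ((xc n p).symm y) = WithLp.ofLp y :=
    fun y hy => by rw [ch_at, (xc n p).right_inv (hbt hy)]
  -- the hole
  have hole : B8.Hole U (kball (at_ n M) p ρ) (oball (at_ n M) p R) Γ P' Q := by
    refine ⟨?_, ?_, ?_, ?_, ?_, hpw, hU⟩
    · rw [hK]
      exact isOpen_compl_iff.1 hOo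
    · rw [hK, hb, eq_empty_iff_forall_notMem]
      rintro x ⟨h1, h2⟩
      exact hObd x h2 h1
    · rw [hK]
      exact hOp
    · rw [hV]
      exact cRungeB_B_open TM.fLoc hCB
    · rw [hK, hV]
      exact image_mono (Metric.closedBall_subset_ball hρR)
  obtain ⟨h1, -, h2⟩ := B8.hole' hn hN (at_ n M) rfl Γ O₀ hO₀ hΓ hne P' Q hd' U _ _ hole
  obtain ⟨V, hV1, -⟩ := h2 ⟨fun _ => 1, fun a b => contMDiffOn_const, fun x hx => ⟨by simp, fun j => by
    have e1 : dM (fun y : Vale.Agent.P088.B.V n => (1 : Matrix (Fin N) (Fin N) ℂ))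
        ((at_ n M).ch x x) j = 0 := by
      ext a b
      unfold dM dj
      simp
    rw [e1, (hconf x hx).2, Matrix.mul_zero]
    rfl⟩⟩
  -- the second pair with the first connection
  have hgeq : Vale.Agent.P088.B.GaugeEq Γ P'.A Q.A (at_ n M) :=
    ⟨V, hV1.1, hV1.2.1, hV1.2.2.1, fun x j => hV1.2.2.2 x (mem_univ x) j⟩
  obtain ⟨W, hW, hW1, hW2⟩ := Vale.Agent.P088.B.toGauge hgeq
  have hS : EYM.SameD (B2.one P') (EYM.O.wA (B2.one Q) (B2.one P').A) Γ :=
    (EYM.O.mg_closed n N M (EYM.O.wA (B2.one Q) (B2.one P').A) (B2.one P') Γ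
      (B2.one Q).A W hW hW1 hW2).2.2 (Vale.Agent.P088.B.sameD_one hd')
  have hRB : EYM.RelBd n Γ := ⟨O₀, hO₀, by rw [hΓ, hb]⟩
  have hgP : ∀ y ∈ Metric.ball z R, gl P' p y = c (WithLp.ofLp y) • (1 : Matrix _ _ ℝ) := by
    intro y hy
    have e1 := (hconf _ (hmem y hy)).1
    rw [hchy y hy, gch_at P' p (hbt hy)] at e1
    exact e1
  have hA0 : ∀ y ∈ Metric.ball z R, P'.A ((xc n p).symm y) = 0 := fun y hy =>
    (hconf _ (hmem y hy)).2
  have hAP : ∀ y ∈ Metric.ball z R, ∀ i, ((B2.one P').loc p).B i y = 0 := by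
    intro y hy i
    show S.formOf (P'.A ((xc n p).symm y)) _ = 0
    rw [hA0 y hy]
    show (S.formOf (0 : Fin n → Matrix (Fin N) (Fin N) ℂ)) _ = 0
    rw [formOf_zero]
    rfl
  have hokQ : ((EYM.O.wA (B2.one Q) (B2.one P').A).loc p).Ok (Metric.ball z R) :=
    CHarm_ok_mono (hok _ p) hbt
  -- the two metrics in centred coordinates
  have hsq : ρ ^ 2 < R ^ 2 := pow_lt_pow_left₀ hρR hρ.le two_ne_zero
  set y₀ : Fin n → ℝ := WithLp.ofLp z with hy₀
  have htr : ∀ x : E n, tr z x + y₀ = WithLp.ofLp x := by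
    intro x
    funext j
    show (x j - z j) + z j = x j
    ring
  have htri : ∀ y : Fin n → ℝ, WithLp.ofLp (tri z y) = y + y₀ := by
    intro y
    funext j
    show z j + y j = y j + z j
    ring
  set f : LR.MF n := fun y => gch (at_ n M) Q.g p (y + y₀) with hf
  have hfgl : ∀ y ∈ bB n R, f y = gl Q p (tri z y) := by
    intro y hy
    have e1 := gch_at Q p (hbt ((tri_bB z hR0 y).2 hy))
    rw [htri] at e1
    exact e1
  set c' : (Fin n → ℝ) → ℝ := fun y => c (y + y₀) with hc'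
  have hc's : ContDiff ℝ ∞ c' := hc.1.comp (contDiff_id.add contDiff_const)
  have hc'cl : LR.Cl k (min ε₀ (1 / 2)) (fun y => c' y - 1) :=
    cl_trans (f := fun y => c y - 1) hc.2 y₀
  have hc'pos : ∀ y, 0 < c' y := by
    intro y
    have e1 := hc'cl 0 (Nat.zero_le _) y
    rw [norm_iteratedFDeriv_zero, Real.norm_eq_abs] at e1
    have e2 := (abs_le.1 (e1.trans (min_le_right _ _))).1
    linarith
  have hf1 : ∀ y ∈ bB n R, ρ ^ 2 < ∑ i, (y i) ^ 2 → f y = LR.CF.sc c' y := by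
    intro y hy hy'
    have hx := (tri_bB z hR0 y).2 hy
    have hxρ : tri z y ∉ Metric.closedBall z ρ := by
      intro h
      rw [mem_closedBall_iff_norm] at h
      have e1 : ∑ i, (y i) ^ 2 = ‖tri z y - z‖ ^ 2 := by
        rw [← tr_sq, tr_tri]
      rw [e1] at hy'
      exact absurd (pow_le_pow_left₀ (norm_nonneg _) h 2) (not_le.2 hy')
    have h5 : (xc n p).symm (tri z y) ∉ cb n p ρ := by
      rintro ⟨x', hx', he⟩
      have h6 : x' = tri z y := (xc n p).symm.injOn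
        ((hCB.2 (Metric.closedBall_subset_closedBall hρR.le hx')).1) (hbt hx) he
      exact hxρ (h6 ▸ hx')
    have e1 : gl Q p (tri z y) = gl P' p (tri z y) := by
      ext i j
      show S.bil (Q.g _) _ _ = S.bil (P'.g _) _ _
      rw [h1 _ (by rw [hK]; exact h5)]
    rw [hfgl y hy, e1, hgP _ hx, htri]
    rfl
  have hfs : ∀ i j, ContDiffOn ℝ ∞ (fun y => f y i j) (bB n R) := by
    intro i j
    have e2 : ContDiffOn ℝ ∞ (fun x : E n => gl Q p x i j) (Metric.ball z R) :=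
      hokQ.g_smooth i j
    refine (e2.comp (tri_cd z).contDiffOn fun y hy => (tri_bB z hR0 y).2 hy).congr
      fun y hy => ?_
    rw [hfgl y hy]
    rfl
  set g : LR.MF n := glue R f (LR.CF.sc c') with hg
  have hgs : LR.SmM g := glue_sm hsq hfs (LR.CF.smM_sc442 hc's) hf1
  have hgp : ∀ y, (g y).PosDef := by
    intro y
    by_cases hy : y ∈ bB n R
    · rw [hg, glue_in hy, hfgl y hy]
      exact hokQ.g_pos _ ((tri_bB z hR0 y).2 hy)
    · rw [hg, glue_out hy]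
      exact LR.CF.posDef_sc442 hc'pos y
  have hgQ : ∀ x ∈ Metric.ball z R, g (tr z x) = gl Q p x := by
    intro x hx
    have e1 := (tr_bB z hR0 x).2 hx
    rw [hg, glue_in e1, hfgl _ e1, tri_tr]
  have hgPc : ∀ x ∈ Metric.ball z R, LR.CF.sc c' (tr z x) = gl P' p x := by
    intro x hx
    rw [hgP x hx, ← htr x]
    rfl
  have hgcl : ∀ i j, LR.Cl k ε₀ (fun x => g x i j - (1 : Matrix (Fin n) (Fin n) ℝ) i j) := by
    intro i j
    refine glue_cl hsq hf1 i j (fun y hy l hl => ?_)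
      (LR.CF.cl_sc442 hε₀.le (fun l hl y => (hc'cl l hl y).trans (min_le_left _ _)) i j)
    have e0 := (tri_bB z hR0 y).2 hy
    have e2 := hcl _ (hmem _ e0) i j l hl
    rw [hchy _ e0, htri] at e2
    have e3 := iteratedFDeriv_comp_add_right (𝕜 := ℝ) (f := fun y : Fin n → ℝ =>
      gch (at_ n M) Q.g p y i j - (1 : Matrix (Fin n) (Fin n) ℝ) i j) l y₀ y
    have e4 : iteratedFDeriv ℝ l (fun y => f y i j - (1 : Matrix (Fin n) (Fin n) ℝ) i j) y =
        iteratedFDeriv ℝ l (fun y : Fin n → ℝ =>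
          gch (at_ n M) Q.g p y i j - (1 : Matrix (Fin n) (Fin n) ℝ) i j) (y + y₀) := e3
    rw [e4]
    exact e2.trans (min_le_left _ _)
  have hstar : LR.CF.St2 (bB n R) (LR.sg (LR.CF.sc c')) (LR.sg g) :=
    star2_one (by omega) (⟨0, by omega⟩ : Fin N) (P := B2.one P')
      (Q := EYM.O.wA (B2.one Q) (B2.one P').A) hRB hne hS hCB hρ hρR
      (fun y hy i => hAP y hy i) (fun y hy i => hAP y hy i) (fun x _ X => rfl)
      (fun x hx v w => by
        show S.bil (Q.g x) v w = S.bil (P'.g x) v w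
        rw [h1 x (by rw [hK]; exact hx)]) (LR.CF.smM_sc442 hc's) hgs
        (LR.CF.posDef_sc442 hc'pos) hgp hgPc hgQ
  obtain ⟨w, K, D, hwK⟩ := hrig (bB n R) bB_open (bB_reg (by omega) hR0) (bB_box hR0) c' g hc's
    hc'pos hgs hgp (fun y hy => glue_out hy)
    (fun l hl y => (hc'cl l hl y).trans (min_le_left _ _)) hgcl hstar
  refine related_mv hR hCB D ?_ hA0 ?_ ?_ hgeq
  · intro x hx hx'
    rw [hΓ, hb] at hx
    have h3 : x ∈ Mi n M := cRungeB_cb_mi TM.fLoc hCB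
      (image_mono Metric.ball_subset_closedBall hx')
    have h4 := hx.2
    rw [← ModelWithCorners.compl_interior] at h4
    exact h4 h3
  · intro m hm
    refine h1 m ?_
    rw [hK]
    exact fun h => hm (image_mono (Metric.closedBall_subset_ball hρR) h)
  · intro y hy
    have e1 := tch_on hR0 (lc_w D) (z := z) hy
    rw [← hgQ y hy, hwK, ← hgPc _ e1]
    have e2 : tr z (tch z (fun y => y + w y) y) = tr z y + w (tr z y) := by
      unfold tch
      rw [tr_tri]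
    rw [e2]
    unfold LR.CF.sc
    rw [Matrix.mul_smul, Matrix.mul_one, Matrix.smul_mul]

end Vale.Agent.P088.H207.J

end
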