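import Vale.Agent.P088.H924.FTop

/-!
# P088: theorem F for the orthogonality identity
-/

set_option linter.all false

open MeasureTheory Set
open scoped ContDiff Matrix

noncomputable section

namespace Vale.Agent.P088.H207.J

open Vale.Agent.P088.LR Vale.Agent.P088.LR.CF Vale.Agent.P088.LR.H925

variable {n : ℕ}

theorem st2_cong (Ω : Set (LR.V n)) (hΩ : IsOpen Ω) (s s' t t' : MF n)
    (h1 : ∀ x ∈ Ω, s x = s' x) (h2 : ∀ x ∈ Ω, t x = t' x) (h : St2 Ω s t) : St2 Ω s' t' := by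
  intro U W hU hW hdU hdW
  have e1 : ∀ x ∈ Ω, s =ᶠ[nhds x] s' := fun x hx => by
    filter_upwards [hΩ.mem_nhds hx] with y hy
    exact h1 y hy
  have e2 : ∀ x ∈ Ω, t =ᶠ[nhds x] t' := fun x hx => by
    filter_upwards [hΩ.mem_nhds hx] with y hy
    exact h2 y hy
  have e3 := h U W hU hW (fun x hx => by rw [dv_germ442 (e1 x hx), hdU x hx])
    (fun x hx => by rw [dv_germ442 (e2 x hx), hdW x hx])
  rw [← e3]
  unfold bl
  refine setIntegral_congr_fun hΩ.measurableSet fun y hy => ?_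
  simp only [h1 y hy, h2 y hy]

theorem st2_dil (t : ℝ) (ht0 : 0 < t) (Ω : Set (LR.V n)) (hΩ : IsOpen Ω) (s₁ s₂ : MF n)
    (hs₁ : SmM s₁) (hs₂ : SmM s₂)
    (h : St2 Ω s₁ s₂) : St2 (ps t ⁻¹' Ω) (rs t s₁) (rs t s₂) := by
  intro U W hU hW hdU hdW
  have hO' : IsOpen (ps t ⁻¹' Ω) := hΩ.preimage (contDiff_ps t).continuous
  have g1 : ∀ x ∈ Ω, dv s₁ (fun x => U (ph t x)) x = 0 := by
    intro x hx
    have hy : ph t x ∈ ps t ⁻¹' Ω := by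
      show ps t (ph t x) ∈ Ω
      rw [ps_ph ht0.ne']; exact hx
    rw [dv_ph442 ht0.ne' hs₁ hU x, hdU _ hy, mul_zero]
  have g2 : ∀ x ∈ Ω, dv s₂ (fun x => W (ph t x)) x = 0 := by
    intro x hx
    have hy : ph t x ∈ ps t ⁻¹' Ω := by
      show ps t (ph t x) ∈ Ω
      rw [ps_ph ht0.ne']; exact hx
    rw [dv_ph442 ht0.ne' hs₂ hW x, hdW _ hy, mul_zero]
  have g3 := h (fun x => U (ph t x)) (fun x => W (ph t x)) (hU.comp (contDiff_ph t))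
    (hW.comp (contDiff_ph t)) g1 g2
  have g4 := bl_ps t Ω hΩ.measurableSet (fun x => s₂ x - s₁ x) (fun x => U (ph t x))
    (fun x => W (ph t x)) ((hU.comp (contDiff_ph t)).differentiable (by simp))
    ((hW.comp (contDiff_ph t)).differentiable (by simp))
  rw [g3, mul_zero] at g4
  have g5 : (fun y => (fun x => U (ph t x)) (ps t y)) = U := by
    funext y
    simp only [ph_ps ht0.ne']
  have g6 : (fun y => (fun x => W (ph t x)) (ps t y)) = W := by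
    funext y
    simp only [ph_ps ht0.ne']
  rw [g5, g6] at g4
  rw [← g4]
  rfl

/-- `St2` up to the values off `Ω`. -/
def StE (Ω : Set (LR.V n)) (s t : MF n) : Prop :=
  ∃ s₀ t₀ : MF n, SmM s₀ ∧ SmM t₀ ∧ (∀ x ∈ Ω, s₀ x = s x) ∧ (∀ x ∈ Ω, t₀ x = t x) ∧ St2 Ω s₀ t₀

theorem locFR_st2 {n : ℕ} (hn : 3 ≤ n) : ∃ k : ℕ, ∀ R : ℝ, 0 < R → ∀ φ : LR.V n → ℝ, SmP φ →
    ∃ ε > 0, LocFR n St2 k R φ ε := by
  obtain ⟨k, h⟩ := Vale.Agent.P088.H924.locF_all hn StE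
    fun Ω hΩ _ s₁ s₂ _ _ _ _ hS => by
      obtain ⟨s₀, t₀, h1, h2, h3, h4, h5⟩ := hS
      exact st2_cong Ω hΩ _ _ _ _ h3 h4 h5
  refine ⟨k, fun R hR φ hφ => ?_⟩
  have hcong : ∀ Ω : Set (LR.V n), IsOpen Ω → ∀ s s' t t' : MF n, (∀ x ∈ Ω, s x = s' x) →
      (∀ x ∈ Ω, t x = t' x) → StE Ω s t → StE Ω s' t' := by
    rintro Ω hΩ s s' t t' h1 h2 ⟨s₀, t₀, a1, a2, a3, a4, a5⟩
    exact ⟨s₀, t₀, a1, a2, fun x hx => (a3 x hx).trans (h1 x hx),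
      fun x hx => (a4 x hx).trans (h2 x hx), a5⟩
  have hdil : ∀ t : ℝ, 0 < t → ∀ Ω : Set (LR.V n), IsOpen Ω → ∀ s₁ s₂ : MF n, StE Ω s₁ s₂ →
      StE (ps t ⁻¹' Ω) (rs t s₁) (rs t s₂) := by
    rintro t ht Ω hΩ s₁ s₂ ⟨s₀, t₀, a1, a2, a3, a4, a5⟩
    refine ⟨rs t s₀, rs t t₀, ?_, ?_, fun y hy => a3 _ hy, fun y hy => a4 _ hy,
      st2_dil t ht Ω hΩ s₀ t₀ a1 a2 a5⟩
    · exact fun i j => (a1 i j).comp (contDiff_ps t)
    · exact fun i j => (a2 i j).comp (contDiff_ps t)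
  obtain ⟨ε, hε, hL⟩ := Vale.Agent.P088.H924.scaleD StE hcong hdil k hn h R hR φ hφ
  refine ⟨ε, hε, ?_⟩
  intro Ω hΩ hreg hΩR σ hσ hσc hφ0 g hg hgp hoff hgc hSt
  obtain ⟨hcs, -⟩ := Vale.Agent.P088.H924.sgc hn φ σ hφ hσ
  exact hL Ω hΩ hreg hΩR σ hσ hσc hφ0 g hg hgp hoff hgc
    ⟨sg (sc (cc φ σ)), sg g, H442.smM_sg442 (smM_sc442 hcs.1) (posDef_sc442 hcs.2),
      H442.smM_sg442 hg hgp, fun _ _ => rfl, fun _ _ => rfl, hSt⟩

end Vale.Agent.P088.H207.J
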