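import Vale.Agent.P088.H207.St2
import Mathlib.Analysis.SpecialFunctions.Pow.Real

/-!
# P088: near a given metric of a ball, definitions
-/

open Set
open scoped Matrix ContDiff

noncomputable section

namespace Vale.Agent.P088.H207

open Vale.Agent.P088.B

universe u

variable {n N : ℕ} [NeZero n] {M : Type u} {Z : At n M}

/-- `c` is smooth and positive on `ℝ^n`. -/
def Pos (c : V n → ℝ) : Prop := ContDiff ℝ ∞ c ∧ ∀ y, 0 < c y

/-- The derivatives of `c - 1` of order at most `k` are at most `ε`. -/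
def NearOne (k : ℕ) (ε : ℝ) (c : V n → ℝ) : Prop :=
  ∀ l ≤ k, ∀ y, ‖iteratedFDeriv ℝ l (fun y => c y - 1) y‖ ≤ ε

/-- `div (σ ∇φ) = 0` on the ball of radius `R` about `0`. -/
def DivFree (σ φ : V n → ℝ) (R : ℝ) : Prop :=
  ∀ y : V n, ∑ i, (y i) ^ 2 < R ^ 2 →
    ∑ i, fderiv ℝ (fun z => σ z * fderiv ℝ φ z (Pi.single i 1)) y (Pi.single i 1) = 0

/-- The metric `(φ² σ)^{2/(n-2)} δ_{ij}` of `ℝ^n`. -/
def cmet (φ σ : V n → ℝ) (y : V n) : Matrix (Fin n) (Fin n) ℝ :=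
  (φ y ^ 2 * σ y) ^ ((2 : ℝ) / ((n : ℝ) - 2)) • (1 : Matrix (Fin n) (Fin n) ℝ)

/-- In the chart at `p`, on the ball of radius `R`: `g = h(· - y(p))`, where `y(p)` are the
coordinates of `p`, and `A = 0`. -/
def Match (h : V n → Matrix (Fin n) (Fin n) ℝ) (P : Pair Z N) (p : M) (R : ℝ) : Prop :=
  ∀ x ∈ oball Z p R, gch Z P.g p (Z.ch p x) = h (Z.ch p x - Z.ch p p) ∧ P.A x = 0

/-- In the chart at `p`, on the ball of radius `R`: the derivatives of `g_{ij} - h_{ij}(· - y(p))`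
of order at most `k` are at most `ε`. -/
def CloseTo (k : ℕ) (ε : ℝ) (h : V n → Matrix (Fin n) (Fin n) ℝ) (Q : Pair Z N) (p : M)
    (R : ℝ) : Prop :=
  ∀ x ∈ oball Z p R, ∀ i j, ∀ l ≤ k, ‖iteratedFDeriv ℝ l (fun y : V n =>
    gch Z Q.g p y i j - h (y - Z.ch p p) i j) (Z.ch p x)‖ ≤ ε

end Vale.Agent.P088.H207

end
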