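import Vale.Agent.P088.H207.K1
import Vale.Agent.P088.H207.K2

/-!
# P088: local uniqueness near conformally flat metrics in a ball of a manifold
-/

set_option linter.all false

open Bundle Manifold MeasureTheory Set Filter Topology
open scoped ContDiff Matrix ENNReal

noncomputable section

namespace Vale.Agent.P088.H207.J

open Vale.Agent.P088 Vale.Agent.P088.B Vale.Agent.P088.EYM
open Vale.Agent.P088.H207 (kball IsBall Match CloseTo Pos NearOne DivFree cmet)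

universe u

theorem dv_real {n : ℕ} {σ φ : LR.V n → ℝ} (hσ : ContDiff ℝ ∞ σ) (hφ : ContDiff ℝ ∞ φ)
    (x : LR.V n) : LR.dv (LR.CF.sc σ) (LR.cx φ) x =
      ((∑ i, fderiv ℝ (fun z => σ z * fderiv ℝ φ z (Pi.single i 1)) x (Pi.single i 1) : ℝ) : ℂ) := by
  unfold LR.dv
  rw [Complex.ofReal_sum]
  refine Finset.sum_congr rfl fun i _ => ?_
  have h1 : (fun y => ∑ j, (LR.CF.sc σ y i j : ℂ) * LR.pd j (LR.cx φ) y) =
      LR.cx (fun z => σ z * fderiv ℝ φ z (Pi.single i 1)) := by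
    funext y
    rw [Finset.sum_eq_single i]
    · rw [Vale.Agent.P088.H924.pd_cx' hφ]
      simp [LR.CF.sc, LR.cx, LR.pd]
    · intro j _ hj
      simp [LR.CF.sc, Matrix.one_apply_ne (Ne.symm hj)]
    · intro h
      exact absurd (Finset.mem_univ i) h
  rw [h1, Vale.Agent.P088.H924.pd_cx' (hσ.mul ((hφ.fderiv_right (m := ∞) (by simp)).clm_apply
    contDiff_const))]
  rfl

/-- Local uniqueness near conformally flat metrics with small scalar curvature. -/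
theorem conf_ballF {n : ℕ} [NeZero n] (hn : 3 ≤ n) :
    ∃ k : ℕ, ∀ R : ℝ, 0 < R → ∀ φ : B.V n → ℝ, Pos φ → ∃ ε : ℝ, 0 < ε ∧
    ∀ {N : ℕ} (_ : 1 ≤ N) {M : Type u} [TopologicalSpace M]
    [ChartedSpace (EuclideanHalfSpace n) M] [IsManifold (𝓡∂ n) ∞ M] [T2Space M] [CompactSpace M]
    [ConnectedSpace M] (Z : At n M) (_ : Z = at_ n M) (Γ O₀ : Set M) (_ : IsOpen O₀)
    (_ : Γ = O₀ ∩ bd Z) (_ : Γ.Nonempty) (P P' Q : Pair Z N) (_ : Vale.Agent.P088.B.SameData Γ P Q)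
    (_ : Related Γ P P') (p : M) (_ : IsBall Z p R) (σ : B.V n → ℝ) (_ : Pos σ)
    (_ : NearOne k ε σ) (_ : DivFree σ φ R) (_ : Match (cmet φ σ) P' p R) (ρ : ℝ) (_ : 0 < ρ)
    (_ : ρ < R) (_ : B8.PwLe (kball Z p ρ)ᶜ Γ P' Q)
    (_ : ∃ U, B8.GaugeBy U (kball Z p ρ)ᶜ Γ P'.A Q.A Z) (_ : CloseTo k ε (cmet φ σ) Q p R),
    Related Γ P Q := by
  obtain ⟨k, hk⟩ := locFR_st2 hn
  refine ⟨k, fun R hR φ hφ => ?_⟩
  obtain ⟨ε, hε, hL⟩ := hk R hR φ hφ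
  refine ⟨ε, hε, ?_⟩
  intro N hN M _ _ _ _ _ _ Z hZ Γ O₀ hO₀ hΓ hne P P' Q hd hR' p hp σ hσ hσ1 hdf hM ρ hρ hρR hpw
    hU hcl
  obtain ⟨hcs, -⟩ := Vale.Agent.P088.H924.sgc hn φ σ hφ hσ
  refine K.bg_ball hn hR hε.le (h := cmet φ σ) (LR.CF.smM_sc442 hcs.1)
    (LR.CF.posDef_sc442 hcs.2) ?_ hN Z hZ Γ O₀ hO₀ hΓ hne P P' Q hd hR' p hp hM ρ hρ hρR hpw hU hcl
  intro g hg hgp hoff hgc hst
  obtain ⟨w, K, D, hwK⟩ := hL (bB n R) bB_open (bB_reg (by omega) hR) (fun y hy => by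
      have h1 : ∑ j, (y j) ^ 2 < R ^ 2 := hy
      exact h1.le) σ
    hσ hσ1 (fun x hx => by rw [dv_real hσ.1 hφ.1, hdf x hx, Complex.ofReal_zero]) g hg hgp hoff
    hgc hst
  refine ⟨w, K, D, fun y => ?_⟩
  rw [hwK y]
  unfold cmet LR.cc
  rw [Matrix.mul_smul, Matrix.mul_one, Matrix.smul_mul]

end Vale.Agent.P088.H207.J

end
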