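import Vale.Agent.P088.H207.J4

/-!
# P088: the orthogonality relation for two pairs, from equal data on a manifold
-/

set_option linter.all false

open Bundle Manifold MeasureTheory Set Filter Topology
open scoped ContDiff Matrix ENNReal

noncomputable section

namespace Vale.Agent.P088.H207.L

open Vale.Agent.P088 Vale.Agent.P088.EYM Vale.Agent.P088.EYM.O Vale.Agent.P088.H207

universe u

section

variable {n N : ℕ}

theorem tend_int {K : Set (E n)} (hK : IsCompact K) {a : Fin n → Fin n → E n → ℂ}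
    (ha : ∀ j l, ContinuousOn (a j l) K) {f g : Fin n → E n → Fib N}
    {fk gk : ℕ → Fin n → E n → Fib N} (hf : ∀ j, ContinuousOn (f j) K)
    (hg : ∀ j, ContinuousOn (g j) K) (hfk : ∀ k j, ContinuousOn (fk k j) K)
    (hgk : ∀ k j, ContinuousOn (gk k j) K) {e : ℕ → ℝ} (he : Tendsto e atTop (𝓝 0))
    (h1 : ∀ k j, ∀ y ∈ K, ‖fk k j y - f j y‖ ≤ e k)
    (h2 : ∀ k j, ∀ y ∈ K, ‖gk k j y - g j y‖ ≤ e k) :
    Tendsto (fun k => ∫ y in K, ∑ j, ∑ l, a j l y * inner ℂ (gk k j y) (fk k l y)) atTop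
      (𝓝 (∫ y in K, ∑ j, ∑ l, a j l y * inner ℂ (g j y) (f l y))) := by
  obtain ⟨B, hB⟩ := he.bddAbove_range
  have hB' : ∀ k, e k ≤ B := fun k => hB ⟨k, rfl⟩
  have hKm : MeasurableSet K := hK.isClosed.measurableSet
  have hpt : ∀ {u : Fin n → E n → Fib N} {uk : ℕ → Fin n → E n → Fib N},
      (∀ k j, ∀ y ∈ K, ‖uk k j y - u j y‖ ≤ e k) → ∀ j, ∀ y ∈ K,
      Tendsto (fun k => uk k j y) atTop (𝓝 (u j y)) := by
    intro u uk h j y hy
    rw [tendsto_iff_norm_sub_tendsto_zero]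
    exact squeeze_zero (fun _ => norm_nonneg _) (fun k => h k j y hy) he
  have hbd : ∀ {u : Fin n → E n → Fib N} {uk : ℕ → Fin n → E n → Fib N},
      (∀ k j, ∀ y ∈ K, ‖uk k j y - u j y‖ ≤ e k) → ∀ k j, ∀ y ∈ K,
      ‖uk k j y‖ ≤ ‖u j y‖ + B := by
    intro u uk h k j y hy
    have e1 : uk k j y = u j y + (uk k j y - u j y) := by abel
    rw [e1]
    exact (norm_add_le _ _).trans (add_le_add_right ((h k j y hy).trans (hB' k)) _)
  exact tendsto_integral_of_dominated_convergence (μ := volume.restrict K)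
    (F := fun k y => ∑ j, ∑ l, a j l y * inner ℂ (gk k j y) (fk k l y))
    (f := fun y => ∑ j, ∑ l, a j l y * inner ℂ (g j y) (f l y))
    (fun y => ∑ j, ∑ l, ‖a j l y‖ * ((‖g j y‖ + B) * (‖f l y‖ + B)))
    (fun k => (continuousOn_finset_sum _ fun j _ => continuousOn_finset_sum _ fun l _ =>
      (ha j l).mul ((hgk k j).inner (𝕜 := ℂ) (hfk k l))).aestronglyMeasurable hKm)
    ((continuousOn_finset_sum _ fun j _ => continuousOn_finset_sum _ fun l _ =>
      (ha j l).norm.mul (((hg j).norm.add continuousOn_const).mul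
        ((hf l).norm.add continuousOn_const))).integrableOn_compact hK)
    (fun k => (ae_restrict_iff' hKm).2 (Eventually.of_forall fun y hy => by
      refine (norm_sum_le _ _).trans (Finset.sum_le_sum fun j _ => ?_)
      refine (norm_sum_le _ _).trans (Finset.sum_le_sum fun l _ => ?_)
      rw [norm_mul]
      refine mul_le_mul_of_nonneg_left ((norm_inner_le_norm _ _).trans ?_) (norm_nonneg _)
      exact mul_le_mul (hbd h2 k j y hy) (hbd h1 k l y hy) (norm_nonneg _)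
        ((norm_nonneg _).trans (hbd h2 k j y hy))))
    ((ae_restrict_iff' hKm).2 (Eventually.of_forall fun y hy =>
      tendsto_finset_sum _ fun j _ => tendsto_finset_sum _ fun l _ =>
        ((hpt h2 j y hy).inner (hpt h1 l y hy)).const_mul _))

theorem bnd [NeZero n] {L : LD n N} {D K : Set (E n)} (hL : L.Ok D) (hK : IsCompact K)
    (hKD : K ⊆ D) : ∃ B : ℝ, 0 ≤ B ∧ ∀ j, ∀ y ∈ K, ‖L.B j y‖ ≤ B := by
  have h1 : ∀ j, ∃ C : ℝ, ∀ y ∈ K, ‖L.B j y‖ ≤ C := fun j =>
    hK.exists_bound_of_continuousOn ((hL.B_smooth j).continuousOn.mono hKD)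
  choose C hC using h1
  refine ⟨∑ j, |C j|, Finset.sum_nonneg fun _ _ => abs_nonneg _, fun j y hy => ?_⟩
  exact (hC j y hy).trans ((le_abs_self _).trans
    (Finset.single_le_sum (f := fun j => |C j|) (fun _ _ => abs_nonneg _) (Finset.mem_univ j)))

end

section

variable {n N : ℕ} [NeZero n] {M : Type u} [TopologicalSpace M]
  [ChartedSpace (EuclideanHalfSpace n) M] [IsManifold (𝓡∂ n) ∞ M] [T2Space M] [CompactSpace M]
  [MeasurableSpace M] [BorelSpace M] [ConnectedSpace M]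

theorem ed_one (P : One n N M) (p : M) (c d : E n → Fib N) (y : E n) :
    ed (P.loc p) c d y = ∑ j, ∑ k, (gg (P.loc p).g j k y : ℂ) *
      inner ℂ (nab (P.loc p) j c y) (nab (P.loc p) k d y) := rfl

/-- The orthogonality relation of two pairs. -/
theorem orthG (hn : 2 ≤ n) {P Q : One n N M} {Γ : Set M} (hΓ : RelBd n Γ)
    (hne : Γ.Nonempty) (hS : SameD P Q Γ) {p : M} {R ρ : ℝ} (hR : IsCB n p R) (hρ : 0 < ρ)
    (hρR : ρ < R)
    (hA : ∀ m, m ∉ cb n p ρ → ∀ X : TangentSpace (𝓡∂ n) m, P.A.form m X = Q.A.form m X)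
    (hg : ∀ m, m ∉ cb n p ρ → ∀ v w : TangentSpace (𝓡∂ n) m,
      Q.g.inner m v w = P.g.inner m v w)
    {F G : E n → Fib N} (hF : Sol (P.loc p) (Metric.ball (xc n p p) R) F)
    (hG : Sol (Q.loc p) (Metric.ball (xc n p p) R) G) :
    ∫ y in Metric.closedBall (xc n p p) ρ, ed (Q.loc p) G F y =
      ∫ y in Metric.closedBall (xc n p p) ρ, ed (P.loc p) G F y := by
  obtain ⟨hrel, hok, hbdy, hsm⟩ := TM.fLoc n N M
  set z : E n := xc n p p with hz
  have hbt : Metric.ball z R ⊆ tg n p :=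
    Metric.ball_subset_closedBall.trans (hR.2.trans inter_subset_left)
  have hpos : Metric.ball z R ⊆ {y | 0 < y 0} :=
    Metric.ball_subset_closedBall.trans (hR.2.trans inter_subset_right)
  have hbH : Metric.ball z R ⊆ Hs n := fun y hy => le_of_lt (show 0 < y 0 from hpos hy)
  have hbr : RelOpen (Metric.ball z R) := CHarm_relOpen_of_open Metric.isOpen_ball hbH
  have hKR : Metric.closedBall z ρ ⊆ Metric.ball z R := Metric.closedBall_subset_ball hρR
  have hokP : (P.loc p).Ok (Metric.ball z R) := CHarm_ok_mono (hok P p) hbt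
  have hokQ : (Q.loc p).Ok (Metric.ball z R) := CHarm_ok_mono (hok Q p) hbt
  obtain ⟨⟨hsP, hsQ, -⟩, -⟩ := Vale.Agent.P088.EYM.cData TM.fUniq TM.fForm n N M P Q Γ hΓ hne hS
  obtain ⟨ρ₁, hρ₁, hρ₁R⟩ := exists_between hρR
  obtain ⟨uk, huk, hlu⟩ := runge_seq n N M P Γ p R ρ₁ hn hΓ hne hsP hR (hρ.trans hρ₁) hρ₁R F
    (hF.1.of_le two_le_inf) hF.2
  obtain ⟨wk, hwk, hlw⟩ := runge_seq n N M Q Γ p R ρ₁ hn hΓ hne hsQ hR (hρ.trans hρ₁) hρ₁R G
    (hG.1.of_le two_le_inf) hG.2
  obtain ⟨C, hC⟩ := grad_est n N (P.loc p) z R ρ ρ₁ hokP hbH hρ₁ hρ₁R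
  obtain ⟨C', hC'⟩ := grad_est n N (Q.loc p) z R ρ ρ₁ hokQ hbH hρ₁ hρ₁R
  set I : ℕ → ℝ := fun k => C * ∫ y in Metric.ball z ρ₁, ‖lu (𝓡∂ n) p (uk k) y - F y‖ ^ 2
  set I' : ℕ → ℝ := fun k => C' * ∫ y in Metric.ball z ρ₁, ‖lu (𝓡∂ n) p (wk k) y - G y‖ ^ 2
  have hI : Tendsto I atTop (𝓝 0) := by
    have := hlu.const_mul C
    rwa [mul_zero] at this
  have hI' : Tendsto I' atTop (𝓝 0) := by
    have := hlw.const_mul C'
    rwa [mul_zero] at this
  have he : Tendsto (fun k => √(I k) + √(I' k)) atTop (𝓝 0) := by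
    have h1 := (Real.continuous_sqrt.tendsto 0).comp hI
    have h2 := (Real.continuous_sqrt.tendsto 0).comp hI'
    rw [Real.sqrt_zero] at h1 h2
    have := h1.add h2
    rwa [add_zero] at this
  have husol : ∀ k, Sol (P.loc p) (Metric.ball z R) (lu (𝓡∂ n) p (uk k)) := by
    intro k
    obtain ⟨f, hf, hu⟩ := huk k
    have h1 := TM.fHarm n N M P f (uk k) hu p
    exact ⟨h1.1.mono hbt, fun x hx => h1.2 x (hbt hx)⟩
  have hwsol : ∀ k, Sol (Q.loc p) (Metric.ball z R) (lu (𝓡∂ n) p (wk k)) := by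
    intro k
    obtain ⟨f, hf, hu⟩ := hwk k
    have h1 := TM.fHarm n N M Q f (wk k) hu p
    exact ⟨h1.1.mono hbt, fun x hx => h1.2 x (hbt hx)⟩
  have hpdsub : ∀ {u v : E n → Fib N}, ContDiffOn ℝ ∞ u (Metric.ball z R) →
      ContDiffOn ℝ ∞ v (Metric.ball z R) → ∀ j, ∀ y ∈ Metric.ball z R,
      pd j (fun y => u y - v y) y = pd j u y - pd j v y := by
    intro u v hu hv j y hy
    rw [cRunge_pd (hpos hy), cRunge_pd (hpos hy), cRunge_pd (hpos hy), fderiv_fun_sub
      ((hu.contDiffAt (Metric.isOpen_ball.mem_nhds hy)).differentiableAt (by simp))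
      ((hv.contDiffAt (Metric.isOpen_ball.mem_nhds hy)).differentiableAt (by simp))]
    rfl
  have hEu : ∀ k, ∀ y ∈ Metric.closedBall z ρ,
      ‖lu (𝓡∂ n) p (uk k) y - F y‖ + ∑ j, ‖pd j (fun y => lu (𝓡∂ n) p (uk k) y - F y) y‖ ≤
        √(I k) + √(I' k) := fun k y hy =>
    (Real.le_sqrt_of_sq_le (hC _ (cClosed_sol_sub hbr hokP (husol k) hF) y hy)).trans
      (le_add_of_nonneg_right (Real.sqrt_nonneg _))
  have hEw : ∀ k, ∀ y ∈ Metric.closedBall z ρ,
      ‖lu (𝓡∂ n) p (wk k) y - G y‖ + ∑ j, ‖pd j (fun y => lu (𝓡∂ n) p (wk k) y - G y) y‖ ≤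
        √(I k) + √(I' k) := fun k y hy =>
    (Real.le_sqrt_of_sq_le (hC' _ (cClosed_sol_sub hbr hokQ (hwsol k) hG) y hy)).trans
      (le_add_of_nonneg_left (Real.sqrt_nonneg _))
  have key : ∀ T : One n N M, (T.loc p).Ok (Metric.ball z R) →
      Tendsto (fun k => ∫ y in Metric.closedBall z ρ,
        ed (T.loc p) (lu (𝓡∂ n) p (wk k)) (lu (𝓡∂ n) p (uk k)) y) atTop
        (𝓝 (∫ y in Metric.closedBall z ρ, ed (T.loc p) G F y)) := by
    intro T hT
    obtain ⟨B, hB0, hB⟩ := bnd hT (isCompact_closedBall z ρ) hKR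
    have he' : Tendsto (fun k => (1 + B) * (√(I k) + √(I' k))) atTop (𝓝 0) := by
      have := he.const_mul (1 + B)
      rwa [mul_zero] at this
    have hnc : ∀ {u : E n → Fib N}, ContDiffOn ℝ ∞ u (Metric.ball z R) → ∀ j,
        ContinuousOn (nab (T.loc p) j u) (Metric.closedBall z ρ) := fun hu j =>
      ((CNear_nab_smooth hbr hT hu j).continuousOn).mono hKR
    have hnd : ∀ {u v : E n → Fib N} {e : ℝ}, ContDiffOn ℝ ∞ u (Metric.ball z R) →
        ContDiffOn ℝ ∞ v (Metric.ball z R) → ∀ y ∈ Metric.closedBall z ρ,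
        ‖u y - v y‖ + ∑ j, ‖pd j (fun y => u y - v y) y‖ ≤ e → ∀ j,
        ‖nab (T.loc p) j u y - nab (T.loc p) j v y‖ ≤ (1 + B) * e := by
      intro u v e hu hv y hy h j
      have e1 : nab (T.loc p) j u y - nab (T.loc p) j v y =
          pd j (fun y => u y - v y) y + (T.loc p).B j y (u y - v y) := by
        rw [hpdsub hu hv j y (hKR hy), map_sub]
        unfold nab
        abel
      have e2 : ‖pd j (fun y => u y - v y) y‖ ≤ ∑ j, ‖pd j (fun y => u y - v y) y‖ :=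
        Finset.single_le_sum (f := fun j => ‖pd j (fun y => u y - v y) y‖)
          (fun _ _ => norm_nonneg _) (Finset.mem_univ j)
      have e3 : ‖(T.loc p).B j y (u y - v y)‖ ≤ B * ‖u y - v y‖ :=
        ((T.loc p).B j y).le_of_opNorm_le (hB j y hy) _
      have e4 : 0 ≤ ∑ j, ‖pd j (fun y => u y - v y) y‖ :=
        Finset.sum_nonneg fun _ _ => norm_nonneg _
      have e5 := norm_nonneg (u y - v y)
      rw [e1]
      refine (norm_add_le _ _).trans ?_
      have e6 : B * ‖u y - v y‖ ≤ B * e := by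
        refine mul_le_mul_of_nonneg_left ?_ hB0
        linarith
      nlinarith
    simp only [ed_one]
    refine tend_int (isCompact_closedBall z ρ)
      (a := fun j k y => (gg (T.loc p).g j k y : ℂ))
      (f := fun j => nab (T.loc p) j F) (g := fun j => nab (T.loc p) j G)
      (fk := fun k j => nab (T.loc p) j (lu (𝓡∂ n) p (uk k)))
      (gk := fun k j => nab (T.loc p) j (lu (𝓡∂ n) p (wk k))) (fun j l => ?_)
      (fun j => hnc hF.1 j) (fun j => hnc hG.1 j) (fun k j => hnc (husol k).1 j)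
      (fun k j => hnc (hwsol k).1 j) he' ?_ ?_
    · exact Complex.continuous_ofReal.comp_continuousOn
        (((hbr.gg_smooth hT.g_smooth hT.g_pos j l).continuousOn).mono hKR)
    · exact fun k j y hy => hnd (husol k).1 hF.1 y hy (hEu k y hy) j
    · exact fun k j y hy => hnd (hwsol k).1 hG.1 y hy (hEw k y hy) j
  have hcont : ∀ T : One n N M, (T.loc p).Ok (Metric.ball z R) → ∀ k,
      IntegrableOn (ed (T.loc p) (lu (𝓡∂ n) p (wk k)) (lu (𝓡∂ n) p (uk k)))
        (Metric.closedBall z ρ) := by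
    intro T hT k
    refine ContinuousOn.integrableOn_compact (isCompact_closedBall z ρ) ?_
    have hnc : ∀ {u : E n → Fib N}, ContDiffOn ℝ ∞ u (Metric.ball z R) → ∀ j,
        ContinuousOn (nab (T.loc p) j u) (Metric.closedBall z ρ) := fun hu j =>
      ((CNear_nab_smooth hbr hT hu j).continuousOn).mono hKR
    refine continuousOn_finset_sum _ fun j _ => continuousOn_finset_sum _ fun l _ =>
      ContinuousOn.mul ?_ ((hnc (hwsol k).1 j).inner (𝕜 := ℂ) (hnc (husol k).1 l))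
    exact Complex.continuous_ofReal.comp_continuousOn
      (((hbr.gg_smooth hT.g_smooth hT.g_pos j l).continuousOn).mono hKR)
  have heq : ∀ k, ∫ y in Metric.closedBall z ρ,
      ed (Q.loc p) (lu (𝓡∂ n) p (wk k)) (lu (𝓡∂ n) p (uk k)) y =
      ∫ y in Metric.closedBall z ρ,
        ed (P.loc p) (lu (𝓡∂ n) p (wk k)) (lu (𝓡∂ n) p (uk k)) y := by
    intro k
    obtain ⟨f, hf, hu⟩ := huk k
    obtain ⟨h, hh, hw⟩ := hwk k
    have h1 := en_diff P Q hR hρR hA hg hu.smooth hw.smooth (en_eq hΓ hne hS (huk k) (hwk k))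
    rw [integral_sub (hcont Q hokQ k) (hcont P hokP k)] at h1
    exact sub_eq_zero.1 h1
  have h1 := key Q hokQ
  simp only [heq] at h1
  exact tendsto_nhds_unique h1 (key P hokP)

end

end Vale.Agent.P088.H207.L

end
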