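import Vale.Agent.P088.H207.L1
import Vale.Agent.P088.H207.L2

/-!
# P088: two pairs in one chart, coordinates
-/

set_option linter.all false

open Bundle Manifold MeasureTheory Set Filter Topology
open scoped ContDiff Matrix ENNReal

noncomputable section

namespace Vale.Agent.P088.H207.L

open Vale.Agent.P088 Vale.Agent.P088.EYM Vale.Agent.P088.EYM.O Vale.Agent.P088.H207
open Vale.Agent.P088.H207.J (bB tr tri tr_tri tri_tr tr_sq tr_bB tri_bB bB_open bB_reg bB_box tr_cd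
  tri_cd tr_fd int_tr bB_eq)

universe u

section

variable {n N : ℕ} [NeZero n]

/-- A vector function as a section in the chart. -/
def sec (z : E n) (u : (Fin n → ℝ) → Fin N → ℂ) (x : E n) : Fib N := WithLp.toLp 2 (u (tr z x))

/-- `toLp` as a linear map. -/
def tL (N : ℕ) : (Fin N → ℂ) →L[ℝ] Fib N :=
  ((EuclideanSpace.equiv (Fin N) ℂ).symm : (Fin N → ℂ) →L[ℂ] Fib N).restrictScalars ℝ

omit [NeZero n] in
theorem sec_eq (z : E n) (u : (Fin n → ℝ) → Fin N → ℂ) (x : E n) :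
    sec z u x = tL N (u (tr z x)) := rfl

theorem sec_cd {z : E n} {u : (Fin n → ℝ) → Fin N → ℂ} (hu : ContDiff ℝ ∞ u) :
    ContDiff ℝ ∞ (sec z u) := (tL N).contDiff.comp (hu.comp (tr_cd z))

theorem sec_fd {z : E n} {u : (Fin n → ℝ) → Fin N → ℂ} {x : E n}
    (hu : DifferentiableAt ℝ u (tr z x)) (k : Fin n) :
    fderiv ℝ (sec z u) x (ev k) = sec z (fun y => LR.pd k u y) x := by
  have h1 : HasFDerivAt (fun x => u (tr z x)) _ x := hu.hasFDerivAt.comp x (tr_fd z x)
  have h2 : HasFDerivAt (sec z u) _ x := (tL N).hasFDerivAt.comp x h1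
  rw [h2.fderiv]
  rfl

theorem sec_pd {z : E n} {u : (Fin n → ℝ) → Fin N → ℂ} {x : E n} (hx : 0 < x 0)
    (hu : DifferentiableAt ℝ u (tr z x)) (k : Fin n) :
    pd k (sec z u) x = sec z (fun y => LR.pd k u y) x := by
  rw [cRunge_pd hx, sec_fd hu]

theorem sec_nab {L : LD n N} {z : E n} {A : LR.Cn n N} {u : (Fin n → ℝ) → Fin N → ℂ} {x : E n}
    (hx : 0 < x 0) (hB : ∀ i, L.B i x = S.toE (A i (tr z x))) (hu : ContDiff ℝ ∞ u) (k : Fin n) :
    nab L k (sec z u) x = sec z (fun y => LR.cd A k u y) x := by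
  unfold nab
  rw [sec_pd hx (hu.differentiable (by simp) _), hB]
  unfold sec
  rw [S.toE_apply]
  rfl

theorem cd_smooth {A : LR.Cn n N} (hA : LR.SmU A) {u : (Fin n → ℝ) → Fin N → ℂ}
    (hu : ContDiff ℝ ∞ u) (k : Fin n) : ContDiff ℝ ∞ (LR.cd A k u) := by
  unfold LR.cd
  refine ContDiff.add ?_ ?_
  · exact (hu.fderiv_right (m := ∞) (by simp)).clm_apply contDiff_const
  · refine contDiff_pi.2 fun a => ?_
    unfold Matrix.mulVec dotProduct
    exact ContDiff.sum fun b _ => (hA.1 k a b).mul (contDiff_pi.1 hu b)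

theorem fl_smooth {s : LR.MF n} (hs : LR.SmM s) {A : LR.Cn n N} (hA : LR.SmU A)
    {u : (Fin n → ℝ) → Fin N → ℂ} (hu : ContDiff ℝ ∞ u) (j : Fin n) :
    ContDiff ℝ ∞ (fun y => ∑ k, (s y j k : ℂ) • LR.cd A k u y) :=
  ContDiff.sum fun k _ => (Complex.ofRealCLM.contDiff.comp (hs j k)).smul (cd_smooth hA hu k)

/-- The operator in the coordinates. -/
theorem sec_lop {L : LD n N} {D : Set (E n)} (hD : IsOpen D) (hpos : D ⊆ {y | 0 < y 0})
    {z : E n} {s : LR.MF n} (hs : LR.SmM s) {A : LR.Cn n N} (hA : LR.SmU A)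
    (hB : ∀ x ∈ D, ∀ i, L.B i x = S.toE (A i (tr z x)))
    (hgs : ∀ x ∈ D, ∀ j k, gg L.g j k x = s (tr z x) j k)
    {u : (Fin n → ℝ) → Fin N → ℂ} (hu : ContDiff ℝ ∞ u) {x : E n} (hx : x ∈ D) :
    Lop L (sec z u) x = sec z (fun y => LR.U.lav s A u y) x := by
  have h1 : ∀ j, ∀ y ∈ D, flux L j (sec z u) y =
      sec z (fun y => ∑ k, (s y j k : ℂ) • LR.cd A k u y) y := by
    intro j y hy
    unfold flux
    have e1 : ∀ k, gg L.g j k y • nab L k (sec z u) y =
        sec z (fun y => (s y j k : ℂ) • LR.cd A k u y) y := by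
      intro k
      rw [sec_nab (hpos hy) (hB y hy) hu, hgs y hy]
      unfold sec
      rw [← Complex.coe_smul]
      rfl
    simp only [e1, sec_eq]
    rw [← map_sum]
  have h2 : ∀ j, pd j (flux L j (sec z u)) x =
      sec z (fun y => LR.pd j (fun y => ∑ k, (s y j k : ℂ) • LR.cd A k u y) y) x := by
    intro j
    have e1 : flux L j (sec z u) =ᶠ[𝓝 x]
        sec z (fun y => ∑ k, (s y j k : ℂ) • LR.cd A k u y) := by
      filter_upwards [hD.mem_nhds hx] with y hy
      exact h1 j y hy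
    rw [cRunge_pd (hpos hx), e1.fderiv_eq, sec_fd ((fl_smooth hs hA hu j).differentiable (by simp) _)]
  unfold Lop
  simp only [h2, h1 _ x hx, hB x hx]
  have h3 : ∀ j, sec z (fun y => LR.pd j (fun y => ∑ k, (s y j k : ℂ) • LR.cd A k u y) y) x +
      (S.toE (A j (tr z x))) (sec z (fun y => ∑ k, (s y j k : ℂ) • LR.cd A k u y) x) =
      tL N (LR.cd A j (fun y => ∑ k, (s y j k : ℂ) • LR.cd A k u y) (tr z x)) := by
    intro j
    have e2 : (S.toE (A j (tr z x))) (sec z (fun y => ∑ k, (s y j k : ℂ) • LR.cd A k u y) x) =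
      tL N (A j (tr z x) *ᵥ (∑ k, (s (tr z x) j k : ℂ) • LR.cd A k u (tr z x))) := S.toE_apply _ _
    rw [e2, sec_eq, ← map_add]
    rfl
  simp only [h3]
  rw [← map_sum]
  rfl

/-- The integrand of `ea`. -/
def fea (s : LR.MF n) (A : LR.Cn n N) (u v : (Fin n → ℝ) → Fin N → ℂ) (x : Fin n → ℝ) : ℂ :=
  ∑ i, ∑ j, (s x i j : ℂ) * (LR.cd A i u x ⬝ᵥ star (LR.cd A j v x))

theorem fea_cont {s : LR.MF n} (hs : LR.SmM s) {A : LR.Cn n N} (hA : LR.SmU A)
    {u v : (Fin n → ℝ) → Fin N → ℂ} (hu : ContDiff ℝ ∞ u) (hv : ContDiff ℝ ∞ v) :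
    Continuous (fea s A u v) := by
  unfold fea
  refine continuous_finset_sum _ fun i _ => continuous_finset_sum _ fun j _ => ?_
  refine (Complex.continuous_ofReal.comp (hs i j).continuous).mul ?_
  have h1 := (cd_smooth hA hu i).continuous
  have h2 := (cd_smooth hA hv j).continuous
  unfold dotProduct
  refine continuous_finset_sum _ fun a _ => ?_
  exact ((continuous_apply a).comp h1).mul (continuous_star.comp ((continuous_apply a).comp h2))

theorem sec_ed {L : LD n N} {z : E n} {s : LR.MF n} (hsy : ∀ x, (s x).IsSymm) {A : LR.Cn n N}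
    {u v : (Fin n → ℝ) → Fin N → ℂ} {x : E n}
    (hx : 0 < x 0) (hB : ∀ i, L.B i x = S.toE (A i (tr z x)))
    (hgs : ∀ j k, gg L.g j k x = s (tr z x) j k) (hh : L.h x = 1)
    (hu : ContDiff ℝ ∞ u) (hv : ContDiff ℝ ∞ v) :
    ed L (sec z v) (sec z u) x = fea s A u v (tr z x) := by
  unfold ed fea
  rw [Finset.sum_comm]
  refine Finset.sum_congr rfl fun k _ => Finset.sum_congr rfl fun j _ => ?_
  rw [sec_nab hx hB hv, sec_nab hx hB hu, hgs, hh]
  have e1 : (s (tr z x) j k) = s (tr z x) k j := (hsy (tr z x)).apply k j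
  rw [e1]
  congr 1

end

section

variable {n N : ℕ} [NeZero n] {M : Type u} [TopologicalSpace M]
  [ChartedSpace (EuclideanHalfSpace n) M] [IsManifold (𝓡∂ n) ∞ M] [T2Space M] [CompactSpace M]
  [MeasurableSpace M] [BorelSpace M] [ConnectedSpace M]

/-- Equal data on `M` give the orthogonality relation of the two pairs in the ball. -/
theorem orU_one (hn : 2 ≤ n) {P Q : One n N M} {Γ : Set M} (hΓ : RelBd n Γ)
    (hne : Γ.Nonempty) (hS : SameD P Q Γ) {p : M} {R ρ : ℝ} (hR : IsCB n p R) (hρ : 0 < ρ)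
    (hρR : ρ < R)
    (hA : ∀ m, m ∉ cb n p ρ → ∀ X : TangentSpace (𝓡∂ n) m, P.A.form m X = Q.A.form m X)
    (hg : ∀ m, m ∉ cb n p ρ → ∀ v w : TangentSpace (𝓡∂ n) m,
      Q.g.inner m v w = P.g.inner m v w)
    {g₁ g₂ : LR.MF n} (hg₁ : LR.SmM g₁) (hg₂ : LR.SmM g₂) (hp₁ : ∀ y, (g₁ y).PosDef)
    (hp₂ : ∀ y, (g₂ y).PosDef)
    (hgP : ∀ x ∈ Metric.ball (xc n p p) R, g₁ (tr (xc n p p) x) = (P.loc p).g x)
    (hgQ : ∀ x ∈ Metric.ball (xc n p p) R, g₂ (tr (xc n p p) x) = (Q.loc p).g x)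
    {A₁ A₂ : LR.Cn n N} (hA₁ : LR.SmU A₁) (hA₂ : LR.SmU A₂)
    (hBP : ∀ x ∈ Metric.ball (xc n p p) R, ∀ i,
      (P.loc p).B i x = S.toE (A₁ i (tr (xc n p p) x)))
    (hBQ : ∀ x ∈ Metric.ball (xc n p p) R, ∀ i,
      (Q.loc p).B i x = S.toE (A₂ i (tr (xc n p p) x))) :
    LR.U.OrU (bB n R) (LR.sg g₁) A₁ (LR.sg g₂) A₂ := by
  have hR0 : 0 < R := hR.1
  set z : E n := xc n p p with hz
  have hbt : Metric.ball z R ⊆ tg n p :=
    Metric.ball_subset_closedBall.trans (hR.2.trans inter_subset_left)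
  have hpos : Metric.ball z R ⊆ {y | 0 < y 0} :=
    Metric.ball_subset_closedBall.trans (hR.2.trans inter_subset_right)
  have hs₁ : LR.SmM (LR.sg g₁) := H833.smM_sg hg₁ hp₁
  have hs₂ : LR.SmM (LR.sg g₂) := H833.smM_sg hg₂ hp₂
  have hsy₁ := H833.symm_sg hp₁
  have hsy₂ := H833.symm_sg hp₂
  have hgg₁ : ∀ x ∈ Metric.ball z R, ∀ j k,
      gg (P.loc p).g j k x = LR.sg g₁ (tr z x) j k := by
    intro x hx j k
    unfold LR.sg gg
    rw [hgP x hx]
    rfl
  have hgg₂ : ∀ x ∈ Metric.ball z R, ∀ j k,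
      gg (Q.loc p).g j k x = LR.sg g₂ (tr z x) j k := by
    intro x hx j k
    unfold LR.sg gg
    rw [hgQ x hx]
    rfl
  intro u v hu hv hue hve
  have hF : Sol (P.loc p) (Metric.ball z R) (sec z u) := by
    refine ⟨(sec_cd hu).contDiffOn, fun x hx => ?_⟩
    rw [sec_lop Metric.isOpen_ball hpos hs₁ hA₁ hBP hgg₁ hu hx]
    unfold sec
    simp only
    rw [hue _ ((tr_bB z hR0 x).2 hx)]
    rfl
  have hG : Sol (Q.loc p) (Metric.ball z R) (sec z v) := by
    refine ⟨(sec_cd hv).contDiffOn, fun x hx => ?_⟩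
    rw [sec_lop Metric.isOpen_ball hpos hs₂ hA₂ hBQ hgg₂ hv hx]
    unfold sec
    simp only
    rw [hve _ ((tr_bB z hR0 x).2 hx)]
    rfl
  have h0 := orthG hn hΓ hne hS hR hρ hρR hA hg hF hG
  have he₁ : ∀ x ∈ Metric.ball z R, ed (P.loc p) (sec z v) (sec z u) x =
      fea (LR.sg g₁) A₁ u v (tr z x) := fun x hx =>
    sec_ed hsy₁ (hpos hx) (hBP x hx) (hgg₁ x hx) rfl hu hv
  have he₂ : ∀ x ∈ Metric.ball z R, ed (Q.loc p) (sec z v) (sec z u) x =
      fea (LR.sg g₂) A₂ u v (tr z x) := fun x hx =>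
    sec_ed hsy₂ (hpos hx) (hBQ x hx) (hgg₂ x hx) rfl hu hv
  have hc₁ := fea_cont hs₁ hA₁ hu hv
  have hc₂ := fea_cont hs₂ hA₂ hu hv
  have hKR : Metric.closedBall z ρ ⊆ Metric.ball z R := Metric.closedBall_subset_ball hρR
  rw [setIntegral_congr_fun Metric.isClosed_closedBall.measurableSet
      (fun y hy => he₁ y (hKR hy)),
    setIntegral_congr_fun Metric.isClosed_closedBall.measurableSet
      (fun y hy => he₂ y (hKR hy))] at h0
  set f : (Fin n → ℝ) → ℂ := fun y => fea (LR.sg g₂) A₂ u v y - fea (LR.sg g₁) A₁ u v y with hf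
  have hfc : Continuous f := hc₂.sub hc₁
  have hcl : Continuous fun x : E n => tr z x := (tr_cd z).continuous
  have hfz : ∀ x ∈ Metric.ball z R, x ∉ Metric.closedBall z ρ → f (tr z x) = 0 := by
    intro x hx hxρ
    have h5 : (xc n p).symm x ∉ cb n p ρ := by
      rintro ⟨x', hx', he⟩
      have h6 : x' = x := (xc n p).symm.injOn
        ((hR.2 (Metric.closedBall_subset_closedBall hρR.le hx')).1) (hbt hx) he
      exact hxρ (h6 ▸ hx')
    have h6 : g₂ (tr z x) = g₁ (tr z x) := by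
      rw [hgQ x hx, hgP x hx]
      ext i j
      exact hg _ h5 _ _
    have h7 : LR.sg g₂ (tr z x) = LR.sg g₁ (tr z x) := by
      unfold LR.sg
      rw [h6]
    have h8 : ∀ i, A₂ i (tr z x) = A₁ i (tr z x) := by
      intro i
      apply S.toE_inj
      rw [← hBP x hx i, ← hBQ x hx i]
      exact (hA _ h5 _).symm
    rw [hf]
    simp only
    unfold fea LR.cd
    simp only [h7, h8, sub_self]
  -- change of variables
  have h1 : ∫ x in Metric.ball z R, f (tr z x) = 0 := by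
    have e1 : ∫ x in Metric.closedBall z ρ, f (tr z x) = 0 := by
      rw [hf]
      simp only
      rw [integral_sub]
      · rw [h0, sub_self]
      · exact ((hc₂.comp hcl).continuousOn).integrableOn_compact (isCompact_closedBall z ρ)
      · exact ((hc₁.comp hcl).continuousOn).integrableOn_compact (isCompact_closedBall z ρ)
    rw [← e1]
    refine setIntegral_eq_of_subset_of_forall_diff_eq_zero
      Metric.isOpen_ball.measurableSet (Metric.closedBall_subset_ball hρR) ?_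
    intro x hx
    exact hfz x hx.1 hx.2
  have h2 : ∫ x, (bB n R).indicator f (tr z x) = ∫ x in Metric.ball z R, f (tr z x) := by
    rw [← integral_indicator Metric.isOpen_ball.measurableSet]
    refine integral_congr_ae (Eventually.of_forall fun x => ?_)
    by_cases hx : x ∈ Metric.ball z R
    · simp only [indicator_of_mem hx, indicator_of_mem ((tr_bB z hR0 x).2 hx)]
    · have hx' : tr z x ∉ bB n R := fun h => hx ((tr_bB z hR0 x).1 h)
      simp only [indicator_of_notMem hx, indicator_of_notMem hx']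
  rw [h1, int_tr z] at h2
  rw [integral_indicator bB_open.measurableSet] at h2
  have hbb : bB n R ⊆ Set.Icc (fun _ => -R) (fun _ => R) := by
    intro y hy
    have h3 := fun j => abs_le.1 (bB_box hR0 y hy j)
    exact ⟨fun j => (h3 j).1, fun j => (h3 j).2⟩
  have hi : ∀ {h : (Fin n → ℝ) → ℂ}, Continuous h → IntegrableOn h (bB n R) := fun hh =>
    (hh.continuousOn.integrableOn_compact isCompact_Icc).mono_set hbb
  rw [hf, integral_sub (hi hc₂) (hi hc₁)] at h2
  exact (sub_eq_zero.1 h2).symm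

end

end Vale.Agent.P088.H207.L

end
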