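import Vale.Agent.P088.H207.J6
import Vale.Agent.P088.H207.L3

/-!
# P088: from a gauge on `ℝ^n` to a gauge on the manifold
-/

set_option linter.all false

open Bundle Manifold MeasureTheory Set Filter Topology
open scoped ContDiff Matrix ENNReal

noncomputable section

namespace Vale.Agent.P088.H207.L

open Vale.Agent.P088 Vale.Agent.P088.B Vale.Agent.P088.EYM Vale.Agent.P088.EYM.O
open Vale.Agent.P088.H207 (Dm cV Gm Am)
open Vale.Agent.P088.H207.J (bB tr tri tr_tri tri_tr tr_sq tr_bB tri_bB bB_open bB_reg bB_box tr_cd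
  tri_cd tr_fd int_tr bB_eq cb_src)

universe u

section

variable {n N : ℕ}

theorem toE_fun (U : (Fin n → ℝ) → Matrix (Fin N) (Fin N) ℂ) : (fun y => S.toE (U y)) =
    fun y => ∑ a, ∑ b, S.csm (S.toE (Matrix.single a b (1 : ℂ))) (U y a b) := by
  funext y
  rw [S.toE_sum]
  rfl

theorem toE_cd {U : (Fin n → ℝ) → Matrix (Fin N) (Fin N) ℂ} (hU : LR.H158.SmC U) :
    ContDiff ℝ ∞ (fun y => S.toE (U y)) := by
  rw [toE_fun]
  exact ContDiff.sum fun a _ => ContDiff.sum fun b _ => (S.csm _).contDiff.comp (hU a b)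

theorem toE_fd {U : (Fin n → ℝ) → Matrix (Fin N) (Fin N) ℂ} (hU : LR.H158.SmC U)
    (y v : Fin n → ℝ) : fderiv ℝ (fun y => S.toE (U y)) y v =
      S.toE (Matrix.of fun a b => fderiv ℝ (fun y => U y a b) y v) := by
  have h1 : HasFDerivAt (fun y => ∑ a, ∑ b, S.csm (S.toE (Matrix.single a b (1 : ℂ))) (U y a b))
      (∑ a, ∑ b, (S.csm (S.toE (Matrix.single a b (1 : ℂ)))).comp
        (fderiv ℝ (fun y => U y a b) y)) y :=
    HasFDerivAt.fun_sum fun a _ => HasFDerivAt.fun_sum fun b _ =>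
      (S.csm _).hasFDerivAt.comp y ((hU a b).differentiable (by simp) y).hasFDerivAt
  rw [toE_fun, h1.fderiv, S.toE_sum]
  simp only [_root_.sum_apply]
  rfl

/-- The gauge in the chart. -/
def ue (z : E n) (U : (Fin n → ℝ) → Matrix (Fin N) (Fin N) ℂ) (x : E n) : EndF N :=
  S.toE (U (tr z x))

theorem ue_cd {z : E n} {U : (Fin n → ℝ) → Matrix (Fin N) (Fin N) ℂ} (hU : LR.H158.SmC U) :
    ContDiff ℝ ∞ (ue z U) := (toE_cd hU).comp (tr_cd z)

theorem ue_fd {z : E n} {U : (Fin n → ℝ) → Matrix (Fin N) (Fin N) ℂ} (hU : LR.H158.SmC U)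
    (x : E n) (k : Fin n) :
    fderiv ℝ (ue z U) x (ev k) = S.toE (LR.pdm k U (tr z x)) := by
  have h1 : HasFDerivAt (ue z U) _ x :=
    (((toE_cd hU).differentiable (by simp)) (tr z x)).hasFDerivAt.comp x (tr_fd z x)
  rw [h1.fderiv]
  exact toE_fd hU (tr z x) (Pi.single k 1)

end

section

variable {n N : ℕ} [NeZero n] {M : Type u} [TopologicalSpace M]
  [ChartedSpace (EuclideanHalfSpace n) M] [IsManifold (𝓡∂ n) ∞ M]

/-- The gauge on `M` which is given in the chart at `p`. -/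
def gU (p : M) (U : (Fin n → ℝ) → Matrix (Fin N) (Fin N) ℂ) (m : M) : EndF N :=
  haveI := Classical.dec (m ∈ (xc n p).source)
  if m ∈ (xc n p).source then ue (xc n p p) U (xc n p m) else 1

theorem gU_src {p : M} {U : (Fin n → ℝ) → Matrix (Fin N) (Fin N) ℂ} {m : M}
    (hm : m ∈ (xc n p).source) : gU p U m = ue (xc n p p) U (xc n p m) := if_pos hm

theorem gU_nsrc {p : M} {U : (Fin n → ℝ) → Matrix (Fin N) (Fin N) ℂ} {m : M}
    (hm : m ∉ (xc n p).source) : gU p U m = 1 := if_neg hm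

theorem gU_off {p : M} {R : ℝ} (hR : IsCB n p R) {U : (Fin n → ℝ) → Matrix (Fin N) (Fin N) ℂ}
    (h1 : ∀ y ∉ bB n R, U y = 1) {m : M}
    (hm : m ∉ (xc n p).symm '' Metric.ball (xc n p p) R) : gU p U m = 1 := by
  by_cases hs : m ∈ (xc n p).source
  · have h2 : xc n p m ∉ Metric.ball (xc n p p) R := fun h =>
      hm ⟨xc n p m, h, (xc n p).left_inv hs⟩
    rw [gU_src hs]
    unfold ue
    rw [h1 _ (fun h => h2 ((tr_bB _ hR.1 _).1 h)), S.toE_one]
  · exact gU_nsrc hs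

variable [T2Space M]

theorem gU_ev {p : M} {R : ℝ} (hR : IsCB n p R) {U : (Fin n → ℝ) → Matrix (Fin N) (Fin N) ℂ}
    (h1 : ∀ y ∉ bB n R, U y = 1) {m : M} (hm : m ∉ cb n p R) :
    (gU p U : M → EndF N) =ᶠ[𝓝 m] fun _ => 1 := by
  have hcl : IsClosed (cb n p R) := (cRunge_cbcompact p hR le_rfl).isClosed
  filter_upwards [hcl.isOpen_compl.mem_nhds hm] with x hx
  exact gU_off hR h1 fun h => hx (image_mono Metric.ball_subset_closedBall h)

theorem gU_smooth {p : M} {R : ℝ} (hR : IsCB n p R)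
    {U : (Fin n → ℝ) → Matrix (Fin N) (Fin N) ℂ} (hU : LR.H158.SmC U)
    (h1 : ∀ y ∉ bB n R, U y = 1) : ContMDiff (𝓡∂ n) 𝓘(ℝ, EndF N) ∞ (gU p U) := by
  intro m
  by_cases hm : m ∈ (xc n p).source
  · have h2 : ContMDiffOn (𝓡∂ n) 𝓘(ℝ, E n) ∞ (xc n p) (xc n p).source := by
      have := contMDiffOn_extChartAt (I := 𝓡∂ n) (x := p) (n := ∞) (M := M)
      rwa [← extChartAt_source (𝓡∂ n)] at this
    have h3 : ContMDiffOn (𝓡∂ n) 𝓘(ℝ, EndF N) ∞ (gU p U) (xc n p).source :=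
      ((ue_cd hU).contMDiff.comp_contMDiffOn h2).congr fun x hx => gU_src hx
    exact h3.contMDiffAt ((isOpen_extChartAt_source p).mem_nhds hm)
  · exact contMDiffAt_const.congr_of_eventuallyEq
      (gU_ev hR h1 fun h => hm (cb_src hR h).1)

theorem gU_uni {p : M} {R : ℝ} (hR : IsCB n p R)
    {U : (Fin n → ℝ) → Matrix (Fin N) (Fin N) ℂ} (hU : LR.H158.SmC U)
    (h1 : ∀ y ∉ bB n R, U y = 1) (h2 : ∀ y, (U y)ᴴ * U y = 1) :
    IsSmoothUnitary (𝓡∂ n) (gU p U : M → EndF N) := by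
  refine ⟨gU_smooth hR hU h1, fun m => ?_⟩
  by_cases hs : m ∈ (xc n p).source
  · rw [gU_src hs]
    unfold ue
    set y := tr (xc n p p) (xc n p m)
    have h3 : (U y)ᴴ * U y = 1 := h2 y
    have h4 : U y * (U y)ᴴ = 1 := mul_eq_one_comm.1 h3
    refine Unitary.mem_iff.2 ⟨?_, ?_⟩
    · show ContinuousLinearMap.adjoint (S.toE (U y)) * S.toE (U y) = 1
      rw [← S.toE_star, ← S.toE_mul, h3, S.toE_one]
    · show S.toE (U y) * ContinuousLinearMap.adjoint (S.toE (U y)) = 1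
      rw [← S.toE_star, ← S.toE_mul, h4, S.toE_one]
  · rw [gU_nsrc hs]
    exact one_mem _

/-- The derivative in the chart. -/
theorem gU_d {p : M} {R : ℝ} (hR : IsCB n p R)
    {U : (Fin n → ℝ) → Matrix (Fin N) (Fin N) ℂ} (hU : LR.H158.SmC U)
    (h1 : ∀ y ∉ bB n R, U y = 1) {m : M} (hm : m ∈ cb n p R) (j : Fin n) :
    dmap (𝓡∂ n) (gU p U : M → EndF N) m (cV p m j) =
      S.toE (LR.pdm j U (tr (xc n p p) (xc n p m))) := by
  obtain ⟨hs, hcb⟩ := cb_src hR hm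
  obtain ⟨htg, hpos⟩ := hR.2 hcb
  obtain ⟨O, hO, hOt⟩ := cLoc_relOpen (n := n) p
  have hpos' : 0 < (xc n p m) 0 := hpos
  have h2 : IsOpen {y : E n | 0 < y 0} := isOpen_lt continuous_const (by fun_prop)
  have hev : (lu (𝓡∂ n) p (gU p U : M → EndF N)) =ᶠ[𝓝 (xc n p m)] ue (xc n p p) U := by
    have h3 : xc n p m ∈ O := by
      have : xc n p m ∈ tg n p := htg
      rw [hOt] at this
      exact this.1
    filter_upwards [hO.mem_nhds h3, h2.mem_nhds hpos'] with y hy1 hy2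
    have h4 : y ∈ tg n p := by
      rw [hOt]
      exact ⟨hy1, le_of_lt (show 0 < y 0 from hy2)⟩
    show gU p U ((xc n p).symm y) = _
    rw [gU_src ((xc n p).map_target h4), (xc n p).right_inv h4]
  have h5 : dmap (𝓡∂ n) (gU p U : M → EndF N) m (cV p m j) =
      fderivWithin ℝ (lu (𝓡∂ n) p (gU p U : M → EndF N)) (range (𝓡∂ n)) (xc n p m) (ev j) :=
    dmap_coordVec (𝓡∂ n) hs ((gU_smooth hR hU h1).mdifferentiableAt (by simp)) j
  have h6 : range (𝓡∂ n) ∈ 𝓝 (xc n p m) := by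
    rw [range_modelWithCornersEuclideanHalfSpace]
    exact mem_of_superset (h2.mem_nhds hpos') fun y hy => le_of_lt (show 0 < y 0 from hy)
  rw [h5, fderivWithin_of_mem_nhds h6, hev.fderiv_eq, ue_fd hU]

theorem gU_d_off {p : M} {R : ℝ} (hR : IsCB n p R)
    {U : (Fin n → ℝ) → Matrix (Fin N) (Fin N) ℂ} (hU : LR.H158.SmC U)
    (h1 : ∀ y ∉ bB n R, U y = 1) {m : M}
    (hm : m ∉ (xc n p).symm '' Metric.ball (xc n p p) R) (v : E n) :
    (dmap (𝓡∂ n) (gU p U : M → EndF N) m v : EndF N) = 0 := by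
  have hn : 0 < n := Nat.pos_of_ne_zero (NeZero.ne n)
  by_cases hcb : m ∈ cb n p R
  · obtain ⟨hs, hcb'⟩ := cb_src hR hcb
    have hb : xc n p m ∉ Metric.ball (xc n p p) R := fun h =>
      hm ⟨xc n p m, h, (xc n p).left_inv hs⟩
    have hbO : tr (xc n p p) (xc n p m) ∉ bB n R := fun h => hb ((tr_bB _ hR.1 _).1 h)
    have h3 : ∀ j, dmap (𝓡∂ n) (gU p U : M → EndF N) m (cV p m j) = 0 := by
      intro j
      rw [gU_d hR hU h1 hcb j]
      have h4 : LR.pdm j U (tr (xc n p p) (xc n p m)) = 0 := by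
        ext a b
        have h5 : fderiv ℝ (fun y => U y a b - (1 : Matrix (Fin N) (Fin N) ℂ) a b)
            (tr (xc n p p) (xc n p m)) = 0 :=
          LR.H158.fderiv_zero_off (bB_reg hn hR.1) ((hU a b).sub contDiff_const)
            (fun y hy => by rw [h1 y hy, sub_self]) hbO
        rw [fderiv_sub_const] at h5
        show fderiv ℝ (fun y => U y a b) (tr (xc n p p) (xc n p m)) (Pi.single j 1) = 0
        rw [h5]
        rfl
      rw [h4]
      exact map_zero (Matrix.toEuclideanCLM (n := Fin N) (𝕜 := ℂ))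
    obtain ⟨-, h2⟩ := EYM.cChart n M univ (id : M → M) isOpen_univ
      contMDiff_id.contMDiffOn p p m (mem_univ _) hs hs
    obtain ⟨a, ha⟩ := h2 v
    have ha' : v = ∑ j, a j • cV p m j := ha
    have h6 : ∀ T : E n →L[ℝ] EndF N, (∀ j, T (cV p m j) = 0) → T v = 0 := by
      intro T hT
      rw [ha', map_sum]
      refine Finset.sum_eq_zero fun j _ => ?_
      rw [map_smul, hT j, smul_zero]
    exact h6 _ h3
  · have h1 := gU_ev hR h1 hcb
    have h2 : mfderiv (𝓡∂ n) 𝓘(ℝ, EndF N) (gU p U : M → EndF N) m =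
        mfderiv (𝓡∂ n) 𝓘(ℝ, EndF N) (fun _ : M => (1 : EndF N)) m := h1.mfderiv_eq
    unfold dmap
    rw [h2, mfderiv_const]
    rfl

end

end Vale.Agent.P088.H207.L

end
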