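import Vale.Agent.P088.H207.L4
import Vale.Agent.P088.H207.J7

/-!
# P088: the conclusion of Question 1 from a diffeomorphism and a gauge of a ball
-/

set_option linter.all false

open Bundle Manifold MeasureTheory Set Filter Topology
open scoped ContDiff Matrix ENNReal

noncomputable section

namespace Vale.Agent.P088.H207.L

open Vale.Agent.P088 Vale.Agent.P088.B Vale.Agent.P088.EYM Vale.Agent.P088.EYM.O
open Vale.Agent.P088.H207 (Dm cV Gm Am)
open Vale.Agent.P088.H207.J (bB tr tri tr_tri tri_tr tr_sq tr_bB tri_bB bB_open bB_reg bB_box tr_cd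
  tri_cd tr_fd int_tr bB_eq)

universe u

section

variable {n N : ℕ} [NeZero n] {M : Type u} [TopologicalSpace M]
  [ChartedSpace (EuclideanHalfSpace n) M] [IsManifold (𝓡∂ n) ∞ M] [T2Space M] [CompactSpace M]
  [ConnectedSpace M]

/-- Composition of a transform with a further diffeomorphism and a change of gauge. -/
theorem related_comp2 {Γ : Set M} {P P' P'' : Pair (at_ n M) N} (hR : Related Γ P P')
    (F : Diffeomorph (𝓡∂ n) (𝓡∂ n) M M ∞) (hF : ∀ x ∈ Γ, F x = x)
    {V' : M → EndF N} (hV' : IsSmoothUnitary (𝓡∂ n) V') (hVΓ : ∀ x ∈ Γ, V' x = 1)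
    (hmet : letI := borel M; ∀ (m : M) (v v' : E n), Gm (B2.one P'') m v v' =
      Gm (B2.one P') (F m) (Dm F m v) (Dm F m v'))
    (hcon : letI := borel M; ∀ (m : M) (v : E n), Am (B2.one P'') m v =
      ContinuousLinearMap.adjoint (V' m) * (Am (B2.one P') (F m) (Dm F m v)) * V' m +
      ContinuousLinearMap.adjoint (V' m) * (dmap (𝓡∂ n) V' m v : EndF N)) : Related Γ P P'' := by
  obtain ⟨Φ, Ψ, U, h1, h2, h3, h4, h5, h6, h7⟩ := hR
  have hrel : B2.Rel₂ Γ id P P' Φ Ψ U :=
    ⟨h1, h2, fun x => (h3 x).1, fun x => (h3 x).2, h4, h5, h6, h7⟩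
  letI := borel M
  haveI : BorelSpace M := ⟨rfl⟩
  obtain ⟨G, hG, -, hgeo⟩ := B2.toGeo (Γ₁ := Γ) (χ := id) hrel
  obtain ⟨hU, hbd, hm1, hc1⟩ := hgeo
  set V : M → EndF N := fun x => S.toE (U x) with hV
  have hdF : ∀ x, MDifferentiableAt (𝓡∂ n) (𝓡∂ n) F x := fun x =>
    F.contMDiff.mdifferentiableAt (by simp)
  have hdG : ∀ x, MDifferentiableAt (𝓡∂ n) (𝓡∂ n) G x := fun x =>
    G.contMDiff.mdifferentiableAt (by simp)
  have hchain : ∀ x (v : E n), Dm (F.trans G) x v = Dm G (F x) (Dm F x v) := by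
    intro x v
    have e1 : mfderiv (𝓡∂ n) (𝓡∂ n) (G ∘ F) x =
        (mfderiv (𝓡∂ n) (𝓡∂ n) G (F x)).comp (mfderiv (𝓡∂ n) (𝓡∂ n) F x) :=
      mfderiv_comp x (hdG (F x)) (hdF x)
    have e2 : (⇑(F.trans G) : M → M) = G ∘ F := rfl
    unfold Dm
    rw [e2, e1]
    rfl
  have hm2 : ∀ (x : M) (v w : E n), Gm (B2.one P'') x v w =
      Gm (B2.one P) (G (F x)) (Dm (F.trans G) x v) (Dm (F.trans G) x w) := by
    intro x v w
    rw [hchain, hchain, hmet]
    exact hm1 (F x) _ _
  have hVF : ContMDiff (𝓡∂ n) 𝓘(ℝ, EndF N) ∞ (fun x => V (F x)) := hU.smooth.comp F.contMDiff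
  have hdV : ∀ (x : M) (v : E n), (dmap (𝓡∂ n) (fun x => V (F x)) x v : EndF N) =
      dmap (𝓡∂ n) V (F x) (Dm F x v) := by
    intro x v
    have e4 : mfderiv (𝓡∂ n) 𝓘(ℝ, EndF N) (V ∘ F) x =
        (mfderiv (𝓡∂ n) 𝓘(ℝ, EndF N) V (F x)).comp (mfderiv (𝓡∂ n) (𝓡∂ n) F x) :=
      mfderiv_comp x (hU.smooth.mdifferentiableAt (by simp)) (hdF x)
    unfold dmap
    show mfderiv (𝓡∂ n) 𝓘(ℝ, EndF N) (V ∘ F) x v = _
    rw [e4]
    rfl
  have hdW : ∀ (x : M) (v : E n), (dmap (𝓡∂ n) (fun x => V (F x) * V' x) x v : EndF N) =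
      V (F x) * (dmap (𝓡∂ n) V' x v : EndF N) +
        (dmap (𝓡∂ n) (fun x => V (F x)) x v : EndF N) * V' x := fun x v =>
    dI_mulE hVF hV'.smooth x v
  have hc2 : ∀ (x : M) (v : E n), Am (B2.one P'') x v =
      ContinuousLinearMap.adjoint (V (F x) * V' x) ∘L (Am (B2.one P) (G (F x))
        (Dm (F.trans G) x v)) ∘L (V (F x) * V' x) +
      ContinuousLinearMap.adjoint (V (F x) * V' x) ∘L
        (dmap (𝓡∂ n) (fun x => V (F x) * V' x) x v : EndF N) := by
    intro x v
    rw [hchain, hcon, hdW, hdV]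
    have e1 : Am (B2.one P') (F x) (Dm F x v) =
        ContinuousLinearMap.adjoint (V (F x)) * (Am (B2.one P) (G (F x))
          (Dm G (F x) (Dm F x v))) * V (F x) +
        ContinuousLinearMap.adjoint (V (F x)) * (dmap (𝓡∂ n) V (F x) (Dm F x v) : EndF N) := by
      have := hc1 (F x) (Dm F x v)
      exact this
    have e2 : ContinuousLinearMap.adjoint (V (F x)) * V (F x) = 1 :=
      (Unitary.mem_iff.1 (hU.unitary (F x))).1
    have e3 : ContinuousLinearMap.adjoint (V (F x) * V' x) =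
        ContinuousLinearMap.adjoint (V' x) * ContinuousLinearMap.adjoint (V (F x)) :=
      star_mul (V (F x)) (V' x)
    rw [e1, e3]
    set X := Am (B2.one P) (G (F x)) (Dm G (F x) (Dm F x v))
    set Y : EndF N := dmap (𝓡∂ n) V (F x) (Dm F x v)
    set Z : EndF N := dmap (𝓡∂ n) V' x v
    set a := V (F x)
    set b := V' x
    set a' := ContinuousLinearMap.adjoint a
    set b' := ContinuousLinearMap.adjoint b
    show b' * (a' * X * a + a' * Y) * b + b' * Z =
      (b' * a') * (X * (a * b)) + (b' * a') * (a * Z + Y * b)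
    have e4 : b' * Z = b' * (a' * a) * Z := by rw [e2, mul_one]
    rw [e4]
    noncomm_ring
  refine related_conv (S.bridge_related EYM.cChart ⟨F.trans G, fun x => V (F x) * V' x, ?_, ?_,
    ?_, ?_⟩)
  · exact ⟨contMDiff_bilin isBB_mul hVF hV'.smooth,
      fun x => mul_mem (hU.unitary (F x)) (hV'.unitary x)⟩
  · intro x hx
    have e1 := hbd x hx
    constructor
    · show G (F x) = x
      rw [hF x hx]
      exact e1.1
    · show V (F x) * V' x = 1
      rw [hF x hx, hVΓ x hx, mul_one]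
      exact e1.2
  · intro x v w
    exact hm2 x v w
  · intro x v
    exact hc2 x v

end

section

variable {n N : ℕ} [NeZero n] {M : Type u} [TopologicalSpace M]
  [ChartedSpace (EuclideanHalfSpace n) M] [IsManifold (𝓡∂ n) ∞ M] [T2Space M] [MeasurableSpace M]

/-- The pull back of the connection, with a gauge. -/
theorem mv_con2 {P Q : One n N M} {p : M} {R : ℝ} (hR : IsCB n p R)
    {w K : (Fin n → ℝ) → Fin n → ℝ} (D : LR.Dif (bB n R) w K)
    {U : (Fin n → ℝ) → Matrix (Fin N) (Fin N) ℂ} (hU : LR.H158.SmC U)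
    (h1 : ∀ y ∉ bB n R, U y = 1) {A₁ A₂ : LR.Cn n N}
    (hBP : ∀ x ∈ Metric.ball (xc n p p) R, ∀ i,
      (P.loc p).B i x = S.toE (A₁ i (tr (xc n p p) x)))
    (hBQ : ∀ x ∈ Metric.ball (xc n p p) R, ∀ i,
      (Q.loc p).B i x = S.toE (A₂ i (tr (xc n p p) x)))
    (hA : ∀ m, m ∉ (xc n p).symm '' Metric.ball (xc n p p) R → Am Q m = Am P m)
    (hg : ∀ i, ∀ x ∈ bB n R, A₂ i x = (U x)ᴴ * LR.pb w A₁ i x * U x + (U x)ᴴ * LR.pdm i U x)
    (m : M) (v : E n) :
    Am Q m v = ContinuousLinearMap.adjoint (gU p U m) *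
        (Am P (J.mv p (fun y => y + w y) m) (Dm (J.mv p fun y => y + w y) m v)) * gU p U m +
      ContinuousLinearMap.adjoint (gU p U m) * (dmap (𝓡∂ n) (gU p U : M → EndF N) m v : EndF N) := by
  by_cases hm : m ∈ (xc n p).symm '' Metric.ball (xc n p p) R
  · obtain ⟨y, hy, rfl⟩ := hm
    have hycb := Metric.ball_subset_closedBall hy
    have hyt : y ∈ tg n p := (hR.2 hycb).1
    have hs : (xc n p).symm y ∈ (xc n p).source := (xc n p).map_target hyt
    have hmv : J.mv p (fun y => y + w y) ((xc n p).symm y) =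
        (xc n p).symm (J.tch (xc n p p) (fun y => y + w y) y) := by
      rw [J.mv_src hs, (xc n p).right_inv hyt]
    have htc := J.tch_on hR.1 (J.lc_w D) hy
    have hs' : J.mv p (fun y => y + w y) ((xc n p).symm y) ∈ (xc n p).source := by
      rw [hmv]
      exact (xc n p).map_target (hR.2 (Metric.ball_subset_closedBall htc)).1
    obtain ⟨h3, h2⟩ := EYM.cChart n M univ (J.mv p fun y => y + w y) isOpen_univ
      (J.mv_smooth hR (J.lc_w D)).contMDiffOn p p ((xc n p).symm y) (mem_univ _) hs hs'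
    have hJ := J.mv_jac hR D (m := (xc n p).symm y) (mem_image_of_mem _ hycb)
    rw [(xc n p).right_inv hyt] at hJ
    rw [(xc n p).right_inv hyt, hJ] at h3
    have hd := fun j => gU_d hR hU h1 (m := (xc n p).symm y) (mem_image_of_mem _ hycb) j
    rw [(xc n p).right_inv hyt] at hd
    have hV : gU p U ((xc n p).symm y) = S.toE (U (tr (xc n p p) y)) := by
      rw [gU_src hs, (xc n p).right_inv hyt]
      rfl
    obtain ⟨a, ha⟩ := h2 v
    set m := (xc n p).symm y with hmdef
    set Jm := LR.jm w (tr (xc n p p) y) with hJdef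
    set y' := tr (xc n p p) y with hy'
    have hy'b : y' ∈ bB n R := (tr_bB _ hR.1 y).2 hy
    -- on the coordinate vectors
    have key : ∀ j : Fin n, Am Q m (cV p m j) = ContinuousLinearMap.adjoint (gU p U m) *
        (Am P (J.mv p (fun y => y + w y) m) (Dm (J.mv p fun y => y + w y) m (cV p m j))) *
          gU p U m + ContinuousLinearMap.adjoint (gU p U m) *
            (dmap (𝓡∂ n) (gU p U : M → EndF N) m (cV p m j) : EndF N) := by
      intro j
      have e1 : Am Q m (cV p m j) = S.toE (A₂ j y') := hBQ y hy j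
      have e2 : Dm (J.mv p fun y => y + w y) m (cV p m j) =
          ∑ k, Jm k j • cV p (J.mv p (fun y => y + w y) m) k := h3 j
      have e3 : ∀ k, Am P (J.mv p (fun y => y + w y) m) (cV p (J.mv p (fun y => y + w y) m) k) =
          S.toE (A₁ k (y' + w y')) := by
        intro k
        have e4 := hBP _ htc k
        have e5 : tr (xc n p p) (J.tch (xc n p p) (fun y => y + w y) y) = y' + w y' := by
          unfold J.tch
          rw [tr_tri]
        rw [e5] at e4
        rw [hmv]
        exact e4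
      have e6 : Am P (J.mv p (fun y => y + w y) m) (Dm (J.mv p fun y => y + w y) m (cV p m j)) =
          S.toE (LR.pb w A₁ j y') := by
        rw [e2, map_sum]
        simp only [map_smul, e3]
        rw [S.toE_rsum (fun k => A₁ k (y' + w y')) (fun k => Jm k j)]
        congr 1
      rw [e1, e6, hd j, hV, hg j y' hy'b, ← S.toE_star, S.toE_add, S.toE_mul, S.toE_mul, S.toE_mul]
    have ha' : v = ∑ j, a j • cV p m j := ha
    have e7 : Am Q m v = ∑ j, a j • Am Q m (cV p m j) := by
      rw [ha', map_sum]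
      exact Finset.sum_congr rfl fun j _ => map_smul _ _ _
    have e8 : Am P (J.mv p (fun y => y + w y) m) (Dm (J.mv p fun y => y + w y) m v) =
        ∑ j, a j • Am P (J.mv p (fun y => y + w y) m) (Dm (J.mv p fun y => y + w y) m (cV p m j)) := by
      rw [ha', map_sum, map_sum]
      exact Finset.sum_congr rfl fun j _ => by rw [map_smul, map_smul]
    have e9 : (dmap (𝓡∂ n) (gU p U : M → EndF N) m v : EndF N) =
        ∑ j, a j • (dmap (𝓡∂ n) (gU p U : M → EndF N) m (cV p m j) : EndF N) := by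
      have e10 : ∀ T : E n →L[ℝ] EndF N, T v = ∑ j, a j • T (cV p m j) := by
        intro T
        rw [ha', map_sum]
        exact Finset.sum_congr rfl fun j _ => map_smul _ _ _
      exact e10 _
    rw [e7, e8, e9, Finset.mul_sum, Finset.sum_mul, Finset.mul_sum, ← Finset.sum_add_distrib]
    refine Finset.sum_congr rfl fun j _ => ?_
    rw [key j, smul_add, mul_smul_comm, smul_mul_assoc, mul_smul_comm]
  · rw [gU_off hR h1 hm, gU_d_off hR hU h1 hm, J.mv_off_D hR D hm, J.mv_off hR (J.lc_w D) hm, hA m hm]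
    have e1 : ContinuousLinearMap.adjoint (1 : EndF N) = 1 := _root_.star_one (EndF N)
    rw [e1, one_mul, mul_one, mul_zero, add_zero]

end

end Vale.Agent.P088.H207.L

end
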