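import Vale.Agent.P088.H207.St2

/-!
# P088: a metric and a connection near the trivial pair in a ball, definitions
-/

open Set
open scoped Matrix ContDiff

noncomputable section

namespace Vale.Agent.P088.H207

open Vale.Agent.P088.B

universe u

variable {n N : ℕ} [NeZero n] {M : Type u} {Z : At n M}

/-- `c > 0` is smooth on `ℝ^n`, and the derivatives of `c - 1` of order at most `k` are at most
`ε`. -/
def NearC (k : ℕ) (ε : ℝ) (c : V n → ℝ) : Prop :=
  ContDiff ℝ ∞ c ∧ (∀ y, 0 < c y) ∧ ∀ l ≤ k, ∀ y, ‖iteratedFDeriv ℝ l (fun y => c y - 1) y‖ ≤ ε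

/-- `∑ α_i dy_i` is a smooth unitary connection on `ℝ^n`, and the derivatives of its entries of
order at most `k` are at most `ε`. -/
def NearA (k : ℕ) (ε : ℝ) (α : Fin n → V n → Matrix (Fin N) (Fin N) ℂ) : Prop :=
  ∀ i, (∀ a b, ContDiff ℝ ∞ fun y => α i y a b) ∧ (∀ y, (α i y)ᴴ = -α i y) ∧
    ∀ a b, ∀ l ≤ k, ∀ y, ‖iteratedFDeriv ℝ l (fun y => α i y a b) y‖ ≤ ε

/-- In the chart at `p`, on the ball of radius `R`: `g_{ij} = c(· - y(p)) δ_{ij}` and
`A_i = α_i(· - y(p))`, where `y(p)` are the coordinates of `p`. -/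
def MatchA (c : V n → ℝ) (α : Fin n → V n → Matrix (Fin N) (Fin N) ℂ) (P : Pair Z N) (p : M)
    (R : ℝ) : Prop :=
  ∀ x ∈ oball Z p R,
    gch Z P.g p (Z.ch p x) = c (Z.ch p x - Z.ch p p) • (1 : Matrix (Fin n) (Fin n) ℝ) ∧
      ∀ i, ach Z P.A p i (Z.ch p x) = α i (Z.ch p x - Z.ch p p)

/-- In the chart at `p`, on the ball of radius `R`: the derivatives of the entries of `A_i` of order
at most `k` are at most `ε`. -/
def CloseA (k : ℕ) (ε : ℝ) (Q : Pair Z N) (p : M) (R : ℝ) : Prop :=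
  ∀ x ∈ oball Z p R, ∀ i a b, ∀ l ≤ k,
    ‖iteratedFDeriv ℝ l (fun y : V n => ach Z Q.A p i y a b) (Z.ch p x)‖ ≤ ε

end Vale.Agent.P088.H207

end
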