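import Vale.Agent.P088.H207.L5
import Vale.Agent.P088.H207.K2
import Vale.Agent.P088.H207.St5

/-!
# P088: joint local uniqueness of the metric and the connection in a ball of a manifold
-/

set_option linter.all false

open Bundle Manifold MeasureTheory Set Filter Topology
open scoped ContDiff Matrix ENNReal

noncomputable section

namespace Vale.Agent.P088.H207.L

open Vale.Agent.P088 Vale.Agent.P088.B Vale.Agent.P088.EYM
open Vale.Agent.P088.H207 (gl oball kball IsBall MatchA Close CloseA NearC NearA isCB_of kball_at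
  oball_at ch_at gch_at compl_cb)
open Vale.Agent.P088.H207.J (bB tr tri tr_tri tri_tr tr_sq tr_bB tri_bB bB_open bB_reg bB_box tr_cd
  tri_cd tr_fd int_tr bB_eq)

universe u

section

variable {n : ℕ} {F : Type*}

/-- `f` on the ball of radius `R`, and `g` off it. -/
def glu (R : ℝ) (f g : (Fin n → ℝ) → F) : (Fin n → ℝ) → F := fun y =>
  haveI := Classical.dec (y ∈ bB n R)
  if y ∈ bB n R then f y else g y

variable {R ρ : ℝ} {f g : (Fin n → ℝ) → F}

theorem glu_in {y : Fin n → ℝ} (hy : y ∈ bB n R) : glu R f g y = f y := if_pos hy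

theorem glu_out {y : Fin n → ℝ} (hy : y ∉ bB n R) : glu R f g y = g y := if_neg hy

theorem isOpen_off : IsOpen {y : Fin n → ℝ | ρ ^ 2 < ∑ i, (y i) ^ 2} :=
  isOpen_lt continuous_const (by fun_prop)

theorem mem_off (h0 : ρ ^ 2 < R ^ 2) {y : Fin n → ℝ} (hy : y ∉ bB n R) :
    ρ ^ 2 < ∑ i, (y i) ^ 2 := lt_of_lt_of_le h0 (not_lt.1 hy)

theorem glu_off (h1 : ∀ y ∈ bB n R, ρ ^ 2 < ∑ i, (y i) ^ 2 → f y = g y) {y : Fin n → ℝ}
    (hy : ρ ^ 2 < ∑ i, (y i) ^ 2) : glu R f g y = g y := by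
  by_cases h : y ∈ bB n R
  · rw [glu_in h, h1 y h hy]
  · exact glu_out h

variable [NormedAddCommGroup F] [NormedSpace ℝ F]

theorem glu_sm (h0 : ρ ^ 2 < R ^ 2) (hf : ContDiffOn ℝ ∞ f (bB n R)) (hg : ContDiff ℝ ∞ g)
    (h1 : ∀ y ∈ bB n R, ρ ^ 2 < ∑ i, (y i) ^ 2 → f y = g y) : ContDiff ℝ ∞ (glu R f g) := by
  rw [contDiff_iff_contDiffAt]
  intro y
  by_cases hy : y ∈ bB n R
  · have e1 : glu R f g =ᶠ[𝓝 y] f := by
      filter_upwards [bB_open.mem_nhds hy] with x hx
      rw [glu_in hx]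
    exact (hf.contDiffAt (bB_open.mem_nhds hy)).congr_of_eventuallyEq e1
  · have e1 : glu R f g =ᶠ[𝓝 y] g := by
      filter_upwards [isOpen_off.mem_nhds (mem_off h0 hy)] with x hx
      rw [glu_off h1 hx]
    exact hg.contDiffAt.congr_of_eventuallyEq e1

theorem glu_cl (h0 : ρ ^ 2 < R ^ 2) (h1 : ∀ y ∈ bB n R, ρ ^ 2 < ∑ i, (y i) ^ 2 → f y = g y)
    {k : ℕ} {ε : ℝ} (h2 : ∀ y ∈ bB n R, ∀ l ≤ k, ‖iteratedFDeriv ℝ l f y‖ ≤ ε)
    (h3 : LR.Cl k ε g) : LR.Cl k ε (glu R f g) := by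
  intro l hl y
  by_cases hy : y ∈ bB n R
  · have e1 : glu R f g =ᶠ[𝓝 y] f := by
      filter_upwards [bB_open.mem_nhds hy] with x hx
      rw [glu_in hx]
    rw [(e1.iteratedFDeriv ℝ l).self_of_nhds]
    exact h2 y hy l hl
  · have e1 : glu R f g =ᶠ[𝓝 y] g := by
      filter_upwards [isOpen_off.mem_nhds (mem_off h0 hy)] with x hx
      rw [glu_off h1 hx]
    rw [(e1.iteratedFDeriv ℝ l).self_of_nhds]
    exact h3 l hl y

end

section

variable {n N : ℕ} [NeZero n] {M : Type u} [TopologicalSpace M]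
  [ChartedSpace (EuclideanHalfSpace n) M] [IsManifold (𝓡∂ n) ∞ M]

/-- The connection in the chart. -/
theorem ach_at (Q : Pair (at_ n M) N) (p : M) {y : E n} (hy : y ∈ tg n p) (i : Fin n) :
    letI := borel M
    ((B2.one Q).loc p).B i y = S.toE (ach (at_ n M) Q.A p i (WithLp.ofLp y)) := by
  letI := borel M
  have h1 : (xc n p).symm y ∈ S.src n p := by
    rw [S.src_eq]
    exact (xc n p).map_target hy
  rw [at_ach, S.pt_eq hy]
  show S.formOf (Q.A ((xc n p).symm y)) (cc (𝓡∂ n) p ((xc n p).symm y) (Vale.Agent.P088.es n i)) = _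
  rw [S.formOf_apply, S.toE_rsum]
  simp only [S.jac_eq h1]

end

/-- Joint local uniqueness of the metric and the connection in a ball. -/
theorem joint_one {n N : ℕ} [NeZero n] (hn : 3 ≤ n) (hN : 1 ≤ N) {k : ℕ} {ε R : ℝ} (hR0 : 0 < R)
    (hε : 0 < ε) (hrig : LocUO n N k R ε) {M : Type u} [TopologicalSpace M]
    [ChartedSpace (EuclideanHalfSpace n) M] [IsManifold (𝓡∂ n) ∞ M] [T2Space M] [CompactSpace M]
    [ConnectedSpace M] (Z : At n M) (hZ : Z = at_ n M) (Γ O₀ : Set M) (hO₀ : IsOpen O₀)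
    (hΓ : Γ = O₀ ∩ bd Z) (hne : Γ.Nonempty) (P P' Q Q' : Pair Z N)
    (hd : Vale.Agent.P088.B.SameData Γ P Q) (hR : Related Γ P P') (hQg : Q.g = Q'.g)
    (hgeq : Vale.Agent.P088.B.GaugeEq Γ Q'.A Q.A Z) (p : M) (hp : IsBall Z p R)
    (c : B.V n → ℝ) (hc : NearC k ε c) (α : Fin n → B.V n → Matrix (Fin N) (Fin N) ℂ)
    (hα : NearA k ε α) (hmat : MatchA c α P' p R) (ρ : ℝ) (hρ : 0 < ρ)
    (hρR : ρ < R) (hpw : B8.PwLe (kball Z p ρ)ᶜ Γ P' Q)
    (hAoff : ∀ x ∉ kball Z p ρ, Q'.A x = P'.A x) (hcl : Close k ε Q p R)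
    (hclA : CloseA k ε Q' p R) : Related Γ P Q := by
  have hd' : Vale.Agent.P088.B.SameData Γ P' Q := Vale.Agent.P088.B.same_related Z hZ hO₀ hΓ hne hR hd
  subst hZ
  letI := borel M
  haveI : BorelSpace M := ⟨rfl⟩
  obtain ⟨hrel, hok, -, -⟩ := TM.fLoc n N M
  have hCB : IsCB n p R := isCB_of hp
  have hK : kball (at_ n M) p ρ = cb n p ρ := kball_at hCB hρ.le hρR.le
  have hV : oball (at_ n M) p R = (xc n p).symm '' Metric.ball (xc n p p) R := oball_at hCB
  obtain ⟨hOo, hOp, hObd⟩ := compl_cb (M := M) (n := n) (by omega) hCB hρ hρR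
  have hb : bd (at_ n M) = (𝓡∂ n).boundary M := bd_at
  set z : E n := xc n p p with hz
  have hbt : Metric.ball z R ⊆ tg n p :=
    Metric.ball_subset_closedBall.trans (hCB.2.trans inter_subset_left)
  have hpos : Metric.ball z R ⊆ {y | 0 < y 0} :=
    Metric.ball_subset_closedBall.trans (hCB.2.trans inter_subset_right)
  have hmem : ∀ y ∈ Metric.ball z R, (xc n p).symm y ∈ oball (at_ n M) p R := fun y hy => by
    rw [hV]
    exact mem_image_of_mem _ hy
  have hchy : ∀ y ∈ Metric.ball z R, (at_ n M).ch p ((xc n p).symm y) = WithLp.ofLp y :=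
    fun y hy => by rw [ch_at, (xc n p).right_inv (hbt hy)]
  -- the hole
  obtain ⟨U₀, hU1, hU2, hU3, hU4⟩ := id hgeq
  have hole : B8.Hole U₀ (kball (at_ n M) p ρ) (oball (at_ n M) p R) Γ P' Q := by
    refine ⟨?_, ?_, ?_, ?_, ?_, hpw, ⟨hU1, hU2, hU3, fun x hx j => ?_⟩⟩
    · rw [hK]
      exact isOpen_compl_iff.1 hOo
    · rw [hK, hb, eq_empty_iff_forall_notMem]
      rintro x ⟨h1, h2⟩
      exact hObd x h2 h1
    · rw [hK]
      exact hOp
    · rw [hV]
      exact cRungeB_B_open TM.fLoc hCB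
    · rw [hK, hV]
      exact image_mono (Metric.closedBall_subset_ball hρR)
    · rw [hU4 x j, hAoff x hx]
  obtain ⟨h1, -, -⟩ := B8.hole' hn hN (at_ n M) rfl Γ O₀ hO₀ hΓ hne P' Q hd' U₀ _ _ hole
  obtain ⟨W, hW, hW1, hW2⟩ := Vale.Agent.P088.B.toGauge hgeq
  have hS : EYM.SameD (B2.one P') (EYM.O.wA (B2.one Q) (B2.one Q').A) Γ :=
    (EYM.O.mg_closed n N M (EYM.O.wA (B2.one Q) (B2.one Q').A) (B2.one P') Γ
      (B2.one Q).A W hW hW1 hW2).2.2 (Vale.Agent.P088.B.sameD_one hd')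
  have hRB : EYM.RelBd n Γ := ⟨O₀, hO₀, by rw [hΓ, hb]⟩
  have hchp : (at_ n M).ch p p = WithLp.ofLp z := ch_at p p
  have hokQ : ((EYM.O.wA (B2.one Q) (B2.one Q').A).loc p).Ok (Metric.ball z R) :=
    CHarm_ok_mono (hok _ p) hbt
  -- centred coordinates
  have hsq : ρ ^ 2 < R ^ 2 := pow_lt_pow_left₀ hρR hρ.le two_ne_zero
  set y₀ : Fin n → ℝ := WithLp.ofLp z with hy₀
  have htr : ∀ x : E n, WithLp.ofLp x - y₀ = tr z x := fun x => rfl
  have htri : ∀ y : Fin n → ℝ, WithLp.ofLp (tri z y) = y + y₀ := by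
    intro y
    funext j
    show z j + y j = y j + z j
    ring
  have hnotin : ∀ y ∈ bB n R, ρ ^ 2 < ∑ i, (y i) ^ 2 →
      (xc n p).symm (tri z y) ∉ cb n p ρ := by
    intro y hy hy'
    have hx := (tri_bB z hR0 y).2 hy
    have hxρ : tri z y ∉ Metric.closedBall z ρ := by
      intro h
      rw [mem_closedBall_iff_norm] at h
      have e1 : ∑ i, (y i) ^ 2 = ‖tri z y - z‖ ^ 2 := by
        rw [← tr_sq, tr_tri]
      rw [e1] at hy'
      exact absurd (pow_le_pow_left₀ (norm_nonneg _) h 2) (not_le.2 hy')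
    rintro ⟨x', hx', he⟩
    have h6 : x' = tri z y := (xc n p).symm.injOn
      ((hCB.2 (Metric.closedBall_subset_closedBall hρR.le hx')).1) (hbt hx) he
    exact hxρ (h6 ▸ hx')
  -- the metrics
  have hgP : ∀ y ∈ Metric.ball z R, gl P' p y = LR.CF.sc c (tr z y) := by
    intro y hy
    have e1 := (hmat _ (hmem y hy)).1
    rw [hchy y hy, gch_at P' p (hbt hy), hchp] at e1
    exact e1
  set f : LR.MF n := fun y => gch (at_ n M) Q.g p (y + y₀) with hf
  have hfgl : ∀ y ∈ bB n R, f y = gl Q p (tri z y) := by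
    intro y hy
    have e1 := gch_at Q p (hbt ((tri_bB z hR0 y).2 hy))
    rw [htri] at e1
    exact e1
  have hf1 : ∀ y ∈ bB n R, ρ ^ 2 < ∑ i, (y i) ^ 2 → f y = LR.CF.sc c y := by
    intro y hy hy'
    have hx := (tri_bB z hR0 y).2 hy
    have h5 := hnotin y hy hy'
    have e1 : gl Q p (tri z y) = gl P' p (tri z y) := by
      ext i j
      show S.bil (Q.g _) _ _ = S.bil (P'.g _) _ _
      rw [h1 _ (by rw [hK]; exact h5)]
    rw [hfgl y hy, e1, hgP _ hx, tr_tri]
  have hfs : ∀ i j, ContDiffOn ℝ ∞ (fun y => f y i j) (bB n R) := by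
    intro i j
    have e2 : ContDiffOn ℝ ∞ (fun x : E n => gl Q p x i j) (Metric.ball z R) :=
      hokQ.g_smooth i j
    refine (e2.comp (tri_cd z).contDiffOn fun y hy => (tri_bB z hR0 y).2 hy).congr
      fun y hy => ?_
    rw [hfgl y hy]
    rfl
  have hcs : LR.SmM (LR.CF.sc c) := LR.CF.smM_sc442 hc.1
  set g : LR.MF n := J.K.glue R f (LR.CF.sc c) with hg
  have hgs : LR.SmM g := J.K.glue_sm hsq hfs hcs hf1
  have hgp : ∀ y, (g y).PosDef := by
    intro y
    by_cases hy : y ∈ bB n R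
    · rw [hg, J.K.glue_in hy, hfgl y hy]
      exact hokQ.g_pos _ ((tri_bB z hR0 y).2 hy)
    · rw [hg, J.K.glue_out hy]
      exact LR.CF.posDef_sc442 hc.2.1 y
  have hgQ : ∀ x ∈ Metric.ball z R, g (tr z x) = gl Q p x := by
    intro x hx
    have e1 := (tr_bB z hR0 x).2 hx
    rw [hg, J.K.glue_in e1, hfgl _ e1, tri_tr]
  have hgPc : ∀ x ∈ Metric.ball z R, LR.CF.sc c (tr z x) = gl P' p x :=
    fun x hx => (hgP x hx).symm
  have hgcl : ∀ i j, LR.Cl k ε (fun x => g x i j - (1 : Matrix (Fin n) (Fin n) ℝ) i j) := by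
    intro i j
    have e1 : (fun x => g x i j - (1 : Matrix (Fin n) (Fin n) ℝ) i j) =
        glu R (fun y => f y i j - (1 : Matrix (Fin n) (Fin n) ℝ) i j)
          (fun y => LR.CF.sc c y i j - (1 : Matrix (Fin n) (Fin n) ℝ) i j) := by
      funext y
      by_cases hy : y ∈ bB n R
      · rw [glu_in hy, hg, J.K.glue_in hy]
      · rw [glu_out hy, hg, J.K.glue_out hy]
    rw [e1]
    refine glu_cl hsq (fun y hy hy' => by rw [hf1 y hy hy']) (fun y hy l hl => ?_)
      (LR.CF.cl_sc442 hε.le hc.2.2 i j)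
    have e0 := (tri_bB z hR0 y).2 hy
    have e2 := hcl _ (hmem _ e0) i j l hl
    rw [hchy _ e0, htri] at e2
    have e3 := iteratedFDeriv_comp_add_right (𝕜 := ℝ) (f := fun y : Fin n → ℝ =>
      gch (at_ n M) Q.g p y i j - (1 : Matrix (Fin n) (Fin n) ℝ) i j) l y₀ y
    have e4 : iteratedFDeriv ℝ l (fun y => f y i j - (1 : Matrix (Fin n) (Fin n) ℝ) i j) y =
        iteratedFDeriv ℝ l (fun y : Fin n → ℝ =>
          gch (at_ n M) Q.g p y i j - (1 : Matrix (Fin n) (Fin n) ℝ) i j) (y + y₀) := e3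
    rw [e4]
    exact e2
  -- the connections
  have hαU : LR.SmU α := ⟨fun i a b => (hα i).1 a b, fun i x => (hα i).2.1 x⟩
  have hBP : ∀ x ∈ Metric.ball z R, ∀ i, ((B2.one P').loc p).B i x = S.toE (α i (tr z x)) := by
    intro x hx i
    have e1 := (hmat _ (hmem x hx)).2 i
    rw [hchy x hx, hchp] at e1
    rw [ach_at P' p (hbt hx) i, e1]
    rfl
  have hBQ0 : ∀ x ∈ Metric.ball z R, ∀ i, ((B2.one Q').loc p).B i x =
      S.toE (ach (at_ n M) Q'.A p i (WithLp.ofLp x)) := fun x hx i => ach_at Q' p (hbt hx) i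
  set φ : Fin n → (Fin n → ℝ) → Matrix (Fin N) (Fin N) ℂ := fun i y =>
    ach (at_ n M) Q'.A p i (y + y₀) with hφ
  have hφB : ∀ y ∈ bB n R, ∀ i, ((B2.one Q').loc p).B i (tri z y) = S.toE (φ i y) := by
    intro y hy i
    rw [hBQ0 _ ((tri_bB z hR0 y).2 hy) i, htri]
  have hφ1 : ∀ i, ∀ y ∈ bB n R, ρ ^ 2 < ∑ i, (y i) ^ 2 → φ i y = α i y := by
    intro i y hy hy'
    have hx := (tri_bB z hR0 y).2 hy
    have h5 := hnotin y hy hy'
    apply S.toE_inj
    rw [← hφB y hy i]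
    have e1 := hBP _ hx i
    rw [tr_tri] at e1
    rw [← e1]
    show S.formOf (Q'.A _) _ = S.formOf (P'.A _) _
    rw [hAoff _ (by rw [hK]; exact h5)]
  have hokQ' : ((B2.one Q').loc p).Ok (Metric.ball z R) := CHarm_ok_mono (hok _ p) hbt
  have hφs : ∀ i a b, ContDiffOn ℝ ∞ (fun y => φ i y a b) (bB n R) := by
    intro i a b
    have e2 : ContDiffOn ℝ ∞ (fun x : E n => S.ent a b (((B2.one Q').loc p).B i x))
        (Metric.ball z R) := (S.ent a b).contDiff.comp_contDiffOn (hokQ'.B_smooth i)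
    refine (e2.comp (tri_cd z).contDiffOn fun y hy => (tri_bB z hR0 y).2 hy).congr
      fun y hy => ?_
    show φ i y a b = S.ent a b (((B2.one Q').loc p).B i (tri z y))
    rw [hφB y hy i, S.ent_apply, S.ofE_toE]
  have hφk : ∀ i, ∀ y ∈ bB n R, (φ i y)ᴴ = -φ i y := by
    intro i y hy
    apply S.toE_inj
    rw [S.toE_star, S.toE_neg, ← hφB y hy i]
    exact (B2.one Q').A.skew _ _
  set A₂ : LR.Cn n N := fun i => glu R (φ i) (α i) with hA₂
  have hA₂e : ∀ i a b, (fun y => A₂ i y a b) = glu R (fun y => φ i y a b)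
      (fun y => α i y a b) := by
    intro i a b
    funext y
    by_cases hy : y ∈ bB n R
    · rw [glu_in hy, hA₂]
      simp only
      rw [glu_in hy]
    · rw [glu_out hy, hA₂]
      simp only
      rw [glu_out hy]
  have hA₂U : LR.SmU A₂ := by
    refine ⟨fun i a b => ?_, fun i y => ?_⟩
    · rw [hA₂e i a b]
      exact glu_sm hsq (hφs i a b) ((hα i).1 a b) fun y hy hy' => by rw [hφ1 i y hy hy']
    · by_cases hy : y ∈ bB n R
      · rw [hA₂]
        simp only
        rw [glu_in hy, hφk i y hy]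
      · rw [hA₂]
        simp only
        rw [glu_out hy, (hα i).2.1 y]
  have hA₂c : ∀ i, LR.U.ClC k ε (A₂ i) := by
    intro i a b
    rw [hA₂e i a b]
    refine glu_cl hsq (fun y hy hy' => by rw [hφ1 i y hy hy']) (fun y hy l hl => ?_)
      ((hα i).2.2 a b)
    have e0 := (tri_bB z hR0 y).2 hy
    have e2 := hclA _ (hmem _ e0) i a b l hl
    rw [hchy _ e0, htri] at e2
    have e3 := iteratedFDeriv_comp_add_right (𝕜 := ℝ) (f := fun y : Fin n → ℝ =>
      ach (at_ n M) Q'.A p i y a b) l y₀ y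
    have e4 : iteratedFDeriv ℝ l (fun y => φ i y a b) y =
        iteratedFDeriv ℝ l (fun y : Fin n → ℝ => ach (at_ n M) Q'.A p i y a b) (y + y₀) := e3
    rw [e4]
    exact e2
  have hBQ : ∀ x ∈ Metric.ball z R, ∀ i, ((B2.one Q').loc p).B i x =
      S.toE (A₂ i (tr z x)) := by
    intro x hx i
    have hx' := (tr_bB z hR0 x).2 hx
    have e1 := hφB _ hx' i
    rw [tri_tr] at e1
    rw [e1, hA₂]
    simp only
    rw [glu_in hx']
  have hor : LR.U.OrU (bB n R) (LR.sg (LR.CF.sc c)) α (LR.sg g) A₂ :=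
    orU_one (by omega) (P := B2.one P') (Q := EYM.O.wA (B2.one Q) (B2.one Q').A) hRB hne hS hCB
      hρ hρR (fun m hm X => by
        show S.formOf (P'.A m) X = S.formOf (Q'.A m) X
        rw [hAoff m (by rw [hK]; exact hm)])
      (fun x hx v w => by
        show S.bil (Q.g x) v w = S.bil (P'.g x) v w
        rw [h1 x (by rw [hK]; exact hx)]) hcs hgs
      (LR.CF.posDef_sc442 hc.2.1) hgp hgPc hgQ hαU hA₂U hBP (fun x hx i => hBQ x hx i)
  obtain ⟨w, K, U, D, hwK, hUs, hUu, hU1', hUg⟩ := hrig c g hc.1 hc.2.1 hgs hgp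
    (fun y hy => J.K.glue_out hy) hc.2.2 hgcl α A₂ hαU hA₂U (fun i y hy => glu_out hy)
    (fun i a b => (hα i).2.2 a b) hA₂c hor
  -- the conclusion
  have hfin : Related Γ P Q' := by
    refine related_comp2 hR (J.mvD hCB D) (fun x hx => ?_) (gU_uni hCB hUs hU1' hUu)
      (fun x hx => ?_) ?_ ?_
    · refine J.mv_off hCB (J.lc_w D) fun hx' => ?_
      rw [hΓ, hb] at hx
      have h3 : x ∈ Mi n M := cRungeB_cb_mi TM.fLoc hCB
        (image_mono Metric.ball_subset_closedBall hx')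
      have h4 := hx.2
      rw [← ModelWithCorners.compl_interior] at h4
      exact h4 h3
    · refine gU_off hCB hU1' fun hx' => ?_
      rw [hΓ, hb] at hx
      have h3 : x ∈ Mi n M := cRungeB_cb_mi TM.fLoc hCB
        (image_mono Metric.ball_subset_closedBall hx')
      have h4 := hx.2
      rw [← ModelWithCorners.compl_interior] at h4
      exact h4 h3
    · intro m v v'
      refine J.mv_met (P := B2.one P') (Q := B2.one Q') hCB D (fun m hm => ?_) ?_ m v v'
      · show S.bil (Q'.g m) = S.bil (P'.g m)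
        rw [← hQg, h1 m (by
          rw [hK]
          exact fun h => hm (image_mono (Metric.closedBall_subset_ball hρR) h))]
      · intro y hy
        have e1 := J.tch_on hR0 (J.lc_w D) (z := z) hy
        have e2 : tr z (J.tch z (fun y => y + w y) y) = tr z y + w (tr z y) := by
          unfold J.tch
          rw [tr_tri]
        have e3 : ((B2.one Q').loc p).g y = gl Q p y := by
          show gl Q' p y = gl Q p y
          have e4 := gch_at Q' p (hbt hy)
          have e5 := gch_at Q p (hbt hy)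
          rw [hQg] at e5
          exact e4.symm.trans e5
        have e5 : ((B2.one P').loc p).g (J.tch z (fun y => y + w y) y) =
          gl P' p (J.tch z (fun y => y + w y) y) := rfl
        rw [e3, e5, ← hgQ y hy, hwK, ← hgPc _ e1, e2]
        unfold LR.CF.sc
        rw [Matrix.mul_smul, Matrix.mul_one, Matrix.smul_mul]
    · intro m v
      refine mv_con2 (P := B2.one P') (Q := B2.one Q') hCB D hUs hU1' hBP hBQ (fun m hm => ?_)
        hUg m v
      show S.formOf (Q'.A m) = S.formOf (P'.A m)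
      rw [hAoff m (by
          rw [hK]
          exact fun h => hm (image_mono (Metric.closedBall_subset_ball hρR) h))]
  exact related_gauge hfin hgeq hQg

end Vale.Agent.P088.H207.L

end
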