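import Vale.Agent.P088.H207.L6

/-!
# P088: joint local uniqueness of the metric and the connection in a ball of a manifold, final form
-/

set_option linter.all false

open Bundle Manifold MeasureTheory Set Filter Topology
open scoped ContDiff Matrix ENNReal

noncomputable section

namespace Vale.Agent.P088.H207.L

open Vale.Agent.P088 Vale.Agent.P088.B Vale.Agent.P088.EYM
open Vale.Agent.P088.H207 (kball IsBall MatchA Close CloseA NearC NearA)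

universe u

/-- Joint local uniqueness of the metric and the connection in a ball. -/
theorem joint_ball {n N : ℕ} [NeZero n] (hn : 3 ≤ n) (hN : 1 ≤ N)
    (hRig : ∃ (k : ℕ) (ε : ℝ), 0 < ε ∧ LR.U.RigU n N k ε) :
    ∃ k : ℕ, ∀ R : ℝ, 0 < R → ∃ ε : ℝ, 0 < ε ∧ ∀ {M : Type u} [TopologicalSpace M]
    [ChartedSpace (EuclideanHalfSpace n) M] [IsManifold (𝓡∂ n) ∞ M] [T2Space M] [CompactSpace M]
    [ConnectedSpace M] (Z : At n M) (_ : Z = at_ n M) (Γ O₀ : Set M) (_ : IsOpen O₀)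
    (_ : Γ = O₀ ∩ bd Z) (_ : Γ.Nonempty) (P P' Q Q' : Pair Z N)
    (_ : Vale.Agent.P088.B.SameData Γ P Q) (_ : Related Γ P P') (_ : Q.g = Q'.g)
    (_ : Vale.Agent.P088.B.GaugeEq Γ Q'.A Q.A Z) (p : M) (_ : IsBall Z p R)
    (c : B.V n → ℝ) (_ : NearC k ε c) (α : Fin n → B.V n → Matrix (Fin N) (Fin N) ℂ)
    (_ : NearA k ε α) (_ : MatchA c α P' p R) (ρ : ℝ) (_ : 0 < ρ)
    (_ : ρ < R) (_ : B8.PwLe (kball Z p ρ)ᶜ Γ P' Q)
    (_ : ∀ x ∉ kball Z p ρ, Q'.A x = P'.A x) (_ : Close k ε Q p R)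
    (_ : CloseA k ε Q' p R), Related Γ P Q := by
  obtain ⟨k, hk⟩ := locUO hn hRig
  refine ⟨k, fun R hR => ?_⟩
  obtain ⟨ε, hε, hL⟩ := hk R hR
  refine ⟨ε, hε, ?_⟩
  intro M _ _ _ _ _ _ Z hZ Γ O₀ hO₀ hΓ hne P P' Q Q' hd hR' hg hgeq p hp c hc α hα hm ρ hρ hρR hpw
    hA hcl hclA
  exact joint_one hn hN hR hε hL Z hZ Γ O₀ hO₀ hΓ hne P P' Q Q' hd hR' hg hgeq p hp c hc α hα hm ρ
    hρ hρR hpw hA hcl hclA

end Vale.Agent.P088.H207.L

end
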