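import Vale.Agent.P088.H738.URig
import Vale.Agent.P088.H634.UCore
import Vale.Agent.P088.H393.UEsf8
import Vale.Agent.P088.H393.CGM5
import Vale.Agent.P088.H599.J.Abs8
import Vale.Agent.P088.H27.JG2
import Vale.Agent.P088.H952.URot
import Vale.Agent.P088.H292.UPush
import Vale.Agent.P088.H91.UCoo
import Vale.Agent.P088.H535.USmk
import Vale.Agent.P088.H106.UWK
import Vale.Agent.P088.H106.UGAU
import Vale.Agent.P088.H106.URed
import Vale.Agent.P088.H705.UFin
import Vale.Agent.P088.H159.USm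
import Vale.Agent.P088.H925.UInt
import Vale.Agent.P088.H442.CFTop

/-!
# P088: joint rigidity, all rows plugged in
-/

open MeasureTheory Set
open scoped ContDiff Matrix

noncomputable section

namespace Vale.Agent.P088.H207.L

open Vale.Agent.P088.LR Vale.Agent.P088.LR.CF Vale.Agent.P088.LR.U

theorem cgmU : RowCGM :=
  CF.H393.cgm CF.H393.sym H501.rowA1 H501.rowA2 Vale.Agent.P088.H776.rowA3
    (Vale.Agent.P088.H884.a4 H501.rowA2 Vale.Agent.P088.H776.rowA3) Vale.Agent.P088.H102.neu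

theorem absU : RowABSU :=
  U.H599.abs (U.R952.rot (Vale.Agent.P088.H925.intU Vale.Agent.P088.H776.rowA3)
    (U.H393.esf cgmU H501.rowA2 Vale.Agent.P088.H776.rowA3)) H501.rowA2 Vale.Agent.P088.H776.rowA3

theorem coreU : ∀ n N : ℕ, 2 ≤ n → 1 ≤ N → ∃ (k : ℕ) (ε : ℝ), 0 < ε ∧ CoreU n N k ε :=
  Vale.Agent.P088.H634.ucore Vale.Agent.P088.H106.red Vale.Agent.P088.H106.gau
    Vale.Agent.P088.H159.smu U.H91.inv absU Vale.Agent.P088.H705.ufin Vale.Agent.P088.H776.rowA3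

theorem rigU : ∀ n N : ℕ, 2 ≤ n → 1 ≤ N → ∃ (k : ℕ) (ε : ℝ), 0 < ε ∧ RigU n N k ε :=
  rig738 Vale.Agent.P088.H776.rowA3 H72.norm1
    (H27.rowG2U H501.rowA1 H501.rowA2 Vale.Agent.P088.H776.rowA3 Vale.Agent.P088.H102.neu)
    U.H91.coo Vale.Agent.P088.H833.phi Vale.Agent.P088.H292.UP.puu Vale.Agent.P088.H535.smk coreU

end Vale.Agent.P088.H207.L
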