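import Vale.Agent.P088.H207.St4

/-!
# P088: metrics near the conformally flat metrics in a ball, definitions
-/

open Set
open scoped Matrix

noncomputable section

namespace Vale.Agent.P088.H207

open Vale.Agent.P088.B

universe u

variable {n N : ℕ} [NeZero n] {M : Type u} {Z : At n M}

/-- The metric `c δ_{ij}` of `ℝ^n`. -/
def cdel (c : V n → ℝ) (y : V n) : Matrix (Fin n) (Fin n) ℝ :=
  c y • (1 : Matrix (Fin n) (Fin n) ℝ)

/-- In the chart at `p`, on the ball of radius `R`: the derivatives of `g_{ij}` of order at most `k`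
are at most `B`, `det g ≥ 1 / B`, and the entries of `g` (no derivatives) are within `ε` of those of
the conformally flat metric `(det g)^{1/n} δ_{ij}`. -/
def NearConf (k : ℕ) (B ε : ℝ) (Q : Pair Z N) (p : M) (R : ℝ) : Prop :=
  ∀ x ∈ oball Z p R,
    (∀ i j, ∀ l ≤ k, ‖iteratedFDeriv ℝ l (fun y : V n => gch Z Q.g p y i j) (Z.ch p x)‖ ≤ B) ∧
      1 / B ≤ (gch Z Q.g p (Z.ch p x)).det ∧
      ∀ i j, |gch Z Q.g p (Z.ch p x) i j - (gch Z Q.g p (Z.ch p x)).det ^ (1 / (n : ℝ)) *
        (1 : Matrix (Fin n) (Fin n) ℝ) i j| ≤ ε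

end Vale.Agent.P088.H207

end
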