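import Vale.Agent.P088.H207.M1
import Vale.Agent.P088.H207.St6
import Vale.Agent.P088.H833.D.Defs
import Vale.Agent.P088.H442.C.Met

/-!
# P088: semi-global uniqueness near the conformally flat metrics in a ball of a manifold
-/

set_option linter.all false

open Bundle Manifold MeasureTheory Set Filter Topology
open scoped ContDiff Matrix ENNReal

noncomputable section

namespace Vale.Agent.P088.H207.J

open Vale.Agent.P088 Vale.Agent.P088.B Vale.Agent.P088.EYM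
open Vale.Agent.P088.H207 (kball oball IsBall Match CloseTo Pos cdel NearConf isCB_of oball_at ch_at)

universe u

/-- A point of the ball in the chart. -/
theorem ball_pt {n : ℕ} [NeZero n] {M : Type u} [TopologicalSpace M]
    [ChartedSpace (EuclideanHalfSpace n) M] [IsManifold (𝓡∂ n) ∞ M] [T2Space M] [CompactSpace M]
    [ConnectedSpace M] {p : M} {R : ℝ} (hR : 0 < R) (hp : IsBall (at_ n M) p R) {y : Fin n → ℝ}
    (hy : y ∈ bB n R) : ∃ x ∈ oball (at_ n M) p R,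
      (at_ n M).ch p x = y + (at_ n M).ch p p := by
  have hCB : IsCB n p R := isCB_of hp
  have hV : oball (at_ n M) p R = (xc n p).symm '' Metric.ball (xc n p p) R := oball_at hCB
  have hbt : Metric.ball (xc n p p) R ⊆ tg n p :=
    Metric.ball_subset_closedBall.trans (hCB.2.trans inter_subset_left)
  have e0 := (tri_bB (xc n p p) hR y).2 hy
  refine ⟨(xc n p).symm (tri (xc n p p) y), ?_, ?_⟩
  · rw [hV]
    exact mem_image_of_mem _ e0
  · rw [ch_at, (xc n p).right_inv (hbt e0), ch_at]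
    funext j
    show (xc n p p) j + y j = y j + (xc n p p) j
    ring

theorem cdel_sm {n : ℕ} {c : LR.V n → ℝ} (hc : ContDiff ℝ ∞ c) : LR.SmM (cdel c) :=
  LR.CF.smM_sc442 hc

/-- Semi-global uniqueness near the conformally flat metrics. -/
theorem semi_ball {n : ℕ} [NeZero n] (hn : 3 ≤ n)
    (hC : ∃ k : ℕ, ∀ R : ℝ, 0 < R → ∀ c : LR.V n → ℝ, LR.SmP c → ∃ ε > 0,
      LR.CC.LocC n (fun Ω s t => LR.CF.St2 Ω s t) k c ε R)
    (hD : ∃ k : ℕ, ∀ R : ℝ, 0 < R → ∀ c : LR.V n → ℝ, LR.SmP c → ∀ B : ℝ, 0 < B → ∃ ε > 0,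
      LR.CD.LocD n (fun Ω s t => LR.CF.St2 Ω s t) k c B ε R) :
    ∃ k : ℕ, ∀ R : ℝ, 0 < R → ∀ c : B.V n → ℝ, Pos c → ∀ B : ℝ, 0 < B → ∃ ε : ℝ, 0 < ε ∧
    ∀ {N : ℕ} (_ : 1 ≤ N) {M : Type u} [TopologicalSpace M]
    [ChartedSpace (EuclideanHalfSpace n) M] [IsManifold (𝓡∂ n) ∞ M] [T2Space M] [CompactSpace M]
    [ConnectedSpace M] (Z : At n M) (_ : Z = at_ n M) (Γ O₀ : Set M) (_ : IsOpen O₀)
    (_ : Γ = O₀ ∩ bd Z) (_ : Γ.Nonempty) (P P' Q : Pair Z N) (_ : Vale.Agent.P088.B.SameData Γ P Q)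
    (_ : Related Γ P P') (p : M) (_ : IsBall Z p R) (_ : Match (cdel c) P' p R) (ρ : ℝ) (_ : 0 < ρ)
    (_ : ρ < R) (_ : B8.PwLe (kball Z p ρ)ᶜ Γ P' Q)
    (_ : ∃ U, B8.GaugeBy U (kball Z p ρ)ᶜ Γ P'.A Q.A Z)
    (_ : CloseTo k ε (cdel c) Q p R ∨ NearConf k B ε Q p R), Related Γ P Q := by
  obtain ⟨kC, hC⟩ := hC
  obtain ⟨kD, hD⟩ := hD
  refine ⟨max kC kD, fun R hR c hc B hB => ?_⟩
  obtain ⟨εC, hεC, HC⟩ := hC R hR c hc
  obtain ⟨εD, hεD, HD⟩ := hD R hR c hc B hB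
  refine ⟨min εC εD, lt_min hεC hεD, ?_⟩
  intro N hN M _ _ _ _ _ _ Z hZ Γ O₀ hO₀ hΓ hne P P' Q hd hR' p hp hM ρ hρ hρR hpw hU hcl
  have hbR : ∀ y ∈ bB n R, ∀ j, |y j| ≤ R := by
    intro y hy j
    have h1 : ∑ j, (y j) ^ 2 < R ^ 2 := hy
    have h2 : (y j) ^ 2 ≤ ∑ j, (y j) ^ 2 :=
      Finset.single_le_sum (f := fun j => (y j) ^ 2) (fun i _ => sq_nonneg _) (Finset.mem_univ j)
    exact abs_le_of_sq_le_sq (by linarith) hR.le
  have hend : ∀ (w : LR.V n → LR.V n) (g : LR.MF n),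
      (∀ x, g x = c (x + w x) • ((LR.jm w x)ᵀ * LR.jm w x)) →
      ∀ y, g y = (LR.jm w y)ᵀ * cdel c (y + w y) * LR.jm w y := by
    intro w g h y
    rw [h y]
    unfold cdel
    rw [Matrix.mul_smul, Matrix.mul_one, Matrix.smul_mul]
  rcases hcl with hcl | hcl
  · refine K.bg_ball (k := kC) (ε := εC) hn hR hεC.le (h := cdel c) (cdel_sm hc.1)
      (LR.CF.posDef_sc442 hc.2) ?_ hN Z hZ Γ O₀ hO₀ hΓ hne P P' Q hd hR' p hp hM ρ hρ hρR hpw hU
      fun x hx i j l hl => (hcl x hx i j l (hl.trans (le_max_left _ _))).trans (min_le_left _ _)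
    intro g hg hgp hoff hgc hst
    obtain ⟨w, K, D, hwK⟩ := HC (bB n R) bB_open (bB_reg (by omega) hR) hbR g hg hgp hoff hgc hst
    exact ⟨w, K, D, hend w g hwK⟩
  · refine K.bg_ballX hn hR (h := cdel c) (cdel_sm hc.1)
      (LR.CF.posDef_sc442 hc.2) (X := fun g =>
        (∀ i j, ∀ l ≤ kD, ∀ x ∈ bB n R, ‖iteratedFDeriv ℝ l (fun x => g x i j) x‖ ≤ B) ∧
        (∀ x ∈ bB n R, B⁻¹ ≤ (g x).det) ∧
        ∀ i j, ∀ x ∈ bB n R, |g x i j -
          LR.CF.sc (fun x => (g x).det ^ (1 / (n : ℝ))) x i j| ≤ εD) ?_ hN Z hZ Γ O₀ hO₀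
        hΓ hne P P' Q hd hR' p hp hM ρ hρ hρR hpw hU ?_
    · intro g hg hgp hoff hX hst
      obtain ⟨w, K, D, hwK⟩ := HD (bB n R) bB_open (bB_reg (by omega) hR) hbR g hg hgp hoff
        hX.1 hX.2.1 hX.2.2 hst
      exact ⟨w, K, D, hend w g hwK⟩
    · subst hZ
      intro g hg hgp hin hout
      refine ⟨fun i j l hl y hy => ?_, fun y hy => ?_, fun i j y hy => ?_⟩
      · obtain ⟨x, hx, hxy⟩ := ball_pt hR hp hy
        have h1 := (hcl x hx).1 i j l (hl.trans (le_max_right _ _))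
        rw [hxy] at h1
        have e1 : (fun y => g y i j) =ᶠ[𝓝 y]
            fun y => gch (at_ n M) Q.g p (y + (at_ n M).ch p p) i j := by
          filter_upwards [bB_open.mem_nhds hy] with y' hy'
          rw [hin y' hy']
        rw [(e1.iteratedFDeriv ℝ l).self_of_nhds]
        have e3 := iteratedFDeriv_comp_add_right (𝕜 := ℝ) (f := fun y : Fin n → ℝ =>
          gch (at_ n M) Q.g p y i j) l ((at_ n M).ch p p) y
        rw [e3]
        exact h1
      · obtain ⟨x, hx, hxy⟩ := ball_pt hR hp hy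
        have h1 := (hcl x hx).2.1
        rw [hxy, ← hin y hy, one_div] at h1
        exact h1
      · obtain ⟨x, hx, hxy⟩ := ball_pt hR hp hy
        have h1 := (hcl x hx).2.2 i j
        rw [hxy, ← hin y hy] at h1
        exact h1.trans (min_le_right _ _)

end Vale.Agent.P088.H207.J

end
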