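import Vale.Agent.P088.H207.M2
import Vale.Agent.P088.H833.D.Top
import Vale.Agent.P088.H188.MetD

/-!
# P088: semi-global uniqueness near the conformally flat metrics in a ball of a manifold, assembly
-/

set_option linter.all false

open Bundle Manifold MeasureTheory Set Filter Topology
open scoped ContDiff Matrix ENNReal

noncomputable section

namespace Vale.Agent.P088.H207.J

open Vale.Agent.P088 Vale.Agent.P088.B Vale.Agent.P088.EYM
open Vale.Agent.P088.H207 (kball oball IsBall Match CloseTo Pos cdel NearConf isCB_of oball_at ch_at)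

universe u

theorem semi_ball_all {n : ℕ} [NeZero n] (hn : 3 ≤ n) :
    ∃ k : ℕ, ∀ R : ℝ, 0 < R → ∀ c : B.V n → ℝ, Pos c → ∀ B : ℝ, 0 < B → ∃ ε : ℝ, 0 < ε ∧
    ∀ {N : ℕ} (_ : 1 ≤ N) {M : Type u} [TopologicalSpace M]
    [ChartedSpace (EuclideanHalfSpace n) M] [IsManifold (𝓡∂ n) ∞ M] [T2Space M] [CompactSpace M]
    [ConnectedSpace M] (Z : At n M) (_ : Z = at_ n M) (Γ O₀ : Set M) (_ : IsOpen O₀)
    (_ : Γ = O₀ ∩ bd Z) (_ : Γ.Nonempty) (P P' Q : Pair Z N) (_ : Vale.Agent.P088.B.SameData Γ P Q)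
    (_ : Related Γ P P') (p : M) (_ : IsBall Z p R) (_ : Match (cdel c) P' p R) (ρ : ℝ) (_ : 0 < ρ)
    (_ : ρ < R) (_ : B8.PwLe (kball Z p ρ)ᶜ Γ P' Q)
    (_ : ∃ U, B8.GaugeBy U (kball Z p ρ)ᶜ Γ P'.A Q.A Z)
    (_ : CloseTo k ε (cdel c) Q p R ∨ NearConf k B ε Q p R), Related Γ P Q :=
  semi_ball hn (LR.CC.theoremC442 n hn)
    (Vale.Agent.P088.H188.metd Vale.Agent.P088.H833.D.topD_all n hn)

end Vale.Agent.P088.H207.J

end
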