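import Vale.Agent.P088.H207.G1

/-!
# P088: Runge approximation on a compact set of a chart, part 1
-/

set_option linter.all false

open Bundle Manifold MeasureTheory Set Filter Topology
open scoped ContDiff

noncomputable section

namespace Vale.Agent.P088.H207.R

open Vale.Agent.P088 Vale.Agent.P088.EYM

universe u

/-- Green's formula, one function with compact support. -/
theorem greenK {n N : ℕ} [NeZero n] {L : LD n N} {D : Set (E n)} (hD : IsOpen D) (hs : D ⊆ Hs n)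
    (hL : L.Ok D) {φ w : E n → Fib N} (hφ : ContDiffOn ℝ ∞ φ D) (hw : ContDiffOn ℝ ∞ w D)
    {C : Set (E n)} (hC : IsCompact C) (hCD : C ⊆ D) (h0 : ∀ y, y ∉ C → φ y = 0) :
    ∫ x in D, ed L φ w x = - ∫ x in D, inner ℂ (Lop L φ x) (L.h x (w x)) := by
  have hR : RelOpen D := ⟨D, hD, (inter_eq_left.2 hs).symm⟩
  have hgg := hR.gg_smooth hL.g_smooth hL.g_pos
  have hnab := Jacobi_nab_smooth hR hL hφ
  have hfl : ∀ k, ContDiffOn ℝ ∞ (flux L k φ) D := fun k =>
    dc_smooth_sum (f := fun l y => gg L.g k l y • nab L l φ y) _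
      fun l _ => (hgg k l).smul (hnab l)
  have hLop : ContDiffOn ℝ ∞ (Lop L φ) D :=
    dc_smooth_sum (f := fun j y => pd j (flux L j φ) y + L.B j y (flux L j φ y)) _
      fun j _ => (hR.pd_smooth (hfl j) j).add (smooth_eval (hL.B_smooth j) (hfl j))
  have hnab0 : ∀ l, ∀ x ∈ Hs n, x ∉ C → nab L l φ x = 0 := by
    intro l x hx hxC
    unfold nab
    rw [dc_pd_supp hC.isClosed (fun y _ hy => h0 y hy) l x hx hxC, h0 x hxC, map_zero, add_zero]
  have hfl0 : ∀ k, ∀ x ∈ Hs n, x ∉ C → flux L k φ x = 0 := by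
    intro k x hx hxC
    unfold flux
    exact Finset.sum_eq_zero fun l _ => by rw [hnab0 l x hx hxC, smul_zero]
  have hLop0 : ∀ x ∈ Hs n, x ∉ C → Lop L φ x = 0 := by
    intro x hx hxC
    unfold Lop
    refine Finset.sum_eq_zero fun j _ => ?_
    rw [dc_pd_supp hC.isClosed (hfl0 j) j x hx hxC, hfl0 j x hx hxC, map_zero, add_zero]
  set u : Fin n → E n → ℂ := fun k y => (inner ℂ (flux L k φ y) (L.h y (w y)) : ℂ) with hu
  have huD : ∀ k, ContDiffOn ℝ ∞ (u k) D := fun k =>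
    de_smooth_inner (hfl k) (smooth_eval hL.h_smooth hw)
  have hu0 : ∀ k, ∀ x ∈ Hs n, x ∉ C → u k x = 0 := fun k x hx hxC => by
    simp only [hu, hfl0 k x hx hxC, inner_zero_left]
  set f : Fin n → E n → ℂ := fun k => D.indicator (u k) with hf
  have hfu : ∀ k, EqOn (f k) (u k) D := fun k x hx => indicator_of_mem hx _
  have hf0 : ∀ k x, x ∉ C → f k x = 0 := by
    intro k x hxC
    by_cases hx : x ∈ D
    · rw [hfu k hx]
      exact hu0 k x (hs hx) hxC
    · exact indicator_of_notMem hx _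
  have hfc : ∀ k, ContDiff ℝ ∞ (f k) := fun k =>
    aWeakStrong_ext hD hC.isClosed hCD ((huD k).congr (hfu k)) (hf0 k)
  have hsupp : ∀ k, tsupport (f k) ⊆ C := fun k => by
    refine closure_minimal (fun x hx => ?_) hC.isClosed
    by_contra h
    exact hx (hf0 k x h)
  have hzero : ∀ k, ∫ x in D, pd k (u k) x = 0 := by
    intro k
    have h1 : ∫ x in D, pd k (u k) x = ∫ x in D, fderiv ℝ (f k) x (ev k) :=
      setIntegral_congr_fun hD.measurableSet fun x hx => by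
        show pd k (u k) x = _
        rw [← hR.pd_congr (hfu k) hx k]
        exact aWeakStrong_pd hD hs hx k
    rw [h1, setIntegral_eq_integral_of_forall_compl_eq_zero, aWeakStrong_div (hfc k)
      (hC.of_isClosed_subset (isClosed_tsupport _) (hsupp k))]
    intro x hx
    have h2 : x ∉ tsupport (fderiv ℝ (f k)) := fun h =>
      hx (hCD (hsupp k (tsupport_fderiv_subset ℝ h)))
    rw [image_eq_zero_of_notMem_tsupport h2]
    rfl
  have hint1 : ∀ k, IntegrableOn (fun x => pd k (u k) x) D := fun k =>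
    de_integrable hR (hR.pd_smooth (huD k) k) hC hCD (dc_pd_supp hC.isClosed (hu0 k) k)
  have hint2 : IntegrableOn (fun x => (inner ℂ (Lop L φ x) (L.h x (w x)) : ℂ)) D :=
    de_integrable hR (de_smooth_inner hLop (smooth_eval hL.h_smooth hw)) hC hCD
      (fun x hx hxC => by simp only [hLop0 x hx hxC, inner_zero_left])
  have hsum : ∫ x in D, ∑ k, pd k (u k) x = 0 := by
    rw [integral_finsetSum _ fun k _ => hint1 k]
    exact Finset.sum_eq_zero fun k _ => hzero k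
  have hid : ∀ x ∈ D, ed L φ w x = ∑ k, pd k (u k) x - inner ℂ (Lop L φ x) (L.h x (w x)) := by
    intro x hx
    rw [hu, aWeakStrong_ident hR hL hφ hw hx]
    ring
  rw [setIntegral_congr_fun hD.measurableSet hid,
    integral_sub (integrable_finset_sum _ fun k _ => hint1 k) hint2, hsum, zero_sub]

section

variable {n N : ℕ} [NeZero n] {M : Type u} [TopologicalSpace M]
  [ChartedSpace (EuclideanHalfSpace n) M] [IsManifold (𝓡∂ n) ∞ M] [T2Space M] [CompactSpace M]
  [ConnectedSpace M] [MeasurableSpace M] [BorelSpace M]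

/-- The sequence tends to zero off the closed set `S`. -/
theorem zero_off {P : One n N M} {w : ℕ → M → Fib N} {Γ S : Set M}
    (hw : ∀ k, SmS n (w k)) (hw0 : ∀ k, ∀ x ∈ (𝓡∂ n).boundary M, w k x = 0)
    (hcE : ∀ ε > 0, ∃ k₀, ∀ k ≥ k₀, ∀ l ≥ k₀, (P.E (w k - w l) (w k - w l)).re ≤ ε)
    (hcL : ∀ ε > 0, ∃ k₀, ∀ k ≥ k₀, ∀ l ≥ k₀, ∫ x, ‖w k x - w l x‖ ^ 2 ∂P.μ ≤ ε)
    (hS : IsClosed S) (hSi : S ⊆ Mi n M) (hΓ : RelBd n Γ) (hne : Γ.Nonempty)
    (hlim : ∀ φ : M → Fib N, IsBdryData (𝓡∂ n) Γ φ → (∀ m ∈ S, φ m = 0) →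
      Tendsto (fun k => P.E (w k) φ) atTop (𝓝 0))
    (hconn : IsPreconnected (Mi n M \ S)) : Mi n M \ S ⊆ cRungeB_Z P w := by
  obtain ⟨hIo, hIp, hId⟩ := TM.fConn n M
  have hbd : IsClosed ((𝓡∂ n).boundary M) := by
    rw [← ModelWithCorners.compl_interior]
    exact hIo.isClosed_compl
  refine hconn.subset_of_closure_inter_subset (cRungeB_Z_open P w) ?_ ?_
  · obtain ⟨p, hp⟩ := hne
    have hpZ : p ∈ cRungeB_Z P w :=
      cRungeB_i aUcpBd TM.fInt TM.fLoc TM.fEn TM.fExt hbd hw hw0 hcE hcL hS hSi hΓ hlim hp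
    have hpS : p ∉ S := by
      intro hpK
      obtain ⟨O, -, hΓO⟩ := hΓ
      rw [hΓO] at hp
      have h2 := hp.2
      rw [← ModelWithCorners.compl_interior] at h2
      exact h2 (hSi hpK)
    obtain ⟨q, ⟨hqZ, hqS⟩, hqI⟩ := mem_closure_iff.1 (hId p) (cRungeB_Z P w ∩ Sᶜ)
      ((cRungeB_Z_open P w).inter hS.isOpen_compl) ⟨hpZ, hpS⟩
    exact ⟨q, ⟨hqI, hqS⟩, hqZ⟩
  · rintro m ⟨hm, hmI, hmS⟩
    exact cRungeB_ii aUcpInt TM.fInt TM.fLoc TM.fEn TM.fExt hbd hw hcE hcL hS hlim hmI hmS hm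

omit [ConnectedSpace M] in
theorem zero_K {P : One n N M} {w : ℕ → M → Fib N} (hw : ∀ k, Continuous (w k)) {p : M}
    {K : Set (E n)} (hK : IsCompact K) (hKt : K ⊆ tg n p)
    (hZ : (xc n p).symm '' K ⊆ cRungeB_Z P w) :
    Tendsto (fun k => ∫ y in K, ‖lu (𝓡∂ n) p (w k) y‖ ^ 2) atTop (𝓝 0) := by
  refine cRungeB_down (P := P) TM.fInt TM.fLoc hw p hK hKt hK.measurableSet subset_rfl ?_
  exact cRungeB_cover (fun k => cRungeB_integrable P TM.fInt (hw k))
    (hK.image_of_continuousOn ((continuousOn_extChartAt_symm p).mono hKt)) hZ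

end

end Vale.Agent.P088.H207.R

end
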