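import Vale.Agent.P088.H207.N9

/-!
# P088: semi-global uniqueness near the conformally flat metrics, compact sets of a chart
-/

set_option linter.all false

open Bundle Manifold MeasureTheory Set Filter Topology
open scoped ContDiff Matrix ENNReal

noncomputable section

namespace Vale.Agent.P088.H207.R

open Vale.Agent.P088 Vale.Agent.P088.B Vale.Agent.P088.EYM
open Vale.Agent.P088.H207 (IsDom IsOpn inM MatchO CloseO NearO Pos cdel)

universe u

theorem reg_between {n : ℕ} {K W : Set (Fin n → ℝ)} (hK : IsCompact K) (hW : IsOpen W)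
    (hKW : K ⊆ W) : ∃ Ω : Set (Fin n → ℝ), IsOpen Ω ∧ interior (closure Ω) = Ω ∧
      Bornology.IsBounded Ω ∧ K ⊆ Ω ∧ closure Ω ⊆ W := by
  obtain ⟨L, hL, h1, h2⟩ := exists_compact_between hK hW hKW
  have h3 : interior L ⊆ interior (closure (interior L)) :=
    interior_maximal subset_closure isOpen_interior
  have h4 : closure (interior (closure (interior L))) = closure (interior L) :=
    Subset.antisymm (closure_minimal interior_subset isClosed_closure) (closure_mono h3)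
  have h5 : closure (interior L) ⊆ L := closure_minimal interior_subset hL.isClosed
  refine ⟨interior (closure (interior L)), isOpen_interior, by rw [h4], ?_, h1.trans h3, ?_⟩
  · exact hL.isBounded.subset (interior_subset.trans h5)
  · rw [h4]
    exact h5.trans h2

/-- Semi-global uniqueness near the conformally flat metrics, compact sets of a chart with
connected complement. -/
theorem semi_open {n : ℕ} [NeZero n] (hn : 3 ≤ n) :
    ∃ k : ℕ, ∀ R : ℝ, 0 < R → ∀ c : Vale.Agent.P088.B.V n → ℝ, Pos c → ∀ B : ℝ, 0 < B →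
    ∃ ε : ℝ, 0 < ε ∧
    ∀ {N : ℕ} (_ : 1 ≤ N) {M : Type u} [TopologicalSpace M]
    [ChartedSpace (EuclideanHalfSpace n) M] [IsManifold (𝓡∂ n) ∞ M] [T2Space M] [CompactSpace M]
    [ConnectedSpace M] (Z : At n M) (_ : Z = at_ n M) (Γ O₀ : Set M) (_ : IsOpen O₀)
    (_ : Γ = O₀ ∩ bd Z) (_ : Γ.Nonempty) (P P' Q : Pair Z N) (_ : Vale.Agent.P088.B.SameData Γ P Q)
    (_ : Related Γ P P') (p : M) (W : Set (Vale.Agent.P088.B.V n)) (_ : IsOpn Z p W)
    (_ : MatchO (cdel c) P' p W)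
    (K : Set (Vale.Agent.P088.B.V n)) (_ : IsCompact K) (_ : K ⊆ W) (_ : ∀ y ∈ K, ∀ j, |y j| ≤ R)
    (_ : IsPreconnected ((bd Z)ᶜ \ inM Z p K)) (_ : B8.PwLe (inM Z p K)ᶜ Γ P' Q)
    (_ : ∃ U, B8.GaugeBy U (inM Z p K)ᶜ Γ P'.A Q.A Z)
    (_ : CloseO k ε (cdel c) Q p W ∨ NearO k B ε Q p W), Related Γ P Q := by
  obtain ⟨k, hk⟩ := semi_cpt (n := n) hn
  refine ⟨k, fun R hR c hc B hB => ?_⟩
  obtain ⟨ε, hε, H⟩ := hk (R + 1) (by linarith) c hc B hB
  refine ⟨ε, hε, ?_⟩
  intro N hN M _ _ _ _ _ _ Z hZ Γ O₀ hO₀ hΓ hne P P' Q hd hR' p W hW hM K hK hKW hKR hc0 hpw hU hcl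
  have hW' : IsOpen (W ∩ {y : Fin n → ℝ | ∀ j, |y j| < R + 1}) := by
    refine hW.1.inter ?_
    have e1 : {y : Fin n → ℝ | ∀ j, |y j| < R + 1} = ⋂ j, {y : Fin n → ℝ | |y j| < R + 1} := by
      ext y
      simp
    rw [e1]
    exact isOpen_iInter_of_finite fun j => isOpen_lt (by fun_prop) continuous_const
  obtain ⟨Ω, g1, g2, g3, g4, g5⟩ := reg_between hK hW' fun y hy =>
    ⟨hKW hy, fun j => lt_of_le_of_lt (hKR y hy j) (by linarith)⟩
  have g6 : Ω ⊆ W := fun y hy => (g5 (subset_closure hy)).1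
  have hsub : inM Z p Ω ⊆ inM Z p W := fun x hx => ⟨hx.1, g6 hx.2⟩
  refine H hN Z hZ Γ O₀ hO₀ hΓ hne P P' Q hd hR' p Ω ⟨g1, g2, g3, fun y hy => hW.2 y (g5 hy).1⟩
    (fun y hy j => ((g5 (subset_closure hy)).2 j).le) (fun x hx => hM x (hsub hx)) K hK g4 hc0 hpw
    hU (hcl.imp (fun h x hx => h x (hsub hx)) fun h x hx => h x (hsub hx))

end Vale.Agent.P088.H207.R

end
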