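import Vale.Agent.P088.H207.N1

/-!
# P088: Runge approximation on a compact set of a chart, part 2
-/

set_option linter.all false

open Bundle Manifold MeasureTheory Set Filter Topology
open scoped ContDiff

noncomputable section

namespace Vale.Agent.P088.H207.R

open Vale.Agent.P088 Vale.Agent.P088.EYM

universe u

/-- A cut-off function in an open set. -/
theorem cutK {n : ℕ} {K V : Set (E n)} (hK : IsCompact K) (hV : IsOpen V) (hKV : K ⊆ V) :
    ∃ (χ : E n → ℝ) (K₂ K₃ : Set (E n)), ContDiff ℝ ∞ χ ∧ IsCompact K₂ ∧ IsCompact K₃ ∧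
      K ⊆ interior K₂ ∧ K₂ ⊆ K₃ ∧ K₃ ⊆ V ∧ (∀ x ∈ K₂, χ x = 1) ∧ ∀ x, x ∉ K₃ → χ x = 0 := by
  obtain ⟨K₂, hK₂, h1, h2⟩ := exists_compact_between hK hV hKV
  obtain ⟨K₃, hK₃, h3, h4⟩ := exists_compact_between hK₂ hV h2
  obtain ⟨f, hf1, hf2, -⟩ := exists_contMDiffMap_zero_one_of_isClosed (n := ⊤)
    (I := 𝓘(ℝ, E n)) (M := E n) isOpen_interior.isClosed_compl hK₂.isClosed
    (disjoint_compl_left_iff_subset.2 h3)
  refine ⟨f, K₂, K₃, contMDiff_iff_contDiff.1 f.contMDiff, hK₂, hK₃, h1, h3.trans interior_subset,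
    h4, fun x hx => hf2 hx, fun x hx => hf1 fun h => hx (interior_subset h)⟩

/-- The product of sequences which are small in the mean. -/
theorem lim_aux {a I : ℕ → ℝ} {b c : ℝ} (hb : 0 ≤ b) (hI0 : ∀ k, 0 ≤ I k)
    (hI : Tendsto I atTop (𝓝 0))
    (h : ∀ k, ∀ t : ℝ, 0 < t → |a k| ≤ b * (t * c + t⁻¹ * I k)) :
    Tendsto a atTop (𝓝 0) := by
  have ht : ∀ k : ℕ, 0 < √(I k) + 1 / ((k : ℝ) + 1) := fun k => by
    have := Real.sqrt_nonneg (I k)
    positivity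
  have h1 : Tendsto (fun k => √(I k)) atTop (𝓝 0) := by
    have := (Real.continuous_sqrt.tendsto 0).comp hI
    rwa [Real.sqrt_zero] at this
  have h2 : Tendsto (fun k => b * ((√(I k) + 1 / ((k : ℝ) + 1)) * c + √(I k))) atTop
      (𝓝 (b * ((0 + 0) * c + 0))) :=
    (((h1.add tendsto_one_div_add_atTop_nhds_zero_nat).mul_const c).add h1).const_mul b
  rw [show b * ((0 + 0) * c + 0) = 0 by ring] at h2
  refine squeeze_zero_norm (fun k => ?_) h2
  rw [Real.norm_eq_abs]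
  refine (h k _ (ht k)).trans (mul_le_mul_of_nonneg_left (add_le_add le_rfl ?_) hb)
  rw [inv_mul_le_iff₀ (ht k)]
  have h3 := Real.mul_self_sqrt (hI0 k)
  have h4 : 0 ≤ 1 / ((k : ℝ) + 1) * √(I k) := by positivity
  nlinarith

section

variable {n N : ℕ} [NeZero n] {M : Type u} [TopologicalSpace M]
  [ChartedSpace (EuclideanHalfSpace n) M] [IsManifold (𝓡∂ n) ∞ M] [T2Space M] [CompactSpace M]
  [ConnectedSpace M] [MeasurableSpace M] [BorelSpace M]

theorem runge_orth {P : One n N M} {Γ : Set M} (hΓ : RelBd n Γ) (hne : Γ.Nonempty)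
    (hsol : P.HasSol Γ) {p : M} {V K : Set (E n)} (hV : IsOpen V) (hVt : V ⊆ tg n p)
    (hpos : V ⊆ {y | 0 < y 0}) (hK : IsCompact K) (hKV : K ⊆ V)
    (hconn : IsPreconnected (Mi n M \ (xc n p).symm '' K)) {h : M → Fib N}
    (hh : MemLp h 2 (P.μ.restrict ((xc n p).symm '' K)))
    (horth : ∀ u ∈ P.U Γ, ∫ x in (xc n p).symm '' K, inner ℂ (h x) (u x) ∂P.μ = 0)
    {v : E n → Fib N} (hv : ContDiffOn ℝ ∞ v V) (hvL : ∀ y ∈ V, Lop (P.loc p) v y = 0) :
    ∫ x in (xc n p).symm '' K, inner ℂ (h x) (v (xc n p x)) ∂P.μ = 0 := by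
  obtain ⟨hrel, hok, hbdy, hsm⟩ := TM.fLoc n N M
  obtain ⟨hfinm, -, hint⟩ := TM.fInt n N M P
  have hVH : V ⊆ Hs n := fun y hy => le_of_lt (show 0 < y 0 from hpos hy)
  have hVr : RelOpen V := ⟨V, hV, (inter_eq_left.2 hVH).symm⟩
  have hokV : (P.loc p).Ok V := CHarm_ok_mono (hok P p) hVt
  set S : Set M := (xc n p).symm '' K with hS
  have hcS : IsCompact S :=
    hK.image_of_continuousOn ((continuousOn_extChartAt_symm p).mono (hKV.trans hVt))
  have hSi : S ⊆ Mi n M := by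
    rintro _ ⟨y, hy, rfl⟩
    exact cRungeB_mi_of_pos TM.fLoc p (hVt (hKV hy)) (hpos (hKV hy))
  have hSm : MeasurableSet S := hcS.isClosed.measurableSet
  obtain ⟨w, hw, hwb, hwE, hwL, hwT⟩ := TM.fRungeA n N M P Γ S h hΓ hne hsol hcS hh horth
  have hwT0 : ∀ φ : M → Fib N, IsBdryData (𝓡∂ n) Γ φ → (∀ m ∈ S, φ m = 0) →
      Tendsto (fun k => P.E (w k) φ) atTop (𝓝 0) := by
    intro φ hφ h0
    have h1 := hwT φ hφ
    rwa [setIntegral_eq_zero_of_forall_eq_zero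
      fun m hm => by rw [h0 m hm, inner_zero_right]] at h1
  have hZ := zero_off hw hwb hwE hwL hcS.isClosed hSi hΓ hne hwT0 hconn
  obtain ⟨χ, K₂, K₃, hχ, hK₂, hK₃, hKK₂, hK₂₃, hK₃V, hχ1, hχ0⟩ := cutK hK hV hKV
  set φ : E n → Fib N := fun y => χ y • v y with hφdef
  have hφV : ContDiffOn ℝ ∞ φ V := hχ.contDiffOn.smul hv
  have hφ0 : ∀ y, y ∉ K₃ → φ y = 0 := fun y hy => by
    simp only [hφdef, hχ0 y hy, zero_smul]
  have hφv : ∀ y ∈ K₂, φ y = v y := fun y hy => by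
    simp only [hφdef, hχ1 y hy, one_smul]
  -- the test section
  obtain ⟨u, hu, hu1, hu2, hu3⟩ := TM.fExt n N M p φ V K₃ hVr hVt hφV hK₃ hK₃V
    fun y _ hy => hφ0 y hy
  have hub : IsBdryData (𝓡∂ n) Γ u := by
    refine ⟨hu, ?_⟩
    have h1 : ∀ m ∈ (𝓡∂ n).boundary M, u m = 0 := by
      intro m hm
      refine hu2 m ?_
      rintro ⟨y, hy, rfl⟩
      have h2 := cRungeB_mi_of_pos TM.fLoc p (hVt (hK₃V hy)) (hpos (hK₃V hy))
      rw [← ModelWithCorners.compl_interior] at hm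
      exact hm h2
    have h2 : {m ∈ (𝓡∂ n).boundary M | u m ≠ 0} = ∅ := by
      ext m
      simp only [mem_setOf_eq, mem_empty_iff_false, iff_false]
      exact fun hm => hm.2 (h1 m hm.1)
    rw [h2, closure_empty]
    exact empty_subset _
  have h1 := hwT u hub
  have h2 : ∫ x in S, inner ℂ (h x) (u x) ∂P.μ = ∫ x in S, inner ℂ (h x) (v (xc n p x)) ∂P.μ := by
    refine setIntegral_congr_fun hSm fun m hm => ?_
    obtain ⟨y, hy, rfl⟩ := hm
    have e1 : u ((xc n p).symm y) = v y := by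
      rw [hu1 y (hKV hy), hφv y (interior_subset (hKK₂ hy))]
    rw [e1, (xc n p).right_inv (hVt (hKV hy))]
  rw [h2] at h1
  -- the limit is zero
  have hlw : ∀ k, ContDiffOn ℝ ∞ (lu (𝓡∂ n) p (w k)) V := fun k => (hsm _ (hw k) p).mono hVt
  have hus : tsupport u ⊆ (xc n p).symm '' V := hu3.trans (image_mono hK₃V)
  have hE : ∀ k, P.E (w k) u =
      (starRingEnd ℂ) (-∫ y in V, inner ℂ (Lop (P.loc p) φ y) (lu (𝓡∂ n) p (w k) y)) := by
    intro k
    rw [(TM.fEn n N M P p V hVr hVt).1 (w k) u (hw k) hu (Or.inr hus)]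
    have e1 : En (P.loc p) V (lu (𝓡∂ n) p (w k)) (lu (𝓡∂ n) p u) =
        (starRingEnd ℂ) (∫ y in V, ed (P.loc p) φ (lu (𝓡∂ n) p (w k)) y) := by
      unfold En
      rw [← integral_conj]
      refine setIntegral_congr_fun hV.measurableSet fun y hy => ?_
      rw [← CRungeC_ed_symm (hokV.g_pos y hy) rfl]
      exact CRungeC_ed_congr hVr (fun _ _ => rfl) (fun y hy => hu1 y hy) hy
    rw [e1, greenK hV hVH hokV hφV (hlw k) hK₃ hK₃V hφ0]
    rfl
  have hgg := hVr.gg_smooth hokV.g_smooth hokV.g_pos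
  have hnab := Jacobi_nab_smooth hVr hokV hφV
  have hfl : ∀ k, ContDiffOn ℝ ∞ (flux (P.loc p) k φ) V := fun k =>
    dc_smooth_sum (f := fun l y => gg (P.loc p).g k l y • nab (P.loc p) l φ y) _
      fun l _ => (hgg k l).smul (hnab l)
  have hLop : ContDiffOn ℝ ∞ (Lop (P.loc p) φ) V :=
    dc_smooth_sum (f := fun j y => pd j (flux (P.loc p) j φ) y +
      (P.loc p).B j y (flux (P.loc p) j φ y)) _
      fun j _ => (hVr.pd_smooth (hfl j) j).add (smooth_eval (hokV.B_smooth j) (hfl j))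
  set K₀ : Set (E n) := K₃ \ interior K₂ with hK₀
  have hcK₀ : IsCompact K₀ := hK₃.diff isOpen_interior
  have hK₀V : K₀ ⊆ V := sdiff_subset.trans hK₃V
  have hL2 : ∀ y ∈ interior K₂, Lop (P.loc p) φ y = 0 := by
    intro y hy
    have hiV : interior K₂ ⊆ V := interior_subset.trans (hK₂₃.trans hK₃V)
    have e1 : RelOpen (interior K₂) :=
      ⟨interior K₂, isOpen_interior, (inter_eq_left.2 (hiV.trans hVH)).symm⟩
    rw [CRungeC_Lop_congr e1 (fun y' hy' => hφv y' (interior_subset hy')) hy]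
    exact hvL y (hiV hy)
  have hL3 : ∀ y ∈ V, y ∉ K₃ → Lop (P.loc p) φ y = 0 := by
    intro y hy hy3
    have hiV : V \ K₃ ⊆ V := sdiff_subset
    have e1 : RelOpen (V \ K₃) :=
      ⟨V \ K₃, hV.sdiff hK₃.isClosed, (inter_eq_left.2 (hiV.trans hVH)).symm⟩
    rw [CRungeC_Lop_congr e1 (d := fun _ => 0) (fun y' hy' => hφ0 y' hy'.2) ⟨hy, hy3⟩]
    have e3 : ∀ k : Fin n, nab (P.loc p) k (fun _ => (0 : Fib N)) = fun _ => 0 := by
      intro k
      funext y
      simp [nab, pd_const]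
    have e4 : ∀ j : Fin n, flux (P.loc p) j (fun _ => (0 : Fib N)) = fun _ => 0 := by
      intro j
      funext y
      simp [flux, e3]
    simp [Lop, e4, pd_const]
  obtain ⟨b, hb⟩ := hcK₀.exists_bound_of_continuousOn (hLop.continuousOn.mono hK₀V)
  have hint0 : ∀ k, ∫ y in V, (inner ℂ (Lop (P.loc p) φ y) (lu (𝓡∂ n) p (w k) y) : ℂ) =
      ∫ y in K₀, (inner ℂ (Lop (P.loc p) φ y) (lu (𝓡∂ n) p (w k) y) : ℂ) := by
    intro k
    refine setIntegral_eq_of_subset_of_forall_diff_eq_zero hV.measurableSet hK₀V fun y hy => ?_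
    by_cases h3 : y ∈ K₃
    · have h4 : y ∈ interior K₂ := by
        by_contra h5
        exact hy.2 ⟨h3, h5⟩
      rw [hL2 y h4, inner_zero_left]
    · rw [hL3 y hy.1 h3, inner_zero_left]
  have hfinK : volume K₀ < ⊤ := hcK₀.measure_lt_top
  have hZ' : Tendsto (fun k => ∫ y in K₀, ‖lu (𝓡∂ n) p (w k) y‖ ^ 2) atTop (𝓝 0) := by
    refine zero_K (P := P) (fun k => (hw k).continuous) hcK₀ (hK₀V.trans hVt) ?_
    rintro _ ⟨y, hy, rfl⟩
    refine hZ ⟨cRungeB_mi_of_pos TM.fLoc p (hVt (hK₀V hy)) (hpos (hK₀V hy)), ?_⟩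
    rintro ⟨y', hy', he⟩
    have e1 : y' = y := (xc n p).symm.injOn (hVt (hKV hy')) (hVt (hK₀V hy)) he
    exact hy.2 (hKK₂ (e1 ▸ hy'))
  have hlim : Tendsto (fun k => ‖∫ y in V, (inner ℂ (Lop (P.loc p) φ y)
      (lu (𝓡∂ n) p (w k) y) : ℂ)‖) atTop (𝓝 0) := by
    refine lim_aux (b := |b|) (c := volume.real K₀) (abs_nonneg b)
      (fun k => integral_nonneg fun _ => by positivity) hZ' fun k t ht => ?_
    rw [abs_norm, hint0 k]
    have hc1 : ContinuousOn (fun y => ‖lu (𝓡∂ n) p (w k) y‖ ^ 2) K₀ :=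
      (((hlw k).continuousOn.mono hK₀V).norm).pow 2
    have i1 : IntegrableOn (fun y => ‖lu (𝓡∂ n) p (w k) y‖ ^ 2) K₀ :=
      hc1.integrableOn_compact hcK₀
    have i2 : IntegrableOn (fun _ : E n => t) K₀ := integrableOn_const hfinK.ne
    have e1 : ∀ y ∈ K₀, ‖(inner ℂ (Lop (P.loc p) φ y) (lu (𝓡∂ n) p (w k) y) : ℂ)‖ ≤
        |b| * (t + t⁻¹ * ‖lu (𝓡∂ n) p (w k) y‖ ^ 2) := by
      intro y hy
      refine (norm_inner_le_norm _ _).trans ?_
      have e2 : ‖lu (𝓡∂ n) p (w k) y‖ ≤ t + t⁻¹ * ‖lu (𝓡∂ n) p (w k) y‖ ^ 2 := by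
        set r := ‖lu (𝓡∂ n) p (w k) y‖
        have e3 : t + t⁻¹ * r ^ 2 - r = t⁻¹ * ((r - t / 2) ^ 2 + 3 / 4 * t ^ 2) := by
          field_simp
          ring
        have e4 : 0 ≤ t⁻¹ * ((r - t / 2) ^ 2 + 3 / 4 * t ^ 2) := by positivity
        linarith
      exact mul_le_mul ((hb y hy).trans (le_abs_self b)) e2 (norm_nonneg _) (abs_nonneg b)
    refine (norm_integral_le_of_norm_le ((i2.add (i1.const_mul t⁻¹)).const_mul |b|)
      ((ae_restrict_iff' hcK₀.measurableSet).2 (Eventually.of_forall e1))).trans (le_of_eq ?_)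
    simp only [Pi.add_apply]
    rw [integral_const_mul, integral_add i2 (i1.const_mul t⁻¹), integral_const_mul,
      setIntegral_const, smul_eq_mul, mul_comm t]
  have hlim2 : Tendsto (fun k => P.E (w k) u) atTop (𝓝 0) := by
    rw [tendsto_zero_iff_norm_tendsto_zero]
    refine hlim.congr fun k => ?_
    rw [hE k, RCLike.norm_conj, norm_neg]
  exact tendsto_nhds_unique h1 hlim2

end

end Vale.Agent.P088.H207.R

end
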