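import Vale.Agent.P088.H207.N2

/-!
# P088: Runge approximation on a compact set of a chart, part 3
-/

set_option linter.all false

open Bundle Manifold MeasureTheory Set Filter Topology
open scoped ContDiff

noncomputable section

namespace Vale.Agent.P088.H207.R

open Vale.Agent.P088 Vale.Agent.P088.EYM

universe u

section

variable {n N : ℕ} [NeZero n] {M : Type u} [TopologicalSpace M]
  [ChartedSpace (EuclideanHalfSpace n) M] [IsManifold (𝓡∂ n) ∞ M] [T2Space M] [CompactSpace M]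
  [ConnectedSpace M] [MeasurableSpace M] [BorelSpace M]

/-- Local solutions are limits of global ones on a compact set. -/
theorem runge_seqK {P : One n N M} {Γ : Set M} (hΓ : RelBd n Γ) (hne : Γ.Nonempty)
    (hsol : P.HasSol Γ) {p : M} {V K : Set (E n)} (hV : IsOpen V) (hVt : V ⊆ tg n p)
    (hpos : V ⊆ {y | 0 < y 0}) (hK : IsCompact K) (hKV : K ⊆ V)
    (hconn : IsPreconnected (Mi n M \ (xc n p).symm '' K))
    {v : E n → Fib N} (hv : ContDiffOn ℝ ∞ v V) (hvL : ∀ y ∈ V, Lop (P.loc p) v y = 0) :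
    ∃ u : ℕ → M → Fib N, (∀ k, u k ∈ P.U Γ) ∧
      Tendsto (fun k => ∫ y in K, ‖lu (𝓡∂ n) p (u k) y - v y‖ ^ 2) atTop (𝓝 0) := by
  obtain ⟨hrel, hok, hbdy, hsm⟩ := TM.fLoc n N M
  obtain ⟨hfinm, -, hint⟩ := TM.fInt n N M P
  have hbd : ((𝓡∂ n).boundary M).Nonempty := by
    obtain ⟨O, -, hO⟩ := hΓ
    obtain ⟨m, hm⟩ := hne
    rw [hO] at hm
    exact ⟨m, hm.2⟩
  set S : Set M := (xc n p).symm '' K with hS
  have hKt : K ⊆ tg n p := hKV.trans hVt
  have hcS : IsCompact S :=
    hK.image_of_continuousOn ((continuousOn_extChartAt_symm p).mono hKt)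
  have hSm : MeasurableSet S := hcS.isClosed.measurableSet
  have hSsrc : S ⊆ (xc n p).source := by
    rintro _ ⟨y, hy, rfl⟩
    exact (xc n p).map_target (hKt hy)
  have hxS : ∀ m ∈ S, xc n p m ∈ K := by
    rintro _ ⟨y, hy, rfl⟩
    rwa [(xc n p).right_inv (hKt hy)]
  have hvc : ContinuousOn (fun m => v (xc n p m)) S :=
    (hv.continuousOn.mono hKV).comp ((continuousOn_extChartAt p).mono hSsrc) hxS
  -- the target function
  set w : M → Fib N := S.indicator (fun m => v (xc n p m)) with hw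
  have hw1 : ∀ m ∈ S, w m = v (xc n p m) := by
    intro m hm
    simp [hw, indicator_of_mem hm]
  have hwL : MemLp w 2 (P.μ.restrict S) :=
    cRunge_memLp hcS hvc Measure.restrict_le_self
  -- the space of solutions
  have hUsm : ∀ u ∈ P.U Γ, SmS n u := by
    rintro u ⟨f, -, hf⟩
    exact hf.smooth
  have hUcomb : ∀ u ∈ P.U Γ, ∀ u' ∈ P.U Γ, ∀ c c' : ℂ, c • u + c' • u' ∈ P.U Γ := by
    rintro u ⟨f, hf1, hf2⟩ u' ⟨f', hf1', hf2'⟩ c c'
    exact ⟨c • f + c' • f', cRunge_comb c c' hf1 hf1',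
      (TM.fUniq n N M P hbd).2.1 f f' u u' c c' hf2 hf2'⟩
  have hU0 : (0 : M → Fib N) ∈ P.U Γ := by
    have h1 : IsBdryData (𝓡∂ n) Γ (0 : M → Fib N) :=
      { smooth := contMDiff_const
        supp := by simp }
    obtain ⟨u, hu⟩ := hsol _ h1
    have h2 := hUcomb u ⟨_, h1, hu⟩ u ⟨_, h1, hu⟩ 0 0
    simpa using h2
  let 𝒰 : Submodule ℂ (M → Fib N) :=
    { carrier := P.U Γ
      zero_mem' := hU0
      add_mem' := fun {u u'} hu hu' => by
        have := hUcomb u hu u' hu' 1 1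
        simpa using this
      smul_mem' := fun c u hu => by
        have := hUcomb u hu u hu c 0
        simpa using this }
  have hUL : ∀ u ∈ 𝒰, MemLp u 2 (P.μ.restrict S) := by
    intro u hu
    have h1 : Continuous u := (hUsm u hu).continuous
    have h2 := cRunge_memLp (μ := P.μ) (ν := P.μ.restrict S) isCompact_univ
      h1.continuousOn Measure.restrict_le_self
    simpa using h2
  obtain ⟨u, hu, hlim⟩ := cRunge_approx (P.μ.restrict S) 𝒰 hUL w hwL (by
    intro h hh horth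
    have h1 := runge_orth hΓ hne hsol hV hVt hpos hK hKV hconn hh (fun u hu => horth u hu) hv hvL
    rw [← h1]
    exact setIntegral_congr_fun hSm fun m hm => by simp only [hw1 m hm])
  have hl1 : Tendsto (fun k => ∫ m in S, ‖u k m - v (xc n p m)‖ ^ 2 ∂P.μ) atTop
      (𝓝 0) := by
    have h1 : ∀ k, ∫ m in S, ‖u k m - v (xc n p m)‖ ^ 2 ∂P.μ =
        ∫ m in S, ‖u k m - w m‖ ^ 2 ∂P.μ := fun k =>
      setIntegral_congr_fun hSm fun m hm => by
        simp only [hw1 m hm]
    simp only [h1]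
    exact hlim
  refine ⟨u, hu, ?_⟩
  rcases K.eq_empty_or_nonempty with hKe | hKne
  · simp only [hKe, Measure.restrict_empty, integral_zero_measure]
    exact tendsto_const_nhds
  -- the chart
  have husm : ∀ k, SmS n (u k) := fun k => hUsm _ (hu k)
  have hlu : ∀ k, ContDiffOn ℝ ∞ (lu (𝓡∂ n) p (u k)) (tg n p) := fun k => hsm (u k) (husm k) p
  -- the density
  have hdet : ContinuousOn (fun y => Real.sqrt ((P.loc p).g y).det) K := by
    refine Real.continuous_sqrt.comp_continuousOn ?_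
    have h1 : ContinuousOn (fun y => (P.loc p).g y) K := by
      refine continuousOn_pi.2 fun i => continuousOn_pi.2 fun j => ?_
      exact ((hok P p).g_smooth i j).continuousOn.mono hKt
    exact (continuous_id.matrix_det).comp_continuousOn h1
  obtain ⟨y₀, hy₀, hmin⟩ := hK.exists_isMinOn hKne hdet
  set c : ℝ := Real.sqrt ((P.loc p).g y₀).det with hc
  have hcpos : 0 < c := Real.sqrt_pos.2 ((hok P p).g_pos y₀ (hKt hy₀)).det_pos
  have hvK : ContinuousOn v K := hv.continuousOn.mono hKV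
  have hkey : ∀ k, c * ∫ y in K, ‖lu (𝓡∂ n) p (u k) y - v y‖ ^ 2 ≤
      ∫ m in S, ‖u k m - v (xc n p m)‖ ^ 2 ∂P.μ := by
    intro k
    have hcont : ContinuousOn (fun m => ‖u k m - v (xc n p m)‖ ^ 2) S :=
      (((husm k).continuous.continuousOn).sub hvc).norm.pow 2
    have h1 := (hint p _ hK.measurableSet hKt).2
      (fun m => ((‖u k m - v (xc n p m)‖ ^ 2 : ℝ) : ℂ))
      ((Complex.continuous_ofReal.comp_continuousOn hcont).aestronglyMeasurable hSm)
    have h2 : ∫ m in S, ‖u k m - v (xc n p m)‖ ^ 2 ∂P.μ =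
        ∫ y in K, Real.sqrt ((P.loc p).g y).det *
          ‖lu (𝓡∂ n) p (u k) y - v y‖ ^ 2 := by
      have h3 : ((∫ m in S, ‖u k m - v (xc n p m)‖ ^ 2 ∂P.μ : ℝ) : ℂ) =
          ((∫ y in K, Real.sqrt ((P.loc p).g y).det *
            ‖lu (𝓡∂ n) p (u k) y - v y‖ ^ 2 : ℝ) : ℂ) := by
        rw [← integral_complex_ofReal, ← integral_complex_ofReal]
        refine h1.trans (setIntegral_congr_fun hK.measurableSet
          fun y hy => ?_)
        have h4 : xc n p ((xc n p).symm y) = y := (xc n p).right_inv (hKt hy)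
        simp only [h4, lu]
        push_cast
        rfl
      exact_mod_cast h3
    have hi1 : IntegrableOn (fun y => ‖lu (𝓡∂ n) p (u k) y - v y‖ ^ 2) K :=
      ((((hlu k).continuousOn.mono hKt).sub hvK).norm.pow 2).integrableOn_compact hK
    have hi2 : IntegrableOn (fun y => Real.sqrt ((P.loc p).g y).det *
        ‖lu (𝓡∂ n) p (u k) y - v y‖ ^ 2) K :=
      (hdet.mul ((((hlu k).continuousOn.mono hKt).sub hvK).norm.pow 2)).integrableOn_compact hK
    rw [h2, ← integral_const_mul]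
    exact setIntegral_mono_on (hi1.const_mul c) hi2 hK.measurableSet fun y hy =>
      mul_le_mul_of_nonneg_right (hmin hy) (by positivity)
  have h1 := hl1.const_mul c⁻¹
  rw [mul_zero] at h1
  refine squeeze_zero (fun k => integral_nonneg fun _ => by positivity) (fun k => ?_) h1
  rw [← div_eq_inv_mul, le_div_iff₀ hcpos, mul_comm]
  exact hkey k

end

/-- The uniform gradient estimate on compact sets. -/
theorem grad_estK (n N : ℕ) [NeZero n] (L : LD n N) {K K₁ V : Set (E n)} (hK : IsCompact K)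
    (hKK : K ⊆ interior K₁) (hK₁ : IsCompact K₁) (hK₁V : K₁ ⊆ V) (hV : IsOpen V)
    (hok : L.Ok V) (hsub : V ⊆ Hs n) :
    ∃ C : ℝ, ∀ c : E n → Fib N, Sol L V c → ∀ y ∈ K,
      (‖c y‖ + ∑ j, ‖pd j c y‖) ^ 2 ≤ C * ∫ x in K₁, ‖c x‖ ^ 2 := by
  refine hK.induction_on (p := fun s => ∃ C : ℝ,
    ∀ c : E n → Fib N, Sol L V c → ∀ y ∈ s,
    (‖c y‖ + ∑ j, ‖pd j c y‖) ^ 2 ≤ C * ∫ x in K₁, ‖c x‖ ^ 2)
    ⟨0, fun c _ y hy => hy.elim⟩ ?_ ?_ ?_
  · rintro s t hst ⟨C, hC⟩
    exact ⟨C, fun c hc y hy => hC c hc y (hst hy)⟩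
  · rintro s t ⟨C, hC⟩ ⟨C', hC'⟩
    refine ⟨max C C', fun c hc y hy => ?_⟩
    have hI : 0 ≤ ∫ x in K₁, ‖c x‖ ^ 2 :=
      integral_nonneg fun _ => by positivity
    rcases hy with hy | hy
    · exact (hC c hc y hy).trans (mul_le_mul_of_nonneg_right (le_max_left _ _) hI)
    · exact (hC' c hc y hy).trans (mul_le_mul_of_nonneg_right (le_max_right _ _) hI)
  · intro z' hz'
    obtain ⟨r, hr, hb⟩ := Metric.nhds_basis_closedBall.mem_iff.1
      (isOpen_interior.mem_nhds (hKK hz'))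
    have hb1 : Metric.closedBall z' r ⊆ K₁ := hb.trans interior_subset
    obtain ⟨C, hC⟩ := TM.fAInt n N L V hV hsub hok z' r hr (hb1.trans hK₁V)
    refine ⟨Metric.ball z' (r / 2),
      mem_nhdsWithin_of_mem_nhds (Metric.ball_mem_nhds _ (by linarith)), max C 0,
      fun c hc y hy => ?_⟩
    refine (hC c hc y hy).trans ?_
    have hI : IntegrableOn (fun x => ‖c x‖ ^ 2) K₁ :=
      ((hc.1.continuousOn.mono hK₁V).norm.pow 2).integrableOn_compact hK₁
    have h2 : ∫ x in Metric.ball z' r, ‖c x‖ ^ 2 ≤ ∫ x in K₁, ‖c x‖ ^ 2 :=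
      setIntegral_mono_set hI (Eventually.of_forall fun _ => by positivity)
        (Metric.ball_subset_closedBall.trans hb1).eventuallyLE
    have h3 : 0 ≤ ∫ x in Metric.ball z' r, ‖c x‖ ^ 2 :=
      integral_nonneg fun _ => by positivity
    exact (mul_le_mul_of_nonneg_right (le_max_left C 0) h3).trans
      (mul_le_mul_of_nonneg_left h2 (le_max_right C 0))

end Vale.Agent.P088.H207.R

end
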