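import Vale.Agent.P088.H207.N3
import Vale.Agent.P088.H207.J4

/-!
# P088: the orthogonality relation on a compact set of a chart
-/

set_option linter.all false

open Bundle Manifold MeasureTheory Set Filter Topology
open scoped ContDiff Matrix ENNReal

noncomputable section

namespace Vale.Agent.P088.H207.R

open Vale.Agent.P088 Vale.Agent.P088.EYM Vale.Agent.P088.EYM.O Vale.Agent.P088.H207
open Vale.Agent.P088.H207.J (tr tri tr_tri tri_tr tr_cd tri_cd int_tr)

universe u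

section

variable {n N : ℕ} [NeZero n] {M : Type u} [TopologicalSpace M]
  [ChartedSpace (EuclideanHalfSpace n) M] [IsManifold (𝓡∂ n) ∞ M] [T2Space M] [CompactSpace M]
  [MeasurableSpace M] [BorelSpace M]

/-- Equal energies, localised. -/
theorem en_diffK (P Q : One n N M) {p : M} {K : Set (E n)} (hK : IsCompact K)
    (hcbt : K ⊆ tg n p)
    (hA : ∀ m, m ∉ (xc n p).symm '' K → ∀ X : TangentSpace (𝓡∂ n) m, P.A.form m X = Q.A.form m X)
    (hg : ∀ m, m ∉ (xc n p).symm '' K → ∀ v w : TangentSpace (𝓡∂ n) m,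
      Q.g.inner m v w = P.g.inner m v w)
    {u w : M → Fib N} (hu : SmS n u) (hw : SmS n w) (hE : P.E w u = Q.E w u) :
    ∫ y in K,
      (ed (Q.loc p) (lu (𝓡∂ n) p w) (lu (𝓡∂ n) p u) y -
        ed (P.loc p) (lu (𝓡∂ n) p w) (lu (𝓡∂ n) p u) y) = 0 := by
  obtain ⟨hfin, -, hint⟩ := TM.fInt n N M P
  have hrc := continuous_rho P.g Q.g
  set G : M → ℂ := fun x => (rho P.g Q.g x : ℂ) * pairing Q.g Q.A w u x -
    pairing P.g P.A w u x with hG
  have hcP : Continuous (pairing P.g P.A w u) := continuous_pairing P.g P.A hw hu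
  have hcQ : Continuous (pairing Q.g Q.A w u) := continuous_pairing Q.g Q.A hw hu
  have hGc : Continuous G :=
    ((Complex.continuous_ofReal.comp hrc).mul hcQ).sub hcP
  have hQE : Q.E w u = ∫ x, (rho P.g Q.g x : ℂ) * pairing Q.g Q.A w u x ∂P.μ := by
    unfold One.E energy
    rw [withDensity_rho P Q, integral_withDensity_eq_integral_toReal_smul₀]
    · refine integral_congr_ae (Eventually.of_forall fun x => ?_)
      simp only
      rw [ENNReal.toReal_ofReal (rho_pos P.g Q.g x).le, Complex.real_smul]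
    · exact hrc.measurable.ennreal_ofReal.aemeasurable
    · exact Eventually.of_forall fun x => ENNReal.ofReal_lt_top
  have hc' : Continuous fun x => (rho P.g Q.g x : ℂ) * pairing Q.g Q.A w u x :=
    (Complex.continuous_ofReal.comp hrc).mul hcQ
  have h0 : ∫ x, G x ∂P.μ = 0 := by
    have e1 : ∫ x, G x ∂P.μ = (∫ x, (rho P.g Q.g x : ℂ) * pairing Q.g Q.A w u x ∂P.μ) -
        ∫ x, pairing P.g P.A w u x ∂P.μ :=
      integral_sub (CEnergy_integrable P hc') (CEnergy_integrable P hcP)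
    rw [e1, ← hQE, ← hE]
    exact sub_self _
  have hGz : ∀ x, x ∉ (xc n p).symm '' K → G x = 0 := by
    intro x hx
    have e1 : gram P.g x x = gram Q.g x x := O.gram_of_inner fun a b => (hg x hx a b).symm
    simp only [hG]
    rw [O.rho_one e1, O.pairing_congr e1 (hA x hx), Complex.ofReal_one, one_mul, sub_self]
  have h1 : ∫ x in (xc n p).symm '' K, G x ∂P.μ = 0 := by
    rw [← h0]
    exact setIntegral_eq_integral_of_forall_compl_eq_zero fun x hx => hGz x hx
  rw [(hint p _ hK.measurableSet hcbt).2 G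
    hGc.aestronglyMeasurable] at h1
  rw [← h1]
  refine setIntegral_congr_fun hK.measurableSet fun y hy => ?_
  have hx : (xc n p).symm y ∈ (extChartAt (𝓡∂ n) p).source := (xc n p).map_target (hcbt hy)
  have hpos := Real.sqrt_pos.2 (gram_det_pos P.g hx)
  rw [CEnergy_ed P p hw hu (hcbt hy), CEnergy_ed Q p hw hu (hcbt hy)]
  simp only [hG]
  rw [rho_eq P.g Q.g hx]
  have e1 : ((P.loc p).g y) = gram P.g p ((xc n p).symm y) := rfl
  have e2 : ((Q.loc p).g y) = gram Q.g p ((xc n p).symm y) := rfl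
  rw [e1, e2]
  have hne : ((√(gram P.g p ((xc n p).symm y)).det : ℝ) : ℂ) ≠ 0 := by
    exact_mod_cast hpos.ne'
  push_cast
  field_simp

variable [ConnectedSpace M]

/-- The orthogonality relation, both metrics arbitrary in the ball. -/
theorem orthK {P Q : One n N M} {Γ : Set M} (hΓ : RelBd n Γ)
    (hne : Γ.Nonempty) (hS : SameD P Q Γ) {p : M} {V K K₁ : Set (E n)} (hV : IsOpen V)
    (hbt : V ⊆ tg n p) (hpos : V ⊆ {y | 0 < y 0}) (hK : IsCompact K) (hKK : K ⊆ interior K₁)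
    (hK₁ : IsCompact K₁) (hK₁V : K₁ ⊆ V)
    (hconn : IsPreconnected (Mi n M \ (xc n p).symm '' K₁))
    (hPB : ∀ x ∈ V, ∀ i, (P.loc p).B i x = 0)
    (hQB : ∀ x ∈ V, ∀ i, (Q.loc p).B i x = 0)
    (hA : ∀ m, m ∉ (xc n p).symm '' K → ∀ X : TangentSpace (𝓡∂ n) m, P.A.form m X = Q.A.form m X)
    (hg : ∀ m, m ∉ (xc n p).symm '' K → ∀ v w : TangentSpace (𝓡∂ n) m,
      Q.g.inner m v w = P.g.inner m v w)
    {F G : E n → Fib N} (hF : Sol (P.loc p) (V) F)
    (hG : Sol (Q.loc p) (V) G) :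
    ∫ y in K, ∑ j, ∑ l,
      ((gg (Q.loc p).g j l y - gg (P.loc p).g j l y : ℝ) : ℂ) *
        inner ℂ (pd j G y) (pd l F y) = 0 := by
  obtain ⟨hrel, hok, hbdy, hsm⟩ := TM.fLoc n N M
  have hbH : V ⊆ Hs n := fun y hy => le_of_lt (show 0 < y 0 from hpos hy)
  have hbr : RelOpen (V) := CHarm_relOpen_of_open hV hbH
  have hKR : K ⊆ V := hKK.trans (interior_subset.trans hK₁V)
  have hokP : (P.loc p).Ok (V) := CHarm_ok_mono (hok P p) hbt
  have hokQ : (Q.loc p).Ok (V) := CHarm_ok_mono (hok Q p) hbt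
  obtain ⟨⟨hsP, hsQ, -⟩, -⟩ := Vale.Agent.P088.EYM.cData TM.fUniq TM.fForm n N M P Q Γ hΓ hne hS
  obtain ⟨uk, huk, hlu⟩ := runge_seqK hΓ hne hsP hV hbt hpos hK₁ hK₁V hconn hF.1 hF.2
  obtain ⟨wk, hwk, hlw⟩ := runge_seqK hΓ hne hsQ hV hbt hpos hK₁ hK₁V hconn hG.1 hG.2
  obtain ⟨C, hC⟩ := grad_estK n N (P.loc p) hK hKK hK₁ hK₁V hV hokP hbH
  obtain ⟨C', hC'⟩ := grad_estK n N (Q.loc p) hK hKK hK₁ hK₁V hV hokQ hbH
  set I : ℕ → ℝ := fun k => C * ∫ y in K₁, ‖lu (𝓡∂ n) p (uk k) y - F y‖ ^ 2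
  set I' : ℕ → ℝ := fun k => C' * ∫ y in K₁, ‖lu (𝓡∂ n) p (wk k) y - G y‖ ^ 2
  have hI : Tendsto I atTop (𝓝 0) := by
    have := hlu.const_mul C
    rwa [mul_zero] at this
  have hI' : Tendsto I' atTop (𝓝 0) := by
    have := hlw.const_mul C'
    rwa [mul_zero] at this
  have he : Tendsto (fun k => √(I k) + √(I' k)) atTop (𝓝 0) := by
    have h1 := (Real.continuous_sqrt.tendsto 0).comp hI
    have h2 := (Real.continuous_sqrt.tendsto 0).comp hI'
    rw [Real.sqrt_zero] at h1 h2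
    have := h1.add h2
    rwa [add_zero] at this
  have husol : ∀ k, Sol (P.loc p) (V) (lu (𝓡∂ n) p (uk k)) := by
    intro k
    obtain ⟨f, hf, hu⟩ := huk k
    have h1 := TM.fHarm n N M P f (uk k) hu p
    exact ⟨h1.1.mono hbt, fun x hx => h1.2 x (hbt hx)⟩
  have hwsol : ∀ k, Sol (Q.loc p) (V) (lu (𝓡∂ n) p (wk k)) := by
    intro k
    obtain ⟨f, hf, hu⟩ := hwk k
    have h1 := TM.fHarm n N M Q f (wk k) hu p
    exact ⟨h1.1.mono hbt, fun x hx => h1.2 x (hbt hx)⟩
  have hpdc : ∀ {u : E n → Fib N}, ContDiffOn ℝ ∞ u (V) → ∀ j,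
      ContinuousOn (pd j u) (K) := fun hu j =>
    ((hbr.pd_smooth hu j).continuousOn).mono hKR
  have hpdsub : ∀ {u v : E n → Fib N}, ContDiffOn ℝ ∞ u (V) →
      ContDiffOn ℝ ∞ v (V) → ∀ j, ∀ y ∈ V,
      pd j (fun y => u y - v y) y = pd j u y - pd j v y := by
    intro u v hu hv j y hy
    rw [cRunge_pd (hpos hy), cRunge_pd (hpos hy), cRunge_pd (hpos hy), fderiv_fun_sub
      ((hu.contDiffAt (hV.mem_nhds hy)).differentiableAt (by simp))
      ((hv.contDiffAt (hV.mem_nhds hy)).differentiableAt (by simp))]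
    rfl
  refine lim_int hK (fk := fun k j => pd j (lu (𝓡∂ n) p (uk k)))
    (gk := fun k j => pd j (lu (𝓡∂ n) p (wk k))) (fun j l => ?_) (fun j => hpdc hF.1 j)
    (fun j => hpdc hG.1 j) (fun k j => hpdc (husol k).1 j) (fun k j => hpdc (hwsol k).1 j) he
    ?_ ?_ ?_
  · exact Complex.continuous_ofReal.comp_continuousOn
      ((((hbr.gg_smooth hokQ.g_smooth hokQ.g_pos j l).continuousOn).mono hKR).sub
        (((hbr.gg_smooth hokP.g_smooth hokP.g_pos j l).continuousOn).mono hKR))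
  · intro k j y hy
    rw [← hpdsub (husol k).1 hF.1 j y (hKR hy)]
    have h1 := hC _ (cClosed_sol_sub hbr hokP (husol k) hF) y hy
    have h2 : ‖pd j (fun y => lu (𝓡∂ n) p (uk k) y - F y) y‖ ≤ √(I k) := by
      refine Real.le_sqrt_of_sq_le (le_trans ?_ h1)
      refine pow_le_pow_left₀ (norm_nonneg _) ?_ 2
      refine (Finset.single_le_sum
        (f := fun j => ‖pd j (fun y => lu (𝓡∂ n) p (uk k) y - F y) y‖)
        (fun _ _ => norm_nonneg _) (Finset.mem_univ j)).trans ?_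
      exact le_add_of_nonneg_left (norm_nonneg _)
    exact h2.trans (le_add_of_nonneg_right (Real.sqrt_nonneg _))
  · intro k j y hy
    rw [← hpdsub (hwsol k).1 hG.1 j y (hKR hy)]
    have h1 := hC' _ (cClosed_sol_sub hbr hokQ (hwsol k) hG) y hy
    have h2 : ‖pd j (fun y => lu (𝓡∂ n) p (wk k) y - G y) y‖ ≤ √(I' k) := by
      refine Real.le_sqrt_of_sq_le (le_trans ?_ h1)
      refine pow_le_pow_left₀ (norm_nonneg _) ?_ 2
      refine (Finset.single_le_sum
        (f := fun j => ‖pd j (fun y => lu (𝓡∂ n) p (wk k) y - G y) y‖)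
        (fun _ _ => norm_nonneg _) (Finset.mem_univ j)).trans ?_
      exact le_add_of_nonneg_left (norm_nonneg _)
    exact h2.trans (le_add_of_nonneg_left (Real.sqrt_nonneg _))
  · intro k
    obtain ⟨f, hf, hu⟩ := huk k
    obtain ⟨h, hh, hw⟩ := hwk k
    have h1 := en_diffK P Q hK (hKR.trans hbt) hA hg hu.smooth hw.smooth (en_eq hΓ hne hS (huk k) (hwk k))
    rw [← h1]
    refine setIntegral_congr_fun hK.measurableSet fun y hy => ?_
    rw [ed_nc Q p hQB _ _ (hKR hy), ed_nc P p hPB _ _ (hKR hy)]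
    rw [← Finset.sum_sub_distrib]
    refine Finset.sum_congr rfl fun j _ => ?_
    rw [← Finset.sum_sub_distrib]
    refine Finset.sum_congr rfl fun l _ => ?_
    push_cast
    ring

/-- Equal data on `M` give the orthogonality relation of the two tensors in the ball. -/
theorem starK (a : Fin N) {P Q : One n N M} {Γ : Set M} (hΓ : RelBd n Γ)
    (hne : Γ.Nonempty) (hS : SameD P Q Γ) {p : M} {Ω : Set (Fin n → ℝ)} {V K K₁ : Set (E n)}
    (hΩ : IsOpen Ω) (hVΩ : V = {x | tr (xc n p p) x ∈ Ω}) (hbt : V ⊆ tg n p)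
    (hpos : V ⊆ {y | 0 < y 0}) (hK : IsCompact K) (hKK : K ⊆ interior K₁)
    (hK₁ : IsCompact K₁) (hK₁V : K₁ ⊆ V)
    (hconn : IsPreconnected (Mi n M \ (xc n p).symm '' K₁))
    (hPB : ∀ x ∈ V, ∀ i, (P.loc p).B i x = 0)
    (hQB : ∀ x ∈ V, ∀ i, (Q.loc p).B i x = 0)
    (hA : ∀ m, m ∉ (xc n p).symm '' K → ∀ X : TangentSpace (𝓡∂ n) m, P.A.form m X = Q.A.form m X)
    (hg : ∀ m, m ∉ (xc n p).symm '' K → ∀ v w : TangentSpace (𝓡∂ n) m,
      Q.g.inner m v w = P.g.inner m v w)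
    {g₁ g₂ : LR.MF n} (hg₁ : LR.SmM g₁) (hg₂ : LR.SmM g₂) (hp₁ : ∀ y, (g₁ y).PosDef)
    (hp₂ : ∀ y, (g₂ y).PosDef)
    (hgP : ∀ x ∈ V, g₁ (tr (xc n p p) x) = (P.loc p).g x)
    (hgQ : ∀ x ∈ V, g₂ (tr (xc n p p) x) = (Q.loc p).g x) :
    LR.CF.St2 (Ω) (LR.sg g₁) (LR.sg g₂) := by
  set z : E n := xc n p p with hz
  have hV : IsOpen V := hVΩ ▸ hΩ.preimage (tr_cd z).continuous
  have hmV' : ∀ x, tr z x ∈ Ω ↔ x ∈ V := fun x => by rw [hVΩ]; rfl
  have hKR : K ⊆ V := hKK.trans (interior_subset.trans hK₁V)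
  have hs₁ : LR.SmM (LR.sg g₁) := H833.smM_sg hg₁ hp₁
  have hs₂ : LR.SmM (LR.sg g₂) := H833.smM_sg hg₂ hp₂
  have hsy₁ := H833.symm_sg hp₁
  have hsy₂ := H833.symm_sg hp₂
  have hgg₁ : ∀ x ∈ V, ∀ j k,
      gg (P.loc p).g j k x = LR.sg g₁ (tr z x) j k := by
    intro x hx j k
    unfold LR.sg gg
    rw [hgP x hx]
    rfl
  have hgg₂ : ∀ x ∈ V, ∀ j k,
      gg (Q.loc p).g j k x = LR.sg g₂ (tr z x) j k := by
    intro x hx j k
    unfold LR.sg gg
    rw [hgQ x hx]
    rfl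
  intro U W hU hW hUe hWe
  have hW' := conj_cd hW
  -- the two local solutions
  have hF : Sol (P.loc p) (V) (J.li N z a U) := by
    refine ⟨(J.li_cd hU).contDiffOn, fun x hx => ?_⟩
    rw [J.li_lop (s := LR.sg g₁) hV hpos hPB hs₁ hgg₁ hU hx]
    unfold J.li
    simp only
    rw [hUe _ ((hmV' x).2 hx)]
    simp
  have hG : Sol (Q.loc p) (V) (J.li N z a fun y => (starRingEnd ℂ) (W y)) := by
    refine ⟨(J.li_cd hW').contDiffOn, fun x hx => ?_⟩
    rw [J.li_lop (s := LR.sg g₂) hV hpos hQB hs₂ hgg₂ hW' hx]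
    unfold J.li
    simp only
    rw [conj_dv hs₂ hW, hWe _ ((hmV' x).2 hx)]
    simp
  have h0 := orthK hΓ hne hS hV hbt hpos hK hKK hK₁ hK₁V hconn hPB hQB hA hg hF hG
  -- the integrand
  set f : (Fin n → ℝ) → ℂ := fun x => ∑ i, ∑ j, ((LR.sg g₂ x - LR.sg g₁ x) i j : ℂ) *
    LR.pd i U x * LR.pd j W x with hf
  have hint : ∀ x ∈ V, (∑ j, ∑ l,
      ((gg (Q.loc p).g j l x - gg (P.loc p).g j l x : ℝ) : ℂ) *
        inner ℂ (pd j (J.li N z a fun y => (starRingEnd ℂ) (W y)) x) (pd l (J.li N z a U) x)) =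
      f (tr z x) := by
    intro x hx
    rw [hf]
    simp only
    rw [Finset.sum_comm]
    refine Finset.sum_congr rfl fun l _ => ?_
    refine Finset.sum_congr rfl fun j _ => ?_
    rw [cRunge_pd (hpos hx), cRunge_pd (hpos hx), J.li_fd (hW'.differentiable (by simp) _),
      J.li_fd (hU.differentiable (by simp) _), hgg₂ x hx, hgg₁ x hx]
    unfold J.li
    simp only
    rw [conj_pd (hW.differentiable (by simp) _), inner_smul_left, inner_smul_right,
      EuclideanSpace.inner_single_left]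
    have e1 : (LR.sg g₁ (tr z x) j l) = LR.sg g₁ (tr z x) l j := (hsy₁ (tr z x)).apply l j
    have e2 : (LR.sg g₂ (tr z x) j l) = LR.sg g₂ (tr z x) l j := (hsy₂ (tr z x)).apply l j
    rw [e1, e2, Matrix.sub_apply]
    simp only [Complex.conj_conj]
    simp
    ring
  have hfz : ∀ x ∈ V, x ∉ K → f (tr z x) = 0 := by
    intro x hx hxρ
    have h5 : (xc n p).symm x ∉ (xc n p).symm '' K := by
      rintro ⟨x', hx', he⟩
      have h6 : x' = x := (xc n p).symm.injOn
        (hbt (hKR hx')) (hbt hx) he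
      exact hxρ (h6 ▸ hx')
    have h6 : g₂ (tr z x) = g₁ (tr z x) := by
      rw [hgQ x hx, hgP x hx]
      ext i j
      exact hg _ h5 _ _
    have h7 : LR.sg g₂ (tr z x) = LR.sg g₁ (tr z x) := by
      unfold LR.sg
      rw [h6]
    rw [hf]
    simp only
    rw [h7, sub_self]
    simp
  -- change of variables
  have h1 : ∫ x in V, f (tr z x) = 0 := by
    have e1 : ∫ x in K, f (tr z x) = 0 := by
      rw [← h0]
      refine (setIntegral_congr_fun hK.measurableSet fun y hy => ?_).symm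
      exact hint y (hKR hy)
    rw [← e1]
    refine setIntegral_eq_of_subset_of_forall_diff_eq_zero
      hV.measurableSet hKR ?_
    intro x hx
    exact hfz x hx.1 hx.2
  have h2 : ∫ x, (Ω).indicator f (tr z x) = ∫ x in V, f (tr z x) := by
    rw [← integral_indicator hV.measurableSet]
    refine integral_congr_ae (Eventually.of_forall fun x => ?_)
    by_cases hx : x ∈ V
    · simp only [indicator_of_mem hx, indicator_of_mem ((hmV' x).2 hx)]
    · have hx' : tr z x ∉ Ω := fun h => hx ((hmV' x).1 h)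
      simp only [indicator_of_notMem hx, indicator_of_notMem hx']
  rw [h1, int_tr z] at h2
  rw [integral_indicator hΩ.measurableSet] at h2
  exact h2

end

end Vale.Agent.P088.H207.R

end
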