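import Vale.Agent.P088.H207.N4
import Vale.Agent.P088.H207.J7

/-!
# P088: a diffeomorphism of the manifold from one of a set of a chart
-/

set_option linter.all false

open Bundle Manifold MeasureTheory Set Filter Topology
open scoped ContDiff Matrix ENNReal

noncomputable section

namespace Vale.Agent.P088.H207.R

open Vale.Agent.P088 Vale.Agent.P088.B Vale.Agent.P088.EYM Vale.Agent.P088.EYM.O
open Vale.Agent.P088.H207 (Dm cV Gm Am gl mix mix_g mix_A related_comp)
open Vale.Agent.P088.H207.J (tr tri tr_tri tri_tr tr_cd tri_cd tr_fd)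

universe u

/-- The set `Ω` moved to the point `z`. -/
def vO {n : ℕ} (z : E n) (Ω : Set (Fin n → ℝ)) : Set (E n) := {x | tr z x ∈ Ω}

theorem vO_sub {n : ℕ} {z : E n} {Ω : Set (Fin n → ℝ)} : vO z Ω ⊆ vO z (closure Ω) :=
  fun _ hx => subset_closure hx

theorem vO_compact {n : ℕ} {z : E n} {C : Set (Fin n → ℝ)} (hC : IsCompact C) :
    IsCompact (vO z C) := by
  have h1 : vO z C = tri z '' C := by
    ext x
    constructor
    · intro hx
      exact ⟨tr z x, hx, tri_tr z x⟩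
    · rintro ⟨y, hy, rfl⟩
      show tr z (tri z y) ∈ C
      rwa [tr_tri]
  rw [h1]
  exact hC.image (tri_cd z).continuous

section

variable {n : ℕ} {Ω : Set (Fin n → ℝ)}

/-- A smooth map of `ℝ^n` which is the identity off the ball. -/
structure Lc (Ω : Set (Fin n → ℝ)) (h : (Fin n → ℝ) → Fin n → ℝ) : Prop where
  cd : ContDiff ℝ ∞ h
  off : ∀ y, y ∉ Ω → h y = y
  on : ∀ y ∈ Ω, h y ∈ Ω

theorem lc_w {w K : (Fin n → ℝ) → Fin n → ℝ} (D : LR.Dif (Ω) w K) :
    Lc Ω (fun y => y + w y) := by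
  refine ⟨contDiff_id.add D.sw, fun y hy => by simp [D.z y hy], fun y hy => ?_⟩
  by_contra h
  have h1 := D.z _ h
  have h2 := D.l (y + w y)
  rw [h1, add_zero, D.l y] at h2
  exact h (h2 ▸ hy)

theorem lc_K {w K : (Fin n → ℝ) → Fin n → ℝ} (D : LR.Dif (Ω) w K) : Lc Ω K := by
  refine ⟨D.sK, fun y hy => ?_, fun y hy => ?_⟩
  · have h2 := D.l y
    rwa [D.z y hy, add_zero] at h2
  · by_contra h
    have h2 := D.r y
    rw [D.z _ h, add_zero] at h2
    rw [h2] at h
    exact h hy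


theorem tch_off {z : E n} {h : (Fin n → ℝ) → Fin n → ℝ} (H : Lc Ω h) {x : E n}
    (hx : x ∉ vO z Ω) : H207.J.tch z h x = x := by
  unfold H207.J.tch
  rw [H.off _ (fun h => hx h), tri_tr z]

theorem tch_on {z : E n} {h : (Fin n → ℝ) → Fin n → ℝ} (H : Lc Ω h) {x : E n}
    (hx : x ∈ vO z Ω) : H207.J.tch z h x ∈ vO z Ω := by
  show tr z (tri z (h (tr z x))) ∈ Ω
  rw [tr_tri]
  exact H.on _ hx

theorem tch_cd {z : E n} {h : (Fin n → ℝ) → Fin n → ℝ} (H : Lc Ω h) :
    ContDiff ℝ ∞ (H207.J.tch z h) := (tri_cd z).comp (H.cd.comp (tr_cd z))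


end

section

variable {n : ℕ} [NeZero n] {M : Type u} [TopologicalSpace M]
  [ChartedSpace (EuclideanHalfSpace n) M] [IsManifold (𝓡∂ n) ∞ M]

/-- The closed region in `M`. -/
def cbO (p : M) (Ω : Set (Fin n → ℝ)) : Set M := (xc n p).symm '' vO (xc n p p) (closure Ω)

/-- `Ω` is a regular open set, and its closure is in the interior part of the chart at `p`. -/
structure Rg (p : M) (Ω : Set (Fin n → ℝ)) : Prop where
  op : IsOpen Ω
  reg : interior (closure Ω) = Ω
  cpt : IsCompact (closure Ω)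
  sub : ∀ x ∈ vO (xc n p p) (closure Ω), x ∈ tg n p ∩ {x | 0 < x 0}

theorem Rg.vcompact {p : M} {Ω : Set (Fin n → ℝ)} (hR : Rg p Ω) :
    IsCompact (vO (xc n p p) (closure Ω)) := vO_compact hR.cpt

theorem Rg.cbcompact {p : M} {Ω : Set (Fin n → ℝ)} (hR : Rg p Ω) : IsCompact (cbO p Ω) :=
  hR.vcompact.image_of_continuousOn ((continuousOn_extChartAt_symm p).mono
    fun x hx => (hR.sub x hx).1)

theorem tch_tg {p : M} {Ω : Set (Fin n → ℝ)} (hR : Rg p Ω)
    {h : (Fin n → ℝ) → Fin n → ℝ} (H : Lc Ω h) {x : E n} (hx : x ∈ tg n p) :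
    H207.J.tch (xc n p p) h x ∈ tg n p := by
  by_cases hb : x ∈ vO (xc n p p) Ω
  · exact (hR.sub _ (vO_sub (tch_on H hb))).1
  · rwa [tch_off H hb]

theorem mv_inv {p : M} {Ω : Set (Fin n → ℝ)} (hR : Rg p Ω)
    {h k : (Fin n → ℝ) → Fin n → ℝ} (H : Lc Ω h) (hk : ∀ y, k (h y) = y) (m : M) :
    H207.J.mv p k (H207.J.mv p h m) = m := by
  by_cases hm : m ∈ (xc n p).source
  · have h1 : H207.J.tch (xc n p p) h (xc n p m) ∈ tg n p := tch_tg hR H ((xc n p).map_source hm)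
    rw [H207.J.mv_src hm, H207.J.mv_src ((xc n p).map_target h1), (xc n p).right_inv h1,
      H207.J.tch_inv hk, (xc n p).left_inv hm]
  · rw [H207.J.mv_nsrc hm, H207.J.mv_nsrc hm]

theorem mv_off {p : M} {Ω : Set (Fin n → ℝ)} (hR : Rg p Ω)
    {h : (Fin n → ℝ) → Fin n → ℝ} (H : Lc Ω h) {m : M}
    (hm : m ∉ (xc n p).symm '' vO (xc n p p) Ω) : H207.J.mv p h m = m := by
  by_cases hs : m ∈ (xc n p).source
  · have h1 : xc n p m ∉ vO (xc n p p) Ω := fun h =>
      hm ⟨xc n p m, h, (xc n p).left_inv hs⟩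
    rw [H207.J.mv_src hs, tch_off H h1, (xc n p).left_inv hs]
  · exact H207.J.mv_nsrc hs

theorem cb_src {p : M} {Ω : Set (Fin n → ℝ)} (hR : Rg p Ω) {m : M} (hm : m ∈ cbO p Ω) :
    m ∈ (xc n p).source ∧ xc n p m ∈ vO (xc n p p) (closure Ω) := by
  obtain ⟨y, hy, rfl⟩ := hm
  have h1 := (hR.sub _ hy).1
  exact ⟨(xc n p).map_target h1, by rwa [(xc n p).right_inv h1]⟩

variable [T2Space M]

theorem mv_ev {p : M} {Ω : Set (Fin n → ℝ)} (hR : Rg p Ω)
    {h : (Fin n → ℝ) → Fin n → ℝ} (H : Lc Ω h) {m : M} (hm : m ∉ cbO p Ω) :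
    H207.J.mv p h =ᶠ[𝓝 m] id := by
  have hcl : IsClosed (cbO p Ω) := hR.cbcompact.isClosed
  filter_upwards [hcl.isOpen_compl.mem_nhds hm] with x hx
  exact mv_off hR H fun h => hx (image_mono vO_sub h)

theorem mv_smooth {p : M} {Ω : Set (Fin n → ℝ)} (hR : Rg p Ω)
    {h : (Fin n → ℝ) → Fin n → ℝ} (H : Lc Ω h) : ContMDiff (𝓡∂ n) (𝓡∂ n) ∞ (H207.J.mv p h) := by
  intro m
  by_cases hm : m ∈ (xc n p).source
  · have h1 : ContMDiffOn (𝓡∂ n) 𝓘(ℝ, E n) ∞ (xc n p) (xc n p).source := by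
      have := contMDiffOn_extChartAt (I := 𝓡∂ n) (x := p) (n := ∞) (M := M)
      rwa [← extChartAt_source (𝓡∂ n)] at this
    have h2 : ContMDiffOn (𝓡∂ n) 𝓘(ℝ, E n) ∞ (fun x => H207.J.tch (xc n p p) h (xc n p x))
        (xc n p).source := (tch_cd H).contMDiff.comp_contMDiffOn h1
    have h3 : ContMDiffOn 𝓘(ℝ, E n) (𝓡∂ n) ∞ (xc n p).symm (xc n p).target :=
      contMDiffOn_extChartAt_symm p
    have h4 : ContMDiffOn (𝓡∂ n) (𝓡∂ n) ∞ (H207.J.mv p h) (xc n p).source :=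
      (h3.comp h2 (fun x hx => tch_tg hR H ((xc n p).map_source hx))).congr
        fun x hx => H207.J.mv_src hx
    exact h4.contMDiffAt ((isOpen_extChartAt_source p).mem_nhds hm)
  · exact contMDiffAt_id.congr_of_eventuallyEq
      (mv_ev hR H fun h => hm (cb_src hR h).1)

/-- The derivative in the chart. -/
theorem mv_jac {p : M} {Ω : Set (Fin n → ℝ)} (hR : Rg p Ω)
    {w K : (Fin n → ℝ) → Fin n → ℝ} (D : LR.Dif (Ω) w K) {m : M} (hm : m ∈ cbO p Ω) :
    Jac (fun y => xc n p (H207.J.mv p (fun y => y + w y) ((xc n p).symm y))) (xc n p m) =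
      LR.jm w (tr (xc n p p) (xc n p m)) := by
  obtain ⟨hs, hcb⟩ := cb_src hR hm
  obtain ⟨htg, hpos⟩ := hR.sub _ hcb
  obtain ⟨O, hO, hOt⟩ := cLoc_relOpen (n := n) p
  have hpos' : 0 < (xc n p m) 0 := hpos
  have hev : ∀ᶠ y in 𝓝 (xc n p m), xc n p (H207.J.mv p (fun y => y + w y) ((xc n p).symm y)) =
      H207.J.tch (xc n p p) (fun y => y + w y) y := by
    have h1 : xc n p m ∈ O := by
      have : xc n p m ∈ tg n p := htg
      rw [hOt] at this
      exact this.1
    have h2 : IsOpen {y : E n | 0 < y 0} := isOpen_lt continuous_const (by fun_prop)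
    filter_upwards [hO.mem_nhds h1, h2.mem_nhds hpos'] with y hy1 hy2
    have h3 : y ∈ tg n p := by
      rw [hOt]
      exact ⟨hy1, le_of_lt (show 0 < y 0 from hy2)⟩
    rw [H207.J.mv_src ((xc n p).map_target h3), (xc n p).right_inv h3,
      (xc n p).right_inv (tch_tg hR (lc_w D) h3)]
  ext i j
  show pd j (fun y => (xc n p (H207.J.mv p (fun y => y + w y) ((xc n p).symm y))) i) (xc n p m) = _
  rw [cRunge_pd hpos']
  have h4 : (fun y => (xc n p (H207.J.mv p (fun y => y + w y) ((xc n p).symm y))) i) =ᶠ[𝓝 (xc n p m)]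
      fun y => (H207.J.tch (xc n p p) (fun y => y + w y) y) i := by
    filter_upwards [hev] with y hy
    rw [hy]
  rw [h4.fderiv_eq]
  set z := xc n p p
  set x := xc n p m
  have h5 : HasFDerivAt (fun y => y + w y) (ContinuousLinearMap.id ℝ (Fin n → ℝ) +
      fderiv ℝ w (tr z x)) (tr z x) :=
    (hasFDerivAt_id _).add (D.sw.differentiable (by simp) _).hasFDerivAt
  have h6 : HasFDerivAt (fun y => (fun y => y + w y) (tr z y)) _ x := h5.comp x (tr_fd z x)
  have h7 := ((hasFDerivAt_pi'.1 h6) i).const_add (z i)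
  have h8 : HasFDerivAt (fun y => (H207.J.tch z (fun y => y + w y) y) i) _ x := h7
  rw [h8.fderiv]
  have h9 : (EuclideanSpace.equiv (Fin n) ℝ) (ev j : E n) = Pi.single j 1 := rfl
  simp only [ContinuousLinearMap.comp_apply, _root_.add_apply,
    ContinuousLinearMap.proj_apply, ContinuousLinearMap.id_apply,
    ContinuousLinearEquiv.coe_coe, h9]
  unfold LR.jm LR.pd
  simp only [Pi.add_apply]
  have h10 : (Pi.single j (1 : ℝ) : Fin n → ℝ) i = (1 : Matrix (Fin n) (Fin n) ℝ) i j := by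
    rw [Matrix.one_apply, Pi.single_apply]
  rw [← h10]

end

section

variable {n N : ℕ} [NeZero n] {M : Type u} [TopologicalSpace M]
  [ChartedSpace (EuclideanHalfSpace n) M] [IsManifold (𝓡∂ n) ∞ M] [T2Space M]

theorem mv_off_D {p : M} {Ω : Set (Fin n → ℝ)} (hR : Rg p Ω)
    {w K : (Fin n → ℝ) → Fin n → ℝ} (D : LR.Dif (Ω) w K) {m : M}
    (hm : m ∉ (xc n p).symm '' vO (xc n p p) Ω) (v : E n) :
    Dm (H207.J.mv p fun y => y + w y) m v = v := by
  have hn : 0 < n := Nat.pos_of_ne_zero (NeZero.ne n)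
  by_cases hcb : m ∈ cbO p Ω
  · obtain ⟨hs, hcb'⟩ := cb_src hR hcb
    have hmm : H207.J.mv p (fun y => y + w y) m = m := mv_off hR (lc_w D) hm
    obtain ⟨h1, h2⟩ := EYM.cChart n M univ (H207.J.mv p fun y => y + w y) isOpen_univ
      (mv_smooth hR (lc_w D)).contMDiffOn p p m (mem_univ _) hs (by rw [hmm]; exact hs)
    have hb : xc n p m ∉ vO (xc n p p) Ω := fun h =>
      hm ⟨xc n p m, h, (xc n p).left_inv hs⟩
    have hbO : tr (xc n p p) (xc n p m) ∉ Ω := fun h => hb (h)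
    have hJ : Jac (fun y => xc n p (H207.J.mv p (fun y => y + w y) ((xc n p).symm y))) (xc n p m) =
        1 := by
      rw [mv_jac hR D hcb]
      ext i j
      unfold LR.jm LR.pd
      rw [LR.H158.fderiv_zero_off (hR.reg) D.sw D.z hbO]
      simp
    obtain ⟨a, ha⟩ := h2 v
    have h3 : ∀ j : Fin n, Dm (H207.J.mv p fun y => y + w y) m (cV p m j) =
        cV p m j := by
      intro j
      have h4 : Dm (H207.J.mv p fun y => y + w y) m (cV p m j) = ∑ k,
          Jac (fun y => xc n p (H207.J.mv p (fun y => y + w y) ((xc n p).symm y))) (xc n p m) k j •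
            cV p (H207.J.mv p (fun y => y + w y) m) k := h1 j
      rw [hJ] at h4
      have h5 : ∀ x : M, x = m → (∑ k, (1 : Matrix (Fin n) (Fin n) ℝ) k j •
          cV p x k) = cV p m j := by
        rintro x rfl
        simp [Matrix.one_apply]
      exact h4.trans (h5 _ hmm)
    have ha' : v = ∑ j, a j • cV p m j := ha
    rw [ha', map_sum]
    exact Finset.sum_congr rfl fun j _ => by rw [map_smul, h3 j]
  · have h1 := mv_ev hR (lc_w D) hcb
    have h2 : mfderiv (𝓡∂ n) (𝓡∂ n) (H207.J.mv p fun y => y + w y) m =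
        mfderiv (𝓡∂ n) (𝓡∂ n) (id : M → M) m := h1.mfderiv_eq
    unfold Dm
    rw [h2, mfderiv_id]
    rfl

variable [MeasurableSpace M]

/-- The pull back of the metric. -/
theorem mv_met {P Q : One n N M} {p : M} {Ω : Set (Fin n → ℝ)} (hR : Rg p Ω)
    {w K : (Fin n → ℝ) → Fin n → ℝ} (D : LR.Dif (Ω) w K)
    (hg : ∀ m, m ∉ (xc n p).symm '' vO (xc n p p) Ω → Gm Q m = Gm P m)
    (hQ : ∀ x ∈ vO (xc n p p) Ω, (Q.loc p).g x =
      (LR.jm w (tr (xc n p p) x))ᵀ * (P.loc p).g (H207.J.tch (xc n p p) (fun y => y + w y) x) *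
        LR.jm w (tr (xc n p p) x)) (m : M) (v v' : E n) :
    Gm Q m v v' = Gm P (H207.J.mv p (fun y => y + w y) m) (Dm (H207.J.mv p fun y => y + w y) m v)
      (Dm (H207.J.mv p fun y => y + w y) m v') := by
  by_cases hm : m ∈ (xc n p).symm '' vO (xc n p p) Ω
  · obtain ⟨y, hy, rfl⟩ := hm
    have hycb := vO_sub hy
    have hyt : y ∈ tg n p := (hR.sub _ hycb).1
    have hs : (xc n p).symm y ∈ (xc n p).source := (xc n p).map_target hyt
    have hmv : H207.J.mv p (fun y => y + w y) ((xc n p).symm y) =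
        (xc n p).symm (H207.J.tch (xc n p p) (fun y => y + w y) y) := by
      rw [H207.J.mv_src hs, (xc n p).right_inv hyt]
    have htc := tch_on (lc_w D) hy
    have hs' : H207.J.mv p (fun y => y + w y) ((xc n p).symm y) ∈ (xc n p).source := by
      rw [hmv]
      exact (xc n p).map_target (hR.sub _ (vO_sub htc)).1
    obtain ⟨h1, h2⟩ := EYM.cChart n M univ (H207.J.mv p fun y => y + w y) isOpen_univ
      (mv_smooth hR (lc_w D)).contMDiffOn p p ((xc n p).symm y) (mem_univ _) hs hs'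
    have hJ := mv_jac hR D (m := (xc n p).symm y) (mem_image_of_mem _ hycb)
    rw [(xc n p).right_inv hyt] at hJ
    rw [(xc n p).right_inv hyt, hJ] at h1
    obtain ⟨a, ha⟩ := h2 v
    obtain ⟨b, hb⟩ := h2 v'
    set m := (xc n p).symm y with hmdef
    set J := LR.jm w (tr (xc n p p) y) with hJdef
    have hD : ∀ a : Fin n → ℝ, Dm (H207.J.mv p fun y => y + w y) m
        (∑ j, a j • cV p m j) =
        ∑ k, (J *ᵥ a) k • cV p (H207.J.mv p (fun y => y + w y) m) k := by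
      intro a
      rw [map_sum]
      have e1 : ∀ j : Fin n, Dm (H207.J.mv p fun y => y + w y) m (a j • cV p m j) =
          ∑ k, (a j * J k j) • cV p (H207.J.mv p (fun y => y + w y) m) k := by
        intro j
        rw [map_smul]
        have e2 : Dm (H207.J.mv p fun y => y + w y) m (cV p m j) =
          ∑ k, J k j • cV p (H207.J.mv p (fun y => y + w y) m) k := h1 j
        rw [e2, Finset.smul_sum]
        exact Finset.sum_congr rfl fun k _ => by rw [smul_smul]
      simp only [e1]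
      rw [Finset.sum_comm]
      refine Finset.sum_congr rfl fun k _ => ?_
      rw [← Finset.sum_smul]
      congr 1
      unfold Matrix.mulVec dotProduct
      exact Finset.sum_congr rfl fun j _ => mul_comm _ _
    have ha' : v = ∑ j, a j • cV p m j := ha
    have hb' : v' = ∑ j, b j • cV p m j := hb
    rw [ha', hb', hD a, hD b]
    have e3 : Gm Q m (∑ j, a j • cV p m j)
        (∑ j, b j • cV p m j) = ∑ l, (∑ k, a k * gram Q.g p m k l) * b l :=
      cTensor_expand Q p m a b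
    have e4 : Gm P (H207.J.mv p (fun y => y + w y) m)
        (∑ j, (J *ᵥ a) j • cV p (H207.J.mv p (fun y => y + w y) m) j)
        (∑ j, (J *ᵥ b) j • cV p (H207.J.mv p (fun y => y + w y) m) j) =
        ∑ l, (∑ k, (J *ᵥ a) k * gram P.g p (H207.J.mv p (fun y => y + w y) m) k l) * (J *ᵥ b) l :=
      cTensor_expand P p (H207.J.mv p (fun y => y + w y) m) (J *ᵥ a) (J *ᵥ b)
    rw [e3, e4]
    set G' := (P.loc p).g (H207.J.tch (xc n p p) (fun y => y + w y) y) with hG'
    have e5 : gram P.g p (H207.J.mv p (fun y => y + w y) m) = G' := by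
      rw [hmv]
      rfl
    have e6 : gram Q.g p m = Jᵀ * G' * J := hQ y hy
    rw [e5, e6]
    have e7 : ∀ (G : Matrix (Fin n) (Fin n) ℝ) (a b : Fin n → ℝ),
        ∑ l, (∑ k, a k * G k l) * b l = a ⬝ᵥ (G *ᵥ b) := by
      intro G a b
      rw [Matrix.dotProduct_mulVec]
      rfl
    rw [e7, e7, ← Matrix.mulVec_mulVec, ← Matrix.mulVec_mulVec, Matrix.dotProduct_mulVec,
      Matrix.vecMul_transpose]
  · rw [mv_off_D hR D hm, mv_off_D hR D hm, mv_off hR (lc_w D) hm, hg m hm]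

theorem mv_con {P : One n N M} {p : M} {Ω : Set (Fin n → ℝ)} (hR : Rg p Ω)
    {w K : (Fin n → ℝ) → Fin n → ℝ} (D : LR.Dif (Ω) w K)
    (hA : ∀ x ∈ vO (xc n p p) Ω, Am P ((xc n p).symm x) = 0) (m : M) (v : E n) :
    Am P m v = Am P (H207.J.mv p (fun y => y + w y) m) (Dm (H207.J.mv p fun y => y + w y) m v) := by
  by_cases hm : m ∈ (xc n p).symm '' vO (xc n p p) Ω
  · obtain ⟨y, hy, rfl⟩ := hm
    have hyt : y ∈ tg n p := (hR.sub _ (vO_sub hy)).1
    have hs : (xc n p).symm y ∈ (xc n p).source := (xc n p).map_target hyt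
    rw [H207.J.mv_src hs, (xc n p).right_inv hyt, hA y hy, hA _ (tch_on (lc_w D) hy)]
    rfl
  · rw [mv_off_D hR D hm, mv_off hR (lc_w D) hm]

/-- The diffeomorphism of `M`. -/
def mvD {p : M} {Ω : Set (Fin n → ℝ)} (hR : Rg p Ω)
    {w K : (Fin n → ℝ) → Fin n → ℝ} (D : LR.Dif (Ω) w K) :
    Diffeomorph (𝓡∂ n) (𝓡∂ n) M M ∞ where
  toFun := H207.J.mv p fun y => y + w y
  invFun := H207.J.mv p K
  left_inv := mv_inv hR (lc_w D) D.l
  right_inv := mv_inv hR (lc_K D) D.r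
  contMDiff_toFun := mv_smooth hR (lc_w D)
  contMDiff_invFun := mv_smooth hR (lc_K D)

end

section

variable {n N : ℕ} [NeZero n] {M : Type u} [TopologicalSpace M]
  [ChartedSpace (EuclideanHalfSpace n) M] [IsManifold (𝓡∂ n) ∞ M] [T2Space M]
  [CompactSpace M] [ConnectedSpace M]

theorem mix_met {P' Q : Pair (at_ n M) N} {p : M} {Ω : Set (Fin n → ℝ)} (hR : Rg p Ω)
    {w K : (Fin n → ℝ) → Fin n → ℝ} (D : LR.Dif (Ω) w K)
    (hoff : ∀ m, m ∉ (xc n p).symm '' vO (xc n p p) Ω → Q.g m = P'.g m)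
    (hQ : ∀ y ∈ vO (xc n p p) Ω, gl Q p y =
      (LR.jm w (tr (xc n p p) y))ᵀ * gl P' p (H207.J.tch (xc n p p) (fun y => y + w y) y) *
        LR.jm w (tr (xc n p p) y)) :
    letI := borel M
    ∀ (m : M) (v v' : E n), Gm (B2.one Q) m v v' =
      Gm (B2.one P') (mvD hR D m) (Dm (mvD hR D) m v) (Dm (mvD hR D) m v') := by
  letI := borel M
  intro m v v'
  have h1 : ∀ m, m ∉ (xc n p).symm '' vO (xc n p p) Ω →
      Gm (B2.one Q) m = Gm (B2.one P') m := by
    intro m hm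
    show S.bil (Q.g m) = S.bil (P'.g m)
    rw [hoff m hm]
  exact mv_met (P := B2.one P') (Q := B2.one Q) hR D h1 hQ m v v'

theorem mix_con {P' : Pair (at_ n M) N} {p : M} {Ω : Set (Fin n → ℝ)} (hR : Rg p Ω)
    {w K : (Fin n → ℝ) → Fin n → ℝ} (D : LR.Dif (Ω) w K)
    (hAP : ∀ y ∈ vO (xc n p p) Ω, P'.A ((xc n p).symm y) = 0) :
    letI := borel M
    ∀ (m : M) (v : E n), Am (B2.one P') m v =
      Am (B2.one P') (mvD hR D m) (Dm (mvD hR D) m v) := by
  letI := borel M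
  intro m v
  have h1 : ∀ x ∈ vO (xc n p p) Ω, Am (B2.one P') ((xc n p).symm x) = 0 := by
    intro x hx
    show S.formOf (P'.A ((xc n p).symm x)) = 0
    rw [hAP x hx]
    exact formOf_zero
  exact mv_con (P := B2.one P') hR D h1 m v

/-- The conclusion of Question 1. -/
theorem related_mv {Γ : Set M} {P P' Q : Pair (at_ n M) N} (hR₀ : Related Γ P P')
    {p : M} {Ω : Set (Fin n → ℝ)} (hR : Rg p Ω)
    {w K : (Fin n → ℝ) → Fin n → ℝ} (D : LR.Dif (Ω) w K)
    (hΓ : ∀ x ∈ Γ, x ∉ (xc n p).symm '' vO (xc n p p) Ω)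
    (hAP : ∀ y ∈ vO (xc n p p) Ω, P'.A ((xc n p).symm y) = 0)
    (hoff : ∀ m, m ∉ (xc n p).symm '' vO (xc n p p) Ω → Q.g m = P'.g m)
    (hQ : ∀ y ∈ vO (xc n p p) Ω, gl Q p y =
      (LR.jm w (tr (xc n p p) y))ᵀ * gl P' p (H207.J.tch (xc n p p) (fun y => y + w y) y) *
        LR.jm w (tr (xc n p p) y))
    (hG : Vale.Agent.P088.B.GaugeEq Γ P'.A Q.A (at_ n M)) : Related Γ P Q := by
  have h1 : Related Γ P (mix P' Q) := by
    refine related_comp hR₀ (mvD hR D) (fun x hx => ?_) ?_ ?_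
    · exact mv_off hR (lc_w D) (hΓ x hx)
    · intro m v v'
      rw [mix_g]
      exact mix_met hR D hoff hQ m v v'
    · intro m v
      rw [mix_A]
      exact mix_con hR D hAP m v
  exact related_gauge h1 hG rfl

end

end Vale.Agent.P088.H207.R

end
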