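import Vale.Agent.P088.H207.St8

/-!
# P088: domains of a chart
-/

open Set
open scoped Matrix

noncomputable section

namespace Vale.Agent.P088.H207

open Vale.Agent.P088.B

universe u

variable {n : ℕ} [NeZero n] {M : Type u} (Z : At n M)

/-- `Ω` is a bounded open subset of `ℝ^n` with `Ω = int(closure Ω)`, and every point of the closure
of `Ω + y(p)`, where `y(p)` are the coordinates of `p` in the chart at `p`, is the coordinate
vector, in that chart, of an interior point of `M`. -/
def IsDom (p : M) (Ω : Set (V n)) : Prop :=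
  IsOpen Ω ∧ interior (closure Ω) = Ω ∧ Bornology.IsBounded Ω ∧
    ∀ y ∈ closure Ω, 0 < (y + Z.ch p p) 0 ∧ ∃ x ∈ Z.src p, Z.ch p x = y + Z.ch p p

end Vale.Agent.P088.H207

end
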