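import Vale.Agent.P088.H207.N5
import Vale.Agent.P088.H207.St7
import Vale.Agent.P088.H442.CFMet

/-!
# P088: local uniqueness near a rigid metric on a domain of a chart
-/

set_option linter.all false

open Bundle Manifold MeasureTheory Set Filter Topology
open scoped ContDiff Matrix ENNReal

noncomputable section

namespace Vale.Agent.P088.H207.R

open Vale.Agent.P088 Vale.Agent.P088.B Vale.Agent.P088.EYM
open Vale.Agent.P088.H207 (gl ch_at src_at gch_at IsDom inM MatchO)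
open Vale.Agent.P088.H207.J (tr tri tr_tri tri_tr tr_cd tri_cd tr_fd)

universe u

section

variable {n : ℕ}

/-- `f` on `Ω`, and `g` off it. -/
def glueO (Ω : Set (Fin n → ℝ)) (f g : LR.MF n) : LR.MF n := fun y =>
  haveI := Classical.dec (y ∈ Ω)
  if y ∈ Ω then f y else g y

variable {Ω K : Set (Fin n → ℝ)} {f g : LR.MF n}

theorem glueO_in {y : Fin n → ℝ} (hy : y ∈ Ω) : glueO Ω f g y = f y := if_pos hy

theorem glueO_out {y : Fin n → ℝ} (hy : y ∉ Ω) : glueO Ω f g y = g y := if_neg hy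

theorem glueO_sm (hΩ : IsOpen Ω) (hK : IsClosed K) (hKΩ : K ⊆ Ω)
    (hf : ∀ i j, ContDiffOn ℝ ∞ (fun y => f y i j) Ω)
    (hg : LR.SmM g) (h1 : ∀ y ∈ Ω, y ∉ K → f y = g y) : LR.SmM (glueO Ω f g) := by
  intro i j
  rw [contDiff_iff_contDiffAt]
  intro y
  by_cases hy : y ∈ Ω
  · have e1 : (fun y => glueO Ω f g y i j) =ᶠ[𝓝 y] fun y => f y i j := by
      filter_upwards [hΩ.mem_nhds hy] with x hx
      rw [glueO_in hx]
    exact ((hf i j).contDiffAt (hΩ.mem_nhds hy)).congr_of_eventuallyEq e1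
  · have e1 : (fun y => glueO Ω f g y i j) =ᶠ[𝓝 y] fun y => g y i j := by
      filter_upwards [hK.isOpen_compl.mem_nhds (fun h => hy (hKΩ h))] with x hx
      by_cases hx' : x ∈ Ω
      · rw [glueO_in hx', h1 x hx' hx]
      · rw [glueO_out hx']
    exact (hg i j).contDiffAt.congr_of_eventuallyEq e1

/-- Rigidity of the metric `h` on `Ω`, among the metrics `g` with `X g`. -/
def RigO (n : ℕ) (Ω : Set (Fin n → ℝ)) (h : LR.MF n) (X : LR.MF n → Prop) : Prop :=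
  ∀ g : LR.MF n, LR.SmM g → (∀ y, (g y).PosDef) → (∀ y ∉ Ω, g y = h y) → X g →
    LR.CF.St2 Ω (LR.sg h) (LR.sg g) →
    ∃ w K, LR.Dif Ω w K ∧ ∀ y, g y = (LR.jm w y)ᵀ * h (y + w y) * LR.jm w y

end

section

variable {n : ℕ} [NeZero n] {M : Type u} [TopologicalSpace M]
  [ChartedSpace (EuclideanHalfSpace n) M] [IsManifold (𝓡∂ n) ∞ M]

theorem tr_at (p x : M) : tr (xc n p p) (xc n p x) = (at_ n M).ch p x - (at_ n M).ch p p := by
  rw [ch_at, ch_at]
  rfl

theorem inM_at {p : M} {S : Set (Fin n → ℝ)} (hS : vO (xc n p p) S ⊆ tg n p) :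
    inM (at_ n M) p S = (xc n p).symm '' vO (xc n p p) S := by
  ext x
  constructor
  · rintro ⟨hx, hr⟩
    rw [src_at] at hx
    rw [← tr_at] at hr
    exact ⟨xc n p x, hr, (xc n p).left_inv hx⟩
  · rintro ⟨y, hy, rfl⟩
    refine ⟨?_, ?_⟩
    · rw [src_at]
      exact (xc n p).map_target (hS hy)
    · rw [← tr_at, (xc n p).right_inv (hS hy)]
      exact hy

theorem rg_of {p : M} {Ω : Set (Fin n → ℝ)} (h : IsDom (at_ n M) p Ω) : Rg p Ω := by
  obtain ⟨h1, h2, h3, h4⟩ := h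
  refine ⟨h1, h2, Metric.isCompact_of_isClosed_isBounded isClosed_closure h3.closure, ?_⟩
  intro x hx
  obtain ⟨h5, x', hx', hxy⟩ := h4 _ hx
  rw [src_at] at hx'
  have e1 : tr (xc n p p) x + (at_ n M).ch p p = WithLp.ofLp x := by
    rw [ch_at]
    funext j
    show (x j - (xc n p p) j) + (xc n p p) j = x j
    ring
  rw [e1, ch_at] at hxy
  rw [e1] at h5
  have e2 : xc n p x' = x := (WithLp.ofLp_injective 2) hxy
  exact ⟨e2 ▸ (xc n p).map_source hx', h5⟩

end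

/-- Local uniqueness near a rigid metric on a domain of a chart. -/
theorem bg_dom {n : ℕ} [NeZero n] (hn : 3 ≤ n) {Ω : Set (Fin n → ℝ)}
    {h : LR.MF n} (hh : LR.SmM h) (hhp : ∀ y, (h y).PosDef) {X : LR.MF n → Prop}
    (hrig : RigO n Ω h X)
    {N : ℕ} (hN : 1 ≤ N) {M : Type u} [TopologicalSpace M]
    [ChartedSpace (EuclideanHalfSpace n) M] [IsManifold (𝓡∂ n) ∞ M] [T2Space M] [CompactSpace M]
    [ConnectedSpace M] (Z : At n M) (hZ : Z = at_ n M) (Γ O₀ : Set M) (hO₀ : IsOpen O₀)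
    (hΓ : Γ = O₀ ∩ bd Z) (hne : Γ.Nonempty) (P P' Q : Pair Z N)
    (hd : Vale.Agent.P088.B.SameData Γ P Q)
    (hR : Related Γ P P') (p : M) (hp : IsDom Z p Ω)
    (hconf : MatchO h P' p Ω) (K K₁ : Set (Fin n → ℝ)) (hK : IsCompact K)
    (hKK : K ⊆ interior K₁) (hK₁ : IsCompact K₁) (hK₁Ω : K₁ ⊆ Ω)
    (hc : IsPreconnected ((bd Z)ᶜ \ inM Z p K)) (hc₁ : IsPreconnected ((bd Z)ᶜ \ inM Z p K₁))
    (hpw : B8.PwLe (inM Z p K)ᶜ Γ P' Q)
    (hU : ∃ U, B8.GaugeBy U (inM Z p K)ᶜ Γ P'.A Q.A Z)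
    (hX : ∀ g : LR.MF n, LR.SmM g → (∀ y, (g y).PosDef) →
      (∀ y ∈ Ω, g y = gch Z Q.g p (y + Z.ch p p)) → (∀ y ∉ Ω, g y = h y) → X g) :
    Related Γ P Q := by
  have hd' : Vale.Agent.P088.B.SameData Γ P' Q := Vale.Agent.P088.B.same_related Z hZ hO₀ hΓ hne hR hd
  subst hZ
  obtain ⟨U, hU⟩ := hU
  letI := borel M
  haveI : BorelSpace M := ⟨rfl⟩
  obtain ⟨hrel, hok, -, -⟩ := TM.fLoc n N M
  obtain ⟨hIo, hIp, hId⟩ := TM.fConn n M
  have hRg : Rg p Ω := rg_of hp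
  have hb : bd (at_ n M) = (𝓡∂ n).boundary M := bd_at
  set z : E n := xc n p p with hz
  have hKΩ : K ⊆ Ω := hKK.trans (interior_subset.trans hK₁Ω)
  have hcl : vO z (closure Ω) ⊆ tg n p := fun x hx => (hRg.sub x hx).1
  have hvm : ∀ {S T : Set (Fin n → ℝ)}, S ⊆ T → vO z S ⊆ vO z T := fun hST x hx => hST hx
  have hbt : vO z Ω ⊆ tg n p := vO_sub.trans hcl
  have hpos : vO z Ω ⊆ {y | 0 < y 0} := fun x hx => (hRg.sub x (vO_sub hx)).2
  have hKM : inM (at_ n M) p K = (xc n p).symm '' vO z K := inM_at ((hvm hKΩ).trans hbt)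
  have hKM₁ : inM (at_ n M) p K₁ = (xc n p).symm '' vO z K₁ := inM_at ((hvm hK₁Ω).trans hbt)
  have hV : inM (at_ n M) p Ω = (xc n p).symm '' vO z Ω := inM_at hbt
  have hvKc : IsCompact (vO z K) := vO_compact hK
  have hvK₁c : IsCompact (vO z K₁) := vO_compact hK₁
  have hvO : IsOpen (vO z Ω) := hRg.op.preimage (tr_cd z).continuous
  have hvKK : vO z K ⊆ interior (vO z K₁) :=
    (hvm hKK).trans (interior_maximal (hvm interior_subset)
      (isOpen_interior.preimage (tr_cd z).continuous))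
  have hVH : vO z Ω ⊆ Hs n := fun y hy => le_of_lt (show (0 : ℝ) < y 0 from hpos hy)
  have hmi : Mi n M = (bd (at_ n M))ᶜ := by
    rw [hb, ← ModelWithCorners.compl_interior, compl_compl]
  have hcpK : IsCompact ((xc n p).symm '' vO z K) :=
    hvKc.image_of_continuousOn ((continuousOn_extChartAt_symm p).mono ((hvm hKΩ).trans hbt))
  have hKmi : (xc n p).symm '' vO z K ⊆ Mi n M := by
    rintro _ ⟨y, hy, rfl⟩
    exact cRungeB_mi_of_pos TM.fLoc p (hbt (hvm hKΩ hy)) (hpos (hvm hKΩ hy))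
  have hmem : ∀ y ∈ vO z Ω, (xc n p).symm y ∈ inM (at_ n M) p Ω := fun y hy => by
    rw [hV]
    exact mem_image_of_mem _ hy
  have hchy : ∀ y ∈ vO z Ω, (at_ n M).ch p ((xc n p).symm y) = WithLp.ofLp y :=
    fun y hy => by rw [ch_at, (xc n p).right_inv (hbt hy)]
  -- the hole
  have hole : B8.Hole U (inM (at_ n M) p K) (inM (at_ n M) p Ω) Γ P' Q := by
    refine ⟨?_, ?_, ?_, ?_, ?_, hpw, hU⟩
    · rw [hKM]
      exact hcpK.isClosed
    · rw [hKM, hb, eq_empty_iff_forall_notMem]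
      rintro x ⟨h1, h2⟩
      have h3 := hKmi h1
      rw [← ModelWithCorners.compl_interior] at h2
      exact h2 h3
    · rw [hKM] at hc ⊢
      rw [← hmi] at hc
      refine hc.subset_closure (fun x hx => hx.2) fun x hx => ?_
      rw [mem_closure_iff]
      intro W hW hxW
      obtain ⟨q, ⟨hq1, hq2⟩, hqI⟩ := mem_closure_iff.1 (hId x) (W ∩ ((xc n p).symm '' vO z K)ᶜ)
        (hW.inter hcpK.isClosed.isOpen_compl) ⟨hxW, hx⟩
      exact ⟨q, hq1, hqI, hq2⟩
    · rw [hV]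
      exact cRungeB_open TM.fLoc p ⟨vO z Ω, hvO, (inter_eq_left.2 hVH).symm⟩ hbt
    · rw [hKM, hV]
      exact image_mono (hvm hKΩ)
  obtain ⟨h1, -, h2⟩ := B8.hole' hn hN (at_ n M) rfl Γ O₀ hO₀ hΓ hne P' Q hd' U _ _ hole
  obtain ⟨V, hV1, -⟩ := h2 ⟨fun _ => 1, fun a b => contMDiffOn_const, fun x hx => ⟨by simp, fun j => by
    have e1 : dM (fun y : Vale.Agent.P088.B.V n => (1 : Matrix (Fin N) (Fin N) ℂ))
        ((at_ n M).ch x x) j = 0 := by
      ext a b
      unfold dM dj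
      simp
    rw [e1, (hconf x hx).2, Matrix.mul_zero]
    rfl⟩⟩
  -- the second pair with the first connection
  have hgeq : Vale.Agent.P088.B.GaugeEq Γ P'.A Q.A (at_ n M) :=
    ⟨V, hV1.1, hV1.2.1, hV1.2.2.1, fun x j => hV1.2.2.2 x (mem_univ x) j⟩
  obtain ⟨W, hW, hW1, hW2⟩ := Vale.Agent.P088.B.toGauge hgeq
  have hS : EYM.SameD (B2.one P') (EYM.O.wA (B2.one Q) (B2.one P').A) Γ :=
    (EYM.O.mg_closed n N M (EYM.O.wA (B2.one Q) (B2.one P').A) (B2.one P') Γ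
      (B2.one Q).A W hW hW1 hW2).2.2 (Vale.Agent.P088.B.sameD_one hd')
  have hRB : EYM.RelBd n Γ := ⟨O₀, hO₀, by rw [hΓ, hb]⟩
  have hchp : (at_ n M).ch p p = WithLp.ofLp z := ch_at p p
  have hgP : ∀ y ∈ vO z Ω, gl P' p y = h (tr z y) := by
    intro y hy
    have e1 := (hconf _ (hmem y hy)).1
    rw [hchy y hy, gch_at P' p (hbt hy), hchp] at e1
    exact e1
  have hA0 : ∀ y ∈ vO z Ω, P'.A ((xc n p).symm y) = 0 := fun y hy =>
    (hconf _ (hmem y hy)).2
  have hAP : ∀ y ∈ vO z Ω, ∀ i, ((B2.one P').loc p).B i y = 0 := by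
    intro y hy i
    show S.formOf (P'.A ((xc n p).symm y)) _ = 0
    rw [hA0 y hy]
    show (S.formOf (0 : Fin n → Matrix (Fin N) (Fin N) ℂ)) _ = 0
    rw [formOf_zero]
    rfl
  have hokQ : ((EYM.O.wA (B2.one Q) (B2.one P').A).loc p).Ok (vO z Ω) :=
    CHarm_ok_mono (hok _ p) hbt
  -- the two metrics in centred coordinates
  set y₀ : Fin n → ℝ := WithLp.ofLp z with hy₀
  have htri : ∀ y : Fin n → ℝ, WithLp.ofLp (tri z y) = y + y₀ := by
    intro y
    funext j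
    show z j + y j = y j + z j
    ring
  have htO : ∀ y ∈ Ω, tri z y ∈ vO z Ω := fun y hy => by
    show tr z (tri z y) ∈ Ω
    rwa [tr_tri]
  set f : LR.MF n := fun y => gch (at_ n M) Q.g p (y + y₀) with hf
  have hfgl : ∀ y ∈ Ω, f y = gl Q p (tri z y) := by
    intro y hy
    have e1 := gch_at Q p (hbt (htO y hy))
    rw [htri] at e1
    exact e1
  have hf1 : ∀ y ∈ Ω, y ∉ K → f y = h y := by
    intro y hy hy'
    have hx := htO y hy
    have h5 : (xc n p).symm (tri z y) ∉ (xc n p).symm '' vO z K := by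
      rintro ⟨x', hx', he⟩
      have h6 : x' = tri z y := (xc n p).symm.injOn (hbt (hvm hKΩ hx')) (hbt hx) he
      rw [h6] at hx'
      have h7 : tr z (tri z y) ∈ K := hx'
      rw [tr_tri] at h7
      exact hy' h7
    have e1 : gl Q p (tri z y) = gl P' p (tri z y) := by
      ext i j
      show S.bil (Q.g _) _ _ = S.bil (P'.g _) _ _
      rw [h1 _ (by rw [hKM]; exact h5)]
    rw [hfgl y hy, e1, hgP _ hx, tr_tri]
  have hfs : ∀ i j, ContDiffOn ℝ ∞ (fun y => f y i j) Ω := by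
    intro i j
    have e2 : ContDiffOn ℝ ∞ (fun x : E n => gl Q p x i j) (vO z Ω) :=
      hokQ.g_smooth i j
    refine (e2.comp (tri_cd z).contDiffOn fun y hy => htO y hy).congr
      fun y hy => ?_
    rw [hfgl y hy]
    rfl
  set g : LR.MF n := glueO Ω f h with hg
  have hgs : LR.SmM g := glueO_sm hRg.op hK.isClosed hKΩ hfs hh hf1
  have hgp : ∀ y, (g y).PosDef := by
    intro y
    by_cases hy : y ∈ Ω
    · rw [hg, glueO_in hy, hfgl y hy]
      exact hokQ.g_pos _ (htO y hy)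
    · rw [hg, glueO_out hy]
      exact hhp y
  have hgQ : ∀ x ∈ vO z Ω, g (tr z x) = gl Q p x := by
    intro x hx
    rw [hg, glueO_in (show tr z x ∈ Ω from hx), hfgl _ hx, tri_tr]
  have hgPc : ∀ x ∈ vO z Ω, h (tr z x) = gl P' p x := fun x hx => (hgP x hx).symm
  have hgX : X g := by
    refine hX g hgs hgp (fun y hy => ?_) fun y hy => glueO_out hy
    rw [hg, glueO_in hy, hchp]
  have hstar : LR.CF.St2 Ω (LR.sg h) (LR.sg g) :=
    starK (⟨0, by omega⟩ : Fin N) (P := B2.one P')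
      (Q := EYM.O.wA (B2.one Q) (B2.one P').A) hRB hne hS (V := vO z Ω) (K := vO z K)
      (K₁ := vO z K₁) hRg.op rfl hbt hpos hvKc hvKK hvK₁c (hvm hK₁Ω)
      (by rw [← hmi, hKM₁] at hc₁; exact hc₁)
      (fun y hy i => hAP y hy i) (fun y hy i => hAP y hy i) (fun x _ X => rfl)
      (fun x hx v w => by
        show S.bil (Q.g x) v w = S.bil (P'.g x) v w
        rw [h1 x (by rw [hKM]; exact hx)]) hh hgs hhp hgp hgPc hgQ
  obtain ⟨w, K', D, hwK⟩ := hrig g hgs hgp (fun y hy => glueO_out hy) hgX hstar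
  refine related_mv hR hRg D ?_ hA0 ?_ ?_ hgeq
  · intro x hx hx'
    rw [hΓ, hb] at hx
    obtain ⟨y, hy, rfl⟩ := hx'
    have h3 := cRungeB_mi_of_pos TM.fLoc p (hbt hy) (hpos hy)
    have h4 := hx.2
    rw [← ModelWithCorners.compl_interior] at h4
    exact h4 h3
  · intro m hm
    refine h1 m ?_
    rw [hKM]
    exact fun h => hm (image_mono (hvm hKΩ) h)
  · intro y hy
    have e1 := tch_on (lc_w D) (z := z) hy
    have e2 : tr z (J.tch z (fun y => y + w y) y) = tr z y + w (tr z y) := by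
      unfold J.tch
      rw [tr_tri]
    rw [← hgQ y hy, hwK, ← hgPc _ e1, e2]

end Vale.Agent.P088.H207.R

end
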