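import Vale.Agent.P088.H207.N6
import Vale.Agent.P088.H292.BdM
import Vale.Agent.P088.H833.D.Top
import Vale.Agent.P088.H188.MetD

/-!
# P088: semi-global uniqueness near the conformally flat metrics on a domain of a chart
-/

set_option linter.all false

open Bundle Manifold MeasureTheory Set Filter Topology
open scoped ContDiff Matrix ENNReal

noncomputable section

namespace Vale.Agent.P088.H207.R

open Vale.Agent.P088 Vale.Agent.P088.B Vale.Agent.P088.EYM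
open Vale.Agent.P088.H207 (IsDom inM MatchO CloseO NearO Pos cdel ch_at src_at)
open Vale.Agent.P088.H207.J (tr tri tr_tri tri_tr)

universe u

/-- A point of the domain in the chart. -/
theorem dom_pt {n : ℕ} [NeZero n] {M : Type u} [TopologicalSpace M]
    [ChartedSpace (EuclideanHalfSpace n) M] [IsManifold (𝓡∂ n) ∞ M]
    {p : M} {Ω : Set (Fin n → ℝ)} (hp : IsDom (at_ n M) p Ω) {y : Fin n → ℝ}
    (hy : y ∈ Ω) : ∃ x ∈ inM (at_ n M) p Ω, (at_ n M).ch p x = y + (at_ n M).ch p p := by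
  obtain ⟨-, x, hx, hxy⟩ := hp.2.2.2 y (subset_closure hy)
  refine ⟨x, ⟨hx, ?_⟩, hxy⟩
  rw [hxy, add_sub_cancel_right]
  exact hy

/-- Semi-global uniqueness near the conformally flat metrics. -/
theorem semi_dom {n : ℕ} [NeZero n] (hn : 3 ≤ n)
    (hC : ∃ k : ℕ, ∀ R : ℝ, 0 < R → ∀ c : LR.V n → ℝ, LR.SmP c → ∃ ε > 0,
      LR.CC.LocC n (fun Ω s t => LR.CF.St2 Ω s t) k c ε R)
    (hD : ∃ k : ℕ, ∀ R : ℝ, 0 < R → ∀ c : LR.V n → ℝ, LR.SmP c → ∀ B : ℝ, 0 < B → ∃ ε > 0,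
      LR.CD.LocD n (fun Ω s t => LR.CF.St2 Ω s t) k c B ε R) :
    ∃ k : ℕ, ∀ R : ℝ, 0 < R → ∀ c : Vale.Agent.P088.B.V n → ℝ, Pos c → ∀ B : ℝ, 0 < B → ∃ ε : ℝ, 0 < ε ∧
    ∀ {N : ℕ} (_ : 1 ≤ N) {M : Type u} [TopologicalSpace M]
    [ChartedSpace (EuclideanHalfSpace n) M] [IsManifold (𝓡∂ n) ∞ M] [T2Space M] [CompactSpace M]
    [ConnectedSpace M] (Z : At n M) (_ : Z = at_ n M) (Γ O₀ : Set M) (_ : IsOpen O₀)
    (_ : Γ = O₀ ∩ bd Z) (_ : Γ.Nonempty) (P P' Q : Pair Z N) (_ : Vale.Agent.P088.B.SameData Γ P Q)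
    (_ : Related Γ P P') (p : M) (Ω : Set (Vale.Agent.P088.B.V n)) (_ : IsDom Z p Ω)
    (_ : ∀ y ∈ Ω, ∀ j, |y j| ≤ R) (_ : MatchO (cdel c) P' p Ω) (K K₁ : Set (Vale.Agent.P088.B.V n))
    (_ : IsCompact K) (_ : K ⊆ interior K₁) (_ : IsCompact K₁) (_ : K₁ ⊆ Ω)
    (_ : IsPreconnected ((bd Z)ᶜ \ inM Z p K)) (_ : IsPreconnected ((bd Z)ᶜ \ inM Z p K₁))
    (_ : B8.PwLe (inM Z p K)ᶜ Γ P' Q)
    (_ : ∃ U, B8.GaugeBy U (inM Z p K)ᶜ Γ P'.A Q.A Z)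
    (_ : CloseO k ε (cdel c) Q p Ω ∨ NearO k B ε Q p Ω), Related Γ P Q := by
  obtain ⟨kC, hC⟩ := hC
  obtain ⟨kD, hD⟩ := hD
  refine ⟨max kC kD, fun R hR c hc B hB => ?_⟩
  obtain ⟨εC, hεC, HC⟩ := hC R hR c hc
  obtain ⟨εD, hεD, HD⟩ := hD R hR c hc B hB
  refine ⟨min εC εD, lt_min hεC hεD, ?_⟩
  intro N hN M _ _ _ _ _ _ Z hZ Γ O₀ hO₀ hΓ hne P P' Q hd hR' p Ω hp hbR hM K K₁ hK hKK hK₁ hK₁Ω
    hc0 hc1 hpw hU hcl
  have hend : ∀ (w : LR.V n → LR.V n) (g : LR.MF n),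
      (∀ x, g x = c (x + w x) • ((LR.jm w x)ᵀ * LR.jm w x)) →
      ∀ y, g y = (LR.jm w y)ᵀ * cdel c (y + w y) * LR.jm w y := by
    intro w g h y
    rw [h y]
    unfold cdel
    rw [Matrix.mul_smul, Matrix.mul_one, Matrix.smul_mul]
  have hcs : LR.SmM (cdel c) := LR.CF.smM_sc442 hc.1
  have hiter : ∀ (g : LR.MF n) (F : (Fin n → ℝ) → ℝ) (f : (Fin n → ℝ) → ℝ) (l : ℕ)
      (y : Fin n → ℝ), y ∈ Ω → (∀ y ∈ Ω, f y = F (y + Z.ch p p)) →
      iteratedFDeriv ℝ l f y = iteratedFDeriv ℝ l F (y + Z.ch p p) := by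
    intro g F f l y hy h
    have e1 : f =ᶠ[𝓝 y] fun y => F (y + Z.ch p p) := by
      filter_upwards [hp.1.mem_nhds hy] with y' hy'
      exact h y' hy'
    rw [(e1.iteratedFDeriv ℝ l).self_of_nhds]
    exact iteratedFDeriv_comp_add_right (𝕜 := ℝ) (f := F) l (Z.ch p p) y
  subst hZ
  rcases hcl with hcl | hcl
  · refine bg_dom hn (h := cdel c) hcs (LR.CF.posDef_sc442 hc.2)
      (X := fun g => ∀ i j, LR.Cl kC εC (fun y => g y i j - cdel c y i j)) ?_ hN (at_ n M) rfl Γ O₀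
      hO₀ hΓ hne P P' Q hd hR' p hp hM K K₁ hK hKK hK₁ hK₁Ω hc0 hc1 hpw hU ?_
    · intro g hg hgp hoff hgc hst
      obtain ⟨w, K, D, hwK⟩ := HC Ω hp.1 hp.2.1 hbR g hg hgp hoff hgc hst
      exact ⟨w, K, D, hend w g hwK⟩
    · intro g hg hgp hin hout i j
      refine Vale.Agent.P088.H292.BM.cl_off (f₀ := fun _ => (0 : ℝ)) hp.2.1
        ((hg i j).sub (hcs i j)) contDiff_const (fun x hx => by rw [hout x hx, sub_self]) ?_ ?_
      · intro l hl y hy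
        obtain ⟨x, hx, hxy⟩ := dom_pt hp hy
        have h1 := hcl x hx i j l (hl.trans (le_max_left _ _))
        rw [hxy] at h1
        rw [hiter g (fun y => gch (at_ n M) Q.g p y i j - cdel c (y - (at_ n M).ch p p) i j)
          (fun y => g y i j - cdel c y i j) l y hy fun y' hy' => by
            rw [hin y' hy', add_sub_cancel_right]]
        exact h1.trans (min_le_left _ _)
      · intro l hl y
        have e2 : iteratedFDeriv ℝ l (fun _ : Fin n → ℝ => (0 : ℝ)) y = 0 := by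
          rw [iteratedFDeriv_zero_fun]
          rfl
        rw [e2, norm_zero]
        exact hεC.le
  · refine bg_dom hn (h := cdel c) hcs
      (LR.CF.posDef_sc442 hc.2) (X := fun g =>
        (∀ i j, ∀ l ≤ kD, ∀ x ∈ Ω, ‖iteratedFDeriv ℝ l (fun x => g x i j) x‖ ≤ B) ∧
        (∀ x ∈ Ω, B⁻¹ ≤ (g x).det) ∧
        ∀ i j, ∀ x ∈ Ω, |g x i j -
          LR.CF.sc (fun x => (g x).det ^ (1 / (n : ℝ))) x i j| ≤ εD) ?_ hN (at_ n M) rfl Γ O₀ hO₀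
        hΓ hne P P' Q hd hR' p hp hM K K₁ hK hKK hK₁ hK₁Ω hc0 hc1 hpw hU ?_
    · intro g hg hgp hoff hX hst
      obtain ⟨w, K, D, hwK⟩ := HD Ω hp.1 hp.2.1 hbR g hg hgp hoff
        hX.1 hX.2.1 hX.2.2 hst
      exact ⟨w, K, D, hend w g hwK⟩
    · intro g hg hgp hin hout
      refine ⟨fun i j l hl y hy => ?_, fun y hy => ?_, fun i j y hy => ?_⟩
      · obtain ⟨x, hx, hxy⟩ := dom_pt hp hy
        have h1 := (hcl x hx).1 i j l (hl.trans (le_max_right _ _))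
        rw [hxy] at h1
        rw [hiter g (fun y => gch (at_ n M) Q.g p y i j) (fun y => g y i j) l y hy fun y' hy' => by
            rw [hin y' hy']]
        exact h1
      · obtain ⟨x, hx, hxy⟩ := dom_pt hp hy
        have h1 := (hcl x hx).2.1
        rw [hxy, ← hin y hy, one_div] at h1
        exact h1
      · obtain ⟨x, hx, hxy⟩ := dom_pt hp hy
        have h1 := (hcl x hx).2.2 i j
        rw [hxy, ← hin y hy] at h1
        exact h1.trans (min_le_right _ _)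

theorem semi_dom_all {n : ℕ} [NeZero n] (hn : 3 ≤ n) :
    ∃ k : ℕ, ∀ R : ℝ, 0 < R → ∀ c : Vale.Agent.P088.B.V n → ℝ, Pos c → ∀ B : ℝ, 0 < B → ∃ ε : ℝ, 0 < ε ∧
    ∀ {N : ℕ} (_ : 1 ≤ N) {M : Type u} [TopologicalSpace M]
    [ChartedSpace (EuclideanHalfSpace n) M] [IsManifold (𝓡∂ n) ∞ M] [T2Space M] [CompactSpace M]
    [ConnectedSpace M] (Z : At n M) (_ : Z = at_ n M) (Γ O₀ : Set M) (_ : IsOpen O₀)
    (_ : Γ = O₀ ∩ bd Z) (_ : Γ.Nonempty) (P P' Q : Pair Z N) (_ : Vale.Agent.P088.B.SameData Γ P Q)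
    (_ : Related Γ P P') (p : M) (Ω : Set (Vale.Agent.P088.B.V n)) (_ : IsDom Z p Ω)
    (_ : ∀ y ∈ Ω, ∀ j, |y j| ≤ R) (_ : MatchO (cdel c) P' p Ω) (K K₁ : Set (Vale.Agent.P088.B.V n))
    (_ : IsCompact K) (_ : K ⊆ interior K₁) (_ : IsCompact K₁) (_ : K₁ ⊆ Ω)
    (_ : IsPreconnected ((bd Z)ᶜ \ inM Z p K)) (_ : IsPreconnected ((bd Z)ᶜ \ inM Z p K₁))
    (_ : B8.PwLe (inM Z p K)ᶜ Γ P' Q)
    (_ : ∃ U, B8.GaugeBy U (inM Z p K)ᶜ Γ P'.A Q.A Z)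
    (_ : CloseO k ε (cdel c) Q p Ω ∨ NearO k B ε Q p Ω), Related Γ P Q :=
  semi_dom hn (LR.CC.theoremC442 n hn)
    (Vale.Agent.P088.H188.metd Vale.Agent.P088.H833.D.topD_all n hn)

end Vale.Agent.P088.H207.R

end
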