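import Vale.Agent.P088.H207.N7

/-!
# P088: compact neighborhoods with connected complement
-/

set_option linter.all false

open Bundle Manifold MeasureTheory Set Filter Topology
open scoped ContDiff Matrix ENNReal

noncomputable section

namespace Vale.Agent.P088.H207.R

open Vale.Agent.P088 Vale.Agent.P088.B Vale.Agent.P088.EYM
open Vale.Agent.P088.H207 (IsDom inM ch_at src_at)
open Vale.Agent.P088.H207.J (tr tri tr_tri tri_tr tr_cd tri_cd)

universe u

section top

variable {X : Type u} [TopologicalSpace X]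

/-- A compact subset of a connected open set is contained in a connected open set with closure in
it. -/
theorem hullT {U C : Set X} (hUc : IsPreconnected U) (hC : IsCompact C) (hCU : C ⊆ U)
    (hloc : ∀ x ∈ U, ∃ W : Set X, IsOpen W ∧ IsPreconnected W ∧ x ∈ W ∧ closure W ⊆ U)
    (hne : U.Nonempty) :
    ∃ W : Set X, IsOpen W ∧ IsPreconnected W ∧ C ⊆ W ∧ closure W ⊆ U := by
  obtain ⟨x₀, hx₀⟩ := hne
  set T : Set X := {x | ∃ W : Set X, IsOpen W ∧ IsPreconnected W ∧ x₀ ∈ W ∧ x ∈ W ∧ closure W ⊆ U}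
    with hT
  have hTo : IsOpen T := by
    rw [isOpen_iff_mem_nhds]
    rintro x ⟨W, h1, h2, h3, h4, h5⟩
    exact mem_of_superset (h1.mem_nhds h4) fun y hy => ⟨W, h1, h2, h3, hy, h5⟩
  have hUT : U ⊆ T := by
    refine hUc.subset_of_closure_inter_subset hTo ?_ ?_
    · obtain ⟨W, h1, h2, h3, h4⟩ := hloc x₀ hx₀
      exact ⟨x₀, hx₀, W, h1, h2, h3, h3, h4⟩
    · rintro x ⟨hx, hxU⟩
      obtain ⟨W, h1, h2, h3, h4⟩ := hloc x hxU
      obtain ⟨y, hyW, W', g1, g2, g3, g4, g5⟩ := mem_closure_iff.1 hx W h1 h3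
      refine ⟨W ∪ W', h1.union g1, h2.union y hyW g4 g2, Or.inr g3, Or.inl h3, ?_⟩
      rw [closure_union]
      exact union_subset h4 g5
  obtain ⟨W, h1, h2, h3, h4, h5⟩ := hC.induction_on
    (p := fun s => ∃ W : Set X, IsOpen W ∧ IsPreconnected W ∧ x₀ ∈ W ∧ s ⊆ W ∧ closure W ⊆ U)
    (by
      obtain ⟨W, h1, h2, h3, h4⟩ := hloc x₀ hx₀
      exact ⟨W, h1, h2, h3, empty_subset _, h4⟩)
    (fun s t hst ⟨W, h1, h2, h3, h4, h5⟩ => ⟨W, h1, h2, h3, hst.trans h4, h5⟩)
    (fun s t ⟨W, h1, h2, h3, h4, h5⟩ ⟨W', g1, g2, g3, g4, g5⟩ => by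
      refine ⟨W ∪ W', h1.union g1, h2.union x₀ h3 g3 g2, Or.inl h3, union_subset_union h4 g4, ?_⟩
      rw [closure_union]
      exact union_subset h5 g5)
    (fun x hx => by
      obtain ⟨W, h1, h2, h3, h4, h5⟩ := hUT (hCU hx)
      exact ⟨W, mem_nhdsWithin_of_mem_nhds (h1.mem_nhds h4), W, h1, h2, h3, subset_rfl, h5⟩)
  exact ⟨W, h1, h2, h4, h5⟩

/-- Compact neighborhoods with connected complement. -/
theorem nbT [T2Space X] [LocallyCompactSpace X] {I K V : Set X} (hI : IsPreconnected I)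
    (hIo : IsOpen I)
    (hK : IsCompact K) (hV : IsOpen V) (hKV : K ⊆ V) (hVI : V ⊆ I)
    (hc : IsPreconnected (I \ K))
    (hloc : ∀ x ∈ I \ K, ∃ W : Set X, IsOpen W ∧ IsPreconnected W ∧ x ∈ W ∧ closure W ⊆ I \ K) :
    ∃ K₃ : Set X, IsCompact K₃ ∧ K ⊆ interior K₃ ∧ K₃ ⊆ V ∧ IsPreconnected (I \ K₃) := by
  rcases (I \ K).eq_empty_or_nonempty with he | hne
  · have h1 : I = K := Subset.antisymm (sdiff_eq_empty.1 he) (hKV.trans hVI)
    have h2 : V = K := Subset.antisymm (h1 ▸ hVI) hKV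
    refine ⟨K, hK, ?_, hKV, ?_⟩
    · rw [← h2, hV.interior_eq]
    · rw [he]
      exact isPreconnected_empty
  obtain ⟨K₂, hK₂, h1, h2⟩ := exists_compact_between hK hV hKV
  obtain ⟨K₁, hK₁, h3, h4⟩ := exists_compact_between hK isOpen_interior h1
  have hC : IsCompact (K₂ \ interior K₁) := hK₂.diff isOpen_interior
  have hCU : K₂ \ interior K₁ ⊆ I \ K := fun x hx => ⟨hVI (h2 hx.1), fun h => hx.2 (h3 h)⟩
  obtain ⟨W, hW, hWc, hCW, hWU⟩ := hullT hc hC hCU hloc hne
  have hWI : W ⊆ I := fun x hx => (hWU (subset_closure hx)).1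
  refine ⟨K₂ \ W, hK₂.diff hW, ?_, sdiff_subset.trans h2, ?_⟩
  · have g1 : interior K₂ ∩ (closure W)ᶜ ⊆ K₂ \ W := fun x hx =>
      ⟨interior_subset hx.1, fun h => hx.2 (subset_closure h)⟩
    have g2 : K ⊆ interior K₂ ∩ (closure W)ᶜ := fun x hx => ⟨h1 hx, fun h => (hWU h).2 hx⟩
    exact g2.trans (interior_maximal g1
      (isOpen_interior.inter isClosed_closure.isOpen_compl))
  · intro u v hu hv huv hnu hnv
    by_contra hemp
    rw [not_nonempty_iff_eq_empty] at hemp
    set S : Set X := I \ (K₂ \ W) with hS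
    have hSo : IsOpen S := hIo.sdiff (hK₂.diff hW).isClosed
    have hSW : W ⊆ S := fun x hx => ⟨hWI hx, fun h => h.2 hx⟩
    have key : ∀ u v : Set X, IsOpen u → IsOpen v → S ⊆ u ∪ v → (S ∩ u).Nonempty →
        (S ∩ v).Nonempty → S ∩ (u ∩ v) = ∅ → W ⊆ u → False := by
      intro u v hu hv huv hnu hnv hemp hWu
      have hdis : ∀ x ∈ S, x ∈ u → x ∈ v → False := fun x h1 h2 h3 => by
        have : x ∈ S ∩ (u ∩ v) := ⟨h1, h2, h3⟩
        rw [hemp] at this
        exact this
      have hBo : IsOpen (S ∩ v) := hSo.inter hv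
      have hIB : I ⊆ S ∩ v := by
        refine hI.subset_of_closure_inter_subset hBo ?_ ?_
        · obtain ⟨x, hx⟩ := hnv
          exact ⟨x, hx.1.1, hx⟩
        · rintro b ⟨hb, hbI⟩
          by_cases hbS : b ∈ S
          · rcases huv hbS with h | h
            · obtain ⟨t, ⟨ht1, ht2⟩, ht3⟩ := mem_closure_iff.1 hb (S ∩ u) (hSo.inter hu) ⟨hbS, h⟩
              exact (hdis t ht1 ht2 ht3.2).elim
            · exact ⟨hbS, h⟩
          · have hb1 : b ∈ K₂ \ W := by
              by_contra h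
              exact hbS ⟨hbI, h⟩
            have hb2 : b ∈ interior K₂ := by
              refine h4 ?_
              by_contra h
              exact hb1.2 (hCW ⟨hb1.1, fun h' => h (interior_subset h')⟩)
            obtain ⟨t, ht1, ht2⟩ := mem_closure_iff.1 hb (interior K₂) isOpen_interior hb2
            have ht3 : t ∈ W := by
              by_contra h
              exact ht2.1.2 ⟨interior_subset ht1, h⟩
            exact (hdis t ht2.1 (hWu ht3) ht2.2).elim
      obtain ⟨x, hx⟩ := hnu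
      exact hdis x hx.1 hx.2 (hIB hx.1.1).2
    have hAB : W ⊆ (S ∩ u) ∪ (S ∩ v) := fun x hx => (huv (hSW hx)).imp
      (fun h => ⟨hSW hx, h⟩) fun h => ⟨hSW hx, h⟩
    have hdj : Disjoint (S ∩ u) (S ∩ v) := by
      rw [disjoint_left]
      intro x h1 h2
      have : x ∈ S ∩ (u ∩ v) := ⟨h1.1, h1.2, h2.2⟩
      rw [hemp] at this
      exact this
    rcases IsPreconnected.subset_or_subset (hSo.inter hu) (hSo.inter hv) hdj hAB hWc with h | h
    · exact key u v hu hv huv hnu hnv hemp fun x hx => (h hx).2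
    · exact key v u hv hu (by rwa [union_comm]) hnv hnu (by rwa [inter_comm v u])
        fun x hx => (h hx).2

end top

end Vale.Agent.P088.H207.R

end
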