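import Vale.Agent.P088.H207.N8

/-!
# P088: compact sets of a chart with connected complement
-/

set_option linter.all false

open Bundle Manifold MeasureTheory Set Filter Topology
open scoped ContDiff Matrix ENNReal

noncomputable section

namespace Vale.Agent.P088.H207.R

open Vale.Agent.P088 Vale.Agent.P088.B Vale.Agent.P088.EYM
open Vale.Agent.P088.H207 (IsDom inM MatchO CloseO NearO Pos cdel ch_at src_at)
open Vale.Agent.P088.H207.J (tr tri tr_tri tri_tr tr_cd tri_cd)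

universe u

section

variable {n : ℕ} [NeZero n] {M : Type u} [TopologicalSpace M]
  [ChartedSpace (EuclideanHalfSpace n) M] [IsManifold (𝓡∂ n) ∞ M] [T2Space M] [CompactSpace M]
  [ConnectedSpace M]

theorem loc_int {U : Set M} (hU : IsOpen U) (hUI : U ⊆ Mi n M) {x : M} (hx : x ∈ U) :
    ∃ W : Set M, IsOpen W ∧ IsPreconnected W ∧ x ∈ W ∧ closure W ⊆ U := by
  letI := borel M
  haveI : BorelSpace M := ⟨rfl⟩
  set y := xc n x x with hy
  have hs : x ∈ (xc n x).source := mem_extChartAt_source x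
  have hyt : y ∈ tg n x := (xc n x).map_source hs
  obtain ⟨r₁, hr₁, h1, h2⟩ := cRungeB_ball TM.fLoc x hU hyt
    (by rw [(xc n x).left_inv hs]; exact hx)
  have hy0 : 0 < y 0 := cRungeB_pos_of_mi TM.fLoc x hs (hUI hx)
  obtain ⟨r₂, hr₂, h3⟩ := cRungeB_ball_pos hy0
  have hr : 0 < min r₁ r₂ := lt_min hr₁ hr₂
  have hpos : Metric.closedBall y (min r₁ r₂) ⊆ {y | 0 < y 0} := h3 _ (min_le_right _ _)
  have hHs : Metric.closedBall y (min r₁ r₂) ⊆ Hs n := fun y' hy' =>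
    show (0 : ℝ) ≤ y' 0 from le_of_lt (hpos hy')
  have hin : Metric.closedBall y (min r₁ r₂) ⊆ Metric.closedBall y r₁ ∩ Hs n := fun y' hy' =>
    ⟨Metric.closedBall_subset_closedBall (min_le_left _ _) hy', hHs hy'⟩
  have hct : Metric.closedBall y (min r₁ r₂) ⊆ tg n x := hin.trans h1
  have hbc : Metric.ball y (min r₁ r₂) ⊆ Metric.closedBall y (min r₁ r₂) :=
    Metric.ball_subset_closedBall
  refine ⟨(xc n x).symm '' Metric.ball y (min r₁ r₂), ?_, ?_, ?_, ?_⟩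
  · exact cRungeB_open TM.fLoc x ⟨Metric.ball y (min r₁ r₂), Metric.isOpen_ball,
      (inter_eq_left.2 (hbc.trans hHs)).symm⟩ (hbc.trans hct)
  · exact (convex_ball y _).isPreconnected.image _
      ((continuousOn_extChartAt_symm x).mono (hbc.trans hct))
  · exact ⟨y, Metric.mem_ball_self hr, (xc n x).left_inv hs⟩
  · have hc : IsClosed ((xc n x).symm '' Metric.closedBall y (min r₁ r₂)) :=
      ((isCompact_closedBall y _).image_of_continuousOn
        ((continuousOn_extChartAt_symm x).mono hct)).isClosed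
    refine (closure_minimal (image_mono hbc) hc).trans ?_
    rintro _ ⟨y', hy', rfl⟩
    exact h2 y' (hin hy')

theorem nbK {p : M} {Ω K : Set (Fin n → ℝ)} (hp : IsDom (at_ n M) p Ω) (hK : IsCompact K)
    (hKΩ : K ⊆ Ω) (hc : IsPreconnected ((bd (at_ n M))ᶜ \ inM (at_ n M) p K)) :
    ∃ K₁ : Set (Fin n → ℝ), IsCompact K₁ ∧ K ⊆ interior K₁ ∧ K₁ ⊆ Ω ∧
      IsPreconnected ((bd (at_ n M))ᶜ \ inM (at_ n M) p K₁) := by
  letI := borel M
  haveI : BorelSpace M := ⟨rfl⟩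
  obtain ⟨hIo, hIp, hId⟩ := TM.fConn n M
  have hRg : Rg p Ω := rg_of hp
  have hb : bd (at_ n M) = (𝓡∂ n).boundary M := bd_at
  have hmi : Mi n M = (bd (at_ n M))ᶜ := by
    rw [hb, ← ModelWithCorners.compl_interior, compl_compl]
  set z : E n := xc n p p with hz
  have hcl : vO z (closure Ω) ⊆ tg n p := fun x hx => (hRg.sub x hx).1
  have hvm : ∀ {S T : Set (Fin n → ℝ)}, S ⊆ T → vO z S ⊆ vO z T := fun hST x hx => hST hx
  have hbt : vO z Ω ⊆ tg n p := vO_sub.trans hcl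
  have hpos : vO z Ω ⊆ {y | 0 < y 0} := fun x hx => (hRg.sub x (vO_sub hx)).2
  have hVH : vO z Ω ⊆ Hs n := fun y hy => le_of_lt (show (0 : ℝ) < y 0 from hpos hy)
  have hvO : IsOpen (vO z Ω) := hRg.op.preimage (tr_cd z).continuous
  have hKM : inM (at_ n M) p K = (xc n p).symm '' vO z K := inM_at ((hvm hKΩ).trans hbt)
  have hKc : IsCompact ((xc n p).symm '' vO z K) :=
    (vO_compact hK).image_of_continuousOn
      ((continuousOn_extChartAt_symm p).mono ((hvm hKΩ).trans hbt))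
  have hVo : IsOpen ((xc n p).symm '' vO z Ω) :=
    cRungeB_open TM.fLoc p ⟨vO z Ω, hvO, (inter_eq_left.2 hVH).symm⟩ hbt
  have hVI : (xc n p).symm '' vO z Ω ⊆ Mi n M := by
    rintro _ ⟨y, hy, rfl⟩
    exact cRungeB_mi_of_pos TM.fLoc p (hbt hy) (hpos hy)
  have hVs : (xc n p).symm '' vO z Ω ⊆ (xc n p).source := by
    rintro _ ⟨y, hy, rfl⟩
    exact (xc n p).map_target (hbt hy)
  rw [hKM, ← hmi] at hc
  obtain ⟨K₃, hK₃, g1, g2, g3⟩ := nbT hIp hIo hKc hVo (image_mono (hvm hKΩ)) hVI hc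
    fun x hx => loc_int (hIo.sdiff hKc.isClosed) sdiff_subset hx
  have hc3 : ContinuousOn (fun m => tr z (xc n p m)) K₃ :=
    (tr_cd z).continuous.comp_continuousOn ((continuousOn_extChartAt p).mono (g2.trans hVs))
  have hto : ∀ y ∈ Ω, tri z y ∈ vO z Ω := fun y hy => by
    show tr z (tri z y) ∈ Ω
    rwa [tr_tri]
  have hKΩ₁ : (fun m => tr z (xc n p m)) '' K₃ ⊆ Ω := by
    rintro _ ⟨m, hm, rfl⟩
    obtain ⟨y, hy, rfl⟩ := g2 hm
    show tr z (xc n p ((xc n p).symm y)) ∈ Ω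
    rw [(xc n p).right_inv (hbt hy)]
    exact hy
  refine ⟨(fun m => tr z (xc n p m)) '' K₃, hK₃.image_of_continuousOn hc3, ?_, hKΩ₁, ?_⟩
  · have hcs : ContinuousOn (fun y => (xc n p).symm (tri z y)) Ω :=
      (continuousOn_extChartAt_symm p).comp (tri_cd z).continuous.continuousOn
        fun y hy => hbt (hto y hy)
    have ho : IsOpen (Ω ∩ (fun y => (xc n p).symm (tri z y)) ⁻¹' interior K₃) :=
      hcs.isOpen_inter_preimage hRg.op isOpen_interior
    refine Subset.trans (fun y hy => ?_) (interior_maximal (fun y hy => ?_) ho)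
    · refine ⟨hKΩ hy, g1 ⟨tri z y, ?_, rfl⟩⟩
      show tr z (tri z y) ∈ K
      rwa [tr_tri]
    · refine ⟨(xc n p).symm (tri z y), interior_subset hy.2, ?_⟩
      show tr z (xc n p ((xc n p).symm (tri z y))) = y
      rw [(xc n p).right_inv (hbt (hto y hy.1)), tr_tri]
  · have e1 : inM (at_ n M) p ((fun m => tr z (xc n p m)) '' K₃) = K₃ := by
      rw [inM_at ((hvm hKΩ₁).trans hbt)]
      ext m
      constructor
      · rintro ⟨x, ⟨m', hm', hx⟩, rfl⟩
        have h5 : xc n p m' = x := by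
          have h6 := congrArg (tri z) hx
          rwa [tri_tr, tri_tr] at h6
        rw [← h5, (xc n p).left_inv (hVs (g2 hm'))]
        exact hm'
      · intro hm
        exact ⟨xc n p m, ⟨m, hm, rfl⟩, (xc n p).left_inv (hVs (g2 hm))⟩
    rw [e1, ← hmi]
    exact g3

end

/-- Semi-global uniqueness near the conformally flat metrics, compact sets with connected
complement. -/
theorem semi_cpt {n : ℕ} [NeZero n] (hn : 3 ≤ n) :
    ∃ k : ℕ, ∀ R : ℝ, 0 < R → ∀ c : Vale.Agent.P088.B.V n → ℝ, Pos c → ∀ B : ℝ, 0 < B →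
    ∃ ε : ℝ, 0 < ε ∧
    ∀ {N : ℕ} (_ : 1 ≤ N) {M : Type u} [TopologicalSpace M]
    [ChartedSpace (EuclideanHalfSpace n) M] [IsManifold (𝓡∂ n) ∞ M] [T2Space M] [CompactSpace M]
    [ConnectedSpace M] (Z : At n M) (_ : Z = at_ n M) (Γ O₀ : Set M) (_ : IsOpen O₀)
    (_ : Γ = O₀ ∩ bd Z) (_ : Γ.Nonempty) (P P' Q : Pair Z N) (_ : Vale.Agent.P088.B.SameData Γ P Q)
    (_ : Related Γ P P') (p : M) (Ω : Set (Vale.Agent.P088.B.V n)) (_ : IsDom Z p Ω)
    (_ : ∀ y ∈ Ω, ∀ j, |y j| ≤ R) (_ : MatchO (cdel c) P' p Ω)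
    (K : Set (Vale.Agent.P088.B.V n)) (_ : IsCompact K) (_ : K ⊆ Ω)
    (_ : IsPreconnected ((bd Z)ᶜ \ inM Z p K)) (_ : B8.PwLe (inM Z p K)ᶜ Γ P' Q)
    (_ : ∃ U, B8.GaugeBy U (inM Z p K)ᶜ Γ P'.A Q.A Z)
    (_ : CloseO k ε (cdel c) Q p Ω ∨ NearO k B ε Q p Ω), Related Γ P Q := by
  obtain ⟨k, hk⟩ := semi_dom_all (n := n) hn
  refine ⟨k, fun R hR c hc B hB => ?_⟩
  obtain ⟨ε, hε, H⟩ := hk R hR c hc B hB
  refine ⟨ε, hε, ?_⟩
  intro N hN M _ _ _ _ _ _ Z hZ Γ O₀ hO₀ hΓ hne P P' Q hd hR' p Ω hp hbR hM K hK hKΩ hc0 hpw hU hcl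
  subst hZ
  obtain ⟨K₁, hK₁, hKK, hK₁Ω, hc1⟩ := nbK hp hK hKΩ hc0
  exact H hN (at_ n M) rfl Γ O₀ hO₀ hΓ hne P P' Q hd hR' p Ω hp hbR hM K K₁ hK hKK hK₁ hK₁Ω hc0 hc1
    hpw hU hcl

end Vale.Agent.P088.H207.R

end
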