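import Vale.Agent.P088.H207.L5

/-!
# P088: the relation of Question 1 is an equivalence relation
-/

set_option linter.all false

open Bundle Manifold MeasureTheory Set Filter Topology
open scoped ContDiff Matrix ENNReal

noncomputable section

namespace Vale.Agent.P088.H207.O

open Vale.Agent.P088 Vale.Agent.P088.B Vale.Agent.P088.EYM
open Vale.Agent.P088.H207 (Dm Gm Am)

universe u

variable {n N : ℕ} [NeZero n] {M : Type u} [TopologicalSpace M]
  [ChartedSpace (EuclideanHalfSpace n) M] [IsManifold (𝓡∂ n) ∞ M] [T2Space M] [CompactSpace M]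
  [ConnectedSpace M]

theorem related_tr {Γ : Set M} {P P' P'' : Pair (at_ n M) N} (hR : Related Γ P P')
    (hR' : Related Γ P' P'') : Related Γ P P'' := by
  obtain ⟨Φ, Ψ, U, h1, h2, h3, h4, h5, h6, h7⟩ := hR'
  have hrel : B2.Rel₂ Γ id P' P'' Φ Ψ U :=
    ⟨h1, h2, fun x => (h3 x).1, fun x => (h3 x).2, h4, h5, h6, h7⟩
  letI := borel M
  haveI : BorelSpace M := ⟨rfl⟩
  obtain ⟨G, hG, -, hgeo⟩ := B2.toGeo (Γ₁ := Γ) (χ := id) hrel
  obtain ⟨hU, hbd, hm1, hc1⟩ := hgeo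
  exact L.related_comp2 hR G (fun x hx => (hbd x hx).1) hU (fun x hx => (hbd x hx).2)
    (fun m v v' => hm1 m v v') fun m v => hc1 m v

theorem related_inv {Γ : Set M} {P Q : Pair (at_ n M) N} (hR : Related Γ P Q) :
    Related Γ Q P := by
  obtain ⟨Φ, Ψ, U, h1, h2, h3, h4, h5, h6, h7⟩ := hR
  have hrel : B2.Rel₂ Γ id P Q Φ Ψ U :=
    ⟨h1, h2, fun x => (h3 x).1, fun x => (h3 x).2, h4, h5, h6, h7⟩
  letI := borel M
  haveI : BorelSpace M := ⟨rfl⟩
  obtain ⟨G, hG, -, hgeo⟩ := B2.toGeo (Γ₁ := Γ) (χ := id) hrel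
  obtain ⟨hU, hbd, hm1, hc1⟩ := hgeo
  set V : M → EndF N := fun x => S.toE (U x) with hV
  set F : Diffeomorph (𝓡∂ n) (𝓡∂ n) M M ∞ := G.symm with hF
  have hGF : ∀ x, G (F x) = x := fun x => G.apply_symm_apply x
  have hFΓ : ∀ x ∈ Γ, F x = x := fun x hx => by
    have e1 : G x = x := (hbd x hx).1
    have e2 : F (G x) = x := G.symm_apply_apply x
    rwa [e1] at e2
  have hdF : ∀ x, MDifferentiableAt (𝓡∂ n) (𝓡∂ n) F x := fun x =>
    F.contMDiff.mdifferentiableAt (by simp)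
  have hdG : ∀ x, MDifferentiableAt (𝓡∂ n) (𝓡∂ n) G x := fun x =>
    G.contMDiff.mdifferentiableAt (by simp)
  have hchain : ∀ (x : M) (v : E n), Dm G (F x) (Dm F x v) = v := by
    intro x v
    have e1 : mfderiv (𝓡∂ n) (𝓡∂ n) (G ∘ F) x =
        (mfderiv (𝓡∂ n) (𝓡∂ n) G (F x)).comp (mfderiv (𝓡∂ n) (𝓡∂ n) F x) :=
      mfderiv_comp x (hdG (F x)) (hdF x)
    have e2 : (G ∘ F : M → M) = id := funext hGF
    have e3 : mfderiv (𝓡∂ n) (𝓡∂ n) (G ∘ F) x v = v := by
      rw [e2, mfderiv_id]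
      rfl
    rw [e1] at e3
    exact e3
  have hVF : ContMDiff (𝓡∂ n) 𝓘(ℝ, EndF N) ∞ (fun x => V (F x)) := hU.smooth.comp F.contMDiff
  set V' : M → EndF N := fun x => ContinuousLinearMap.adjoint (V (F x)) with hV'def
  have hV's : ContMDiff (𝓡∂ n) 𝓘(ℝ, EndF N) ∞ V' := contMDiff_adj hVF
  have hV' : IsSmoothUnitary (𝓡∂ n) V' := by
    refine ⟨hV's, fun x => ?_⟩
    have h8 := hU.unitary (F x)
    exact Unitary.star_mem h8
  have hrefl : Related Γ Q Q := related_refl (M := M) Γ Q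
  refine L.related_comp2 (M := M) (P := Q) (P' := Q) (P'' := P) hrefl F hFΓ hV'
    (fun x hx => ?_) (fun m v v' => ?_) fun m v => ?_
  · have e1 : V x = 1 := (hbd x hx).2
    show ContinuousLinearMap.adjoint (V (F x)) = 1
    rw [hFΓ x hx, e1]
    exact _root_.star_one (EndF N)
  · have e1 : Gm (B2.one Q) (F m) (Dm F m v) (Dm F m v') =
        Gm (B2.one P) (G (F m)) (Dm G (F m) (Dm F m v)) (Dm G (F m) (Dm F m v')) :=
      hm1 (F m) (Dm F m v) (Dm F m v')
    rw [e1, hchain, hchain, hGF]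
  · have e1 : Am (B2.one Q) (F m) (Dm F m v) =
        ContinuousLinearMap.adjoint (V (F m)) * (Am (B2.one P) (G (F m))
          (Dm G (F m) (Dm F m v))) * V (F m) +
        ContinuousLinearMap.adjoint (V (F m)) * (dmap (𝓡∂ n) V (F m) (Dm F m v) : EndF N) := by
      have := hc1 (F m) (Dm F m v)
      exact this
    rw [e1, hchain, hGF]
    have hdV : (dmap (𝓡∂ n) (fun x => V (F x)) m v : EndF N) =
        dmap (𝓡∂ n) V (F m) (Dm F m v) := by
      have e4 : mfderiv (𝓡∂ n) 𝓘(ℝ, EndF N) (V ∘ F) m =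
          (mfderiv (𝓡∂ n) 𝓘(ℝ, EndF N) V (F m)).comp (mfderiv (𝓡∂ n) (𝓡∂ n) F m) :=
        mfderiv_comp m (hU.smooth.mdifferentiableAt (by simp)) (hdF m)
      unfold dmap
      show mfderiv (𝓡∂ n) 𝓘(ℝ, EndF N) (V ∘ F) m v = _
      rw [e4]
      rfl
    rw [← hdV]
    have hdW : (dmap (𝓡∂ n) (fun x => V (F x) * V' x) m v : EndF N) =
        V (F m) * (dmap (𝓡∂ n) V' m v : EndF N) +
          (dmap (𝓡∂ n) (fun x => V (F x)) m v : EndF N) * V' m := dI_mulE hVF hV's m v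
    have hone : ∀ x, V (F x) * V' x = 1 := fun x =>
      (Unitary.mem_iff.1 (hU.unitary (F x))).2
    have hone' : ContinuousLinearMap.adjoint (V (F m)) * V (F m) = 1 :=
      (Unitary.mem_iff.1 (hU.unitary (F m))).1
    have hd0 : (dmap (𝓡∂ n) (fun x => V (F x) * V' x) m v : EndF N) = 0 := by
      have e5 : (fun x => V (F x) * V' x) = fun _ => (1 : EndF N) := funext hone
      rw [e5]
      unfold dmap
      rw [mfderiv_const]
      rfl
    rw [hd0] at hdW
    have e6 : ContinuousLinearMap.adjoint (V' m) = V (F m) := star_star (V (F m))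
    rw [e6]
    set X := Am (B2.one P) m v
    set Y : EndF N := dmap (𝓡∂ n) (fun x => V (F x)) m v
    set Z : EndF N := dmap (𝓡∂ n) V' m v
    have h9 := hone m
    set a := V (F m)
    set b := V' m
    have hb : ContinuousLinearMap.adjoint a = b := rfl
    rw [hb]
    have e7 : a * (b * X * a + b * Y) * b + a * Z = (a * b) * X * (a * b) + (a * b) * Y * b +
        a * Z := by noncomm_ring
    rw [e7, h9, one_mul, mul_one, one_mul, add_assoc, add_comm (Y * b), ← hdW, add_zero]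

theorem same_symm {Z : At n M} {Γ : Set M} {P Q : Pair Z N}
    (h : Vale.Agent.P088.B.SameData Γ P Q) : Vale.Agent.P088.B.SameData Γ Q P := by
  intro f f' hf hf'
  obtain ⟨u, v, u', v', h1, h2, h3, h4, h5⟩ := h f f' hf hf'
  exact ⟨u', v', u, v, h3, h4, h1, h2, h5.symm⟩

end Vale.Agent.P088.H207.O

end
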