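import Vale.Agent.P088.H207.N10
import Vale.Agent.P088.H207.O1

/-!
# P088: semi-global uniqueness near the conformally flat metrics, up to transforms of both pairs
-/

set_option linter.all false

open Bundle Manifold MeasureTheory Set Filter Topology
open scoped ContDiff Matrix ENNReal

noncomputable section

namespace Vale.Agent.P088.H207.R

open Vale.Agent.P088 Vale.Agent.P088.B Vale.Agent.P088.EYM
open Vale.Agent.P088.H207 (IsDom IsOpn inM MatchO CloseO NearO Pos cdel)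

universe u

/-- Semi-global uniqueness near the conformally flat metrics, compact sets of a chart with
connected complement, both pairs being replaced by transforms. -/
theorem semi_open2 {n : ℕ} [NeZero n] (hn : 3 ≤ n) :
    ∃ k : ℕ, ∀ R : ℝ, 0 < R → ∀ c : Vale.Agent.P088.B.V n → ℝ, Pos c → ∀ B : ℝ, 0 < B →
    ∃ ε : ℝ, 0 < ε ∧
    ∀ {N : ℕ} (_ : 1 ≤ N) {M : Type u} [TopologicalSpace M]
    [ChartedSpace (EuclideanHalfSpace n) M] [IsManifold (𝓡∂ n) ∞ M] [T2Space M] [CompactSpace M]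
    [ConnectedSpace M] (Z : At n M) (_ : Z = at_ n M) (Γ O₀ : Set M) (_ : IsOpen O₀)
    (_ : Γ = O₀ ∩ bd Z) (_ : Γ.Nonempty) (P P' Q Q' : Pair Z N)
    (_ : Vale.Agent.P088.B.SameData Γ P Q)
    (_ : Related Γ P P') (_ : Related Γ Q Q') (p : M) (W : Set (Vale.Agent.P088.B.V n))
    (_ : IsOpn Z p W) (_ : MatchO (cdel c) P' p W)
    (K : Set (Vale.Agent.P088.B.V n)) (_ : IsCompact K) (_ : K ⊆ W) (_ : ∀ y ∈ K, ∀ j, |y j| ≤ R)
    (_ : IsPreconnected ((bd Z)ᶜ \ inM Z p K)) (_ : B8.PwLe (inM Z p K)ᶜ Γ P' Q')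
    (_ : ∃ U, B8.GaugeBy U (inM Z p K)ᶜ Γ P'.A Q'.A Z)
    (_ : CloseO k ε (cdel c) Q' p W ∨ NearO k B ε Q' p W), Related Γ P Q := by
  obtain ⟨k, hk⟩ := semi_open (n := n) hn
  refine ⟨k, fun R hR c hc B hB => ?_⟩
  obtain ⟨ε, hε, H⟩ := hk R hR c hc B hB
  refine ⟨ε, hε, ?_⟩
  intro N hN M _ _ _ _ _ _ Z hZ Γ O₀ hO₀ hΓ hne P P' Q Q' hd hR' hQ' p W hW hM K hK hKW hKR hc0
    hpw hU hcl
  have h1 : Vale.Agent.P088.B.SameData Γ P Q' :=
    O.same_symm (Vale.Agent.P088.B.same_related Z hZ hO₀ hΓ hne hQ' (O.same_symm hd))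
  have h2 := H hN Z hZ Γ O₀ hO₀ hΓ hne P P' Q' h1 hR' p W hW hM K hK hKW hKR hc0 hpw hU hcl
  subst hZ
  exact O.related_tr h2 (O.related_inv hQ')

end Vale.Agent.P088.H207.R

end
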