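import Vale.Agent.P088.H207.St6

/-!
# P088: conformally flat metrics on an open set of a chart, definitions
-/

open Set
open scoped Matrix

noncomputable section

namespace Vale.Agent.P088.H207

open Vale.Agent.P088.B

universe u

variable {n N : ℕ} [NeZero n] {M : Type u} (Z : At n M)

/-- `W` is an open subset of `ℝ^n`, and every point of `W + y(p)`, where `y(p)` are the coordinates
of `p` in the chart at `p`, is the coordinate vector, in that chart, of an interior point of `M`. -/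
def IsOpn (p : M) (W : Set (V n)) : Prop :=
  IsOpen W ∧ ∀ y ∈ W, 0 < (y + Z.ch p p) 0 ∧ ∃ x ∈ Z.src p, Z.ch p x = y + Z.ch p p

/-- The points of `M` with coordinates in `S + y(p)`, in the chart at `p`. -/
def inM (p : M) (S : Set (V n)) : Set M := {x ∈ Z.src p | Z.ch p x - Z.ch p p ∈ S}

variable {Z}

/-- In the chart at `p`, on `W`: `g = h(· - y(p))` and `A = 0`. -/
def MatchO (h : V n → Matrix (Fin n) (Fin n) ℝ) (P : Pair Z N) (p : M) (W : Set (V n)) : Prop :=
  ∀ x ∈ inM Z p W, gch Z P.g p (Z.ch p x) = h (Z.ch p x - Z.ch p p) ∧ P.A x = 0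

/-- In the chart at `p`, on `W`: the derivatives of `g_{ij} - h_{ij}(· - y(p))` of order at most `k`
are at most `ε`. -/
def CloseO (k : ℕ) (ε : ℝ) (h : V n → Matrix (Fin n) (Fin n) ℝ) (Q : Pair Z N) (p : M)
    (W : Set (V n)) : Prop :=
  ∀ x ∈ inM Z p W, ∀ i j, ∀ l ≤ k, ‖iteratedFDeriv ℝ l (fun y : V n =>
    gch Z Q.g p y i j - h (y - Z.ch p p) i j) (Z.ch p x)‖ ≤ ε

/-- In the chart at `p`, on `W`: the derivatives of `g_{ij}` of order at most `k` are at most `B`,
`det g ≥ 1 / B`, and the entries of `g` (no derivatives) are within `ε` of those of the conformally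
flat metric `(det g)^{1/n} δ_{ij}`. -/
def NearO (k : ℕ) (B ε : ℝ) (Q : Pair Z N) (p : M) (W : Set (V n)) : Prop :=
  ∀ x ∈ inM Z p W,
    (∀ i j, ∀ l ≤ k, ‖iteratedFDeriv ℝ l (fun y : V n => gch Z Q.g p y i j) (Z.ch p x)‖ ≤ B) ∧
      1 / B ≤ (gch Z Q.g p (Z.ch p x)).det ∧
      ∀ i j, |gch Z Q.g p (Z.ch p x) i j - (gch Z Q.g p (Z.ch p x)).det ^ (1 / (n : ℝ)) *
        (1 : Matrix (Fin n) (Fin n) ℝ) i j| ≤ ε

end Vale.Agent.P088.H207

end
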